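import Vale.Agent.P049.BasA

/-! P049: the initial matrices. -/

namespace Vale.Agent.P049
open Matrix Finset

section
variable {F : Type} [Field F]
/-- entries of the initial cavity matrix on `n * d` half-edges -/
def k0e (n d : ℕ) (q b s : F) (k j : ℕ) : F :=
  s * (b * ((if k / d = j / d then 1 else 0) - (d : F) / (n * d : ℕ))
    - q * ((if k = j then 1 else 0) - 1 / (n * d : ℕ))) + 1 / (n * d : ℕ)
def K0 (n d : ℕ) (q b s : F) : Matrix (Fin (n * d)) (Fin (n * d)) F :=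
  fun k j => k0e n d q b s k j
end

/-- the numeric situation at the start -/
structure Start (n d : ℕ) (r q b : ℝ) : Prop where
  d3 : 3 ≤ d
  hr : 10 ^ 50 * (d : ℝ) ^ 10 ≤ r
  n1 : r ^ 12000 ≤ (n * d : ℕ)
  n2 : ((n * d : ℕ) : ℝ) ≤ r ^ 12001
  q0 : 0 ≤ q
  q1 : ((d : ℝ) - 1) * (q * r ^ 4200 + 1) ^ 2 ≤ (r ^ 4200) ^ 2
  q2 : (r ^ 4200) ^ 2 ≤ ((d : ℝ) - 1) * (q * r ^ 4200 + 2) ^ 2
  hb : b = q * (1 + 16 * d / (r ^ 4200) ^ 2)

/-- sums over half-edges grouped by vertex -/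
theorem sum_fin_div (n d : ℕ) (f : ℕ → ℝ) :
    ∑ k : Fin (n * d), f (k / d) = d * ∑ i ∈ range n, f i := by
  rw [Fin.sum_univ_eq_sum_range (fun k => f (k / d))]
  induction n with
  | zero => simp
  | succ n ih =>
    rw [add_mul, one_mul, sum_range_add, ih, sum_range_succ, mul_add,
      sum_congr (s₁ := range d) rfl (f := fun x => f ((n * d + x) / d)) (g := fun _ => f n)
        fun x hx => by
          have hx' := mem_range.1 hx
          rw [mul_comm n, Nat.mul_add_div (by omega), Nat.div_eq_of_lt hx', add_zero]]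
    simp

theorem sum_same (n d : ℕ) (k : Fin (n * d)) :
    ∑ j : Fin (n * d), (if (k : ℕ) / d = (j : ℕ) / d then (1 : ℝ) else 0) = d := by
  rw [sum_fin_div n d fun i => if (k : ℕ) / d = i then 1 else 0, sum_ite_eq,
    if_pos (mem_range.2 (Nat.div_lt_of_lt_mul (mul_comm n d ▸ k.2))), mul_one]

theorem K0_ok {n d : ℕ} (q b s : ℝ) : Ok univ (K0 n d q b s) := by
  refine ⟨fun i j => ?_, fun i j h => absurd (mem_univ i) h, fun i _ => ?_⟩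
  · simp only [K0, k0e, eq_comm (a := (i : ℕ)), eq_comm (a := (i : ℕ) / d)]
  · have h0 : ((n * d : ℕ) : ℝ) ≠ 0 := Nat.cast_ne_zero.2 (Fin.pos i).ne'
    simp only [K0, k0e, sum_add_distrib, ← mul_sum, sum_sub_distrib, sum_same, Fin.val_inj,
      sum_ite_eq, mem_univ, if_true, sum_const, card_univ, Fintype.card_fin, nsmul_eq_mul]
    field_simp
    ring

namespace Init0X

theorem last {u q e : ℝ} (qp : 0 < q) (e0 : 0 ≤ e) (e1 : e ≤ 1) (h4 : q ^ 2 ≤ 1 / 2)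
    (h5 : (1 - u * q) ^ 2 ≤ e / 4) :
    q * (u ^ 2 + 1) + (1 - q ^ 2) / (q * (1 + e)) ≤ 2 * u := by
  rw [← le_sub_iff_add_le', div_le_iff₀ (by positivity),
    show (2 * u - q * (u ^ 2 + 1)) * (q * (1 + e)) = (1 - q ^ 2 - (1 - u * q) ^ 2) * (1 + e) by
      ring]
  have h1 := mul_le_mul_of_nonneg_right h4 e0
  have h2 := mul_le_mul h5 (show 1 + e ≤ 2 by linarith) (by linarith) (by linarith)
  linarith

theorem mid {u x q : ℝ} (u2 : 2 ≤ u ^ 2) (u1 : 1 ≤ u) (x0 : 0 < x)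
    (xd : 100 * (u ^ 2 + 1) * x ≤ 1) (q0 : 0 ≤ q) (h1 : u * q + u * x ≤ 1)
    (h2 : 1 ≤ u * q + 2 * (u * x)) :
    0 < q ∧ q ^ 2 ≤ 1 / 2 ∧ q ≤ q * (1 + 16 * (u ^ 2 + 1) * x ^ 2) ∧
      q * (1 + 16 * (u ^ 2 + 1) * x ^ 2) ≤ 1 ∧ u ^ 2 * q ^ 2 ≤ 1 - x ∧
      q * (u ^ 2 + 1) + (1 - q ^ 2) / (q * (1 + 16 * (u ^ 2 + 1) * x ^ 2)) ≤ 2 * u := by
  have ux' : x ≤ u * x := le_mul_of_one_le_left x0.le u1
  have ux1 : u * x ≤ 1 / 100 := by
    have := mul_le_mul_of_nonneg_right (show u ≤ u ^ 2 + 1 by nlinarith) x0.le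
    linarith
  have uq : 0 ≤ u * q := by positivity
  have h3 : u ^ 2 * q ^ 2 ≤ 1 - x := by
    have := mul_le_mul_of_nonneg_left (show u * q ≤ 1 by linarith) uq
    rw [← mul_pow]; linarith
  have h4 : q ^ 2 ≤ 1 / 2 := by
    have := mul_le_mul_of_nonneg_right u2 (sq_nonneg q)
    linarith
  have qp : 0 < q := by
    rcases q0.eq_or_lt with h | h
    · rw [← h] at h2; linarith
    · exact h
  have e1 : 16 * (u ^ 2 + 1) * x ^ 2 ≤ 1 / 100 := by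
    have := mul_le_mul_of_nonneg_right xd x0.le
    linarith
  have h5 : (1 - u * q) ^ 2 ≤ 16 * (u ^ 2 + 1) * x ^ 2 / 4 := by
    have : (1 - u * q) ^ 2 ≤ (2 * (u * x)) ^ 2 := pow_le_pow_left₀ (by linarith) (by linarith) 2
    linarith [sq_nonneg x]
  have e0 : 0 ≤ 16 * (u ^ 2 + 1) * x ^ 2 := by positivity
  generalize 16 * (u ^ 2 + 1) * x ^ 2 = e at *
  have q9 : q ≤ 9 / 10 := by nlinarith
  have := mul_le_mul q9 e1 e0 (by norm_num)
  exact ⟨qp, h4, le_mul_of_one_le_right q0 (by linarith), by linarith, h3,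
    last qp e0 (by linarith) h4 h5⟩

theorem facts {d R q : ℝ} (d3 : 3 ≤ d) (hR : 100 * d ≤ R) (q0 : 0 ≤ q)
    (q1 : (d - 1) * (q * R + 1) ^ 2 ≤ R ^ 2) (q2 : R ^ 2 ≤ (d - 1) * (q * R + 2) ^ 2) :
    0 < q ∧ q ^ 2 ≤ 1 / 2 ∧ q ≤ q * (1 + 16 * d / R ^ 2) ∧ q * (1 + 16 * d / R ^ 2) ≤ 1 ∧
      (d - 1) * q ^ 2 ≤ 1 - 1 / R ∧
      q * d + (1 - q ^ 2) / (q * (1 + 16 * d / R ^ 2)) ≤ 2 * √(d - 1) := by
  have R0 : 0 < R := by linarith
  obtain ⟨u, hu⟩ : ∃ u, u = √(d - 1) := ⟨_, rfl⟩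
  have u0 : 0 ≤ u := hu ▸ Real.sqrt_nonneg _
  have u2 : u ^ 2 = d - 1 := hu ▸ Real.sq_sqrt (by linarith)
  have u1 : 1 ≤ u := le_of_sq_le_sq (by linarith) u0
  obtain ⟨x, hx⟩ : ∃ x, x = 1 / R := ⟨_, rfl⟩
  have x0 : 0 < x := hx ▸ by positivity
  have xR : x * R = 1 := by rw [hx]; field_simp
  have xd : 100 * d * x ≤ 1 := by
    have := mul_le_mul_of_nonneg_right hR x0.le
    linarith
  rw [← hu, ← hx, show 16 * d / R ^ 2 = 16 * d * x ^ 2 by rw [hx]; field_simp, ← u2]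
  rw [← u2, ← mul_pow] at q1 q2
  have h1 := mul_le_mul_of_nonneg_left (le_of_sq_le_sq q1 R0.le) x0.le
  have h2 := mul_le_mul_of_nonneg_left (le_of_sq_le_sq q2 (by positivity)) x0.le
  rw [xR, show ∀ t, x * (u * (q * R + t)) = u * q * (x * R) + t * (u * x) from
    fun t => by ring, xR] at h1 h2
  obtain rfl : d = u ^ 2 + 1 := by linarith
  exact mid (by linarith) u1 x0 xd q0 (by linarith) (by linarith)

end Init0X

theorem Start.facts {n d : ℕ} {r q b : ℝ} (H : Start n d r q b) :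
    10 ^ 50 ≤ r ∧ 0 < q ∧ q ^ 2 ≤ 1 / 2 ∧ q ≤ b ∧ b ≤ 1 ∧ ((d : ℝ) - 1) * q ^ 2 ≤ 1 - 1 / r ^ 4200 ∧
      ((d : ℝ) ^ 2 + d ≤ r) ∧ q * d + (1 - q ^ 2) / b ≤ 2 * √((d : ℝ) - 1) := by
  have d3 : (3 : ℝ) ≤ d := by exact_mod_cast H.d3
  have h1 : (d : ℝ) ^ 2 ≤ d ^ 10 := pow_le_pow_right₀ (by linarith) (by norm_num)
  have h2 : (d : ℝ) ≤ d ^ 2 := by nlinarith
  have hr := H.hr
  have h3 : r ≤ r ^ 4200 := le_self_pow₀ (by linarith) (by norm_num)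
  obtain ⟨a1, a2, a3, a4, a5, a6⟩ := Init0X.facts d3 (by linarith) H.q0 H.q1 H.q2
  rw [← H.hb] at a3 a4 a6
  exact ⟨by linarith, a1, a2, a3, a4, a5, by linarith, a6⟩

theorem J_init {n d : ℕ} {q b s : ℝ} (hs : s = 1 ∨ s = -1) (q2 : q ^ 2 < 1) (hb : 0 < b)
    (φ : ℕ → ℝ) (hφ : ∑ i ∈ range n, φ i = 0) :
    Jv univ q s (K0 n d q b s) (fun k => φ (k / d))
      ((q * d + (1 - q ^ 2) / b) * ∑ i ∈ range n, φ i ^ 2) := by
  intro ψ hψ
  have ss : s * s = 1 := by rcases hs with h | h <;> simp [h]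
  obtain ⟨σ, hσ⟩ : ∃ σ : ℕ → ℝ, ∀ v, σ v = ∑ j : Fin (n * d),
    (if v = (j : ℕ) / d then (1 : ℝ) else 0) * ψ j := ⟨_, fun _ => rfl⟩
  have hf : ∀ f : ℕ → ℝ, ∑ k : Fin (n * d), ψ k * f (k / d) = ∑ i ∈ range n, σ i * f i := by
    intro f
    simp only [hσ, sum_mul]
    rw [sum_comm]
    refine sum_congr rfl fun k _ => ?_
    simp only [ite_mul, one_mul, zero_mul]
    rw [sum_ite_eq', if_pos (mem_range.2 (Nat.div_lt_of_lt_mul (mul_comm n d ▸ k.2)))]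
  have hK : ∀ k, (K0 n d q b s *ᵥ ψ) k = s * (b * σ (k / d) - q * ψ k) := by
    intro k
    simp only [mulVec, dotProduct, K0, k0e, hσ, Fin.val_inj, add_mul, sub_mul, mul_assoc,
      sum_add_distrib, sum_sub_distrib, ← mul_sum, hψ, ite_mul, one_mul, zero_mul, sum_ite_eq,
      mem_univ, if_true, mul_zero, sub_zero, add_zero]
  have h1 : s * (ψ ⬝ᵥ K0 n d q b s *ᵥ ψ) = b * ∑ i ∈ range n, σ i ^ 2 - q * ∑ k, ψ k ^ 2 := by
    simp only [dotProduct, hK, sq, ← hf, mul_sum, ← sum_sub_distrib]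
    exact sum_congr rfl fun k _ => by linear_combination (ψ k * (b * σ (k / d) - q * ψ k)) * ss
  have h2 : 0 < 1 - q ^ 2 := by linarith
  have h3 : 2 * ∑ i ∈ range n, σ i * φ i ≤
      (1 - q ^ 2) / b * ∑ i ∈ range n, φ i ^ 2 + b * (∑ i ∈ range n, σ i ^ 2) / (1 - q ^ 2) := by
    simp only [mul_sum, sum_div, ← sum_add_distrib]
    refine sum_le_sum fun i _ => ?_
    rw [← sub_nonneg, show (1 - q ^ 2) / b * φ i ^ 2 + b * σ i ^ 2 / (1 - q ^ 2) - 2 * (σ i * φ i)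
      = ((1 - q ^ 2) * φ i - b * σ i) ^ 2 / (b * (1 - q ^ 2)) by field_simp; ring]
    positivity
  rw [h1, hf, sum_fin_div, sum_fin_div n d fun i => φ i ^ 2, hφ]
  simp only [mul_zero, zero_pow two_ne_zero, zero_div, sub_zero, add_sub_cancel]
  linarith

end Vale.Agent.P049
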