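import Vale.Agent.P049.Lip
import Vale.Agent.P049.Init0

/-! P049: the algorithm. -/

namespace Vale.Agent.P049
open Matrix Finset

abbrev Mat := List (List ℚ)
abbrev Edges := List (ℕ × ℕ)

def ent (K : Mat) (i j : ℕ) : ℚ := (K.getD i []).getD j 0
def tab (n : ℕ) (f : ℕ → ℕ → ℚ) : Mat := (List.range n).map fun i => (List.range n).map fun j => f i j
def mat (n : ℕ) (K : Mat) : Matrix (Fin n) (Fin n) ℚ := fun i j => ent K i j

def lamN (K : Mat) (h g : ℕ) : ℚ := (1 - ent K h g) ^ 2 - ent K h h * ent K g g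
def stepN (n : ℕ) (K : Mat) (h g : ℕ) : Mat := tab n fun k j =>
  if k = h ∨ k = g ∨ j = h ∨ j = g then 0 else
    ent K k j
      + ent K k h * (ent K g g / lamN K h g * ent K j h + (1 - ent K h g) / lamN K h g * ent K j g)
      + ent K k g * (ent K h h / lamN K h g * ent K j g + (1 - ent K h g) / lamN K h g * ent K j h)
def rndN (n G : ℕ) (s : ℚ) (U : List ℕ) (K : Mat) : Mat := tab n fun k j =>
  if k ∈ U ∧ j ∈ U then
    if k = j then 1 - ∑ l ∈ range n, if l ∈ U ∧ l ≠ k then fl G s (ent K k l) else 0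
    else fl G s (ent K k j)
  else 0

/-- all half-edges used by a list of pairs -/
def flat (es : Edges) : List ℕ := es.flatMap fun e => [e.1, e.2]
def ekey (d : ℕ) (e : ℕ × ℕ) : ℕ × ℕ := (min (e.1 / d) (e.2 / d), max (e.1 / d) (e.2 / d))
/-- no loops and no multiple edges -/
def okE (d : ℕ) (es : Edges) : Bool :=
  es.all (fun e => decide (e.1 / d ≠ e.2 / d)) && decide ((es.map (ekey d)).Nodup)
def rm (U : List ℕ) (p : ℕ × ℕ) : List ℕ := U.filter fun k => decide (k ≠ p.1 ∧ k ≠ p.2)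

def piF (N0 N : ℕ) : ℚ := ∏ j ∈ range ((N0 - N) / 2), (1 - 3 / (5 * ((N0 - 2 * j : ℕ) : ℚ)))

abbrev St := List ℕ × Edges × Mat × Mat

def Phi (r N0 : ℕ) (S : St) : ℚ :=
  pot (r : ℚ) S.1.length (piF N0 S.1.length) (mat N0 S.2.2.1) (mat N0 S.2.2.2)
def barB (r N0 N : ℕ) (s : ℚ) (K : Mat) : Bool :=
  decide (s * fP (mat N0 K) < 2 * (r : ℚ) ^ 3750) && decide (fE (mat N0 K) < N + 1)
def nxt (r N0 : ℕ) (S : St) (p : ℕ × ℕ) : St :=
  (rm S.1 p, p :: S.2.1,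
    rndN N0 (r ^ 200000) 1 (rm S.1 p) (stepN N0 S.2.2.1 p.1 p.2),
    rndN N0 (r ^ 200000) (-1) (rm S.1 p) (stepN N0 S.2.2.2 p.1 p.2))
def good (d r N0 : ℕ) (S : St) (p : ℕ × ℕ) : Bool :=
  decide (p.1 ≠ p.2) && okE d (p :: S.2.1) && decide (0 < lamN S.2.2.1 p.1 p.2)
    && decide (0 < lamN S.2.2.2 p.1 p.2)
    && barB r N0 (rm S.1 p).length 1 (nxt r N0 S p).2.2.1
    && barB r N0 (rm S.1 p).length (-1) (nxt r N0 S p).2.2.2
    && decide (Phi r N0 (nxt r N0 S p) ≤ Phi r N0 S + 2 ^ 61 / (r * S.1.length))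
def mstep (d r N0 : ℕ) (S : St) : St :=
  if S.1.length ^ 2 ≤ r ^ 7799 then S
  else ((S.1.product S.1).find? (good d r N0 S)).elim S (nxt r N0 S)

/-- the largest `r` with `r ^ 12000 ≤ n` -/
def rOf (n : ℕ) : ℕ := (List.range n).countP fun j => decide ((j + 1) ^ 12000 ≤ n)
def qOf (d r : ℕ) : ℚ :=
  ((((List.range (r ^ 4200)).countP fun j =>
    decide ((d - 1) * (j + 1) ^ 2 ≤ (r ^ 4200) ^ 2) : ℕ) : ℚ) - 1) / (r : ℚ) ^ 4200
def bOf (d r : ℕ) : ℚ := qOf d r * (1 + 16 * d / ((r : ℚ) ^ 4200) ^ 2)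
def init (d n r : ℕ) : St :=
  (List.range (n * d), [], tab (n * d) (k0e n d (qOf d r) (bOf d r) 1),
    tab (n * d) (k0e n d (qOf d r) (bOf d r) (-1)))
def phase1 (d n : ℕ) : St := (mstep d (rOf n) (n * d))^[n * d] (init d n (rOf n))

abbrev CSt := List ℕ × Edges
/-- add a pair, or add a pair and switch it with an earlier one -/
def cands (C : CSt) : List CSt := (C.1.product C.1).flatMap fun p =>
  if p.1 = p.2 then [] else
    (rm C.1 p, p :: C.2) :: C.2.map fun e =>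
      (rm C.1 p, (p.1, e.1) :: (p.2, e.2) :: C.2.filter fun e' => decide (e' ≠ e))
def cstep (d : ℕ) (es : Edges) (C : CSt) : CSt :=
  ((cands C).find? fun C' => okE d (C'.2 ++ es)).getD C
def phase2 (d m : ℕ) (U : List ℕ) (es : Edges) : Edges := ((cstep d es)^[m] (U, [])).2
def edges (d n : ℕ) : Edges :=
  phase2 d (n * d) (phase1 d n).1 (phase1 d n).2.1 ++ (phase1 d n).2.1
def adjB (d : ℕ) (es : Edges) (i j : ℕ) : Bool :=
  es.any fun e => decide ((e.1 / d = i ∧ e.2 / d = j) ∨ (e.1 / d = j ∧ e.2 / d = i))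
def adjL (d n : ℕ) (es : Edges) : List (List Bool) :=
  (List.range n).map fun i => (List.range n).map fun j => adjB d es i j
def alg (d : ℕ) (u : List Unit) : List (List Bool) := adjL d u.length (edges d u.length)

/-- real matrix of a table -/
def mr (n : ℕ) (K : Mat) : Matrix (Fin n) (Fin n) ℝ := fun i j => (ent K i j : ℝ)
def fU (n : ℕ) (U : List ℕ) : Finset (Fin n) := univ.filter fun i => (i : ℕ) ∈ U
/-- the quadratic form of a list of edges -/
def esum (d : ℕ) (φ : ℕ → ℝ) (es : Edges) : ℝ :=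
  (es.map fun e => 2 * φ (e.1 / d) * φ (e.2 / d)).sum

/-- invariant of the first phase -/
structure Inv (d n r : ℕ) (q z : ℝ) (S : St) : Prop where
  perm : (S.1 ++ flat S.2.1).Perm (List.range (n * d))
  ok : okE d S.2.1 = true
  okA : Ok (fU (n * d) S.1) (mr (n * d) S.2.2.1)
  okB : Ok (fU (n * d) S.1) (mr (n * d) S.2.2.2)
  JA : ∀ φ : ℕ → ℝ, ∑ i ∈ range n, φ i = 0 → Jv (fU (n * d) S.1) q 1 (mr (n * d) S.2.2.1)
    (fun k => φ (k / d)) (z * ∑ i ∈ range n, φ i ^ 2 - esum d φ S.2.1)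
  JB : ∀ φ : ℕ → ℝ, ∑ i ∈ range n, φ i = 0 → Jv (fU (n * d) S.1) q (-1) (mr (n * d) S.2.2.2)
    (fun k => φ (k / d)) (z * ∑ i ∈ range n, φ i ^ 2 + esum d φ S.2.1)
  bA : Bar (r : ℝ) S.1.length 1 (mr (n * d) S.2.2.1)
  bB : Bar (r : ℝ) S.1.length (-1) (mr (n * d) S.2.2.2)
  hp : (Phi r (n * d) S : ℝ)
    ≤ 4 / 5 + 2 ^ 61 / r * (Real.log (n * d : ℕ) - Real.log S.1.length)
  big : r ^ 7799 < (S.1.length + 2) ^ 2

end Vale.Agent.P049
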