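import Vale.Agent.P049.AvgH

/-! P049: row bounds for the tilted weight. -/

namespace Vale.Agent.P049
open Matrix Finset AvgH
variable {ι : Type} [Fintype ι] [DecidableEq ι]

namespace Ctx
variable (c : Ctx ι)

theorem row {f : ι → ι → ℝ} (hf : c.Coef f) {h : ι} (hh : h ∈ c.U) :
    ∑ g ∈ c.U, (c.om h g * f h g - 1) ^ 2 ≤ c.N / c.r ^ 6 := by
  have h1 := sum_le_sum fun g (hg : g ∈ c.U) => show (c.om h g * f h g - 1) ^ 2 ≤
      882 * c.dv h g ^ 2 + bad c h g + 10000 * c.a ^ 2 * c.k0 h g ^ 2 by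
    have b0 := bad_nonneg c h g
    have b1 : 0 ≤ c.a ^ 2 * c.k0 h g ^ 2 := by positivity
    have b2 := sq_nonneg (c.dv h g)
    by_cases H : c.Allowed h g
    · have a1 := abs_le.1 (om_dev c hf H)
      have a2 := sq_le_sq' a1.1 a1.2
      have e : c.om h g * f h g - 1 = c.om h g * (f h g - 1) - c.a * c.k0 h g := by
        rw [mul_sub, mul_one, sub_sub, om, if_pos H, sub_add_cancel]
      rw [e]
      nlinarith [sq_nonneg (c.om h g * (f h g - 1) + c.a * c.k0 h g)]
    · rw [om, if_neg H]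
      rcases le_total (c.a * |c.k0 h g|) (1 / 100) with a1 | a1
      · linarith [bad_ge c hh hg H a1]
      · have a2 := pow_le_pow_left₀ (by norm_num) a1 2
        rw [mul_pow, sq_abs] at a2
        linarith
  simp only [sum_add_distrib, ← mul_sum] at h1
  have r := r_ge c
  have n := c.good.N_pos
  have a1 := mul_le_mul_of_nonneg_left (row_k0 c h) (sq_nonneg c.a)
  have a2 : c.sN ≤ c.r * c.sN := le_mul_of_one_le_left c.good.sN_pos.le (by linarith)
  have a3 := t_mul c (k := 1) (by norm_num)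
  have a4 : 10 ^ 6 * (c.N / c.r ^ 8) ≤ c.N / c.r ^ 6 :=
    calc _ ≤ c.r ^ 2 * (c.N / c.r ^ 8) := by gcongr; nlinarith
      _ = _ := by field_simp
  have a5 : 0 ≤ c.N / c.r ^ 8 := by positivity
  linarith [row_dv8 c h, row_bad c hh, rs_le c, c.good.M2']

theorem row' {f : ι → ι → ℝ} (hf : c.Coef f) {g : ι} (hg : g ∈ c.U) :
    ∑ h ∈ c.U, (c.om h g * f h g - 1) ^ 2 ≤ c.N / c.r ^ 6 := by
  have := c.row (f := fun h g => f g h) (fun h g H => by
    rw [← c.dv_comm]; exact hf g h H.symm) hg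
  simpa only [c.om_comm _ g] using this

theorem row_dv (h : ι) : ∑ g ∈ c.U, c.dv h g ^ 2 ≤ c.N / c.r ^ 6 := by
  have r := r_ge c
  have n := c.good.N_pos
  refine (row_dv8 c h).trans ?_
  gcongr <;> linarith

theorem row_dv1 (h : ι) : ∑ g ∈ c.U, c.dv h g ≤ c.N / c.r ^ 3 := by
  have r := c.good.r_pos
  have n := c.good.N_pos
  refine le_sq_bb ?_ (by positivity)
  have h1 := sum_mul_sq_le_sq_mul_sq c.U (c.dv h) fun _ => 1
  simp only [mul_one, one_pow, sum_const, nsmul_eq_mul, c.hN] at h1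
  refine (h1.trans (mul_le_mul_of_nonneg_right (c.row_dv h) n.le)).trans_eq ?_
  field_simp

end Ctx
end Vale.Agent.P049
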