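import Vale.Agent.P049.AvgA
import Vale.Agent.P049.AvgB

/-! P049: averaging lemmas for the tilted weight. -/

namespace Vale.Agent.P049
open Matrix Finset
variable {ι : Type} [Fintype ι] [DecidableEq ι]

namespace AvgX

omit [Fintype ι] [DecidableEq ι] in
theorem cs1 (U : Finset ι) (a b : ι → ℝ) {u v : ℝ} (hu : 0 ≤ u) (hv : 0 ≤ v)
    (ha : ∑ h ∈ U, a h ^ 2 ≤ u ^ 2) (hb : ∑ h ∈ U, b h ^ 2 ≤ v ^ 2) :
    |∑ h ∈ U, a h * b h| ≤ u * v := by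
  apply abs_le_of_sq_le_sq _ (mul_nonneg hu hv)
  refine (Finset.sum_mul_sq_le_sq_mul_sq U a b).trans ?_
  rw [mul_pow]
  exact mul_le_mul ha hb (Finset.sum_nonneg fun _ _ => sq_nonneg _) (sq_nonneg _)

omit [Fintype ι] [DecidableEq ι] in
theorem cs2 (U : Finset ι) (a b : ι → ι → ℝ) {u v : ℝ} (hu : 0 ≤ u) (hv : 0 ≤ v)
    (ha : ∑ h ∈ U, ∑ g ∈ U, a h g ^ 2 ≤ u ^ 2) (hb : ∑ h ∈ U, ∑ g ∈ U, b h g ^ 2 ≤ v ^ 2) :
    ∑ h ∈ U, ∑ g ∈ U, a h g * b h g ≤ u * v := by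
  rw [← Finset.sum_product' (f := fun h g => a h g ^ 2)] at ha
  rw [← Finset.sum_product' (f := fun h g => b h g ^ 2)] at hb
  rw [← Finset.sum_product' (f := fun h g => a h g * b h g)]
  exact (le_abs_self _).trans (cs1 (U ×ˢ U) (fun x => a x.1 x.2) (fun x => b x.1 x.2) hu hv ha hb)

omit [Fintype ι] [DecidableEq ι] in
theorem abs_sum2 (U : Finset ι) (a : ι → ι → ℝ) :
    |∑ h ∈ U, ∑ g ∈ U, a h g| ≤ ∑ h ∈ U, ∑ g ∈ U, |a h g| :=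
  (Finset.abs_sum_le_sum_abs _ _).trans
    (Finset.sum_le_sum fun _ _ => Finset.abs_sum_le_sum_abs _ _)

theorem bil (U : Finset ι) {K : Matrix ι ι ℝ} {L : ℝ} (hK : Op K L) (hL : 0 ≤ L) (u v : ι → ℝ)
    {p p' : ℝ} (hp : 0 ≤ p) (hp' : 0 ≤ p') (h2 : ∑ h ∈ U, u h ^ 2 ≤ p ^ 2)
    (h3 : ∑ h ∈ U, v h ^ 2 ≤ p' ^ 2) :
    |∑ h ∈ U, ∑ g ∈ U, K h g * (u h * v g)| ≤ L * (p * p') := by
  set v' : ι → ℝ := fun g => if g ∈ U then v g else 0 with hv'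
  have h4 : ∀ h, ∑ g ∈ U, K h g * (u h * v g) = u h * (K *ᵥ v') h := by
    intro h
    simp only [mulVec, dotProduct, hv', mul_ite, mul_zero, Finset.sum_ite_mem, Finset.univ_inter,
      Finset.mul_sum]
    exact Finset.sum_congr rfl fun g _ => by ring
  have h5 : v' ⬝ᵥ v' = ∑ h ∈ U, v h ^ 2 := by
    simp only [dotProduct, hv', mul_ite, mul_zero, ite_mul, zero_mul, Finset.sum_ite_mem,
      Finset.univ_inter, Finset.inter_self, sq]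
  have h6 : ∑ h ∈ U, (K *ᵥ v') h ^ 2 ≤ (L * p') ^ 2 := by
    have h7 := hK v'
    rw [h5] at h7
    calc ∑ h ∈ U, (K *ᵥ v') h ^ 2 ≤ ∑ h, (K *ᵥ v') h ^ 2 :=
          Finset.sum_le_sum_of_subset_of_nonneg (Finset.subset_univ _) fun _ _ _ => sq_nonneg _
      _ = (K *ᵥ v') ⬝ᵥ (K *ᵥ v') := by simp only [dotProduct, sq]
      _ ≤ L ^ 2 * p' ^ 2 := h7.trans (mul_le_mul_of_nonneg_left h3 (sq_nonneg _))
      _ = _ := by ring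
  simp only [h4]
  have := cs1 U u (K *ᵥ v') hp (mul_nonneg hL hp') h2 h6
  linarith

theorem core (c : Ctx ι) {f : ι → ι → ℝ} (hf : c.Coef f) (Y : ι → ι → ℝ) (ζ ζ' : ι → ℝ)
    {z p p' : ℝ} (hY0 : ∀ h g, 0 ≤ Y h g)
    (hY : ∀ h ∈ c.U, ∀ g ∈ c.U, Y h g ≤ ζ h * ζ' g) (hz : 0 ≤ z) (hp : 0 ≤ p) (hp' : 0 ≤ p')
    (h1 : ∑ h ∈ c.U, ∑ g ∈ c.U, Y h g ^ 2 ≤ z ^ 2) (h2 : ∑ h ∈ c.U, ζ h ^ 2 ≤ p ^ 2)
    (h3 : ∑ h ∈ c.U, ζ' h ^ 2 ≤ p' ^ 2) :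
    ∑ h ∈ c.U, ∑ g ∈ c.U, c.kerr f h g * Y h g
      ≤ c.r * c.sN * z + c.r * c.a ^ 2 * c.S0 * (p * p') := by
  obtain ⟨l, ξ, hl, hξ, hs, hk, hl2, hξ2⟩ := c.kerr_split hf
  have hr := c.good.r_pos
  have hsN := c.good.sN_pos
  have hS0 := c.good.S1
  set M := c.r * c.a ^ 2 * c.S0 with hM
  have hM0 : 0 ≤ M := by positivity
  have h4 : ∑ h ∈ c.U, ∑ g ∈ c.U, l h g * Y h g ≤ c.r * c.sN * z :=
    cs2 c.U l Y (by positivity) hz (by rw [mul_pow, c.good.sq]; exact hl2) h1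
  have h5 : ∑ h ∈ c.U, ∑ g ∈ c.U, (√(ξ h g) * ζ h) * (√(ξ h g) * ζ' g) ≤
      (√M * p) * (√M * p') := by
    apply cs2 c.U _ _ (by positivity) (by positivity)
    · simp only [mul_pow, Real.sq_sqrt (hξ _ _), Real.sq_sqrt hM0, ← Finset.sum_mul]
      calc ∑ h ∈ c.U, (∑ g ∈ c.U, ξ h g) * ζ h ^ 2 ≤ ∑ h ∈ c.U, M * ζ h ^ 2 :=
            Finset.sum_le_sum fun h _ => mul_le_mul_of_nonneg_right (hξ2 h) (sq_nonneg _)
        _ ≤ _ := by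
            rw [← Finset.mul_sum]
            exact mul_le_mul_of_nonneg_left h2 hM0
    · rw [Finset.sum_comm]
      simp only [mul_pow, Real.sq_sqrt (hξ _ _), Real.sq_sqrt hM0, ← Finset.sum_mul]
      calc ∑ g ∈ c.U, (∑ h ∈ c.U, ξ h g) * ζ' g ^ 2 ≤ ∑ g ∈ c.U, M * ζ' g ^ 2 :=
            Finset.sum_le_sum fun g _ => mul_le_mul_of_nonneg_right
              ((Finset.sum_congr rfl fun h _ => hs h g).le.trans (hξ2 g)) (sq_nonneg _)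
        _ ≤ _ := by
            rw [← Finset.mul_sum]
            exact mul_le_mul_of_nonneg_left h3 hM0
  have h6 : (√M * p) * (√M * p') = M * (p * p') := by
    rw [mul_mul_mul_comm, Real.mul_self_sqrt hM0]
  rw [h6] at h5
  refine le_trans ?_ (add_le_add h4 h5)
  rw [← Finset.sum_add_distrib]
  refine Finset.sum_le_sum fun h hh => ?_
  rw [← Finset.sum_add_distrib]
  refine Finset.sum_le_sum fun g hg => ?_
  rw [mul_mul_mul_comm, Real.mul_self_sqrt (hξ h g)]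
  have h7 := mul_le_mul_of_nonneg_right (hk h hh g hg) (hY0 h g)
  have h8 := mul_le_mul_of_nonneg_left (hY h hh g hg) (hξ h g)
  linarith

theorem dev (c : Ctx ι) (f Z : ι → ι → ℝ) :
    |c.S (fun h g => f h g * Z h g) - ∑ h ∈ c.U, ∑ g ∈ c.U, Z h g
      + c.a * ∑ h ∈ c.U, ∑ g ∈ c.U, (c.A h g + c.B h g) * Z h g|
      ≤ ∑ h ∈ c.U, ∑ g ∈ c.U, c.kerr f h g * |Z h g| := by
  have h1 : c.S (fun h g => f h g * Z h g) - ∑ h ∈ c.U, ∑ g ∈ c.U, Z h g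
      + c.a * ∑ h ∈ c.U, ∑ g ∈ c.U, (c.A h g + c.B h g) * Z h g =
      ∑ h ∈ c.U, ∑ g ∈ c.U, (c.om h g * f h g - (1 - c.a * (c.A h g + c.B h g))) * Z h g := by
    simp only [Ctx.S, Finset.mul_sum, ← Finset.sum_sub_distrib, ← Finset.sum_add_distrib]
    exact Finset.sum_congr rfl fun h _ => Finset.sum_congr rfl fun g _ => by ring
  rw [h1]
  refine (abs_sum2 _ _).trans (le_of_eq ?_)
  simp only [abs_mul, Ctx.kerr]

theorem dev1 (c : Ctx ι) (f : ι → ι → ℝ) (u v : ι → ℝ) :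
    |c.S (fun h g => f h g * (u h * v g)) - (∑ h ∈ c.U, u h) * (∑ g ∈ c.U, v g)|
      ≤ ∑ h ∈ c.U, ∑ g ∈ c.U, |c.om h g * f h g - 1| * (|u h| * |v g|) := by
  have h1 : c.S (fun h g => f h g * (u h * v g)) - (∑ h ∈ c.U, u h) * (∑ g ∈ c.U, v g) =
      ∑ h ∈ c.U, ∑ g ∈ c.U, (c.om h g * f h g - 1) * (u h * v g) := by
    simp only [Ctx.S, Finset.sum_mul_sum, ← Finset.sum_sub_distrib]
    exact Finset.sum_congr rfl fun h _ => Finset.sum_congr rfl fun g _ => by ring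
  rw [h1]
  refine (abs_sum2 _ _).trans (le_of_eq ?_)
  simp only [abs_mul]

theorem row_mul (c : Ctx ι) (e v : ι → ℝ) {p' : ℝ} (hp' : 0 ≤ p')
    (he : ∑ g ∈ c.U, e g ^ 2 ≤ c.N / c.r ^ 6) (h3 : ∑ h ∈ c.U, v h ^ 2 ≤ p' ^ 2) :
    ∑ g ∈ c.U, |e g| * |v g| ≤ c.sN / c.r ^ 3 * p' := by
  have hr := c.good.r_pos
  have hsN := c.good.sN_pos
  refine (le_abs_self _).trans (cs1 c.U (fun g => |e g|) (fun g => |v g|) (by positivity) hp' ?_ ?_)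
  · simp only [sq_abs]
    rw [div_pow, c.good.sq, ← pow_mul]
    exact he
  · simpa only [sq_abs] using h3

theorem sum_one (c : Ctx ι) : ∑ _h ∈ c.U, (1 : ℝ) = c.N := by
  rw [Finset.sum_const, nsmul_eq_mul, mul_one, c.hN]

theorem sum_one_sq (c : Ctx ι) : ∑ _h ∈ c.U, (1 : ℝ) ^ 2 ≤ c.sN ^ 2 := by
  rw [one_pow, sum_one, c.good.sq]

end AvgX

open AvgX

namespace Ctx
variable (c : Ctx ι)

theorem lemZ {f : ι → ι → ℝ} (hf : c.Coef f) (Z : ι → ι → ℝ) (ζ ζ' : ι → ℝ) {z p p' : ℝ}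
    (hζ : ∀ h, 0 ≤ ζ h) (hζ' : ∀ h, 0 ≤ ζ' h)
    (hZ : ∀ h ∈ c.U, ∀ g ∈ c.U, |Z h g| ≤ ζ h * ζ' g) (hz : 0 ≤ z) (hp : 0 ≤ p) (hp' : 0 ≤ p')
    (h1 : ∑ h ∈ c.U, ∑ g ∈ c.U, Z h g ^ 2 ≤ z ^ 2) (h2 : ∑ h ∈ c.U, ζ h ^ 2 ≤ p ^ 2)
    (h3 : ∑ h ∈ c.U, ζ' h ^ 2 ≤ p' ^ 2) :
    |c.S (fun h g => f h g * Z h g) - ∑ h ∈ c.U, ∑ g ∈ c.U, Z h g
      + c.a * ∑ h ∈ c.U, ∑ g ∈ c.U, (c.A h g + c.B h g) * Z h g|
      ≤ c.r * c.sN * z + c.r * c.a ^ 2 * c.S0 * (p * p') := by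
  exact (dev c f Z).trans (core c hf (fun h g => |Z h g|) ζ ζ' (fun _ _ => abs_nonneg _) hZ hz hp hp'
    (by simpa only [sq_abs] using h1) h2 h3)

theorem lemK {f : ι → ι → ℝ} (hf : c.Coef f) (ζ ζ' : ι → ℝ) {p p' : ℝ} (hp : 0 ≤ p)
    (hp' : 0 ≤ p') (h2 : ∑ h ∈ c.U, ζ h ^ 2 ≤ p ^ 2) (h3 : ∑ h ∈ c.U, ζ' h ^ 2 ≤ p' ^ 2) :
    ∑ h ∈ c.U, ∑ g ∈ c.U, c.kerr f h g * (|ζ h| * |ζ' g|) ≤ 2 * c.r * c.sN * (p * p') := by
  have h4 := core c hf (fun h g => |ζ h| * |ζ' g|) (fun h => |ζ h|) (fun g => |ζ' g|)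
    (z := p * p') (fun _ _ => by positivity) (fun _ _ _ _ => le_rfl) (mul_nonneg hp hp') hp hp'
    (by
      simp only [mul_pow, sq_abs]
      rw [← Finset.sum_mul_sum]
      exact mul_le_mul h2 h3 (Finset.sum_nonneg fun _ _ => sq_nonneg _) (sq_nonneg _))
    (by simpa only [sq_abs] using h2) (by simpa only [sq_abs] using h3)
  have h5 := mul_le_mul_of_nonneg_left c.good.M2'
    (mul_nonneg c.good.r_pos.le (mul_nonneg hp hp'))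
  linarith

/-- rank one version without the tilt bound -/
theorem lemR {f : ι → ι → ℝ} (hf : c.Coef f) (u v : ι → ℝ) {p p' : ℝ} (hp : 0 ≤ p)
    (hp' : 0 ≤ p') (h2 : ∑ h ∈ c.U, u h ^ 2 ≤ p ^ 2) (h3 : ∑ h ∈ c.U, v h ^ 2 ≤ p' ^ 2) :
    |c.S (fun h g => f h g * (u h * v g)) - (∑ h ∈ c.U, u h) * (∑ g ∈ c.U, v g)
      + c.a * ∑ h ∈ c.U, ∑ g ∈ c.U, (c.A h g + c.B h g) * (u h * v g)|
      ≤ 2 * c.r * c.sN * (p * p') := by
  have h4 := dev c f fun h g => u h * v g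
  simp only [abs_mul] at h4
  rw [Finset.sum_mul_sum]
  exact h4.trans (c.lemK hf u v hp hp' h2 h3)

theorem P2 {f : ι → ι → ℝ} (hf : c.Coef f) (u v : ι → ℝ) {p p' : ℝ} (hp : 0 ≤ p)
    (hp' : 0 ≤ p') (h2 : ∑ h ∈ c.U, u h ^ 2 ≤ p ^ 2) (h3 : ∑ h ∈ c.U, v h ^ 2 ≤ p' ^ 2) :
    |c.S (fun h g => f h g * (u h * v g)) - (∑ h ∈ c.U, u h) * (∑ g ∈ c.U, v g)|
      ≤ c.KP * (p * p') := by
  have h4 := c.lemR hf u v hp hp' h2 h3
  have hL : 0 ≤ c.L := le_trans zero_le_one c.good.L1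
  have h5 := bil c.U c.sA.op hL u v hp hp' h2 h3
  have h6 := bil c.U c.sB.op hL u v hp hp' h2 h3
  have h7 : ∑ h ∈ c.U, ∑ g ∈ c.U, (c.A h g + c.B h g) * (u h * v g) =
      ∑ h ∈ c.U, ∑ g ∈ c.U, c.A h g * (u h * v g) +
        ∑ h ∈ c.U, ∑ g ∈ c.U, c.B h g * (u h * v g) := by
    simp only [add_mul, Finset.sum_add_distrib]
  have h8 : |c.a * ∑ h ∈ c.U, ∑ g ∈ c.U, (c.A h g + c.B h g) * (u h * v g)| ≤
      c.a * (2 * (c.L * (p * p'))) := by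
    rw [abs_mul, abs_of_nonneg c.good.a_nonneg, h7]
    apply mul_le_mul_of_nonneg_left _ c.good.a_nonneg
    linarith [abs_add_le (∑ h ∈ c.U, ∑ g ∈ c.U, c.A h g * (u h * v g))
      (∑ h ∈ c.U, ∑ g ∈ c.U, c.B h g * (u h * v g))]
  rw [abs_le] at h4 h8 ⊢
  unfold Par.KP
  constructor <;> linarith [h4.1, h4.2, h8.1, h8.2]

theorem P1abs {f : ι → ι → ℝ} (hf : c.Coef f) (u v : ι → ℝ) {p' : ℝ} (hp' : 0 ≤ p')
    (h3 : ∑ h ∈ c.U, v h ^ 2 ≤ p' ^ 2) :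
    ∑ h ∈ c.U, ∑ g ∈ c.U, |c.om h g * f h g - 1| * (|u h| * |v g|)
      ≤ c.sN / c.r ^ 3 * ((∑ h ∈ c.U, |u h|) * p') := by
  rw [Finset.sum_mul, Finset.mul_sum]
  refine Finset.sum_le_sum fun h hh => ?_
  have h4 := mul_le_mul_of_nonneg_left
    (row_mul c (fun g => c.om h g * f h g - 1) v hp' (c.row hf hh) h3) (abs_nonneg (u h))
  rw [Finset.mul_sum] at h4
  refine le_trans (le_of_eq (Finset.sum_congr rfl fun g _ => by ring)) (h4.trans (le_of_eq ?_))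
  ring

theorem P1abs' {f : ι → ι → ℝ} (hf : c.Coef f) (u v : ι → ℝ) {p' : ℝ} (hp' : 0 ≤ p')
    (h3 : ∑ h ∈ c.U, v h ^ 2 ≤ p' ^ 2) :
    ∑ h ∈ c.U, ∑ g ∈ c.U, |c.om h g * f h g - 1| * (|v h| * |u g|)
      ≤ c.sN / c.r ^ 3 * ((∑ h ∈ c.U, |u h|) * p') := by
  rw [Finset.sum_comm, Finset.sum_mul, Finset.mul_sum]
  refine Finset.sum_le_sum fun g hg => ?_
  have h4 := mul_le_mul_of_nonneg_left
    (row_mul c (fun h => c.om h g * f h g - 1) v hp' (c.row' hf hg) h3) (abs_nonneg (u g))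
  rw [Finset.mul_sum] at h4
  refine le_trans (le_of_eq (Finset.sum_congr rfl fun g _ => by ring)) (h4.trans (le_of_eq ?_))
  ring

theorem P1 {f : ι → ι → ℝ} (hf : c.Coef f) (u v : ι → ℝ) {p' : ℝ} (hp' : 0 ≤ p')
    (h3 : ∑ h ∈ c.U, v h ^ 2 ≤ p' ^ 2) :
    |c.S (fun h g => f h g * (u h * v g)) - (∑ h ∈ c.U, u h) * (∑ g ∈ c.U, v g)|
      ≤ c.sN / c.r ^ 3 * ((∑ h ∈ c.U, |u h|) * p') := by
  exact (dev1 c f u v).trans (c.P1abs hf u v hp' h3)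

theorem P1' {f : ι → ι → ℝ} (hf : c.Coef f) (u v : ι → ℝ) {p' : ℝ} (hp' : 0 ≤ p')
    (h3 : ∑ h ∈ c.U, v h ^ 2 ≤ p' ^ 2) :
    |c.S (fun h g => f h g * (v h * u g)) - (∑ h ∈ c.U, v h) * (∑ g ∈ c.U, u g)|
      ≤ c.sN / c.r ^ 3 * ((∑ h ∈ c.U, |u h|) * p') := by
  exact (dev1 c f v u).trans (c.P1abs' hf u v hp' h3)

theorem P0 {f : ι → ι → ℝ} (hf : c.Coef f) (u : ι → ℝ) :
    |c.S (fun h g => f h g * u h) - c.N * ∑ h ∈ c.U, u h| ≤ c.N / c.r ^ 3 * ∑ h ∈ c.U, |u h| := by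
  have h1 := c.P1 hf u (fun _ => 1) c.good.sN_pos.le (sum_one_sq c)
  simp only [mul_one] at h1
  rw [sum_one, mul_comm _ c.N] at h1
  refine h1.trans (le_of_eq ?_)
  rw [← c.good.sq]
  ring

theorem P0' {f : ι → ι → ℝ} (hf : c.Coef f) (u : ι → ℝ) :
    |c.S (fun h g => f h g * u g) - c.N * ∑ h ∈ c.U, u h| ≤ c.N / c.r ^ 3 * ∑ h ∈ c.U, |u h| := by
  have h1 := c.P1' hf u (fun _ => 1) c.good.sN_pos.le (sum_one_sq c)
  simp only [one_mul] at h1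
  rw [sum_one] at h1
  refine h1.trans (le_of_eq ?_)
  rw [← c.good.sq]
  ring

theorem mass : |c.S (fun _ _ => 1) - c.N ^ 2| ≤ c.N ^ 2 / c.r ^ 3 ∧
    |c.S (fun _ _ => 1) - c.N ^ 2| ≤ c.KP * c.N := by
  constructor
  · have h1 := c.P0 coef_one fun _ => 1
    simp only [mul_one, abs_one] at h1
    rw [sum_one, ← sq] at h1
    refine h1.trans (le_of_eq ?_)
    ring
  · have h1 := c.P2 coef_one (fun _ => 1) (fun _ => 1) c.good.sN_pos.le c.good.sN_pos.le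
      (sum_one_sq c) (sum_one_sq c)
    simp only [mul_one] at h1
    rwa [sum_one, ← sq, ← sq, c.good.sq] at h1

theorem exists_pair (f : ι → ι → ℝ) {t : ℝ} (ht : 0 ≤ t) (H : c.S f ≤ t * (c.N ^ 2 / 2)) :
    ∃ h g, c.Allowed h g ∧ f h g ≤ t := by
  by_contra hn
  push Not at hn
  have hN := c.good.N_pos
  have hr : (2 : ℝ) ≤ c.r ^ 3 :=
    calc (2 : ℝ) ≤ (10 ^ 50) ^ 3 := by norm_num
      _ ≤ c.r ^ 3 := pow_le_pow_left₀ (by norm_num) c.good.hr 3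
  have h1 : c.N ^ 2 / 2 ≤ c.S fun _ _ => 1 := by
    have h2 := (abs_le.1 c.mass.1).1
    have h3 : c.N ^ 2 / c.r ^ 3 ≤ c.N ^ 2 / 2 :=
      div_le_div_of_nonneg_left (sq_nonneg _) (by norm_num) hr
    linarith
  have hge : ∀ h g, 0 ≤ c.om h g * (f h g - t * 1) := fun h g => by
    by_cases ha : c.Allowed h g
    · exact mul_nonneg (c.om_nonneg h g) (by linarith [hn h g ha])
    · simp [om, ha]
  obtain ⟨h, hh, g, hg, hpos⟩ : ∃ h ∈ c.U, ∃ g ∈ c.U, 0 < c.om h g := by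
    by_contra h0
    push Not at h0
    have : c.S (fun _ _ => 1) ≤ 0 :=
      Finset.sum_nonpos fun h hh => Finset.sum_nonpos fun g hg => by
        simpa using h0 h hh g hg
    have : 0 < c.N ^ 2 / 2 := by positivity
    linarith
  have ha : c.Allowed h g := by
    by_contra ha
    simp [om, ha] at hpos
  have h4 : 0 < c.S fun h g => f h g - t * 1 :=
    Finset.sum_pos' (fun h _ => Finset.sum_nonneg fun g _ => hge h g)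
      ⟨h, hh, Finset.sum_pos' (fun g _ => hge h g)
        ⟨g, hg, mul_pos hpos (by linarith [hn h g ha])⟩⟩
  rw [c.S_sub, c.S_mul] at h4
  have h5 := mul_le_mul_of_nonneg_left h1 ht
  linarith

end Ctx
end Vale.Agent.P049
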