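import Vale.Agent.P049.AvgH

/-! P049: splitting the deviation of the tilted weight. -/

namespace Vale.Agent.P049
open Matrix Finset AvgH
variable {ι : Type} [Fintype ι] [DecidableEq ι]

namespace Ctx
variable (c : Ctx ι)

/-- deviation of the weighted coefficient from the linear tilt -/
noncomputable def kerr (f : ι → ι → ℝ) (h g : ι) : ℝ :=
  |c.om h g * f h g - (1 - c.a * (c.A h g + c.B h g))|

theorem kerr_split {f : ι → ι → ℝ} (hf : c.Coef f) :
    ∃ l ξ : ι → ι → ℝ, (∀ h g, 0 ≤ l h g) ∧ (∀ h g, 0 ≤ ξ h g) ∧ (∀ h g, ξ h g = ξ g h) ∧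
      (∀ h ∈ c.U, ∀ g ∈ c.U, c.kerr f h g ≤ l h g + ξ h g) ∧
      ∑ h ∈ c.U, ∑ g ∈ c.U, l h g ^ 2 ≤ c.r ^ 2 * c.N ∧
      ∀ h, ∑ g ∈ c.U, ξ h g ≤ c.r * c.a ^ 2 * c.S0 := by
  classical
  have a0 := c.good.a_nonneg
  have s0 : 0 < c.S0 := by linarith [c.good.S1]
  have r := r_ge c
  have n := c.good.N_pos
  refine ⟨fun h g => 21 * c.dv h g + c.a * |c.A h g + c.B h g - c.k0 h g|
      + if 1 ≤ bad c h g then 2 else 0, fun h g => 10100 * c.a ^ 2 * c.k0 h g ^ 2,
    fun h g => ?_, fun h g => by positivity, fun h g => by simp only [c.k0_comm_bc h g],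
    fun h hh g hg => ?_, ?_, fun h => ?_⟩
  · have := c.dv_nonneg h g
    positivity
  · have b1 : 0 ≤ c.a ^ 2 * c.k0 h g ^ 2 := by positivity
    have b2 := c.dv_nonneg h g
    have b3 : (0 : ℝ) ≤ if 1 ≤ bad c h g then 2 else 0 := by positivity
    unfold kerr
    beta_reduce
    by_cases H : c.Allowed h g
    · have e : c.om h g * f h g - (1 - c.a * (c.A h g + c.B h g)) =
          c.om h g * (f h g - 1) + c.a * (c.A h g + c.B h g - c.k0 h g) := by
        rw [om, if_pos H]; ring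
      have := abs_add_le (c.om h g * (f h g - 1)) (c.a * (c.A h g + c.B h g - c.k0 h g))
      rw [abs_mul c.a, abs_of_nonneg a0] at this
      rw [e]
      linarith [om_dev c hf H]
    · have e : c.om h g * f h g - (1 - c.a * (c.A h g + c.B h g)) =
          -1 + c.a * c.k0 h g + c.a * (c.A h g + c.B h g - c.k0 h g) := by
        rw [om, if_neg H]; ring
      have := abs_add_three (-1) (c.a * c.k0 h g) (c.a * (c.A h g + c.B h g - c.k0 h g))
      rw [abs_mul c.a, abs_mul c.a, abs_of_nonneg a0, abs_neg, abs_one] at this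
      rw [e]
      rcases le_total (c.a * |c.k0 h g|) (1 / 100) with a1 | a1
      · rw [if_pos (bad_ge c hh hg H a1)]
        linarith
      · have a2 : (c.a * |c.k0 h g|) ^ 2 = c.a ^ 2 * c.k0 h g ^ 2 := by rw [mul_pow, sq_abs]
        nlinarith
  · have h1 := sum_le_sum fun h (_ : h ∈ c.U) => sum_le_sum fun g (_ : g ∈ c.U) =>
      show (21 * c.dv h g + c.a * |c.A h g + c.B h g - c.k0 h g|
        + if 1 ≤ bad c h g then 2 else 0) ^ 2 ≤ 1323 * c.dv h g ^ 2 + 12 * bad c h g
        + 3 * (c.a ^ 2 / c.S0) * (c.Sp h * (c.A h g + c.B h g) ^ 2)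
        + 3 * (c.a ^ 2 / c.S0) * (c.Sp g * (c.A g h + c.B g h) ^ 2) by
      have b1 : (if 1 ≤ bad c h g then (2 : ℝ) else 0) ^ 2 ≤ 4 * bad c h g := by
        have := bad_nonneg c h g
        split_ifs <;> linarith
      have b2 : (c.A h g + c.B h g - c.k0 h g) ^ 2 ≤
          (c.A h g + c.B h g) ^ 2 * ((c.Sp h + c.Sp g) / c.S0) := by
        have x1 := c.Sp_nonneg h
        have x2 := c.Sp_nonneg g
        unfold k0
        split_ifs with H
        · rw [sub_self, zero_pow two_ne_zero]; positivity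
        · rw [sub_zero]
          refine le_mul_of_one_le_right (sq_nonneg _) ((one_le_div s0).2 ?_)
          rcases not_and_or.1 H with H | H <;> linarith
      have b3 := mul_le_mul_of_nonneg_left b2 (sq_nonneg c.a)
      rw [← sq_abs (_ - _), ← mul_pow] at b3
      rw [c.sA.ok.symm g h, c.sB.ok.symm g h]
      generalize c.a * |c.A h g + c.B h g - c.k0 h g| = y at b3 ⊢
      generalize (if 1 ≤ bad c h g then (2 : ℝ) else 0) = z at b1 ⊢
      have b4 : (21 * c.dv h g + y + z) ^ 2 ≤ 3 * ((21 * c.dv h g) ^ 2 + y ^ 2 + z ^ 2) := by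
        nlinarith [sq_nonneg (21 * c.dv h g - y), sq_nonneg (21 * c.dv h g - z), sq_nonneg (y - z)]
      linear_combination b4 + 3 * b1 + 3 * b3
    simp only [sum_add_distrib (f := fun _ => _ + _), sum_add_distrib (f := fun _ => _ * _),
      ← mul_sum] at h1
    rw [sum_comm (f := fun h g => c.Sp g * (c.A g h + c.B g h) ^ 2)] at h1
    simp only [← mul_sum] at h1
    have h2 : ∑ h ∈ c.U, c.Sp h * ∑ g ∈ c.U, (c.A h g + c.B h g) ^ 2 ≤ 8 * (c.r ^ 2 * c.N) := by
      have := sum_le_sum fun h (_ : h ∈ c.U) =>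
        mul_le_mul_of_nonneg_left (row_kap c h) (c.Sp_nonneg h)
      simp only [mul_left_comm _ (2 : ℝ), ← sq, ← mul_sum] at this
      linarith [c.sum_Sp_sq, c.good.W2]
    have h3 : c.a ^ 2 / c.S0 * (c.r ^ 2 * c.N) ≤ c.N := by
      rw [← mul_assoc, div_mul_eq_mul_div]
      exact mul_le_of_le_one_left n.le ((div_le_one s0).2 c.good.aS)
    have h4 := mul_le_mul_of_nonneg_left h2 (show 0 ≤ c.a ^ 2 / c.S0 by positivity)
    have h5 := mul_le_mul_of_nonneg_right r n.le
    have h6 := mul_le_mul_of_nonneg_right r (mul_pos c.good.r_pos n).le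
    linarith [tot_dv c, tot_bad c]
  · rw [← mul_sum]
    have h1 := mul_le_mul_of_nonneg_left (row_k0 c h) (sq_nonneg c.a)
    have h2 := mul_le_mul_of_nonneg_right r (show 0 ≤ c.a ^ 2 * c.S0 by positivity)
    have h3 : 0 ≤ c.a ^ 2 * c.S0 := by positivity
    linarith

end Ctx
end Vale.Agent.P049
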