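import Vale.Agent.P049.Basic

/-! P049: counting pairs that are not allowed (helper for AvgA, AvgB). -/

namespace Vale.Agent.P049
open Matrix Finset
variable {ι : Type} [Fintype ι] [DecidableEq ι]

namespace AvgH
variable (c : Ctx ι)

open Classical in
noncomputable def bad (h g : ι) : ℝ :=
  (if h = g then 1 else 0) + (if c.forb h g then 1 else 0) + 20000 * (c.A h g ^ 2 + c.B h g ^ 2)
    + 10000 * c.X h ^ 2 * c.X g ^ 2 + c.Sp h ^ 2 / c.m1 ^ 2 * c.Sp g ^ 2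
    + c.Sp h ^ 2 / c.m2 * c.X g ^ 2 + c.X h ^ 2 / c.m2 * c.Sp g ^ 2

theorem m1_pos : 0 < c.m1 := mul_pos (pow_pos c.good.r_pos _) c.good.sN_pos

theorem m2_pos : 0 < c.m2 := mul_pos (pow_pos c.good.r_pos _) (by linarith [c.good.V0])

theorem bad_nonneg (h g : ι) : 0 ≤ bad c h g := by
  have := m2_pos c
  unfold bad
  split_ifs <;> positivity

theorem bad_ge {h g : ι} (hh : h ∈ c.U) (hg : g ∈ c.U) (H : ¬c.Allowed h g)
    (ha : c.a * |c.k0 h g| ≤ 1 / 100) : 1 ≤ bad c h g := by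
  classical
  have p1 := m1_pos c
  have p2 := m2_pos c
  have x1 := c.X_nonneg h
  have x2 := c.X_nonneg g
  have t1 : (0 : ℝ) ≤ if h = g then 1 else 0 := by positivity
  have t2 : (0 : ℝ) ≤ if c.forb h g then 1 else 0 := by positivity
  have t3 : 0 ≤ 20000 * (c.A h g ^ 2 + c.B h g ^ 2) := by positivity
  have t4 : 0 ≤ 10000 * c.X h ^ 2 * c.X g ^ 2 := by positivity
  have t5 : 0 ≤ c.Sp h ^ 2 / c.m1 ^ 2 * c.Sp g ^ 2 := by positivity
  have t6 : 0 ≤ c.Sp h ^ 2 / c.m2 * c.X g ^ 2 := by positivity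
  have t7 : 0 ≤ c.X h ^ 2 / c.m2 * c.Sp g ^ 2 := by positivity
  by_contra hb
  unfold bad at hb
  push Not at hb
  refine H ⟨hh, hg, fun e => ?_, fun e => ?_, ?_, ?_, ?_, ?_, ?_, ha⟩
  · rw [if_pos e] at hb; linarith
  · rw [if_pos e] at hb; linarith
  · refine le_sq_bb ?_ (by norm_num)
    nlinarith [sq_nonneg (|c.A h g| - |c.B h g|), sq_abs (c.A h g), sq_abs (c.B h g)]
  · refine le_sq_bb ?_ (by norm_num)
    linarith
  · refine le_sq_bb ?_ p1.le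
    rw [← div_le_one (by positivity), mul_pow, mul_div_right_comm]
    linarith
  · rw [← div_le_one p2, mul_comm, mul_div_right_comm]
    linarith
  · rw [← div_le_one p2, mul_div_right_comm]
    linarith

theorem row_AB (h : ι) : ∑ g ∈ c.U, (c.A h g ^ 2 + c.B h g ^ 2) ≤ c.Sp h := by
  rw [Ctx.Sp, rS, rS, ← sum_add_distrib]
  exact sum_le_sum_of_subset_of_nonneg (subset_univ _) fun _ _ _ => by positivity

theorem row_bad0 {h : ι} (hh : h ∈ c.U) : ∑ g ∈ c.U, bad c h g ≤ 1 + c.r + 20000 * c.Sp h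
    + 10000 * c.X h ^ 2 * (4 * c.Vb) + c.Sp h ^ 2 / c.m1 ^ 2 * (4 * c.Wb)
    + c.Sp h ^ 2 / c.m2 * (4 * c.Vb) + c.X h ^ 2 / c.m2 * (4 * c.Wb) := by
  classical
  have p2 := m2_pos c
  have h1 := c.forb_card h hh (c.U.filter (c.forb h)) fun g hg => (mem_filter.1 hg).2
  simp only [bad, sum_add_distrib (f := fun g => _ + _), sum_add_distrib (f := fun g => ite _ _ _),
    ← mul_sum, sum_ite_eq, if_pos hh, sum_boole]
  gcongr
  · exact row_AB c h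
  · exact c.sum_X_sq
  · exact c.sum_Sp_sq
  · exact c.sum_X_sq
  · exact c.sum_Sp_sq

theorem r_ge : (10 : ℝ) ^ 50 ≤ c.r := c.good.hr

theorem rs_le : c.r * c.sN ≤ c.N / c.r ^ 9 := by
  have := r_ge c
  rw [le_div_iff₀ (by positivity), ← c.good.sq, sq, mul_right_comm, ← pow_succ']
  exact mul_le_mul_of_nonneg_right ((pow_le_pow_right₀ (by linarith) (by norm_num)).trans
    c.good.big) c.good.sN_pos.le

theorem one_le_sN : 1 ≤ c.sN := (one_le_pow₀ (by linarith [r_ge c])).trans c.good.big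

theorem Vb_sq : c.Vb ^ 2 ≤ c.N / c.r ^ 9 := by
  have := r_ge c
  have h := pow_le_pow_left₀ (by have := c.good.V0; positivity) c.good.Vb_le 2
  rw [le_div_iff₀ (by positivity), ← c.good.sq, mul_comm]
  refine le_trans ?_ h
  rw [mul_pow, ← pow_mul]
  exact mul_le_mul_of_nonneg_right (pow_le_pow_right₀ (by linarith) (by norm_num)) (sq_nonneg _)

theorem t_le : c.N / c.r ^ 9 ≤ c.N :=
  div_le_self c.good.N_pos.le (one_le_pow₀ (by linarith [r_ge c]))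

theorem W_m1 : (c.r ^ 2 * c.N) / c.m1 ^ 2 * c.Wb ≤ c.N / c.r ^ 9 := by
  have := r_ge c
  have := c.good.N_pos
  have e : c.m1 ^ 2 = c.r ^ 20 * c.N := by rw [Par.m1, mul_pow, ← pow_mul, c.good.sq]
  calc _ ≤ (c.r ^ 2 * c.N) / c.m1 ^ 2 * (c.r ^ 2 * c.N) := by gcongr; exact c.good.W2
    _ = c.N / c.r ^ 16 := by rw [e]; field_simp
    _ ≤ _ := by gcongr <;> linarith

theorem V_m2 : (c.r ^ 2 * c.N) / c.m2 * c.Vb ≤ c.N / c.r ^ 9 := by
  have := r_ge c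
  have := c.good.N_pos
  have := c.good.V0
  calc _ ≤ (c.r ^ 2 * c.N) / c.m2 * (c.Vb + 1) := by have := m2_pos c; gcongr; linarith
    _ = c.N / c.r ^ 10 := by rw [Par.m2]; field_simp
    _ ≤ _ := by gcongr <;> linarith

theorem t_mul {k : ℝ} (hk : k ≤ 10 ^ 50) : k * (c.N / c.r ^ 9) ≤ c.N / c.r ^ 8 := by
  have := r_ge c
  have := c.good.N_pos
  calc _ ≤ c.r * (c.N / c.r ^ 9) := by gcongr; linarith
    _ = _ := by field_simp

theorem Sp_sq (h : ι) : c.Sp h ^ 2 ≤ 4 * (c.r ^ 2 * c.N) := by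
  have := pow_le_pow_left₀ (c.Sp_nonneg h) (c.Sp_le h) 2
  rw [← c.good.sq]
  linarith

theorem row_bad {h : ι} (hh : h ∈ c.U) : ∑ g ∈ c.U, bad c h g ≤ c.N / c.r ^ 8 := by
  have p2 := m2_pos c
  have v := c.good.V0
  have w := c.good.W0
  have r := r_ge c
  refine (row_bad0 c hh).trans (le_trans ?_ (t_mul c (k := 10 ^ 6) (by norm_num)))
  have a1 : c.r ≤ c.r * c.sN := le_mul_of_one_le_right (by linarith) (one_le_sN c)
  have a2 : c.X h ^ 2 * c.Vb ≤ 4 * c.Vb * c.Vb := by gcongr; exact c.X_sq h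
  have a3 : c.Sp h ^ 2 / c.m1 ^ 2 * c.Wb ≤ 4 * (c.r ^ 2 * c.N) / c.m1 ^ 2 * c.Wb := by
    gcongr; exact Sp_sq c h
  have a4 : c.Sp h ^ 2 / c.m2 * c.Vb ≤ 4 * (c.r ^ 2 * c.N) / c.m2 * c.Vb := by
    gcongr; exact Sp_sq c h
  have a5 : c.X h ^ 2 / c.m2 * c.Wb ≤ 4 * c.Vb / c.m2 * (c.r ^ 2 * c.N) := by
    gcongr
    · exact c.X_sq h
    · exact c.good.W2
  have a6 : 4 * c.Vb / c.m2 * (c.r ^ 2 * c.N) = 4 * (c.r ^ 2 * c.N / c.m2 * c.Vb) := by ring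
  rw [mul_div_assoc, mul_assoc] at a3 a4
  linarith [rs_le c, Vb_sq c, W_m1 c, V_m2 c, c.Sp_le h]

theorem tot_bad : ∑ h ∈ c.U, ∑ g ∈ c.U, bad c h g ≤ 2 * c.r * c.N := by
  have p2 := m2_pos c
  have v := c.good.V0
  have w := c.good.W0
  have r := r_ge c
  have n := c.good.N_pos
  refine (sum_le_sum fun h hh => row_bad0 c hh).trans ?_
  simp only [sum_add_distrib, ← mul_sum, ← sum_mul, ← sum_div, sum_const, nsmul_eq_mul, c.hN]
  have b := c.sum_Sp_sq.trans (mul_le_mul_of_nonneg_left c.good.W2 (by norm_num))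
  have a2 : (∑ h ∈ c.U, c.X h ^ 2) * c.Vb ≤ 4 * c.Vb * c.Vb := by gcongr; exact c.sum_X_sq
  have a3 : (∑ h ∈ c.U, c.Sp h ^ 2) / c.m1 ^ 2 * c.Wb ≤ 4 * (c.r ^ 2 * c.N) / c.m1 ^ 2 * c.Wb := by
    gcongr
  have a4 : (∑ h ∈ c.U, c.Sp h ^ 2) / c.m2 * c.Vb ≤ 4 * (c.r ^ 2 * c.N) / c.m2 * c.Vb := by
    gcongr
  have a5 : (∑ h ∈ c.U, c.X h ^ 2) / c.m2 * c.Wb ≤ 4 * c.Vb / c.m2 * (c.r ^ 2 * c.N) := by
    gcongr
    · exact c.sum_X_sq
    · exact c.good.W2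
  have a6 : 4 * c.Vb / c.m2 * (c.r ^ 2 * c.N) = 4 * (c.r ^ 2 * c.N / c.m2 * c.Vb) := by ring
  have a7 := mul_le_mul_of_nonneg_right r n.le
  rw [mul_div_assoc, mul_assoc] at a3 a4
  linarith [t_le c, Vb_sq c, W_m1 c, V_m2 c, c.sum_Sp]

theorem row_dv0 (h : ι) :
    ∑ g ∈ c.U, c.dv h g ^ 2 ≤ 3 * c.Sp h + 3 * (c.X h ^ 2 * (4 * c.Vb)) := by
  have h1 := sum_le_sum fun g (_ : g ∈ c.U) => show c.dv h g ^ 2 ≤
      3 * (c.A h g ^ 2 + c.B h g ^ 2) + 3 * (c.X h ^ 2 * c.X g ^ 2) by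
    unfold Ctx.dv
    nlinarith [sq_abs (c.A h g), sq_abs (c.B h g), sq_nonneg (|c.A h g| - |c.B h g|),
      sq_nonneg (|c.A h g| - c.X h * c.X g), sq_nonneg (|c.B h g| - c.X h * c.X g)]
  rw [sum_add_distrib, ← mul_sum, ← mul_sum, ← mul_sum] at h1
  refine h1.trans ?_
  gcongr
  · exact row_AB c h
  · exact c.sum_X_sq

theorem row_dv8 (h : ι) : ∑ g ∈ c.U, c.dv h g ^ 2 ≤ c.N / c.r ^ 8 := by
  have v := c.good.V0
  refine (row_dv0 c h).trans (le_trans ?_ (t_mul c (k := 54) (by norm_num)))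
  have a2 : c.X h ^ 2 * c.Vb ≤ 4 * c.Vb * c.Vb := by gcongr; exact c.X_sq h
  linarith [rs_le c, Vb_sq c, c.Sp_le h]

theorem tot_dv : ∑ h ∈ c.U, ∑ g ∈ c.U, c.dv h g ^ 2 ≤ 60 * c.N := by
  have v := c.good.V0
  refine (sum_le_sum fun h _ => row_dv0 c h).trans ?_
  simp only [sum_add_distrib, ← mul_sum, ← sum_mul]
  have a2 : (∑ h ∈ c.U, c.X h ^ 2) * c.Vb ≤ 4 * c.Vb * c.Vb := by gcongr; exact c.sum_X_sq
  linarith [t_le c, Vb_sq c, c.sum_Sp]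

theorem row_kap (h : ι) : ∑ g ∈ c.U, (c.A h g + c.B h g) ^ 2 ≤ 2 * c.Sp h := by
  refine le_trans ?_ (mul_le_mul_of_nonneg_left (row_AB c h) zero_le_two)
  rw [mul_sum]
  exact sum_le_sum fun g _ => by nlinarith [sq_nonneg (c.A h g - c.B h g)]

theorem row_k0 (h : ι) : ∑ g ∈ c.U, c.k0 h g ^ 2 ≤ 2 * c.S0 := by
  by_cases H : c.Sp h ≤ c.S0
  · refine le_trans (sum_le_sum fun g _ => ?_) ((row_kap c h).trans (by linarith))
    unfold Ctx.k0
    split_ifs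
    · rfl
    · rw [zero_pow two_ne_zero]; positivity
  · rw [sum_eq_zero fun g _ => by simp [Ctx.k0, H]]
    linarith [c.good.S1]

theorem om_dev {f : ι → ι → ℝ} (hf : c.Coef f) {h g : ι} (H : c.Allowed h g) :
    |c.om h g * (f h g - 1)| ≤ 21 * c.dv h g := by
  rw [abs_mul, abs_of_nonneg (c.om_nonneg h g)]
  nlinarith [mul_le_mul (c.om_le h g) (hf h g H) (abs_nonneg _) (by norm_num), c.dv_nonneg h g]

end AvgH
end Vale.Agent.P049
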