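import Vale.Agent.P049.Defs

/-! P049: elementary facts on matrices. -/

namespace Vale.Agent.P049
open Matrix Finset
variable {ι : Type} [Fintype ι] [DecidableEq ι]

theorem rS_nonneg (K : Matrix ι ι ℝ) (k : ι) : 0 ≤ rS K k := by
  exact sum_nonneg fun _ _ => sq_nonneg _
theorem fE_nonneg (K : Matrix ι ι ℝ) : 0 ≤ fE K := by
  exact sum_nonneg fun _ _ => rS_nonneg _ _
theorem rR_nonneg (K : Matrix ι ι ℝ) (k : ι) : 0 ≤ rR K k := by
  exact sum_nonneg fun _ _ => by positivity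
theorem rR_le (K : Matrix ι ι ℝ) (k : ι) : rR K k ≤ rS K k ^ 2 := by
  rw [sq, rS, sum_mul]
  refine sum_le_sum fun j _ => ?_
  rw [show K k j ^ 4 = K k j ^ 2 * K k j ^ 2 by ring]
  exact mul_le_mul_of_nonneg_left
    (single_le_sum (f := fun j => K k j ^ 2) (fun _ _ => sq_nonneg _) (mem_univ j)) (sq_nonneg _)
theorem sq_le_rS (K : Matrix ι ι ℝ) (k j : ι) : K k j ^ 2 ≤ rS K k := by
  exact single_le_sum (f := fun j => K k j ^ 2) (fun _ _ => sq_nonneg _) (mem_univ j)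
theorem sq_le_fV (K : Matrix ι ι ℝ) (k : ι) : K k k ^ 2 ≤ fV K := by
  exact single_le_sum (f := fun j => K j j ^ 2) (fun _ _ => sq_nonneg _) (mem_univ k)
theorem fE_eq_col (K : Matrix ι ι ℝ) : fE K = ∑ j, ∑ k, K k j ^ 2 := by
  exact sum_comm
theorem fW_le_sq (K : Matrix ι ι ℝ) : fW K ≤ fE K ^ 2 := by
  rw [sq, fE, sum_mul]
  refine sum_le_sum fun j _ => ?_
  rw [sq]
  exact mul_le_mul_of_nonneg_left
    (single_le_sum (f := rS K) (fun _ _ => rS_nonneg _ _) (mem_univ j)) (rS_nonneg _ _)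
/-- Cauchy-Schwarz for an entry of a product -/
theorem mul_apply_sq_le (X Y : Matrix ι ι ℝ) (h g : ι) :
    (X * Y) h g ^ 2 ≤ rS X h * ∑ k, Y k g ^ 2 := by
  exact sum_mul_sq_le_sq_mul_sq _ _ _
theorem ip_sq_le (X Y : Matrix ι ι ℝ) : ip X Y ^ 2 ≤ fE X * fE Y := by
  have := sum_mul_sq_le_sq_mul_sq (univ : Finset (ι × ι)) (fun p => X p.1 p.2) fun p => Y p.1 p.2
  simpa only [Fintype.sum_prod_type, ip, fE, rS] using this
theorem op_of_fE (K : Matrix ι ι ℝ) {L : ℝ} (h : fE K ≤ L ^ 2) : Op K L := by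
  intro φ
  refine le_trans ?_ (mul_le_mul_of_nonneg_right h (sum_nonneg fun _ _ => mul_self_nonneg _))
  rw [fE, sum_mul]
  refine sum_le_sum fun k _ => ?_
  have := sum_mul_sq_le_sq_mul_sq univ (K k) φ
  simpa only [sq, mulVec, dotProduct, rS] using this
theorem mulVec_sq_le (X : Matrix ι ι ℝ) (φ : ι → ℝ) :
    (X *ᵥ φ) ⬝ᵥ (X *ᵥ φ) ≤ fE X * (φ ⬝ᵥ φ) := by
  have := op_of_fE X (Real.sq_sqrt (fE_nonneg X)).ge φ
  rwa [Real.sq_sqrt (fE_nonneg X)] at this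
theorem fE_mul_le (X Y : Matrix ι ι ℝ) : fE (X * Y) ≤ fE X * fE Y := by
  rw [fE_eq_col Y, fE, fE, sum_mul]
  refine sum_le_sum fun k _ => ?_
  rw [mul_sum]
  exact sum_le_sum fun j _ => mul_apply_sq_le X Y k j
theorem Op.col {K : Matrix ι ι ℝ} {L : ℝ} (h : Op K L) (X : Matrix ι ι ℝ) (j : ι) :
    ∑ k, (K * X) k j ^ 2 ≤ L ^ 2 * ∑ k, X k j ^ 2 := by
  simpa only [sq, mulVec, dotProduct, mul_apply] using h fun k => X k j
theorem Op.row {K : Matrix ι ι ℝ} {L : ℝ} (h : Op K L) (hs : ∀ i j, K i j = K j i)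
    (X : Matrix ι ι ℝ) (k : ι) : rS (X * K) k ≤ L ^ 2 * rS X k := by
  have := h (X k)
  simp only [dotProduct, mulVec, ← sq] at this
  simpa only [rS, mul_apply, hs _ _, mul_comm] using this
theorem Op.left {K : Matrix ι ι ℝ} {L : ℝ} (h : Op K L) (X : Matrix ι ι ℝ) :
    fE (K * X) ≤ L ^ 2 * fE X := by
  rw [fE_eq_col, fE_eq_col, mul_sum]
  exact sum_le_sum fun j _ => h.col X j
theorem Op.right {K : Matrix ι ι ℝ} {L : ℝ} (h : Op K L) (hs : ∀ i j, K i j = K j i)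
    (X : Matrix ι ι ℝ) : fE (X * K) ≤ L ^ 2 * fE X := by
  rw [fE, fE, mul_sum]
  exact sum_le_sum fun j _ => h.row hs X j
theorem Op.form {K : Matrix ι ι ℝ} {L : ℝ} (h : Op K L) (hL : 0 ≤ L) (φ : ι → ℝ) :
    |φ ⬝ᵥ K *ᵥ φ| ≤ L * (φ ⬝ᵥ φ) := by
  have h0 : 0 ≤ φ ⬝ᵥ φ := sum_nonneg fun _ _ => mul_self_nonneg _
  refine abs_le_of_sq_le_sq' ?_ (mul_nonneg hL h0) |> abs_le.2
  have h1 := sum_mul_sq_le_sq_mul_sq univ φ (K *ᵥ φ)
  simp only [sq] at h1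
  calc _ ≤ (φ ⬝ᵥ φ) * ((K *ᵥ φ) ⬝ᵥ (K *ᵥ φ)) := by rw [sq]; exact h1
    _ ≤ (φ ⬝ᵥ φ) * (L ^ 2 * (φ ⬝ᵥ φ)) := mul_le_mul_of_nonneg_left (h φ) h0
    _ = _ := by ring
theorem mul_self_diag {K : Matrix ι ι ℝ} (hs : ∀ i j, K i j = K j i) (k : ι) :
    (K * K) k k = rS K k := by
  simp only [mul_apply, rS, sq, hs k]

/-- sums over `U` of supported quantities are sums over everything -/
theorem Ok.sum_U {U : Finset ι} {K : Matrix ι ι ℝ} (hK : Ok U K) (X : Matrix ι ι ℝ)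
    (f : ι → ℝ → ℝ) (hf : ∀ k, f k 0 = 0) (j : ι) :
    ∑ k ∈ U, f k ((K * X) k j) = ∑ k, f k ((K * X) k j) := by
  refine sum_subset (subset_univ _) fun k _ hk => ?_
  simp [mul_apply, hK.supp k _ hk, hf]
theorem Ok.rS_zero {U : Finset ι} {K : Matrix ι ι ℝ} (hK : Ok U K) {k : ι} (hk : k ∉ U) :
    rS K k = 0 := by
  simp [rS, hK.supp k _ hk]
theorem Ok.sum_rS {U : Finset ι} {K : Matrix ι ι ℝ} (hK : Ok U K) :
    ∑ k ∈ U, rS K k = fE K := by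
  exact sum_subset (subset_univ _) fun k _ hk => hK.rS_zero hk
theorem Ok.sum_rS_sq {U : Finset ι} {K : Matrix ι ι ℝ} (hK : Ok U K) :
    ∑ k ∈ U, rS K k ^ 2 = fW K := by
  exact sum_subset (subset_univ _) fun k _ hk => by simp [hK.rS_zero hk]
theorem Ok.sum_diag {U : Finset ι} {K : Matrix ι ι ℝ} (hK : Ok U K) :
    ∑ k ∈ U, K k k = fP K := by
  exact sum_subset (subset_univ _) fun k _ hk => hK.supp k _ hk
theorem Ok.sum_diag_sq {U : Finset ι} {K : Matrix ι ι ℝ} (hK : Ok U K) :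
    ∑ k ∈ U, K k k ^ 2 = fV K := by
  exact sum_subset (subset_univ _) fun k _ hk => by simp [hK.supp k _ hk]
theorem Ok.sum_rR {U : Finset ι} {K : Matrix ι ι ℝ} (hK : Ok U K) :
    ∑ k ∈ U, rR K k = fR K := by
  exact sum_subset (subset_univ _) fun k _ hk => by simp [rR, hK.supp k _ hk]
theorem Ok.col_ba {U : Finset ι} {K : Matrix ι ι ℝ} (hK : Ok U K) (l : ι) :
    ∑ h ∈ U, K h l = if l ∈ U then 1 else 0 := by
  split_ifs with hl
  · rw [← hK.row l hl, sum_subset (subset_univ U) fun k _ hk => hK.supp k l hk]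
    exact sum_congr rfl fun k _ => hK.symm _ _
  · exact sum_eq_zero fun k _ => by rw [hK.symm, hK.supp l k hl]
theorem Ok.sum_left_ba {U : Finset ι} {K : Matrix ι ι ℝ} (hK : Ok U K) (X : Matrix ι ι ℝ)
    (g : ι) : ∑ h ∈ U, (K * X) h g = ∑ h ∈ U, X h g := by
  simp only [mul_apply]
  rw [sum_comm]
  simp [← sum_mul, hK.col_ba]
theorem Ok.sum_right_ba {U : Finset ι} {K : Matrix ι ι ℝ} (hK : Ok U K) (X : Matrix ι ι ℝ)
    (h : ι) : ∑ g ∈ U, (X * K) h g = ∑ g ∈ U, X h g := by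
  simp only [mul_apply]
  rw [sum_comm]
  have : ∀ l, ∑ g ∈ U, K l g = if l ∈ U then 1 else 0 := fun l => by
    simp only [hK.symm l, hK.col_ba]
  simp [← mul_sum, this]

/-- the total sum of a sandwich is the total sum of the middle over `U` -/
theorem Ok.sum_sandwich {U : Finset ι} {K K' : Matrix ι ι ℝ} (hK : Ok U K) (hK' : Ok U K')
    (X : Matrix ι ι ℝ) :
    ∑ h ∈ U, ∑ g ∈ U, (K * X * K') h g = ∑ h ∈ U, ∑ g ∈ U, X h g := by
  simp only [hK'.sum_right_ba]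
  rw [sum_comm (f := fun h g => (K * X) h g)]
  simp only [hK.sum_left_ba]
  exact sum_comm
theorem Ok.sum_left {U : Finset ι} {K : Matrix ι ι ℝ} (hK : Ok U K) (X : Matrix ι ι ℝ) (g : ι) :
    ∑ h ∈ U, (K * X) h g = ∑ h ∈ U, X h g := by
  exact hK.sum_left_ba X g
theorem Ok.sum_right {U : Finset ι} {K : Matrix ι ι ℝ} (hK : Ok U K) (X : Matrix ι ι ℝ) (h : ι) :
    ∑ g ∈ U, (X * K) h g = ∑ g ∈ U, X h g := by
  exact hK.sum_right_ba X h
theorem Ok.sum_all {U : Finset ι} {K : Matrix ι ι ℝ} (hK : Ok U K) :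
    ∑ h ∈ U, ∑ g ∈ U, K h g = U.card := by
  rw [sum_congr rfl fun h hh => show ∑ g ∈ U, K h g = 1 by
    simp only [hK.symm h, hK.col_ba, if_pos hh]]
  simp
theorem Ok.one_le_fE {U : Finset ι} {K : Matrix ι ι ℝ} (hK : Ok U K) (hU : U.Nonempty) :
    1 ≤ fE K := by
  have h1 := sum_mul_sq_le_sq_mul_sq (U ×ˢ U) (fun p => K p.1 p.2) fun _ => 1
  have h2 : ∑ p ∈ U ×ˢ U, K p.1 p.2 ^ 2 ≤ fE K := by
    rw [sum_product, ← hK.sum_rS]
    exact sum_le_sum fun k _ => sum_le_sum_of_subset_of_nonneg (subset_univ _)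
      fun _ _ _ => sq_nonneg _
  have h3 : (0 : ℝ) < U.card := by exact_mod_cast hU.card_pos
  simp only [mul_one, one_pow, sum_const, card_product, nsmul_eq_mul, Nat.cast_mul] at h1
  rw [sum_product, hK.sum_all] at h1
  have h4 := mul_pos h3 h3
  nlinarith [mul_le_mul_of_nonneg_right h2 h4.le]

end Vale.Agent.P049
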