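import Vale.Agent.P049.BasA

/-! P049: numeric facts on parameters and allowed pairs. -/

namespace Vale.Agent.P049
open Matrix Finset
variable {ι : Type} [Fintype ι] [DecidableEq ι]

theorem le_sq_bb {a b : ℝ} (h : a ^ 2 ≤ b ^ 2) (hb : 0 ≤ b) : a ≤ b :=
  (abs_le_of_sq_le_sq' h hb).2

theorem xx_bb (c : Ctx ι) (h g : ι) : |c.A h h| * |c.A g g| ≤ c.X h * c.X g :=
  mul_le_mul (le_add_of_nonneg_right (abs_nonneg _)) (le_add_of_nonneg_right (abs_nonneg _))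
    (abs_nonneg _) (add_nonneg (abs_nonneg _) (abs_nonneg _))

namespace Par.Good
variable {p : Par} (H : p.Good)
include H
theorem r_pos : 0 < p.r := by
  exact lt_of_lt_of_le (by norm_num) H.hr
theorem sN_pos : 0 < p.sN := by
  exact (pow_pos H.r_pos 30).trans_le H.big
theorem N_pos : 0 < p.N := by
  exact H.sq ▸ pow_pos H.sN_pos 2
theorem N_ge : p.r ^ 60 ≤ p.N := by
  rw [← H.sq, show p.r ^ 60 = (p.r ^ 30) ^ 2 by ring]
  exact pow_le_pow_left₀ (pow_pos H.r_pos 30).le H.big 2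
theorem a_nonneg : 0 ≤ p.a := by
  rcases H.a0 with h | h
  · exact h.ge
  · exact H.r_pos.le.trans h
theorem a_sq_le : p.a ^ 2 ≤ p.sN := by
  exact (le_mul_of_one_le_right (sq_nonneg _) H.S1).trans H.M2'
theorem L_le : p.r ^ 10 * p.L ≤ p.sN := by
  refine le_sq_bb ?_ H.sN_pos.le
  rw [H.sq, mul_pow, ← pow_mul]
  exact H.M1
theorem Vb_le : p.r ^ 22 * p.Vb ≤ p.sN := by
  refine le_trans ?_ H.M3
  have := H.r_pos
  have := H.V0
  gcongr
  exact le_mul_of_one_le_right (by positivity) (by nlinarith [sq_nonneg p.a])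
theorem m2_le : p.r ^ 9 * p.m2 ≤ p.sN := by
  have h0 := H.r_pos
  have h1 := H.Vb_le
  have h2 := H.big
  have h3 : (2 : ℝ) ≤ p.r := le_trans (by norm_num) H.hr
  have h4 : p.r ^ 22 ≤ p.r ^ 30 := pow_le_pow_right₀ (by linarith) (by norm_num)
  have h5 : 2 * (p.r ^ 21 * (p.Vb + 1)) ≤ p.r * (p.r ^ 21 * (p.Vb + 1)) :=
    mul_le_mul_of_nonneg_right h3 (by have := H.V0; positivity)
  unfold Par.m2
  linarith
theorem KP_le : p.KP ≤ 2 * p.sN * (p.r + p.a) := by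
  have h3 : (1 : ℝ) ≤ p.r := le_trans (by norm_num) H.hr
  have h1 : p.L ≤ p.sN :=
    (le_mul_of_one_le_left (zero_le_one.trans H.L1) (one_le_pow₀ h3)).trans H.L_le
  have := mul_le_mul_of_nonneg_left h1 H.a_nonneg
  unfold Par.KP
  linarith
theorem KP_nonneg : 0 ≤ p.KP := by
  have := H.r_pos
  have := H.sN_pos
  have := H.a_nonneg
  have := zero_le_one.trans H.L1
  unfold Par.KP
  positivity
theorem KP_sq_Vb : p.r ^ 18 * p.KP ^ 2 * p.Vb * (p.r * p.sN) ≤ 16 * p.N ^ 2 := by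
  have h0 := H.r_pos
  have h1 := H.sN_pos
  have h2 := H.V0
  have h3 : (1 : ℝ) ≤ p.r := le_trans (by norm_num) H.hr
  have h4 : p.KP ^ 2 ≤ (2 * p.sN * (p.r + p.a)) ^ 2 := pow_le_pow_left₀ H.KP_nonneg H.KP_le 2
  have h5 : (p.r + p.a) ^ 2 ≤ 2 * (p.r ^ 3 * (1 + p.a ^ 2)) := by
    have a1 : p.r ^ 2 ≤ p.r ^ 3 := pow_le_pow_right₀ h3 (by norm_num)
    have a2 : p.a ^ 2 ≤ p.r ^ 3 * p.a ^ 2 := le_mul_of_one_le_left (sq_nonneg _) (one_le_pow₀ h3)
    nlinarith [sq_nonneg (p.r - p.a)]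
  calc _ ≤ p.r ^ 18 * (2 * p.sN * (p.r + p.a)) ^ 2 * p.Vb * (p.r * p.sN) := by gcongr
    _ = 4 * p.sN ^ 3 * p.r ^ 19 * p.Vb * (p.r + p.a) ^ 2 := by ring
    _ ≤ 4 * p.sN ^ 3 * p.r ^ 19 * p.Vb * (2 * (p.r ^ 3 * (1 + p.a ^ 2))) := by gcongr
    _ = 8 * p.sN ^ 3 * (p.r ^ 22 * (1 + p.a ^ 2) * p.Vb) := by ring
    _ ≤ 8 * p.sN ^ 3 * p.sN := by gcongr; exact H.M3
    _ ≤ 16 * p.N ^ 2 := by rw [← H.sq]; nlinarith [pow_pos h1 4]
theorem Cb_ge : p.r ^ 20 * p.N ≤ p.Cb := by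
  refine le_trans ?_ H.MC1
  have := H.r_pos
  have := H.N_pos
  gcongr
  exact le_mul_of_one_le_right (by positivity) (by nlinarith [sq_nonneg p.a, H.V0])
theorem a_Cb : p.r ^ 10 * p.a ^ 2 * p.Cb ≤ p.N ^ 2 := by
  have h1 : (1 : ℝ) ≤ p.sN :=
    (one_le_pow₀ (le_trans (by norm_num) H.hr : (1 : ℝ) ≤ p.r)).trans H.big
  have h2 : p.a ≤ p.sN := le_sq_bb (H.a_sq_le.trans (by nlinarith)) (by linarith)
  calc _ = p.a * (p.r ^ 10 * p.a * p.Cb) := by ring
    _ ≤ p.a * (p.N * p.sN) := mul_le_mul_of_nonneg_left H.MC2 H.a_nonneg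
    _ ≤ p.sN * (p.N * p.sN) := mul_le_mul_of_nonneg_right h2 (mul_pos H.N_pos H.sN_pos).le
    _ = _ := by rw [← H.sq]; ring
end Par.Good

namespace Side
variable {p : Par} {U : Finset ι} {q s : ℝ} {K : Matrix ι ι ℝ} (H : p.Good) (h : Side p U q s K)
include H h
theorem E2 : fE K ≤ 2 * p.N := by
  exact h.Eb.trans H.E2
theorem W2 : fW K ≤ p.r ^ 2 * p.N := by
  exact h.Wb.trans H.W2
theorem rS_le (k : ι) : rS K k ≤ p.r * p.sN := by
  refine le_sq_bb ?_ (mul_pos H.r_pos H.sN_pos).le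
  rw [mul_pow, H.sq]
  exact (single_le_sum (f := fun k => rS K k ^ 2) (fun _ _ => sq_nonneg _) (mem_univ k)).trans
    (h.W2 H)
theorem diag_sq (k : ι) : K k k ^ 2 ≤ p.Vb := by
  exact (sq_le_fV K k).trans h.Vb
end Side

namespace Ctx
variable {c : Ctx ι} {h g : ι} (H : c.Allowed h g)
include H
theorem Allowed.dv_le : c.dv h g ≤ 1 / 50 := by
  have := H.G
  have := H.XX
  unfold dv
  linarith
theorem Allowed.g_le : |c.A h g| ≤ 1 / 100 := by
  linarith [H.G, abs_nonneg (c.B h g)]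
theorem Allowed.xx_le : |c.A h h| * |c.A g g| ≤ 1 / 100 := by
  exact (xx_bb c h g).trans H.XX
theorem Allowed.lam_ge : 97 / 100 ≤ lam c.A h g := by
  have h1 := abs_le.1 H.g_le
  have h2 := H.xx_le
  rw [← abs_mul] at h2
  unfold lam
  nlinarith [le_abs_self (c.A h h * c.A g g)]
theorem Allowed.io_bd : 0 < io c.A h g ∧ io c.A h g ≤ 1031 / 1000 := by
  have := H.lam_ge
  unfold io
  exact ⟨by positivity, by rw [div_le_iff₀ (by linarith)]; linarith⟩
theorem Allowed.be_bd : 0 < be c.A h g ∧ be c.A h g ≤ 1042 / 1000 := by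
  have := H.lam_ge
  have h1 := abs_le.1 H.g_le
  unfold be
  exact ⟨div_pos (by linarith) (by linarith), by rw [div_le_iff₀ (by linarith)]; linarith⟩
theorem Allowed.al_bd : |al c.A h g| ≤ 1031 / 1000 * |c.A h h| := by
  rw [al, div_eq_mul_one_div, abs_mul, mul_comm, ← io, abs_of_pos H.io_bd.1]
  exact mul_le_mul_of_nonneg_right H.io_bd.2 (abs_nonneg _)
theorem Allowed.ap_bd : |ap c.A h g| ≤ 1031 / 1000 * |c.A g g| := by
  rw [ap, div_eq_mul_one_div, abs_mul, mul_comm, ← io, abs_of_pos H.io_bd.1]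
  exact mul_le_mul_of_nonneg_right H.io_bd.2 (abs_nonneg _)
theorem Allowed.io_sub : |io c.A h g - 1| ≤ 21 / 10 * c.dv h g := by
  have h0 := H.lam_ge
  have h1 := H.g_le
  have h2 := xx_bb c h g
  have h3 := abs_nonneg (c.B h g)
  have h4 := abs_nonneg (c.A h g)
  have h5 : 0 ≤ |c.A h h| * |c.A g g| := by positivity
  have e : io c.A h g - 1 =
      (c.A h g * (2 - c.A h g) + c.A h h * c.A g g) / lam c.A h g := by
    rw [io, div_sub_one (by linarith)]; unfold lam; ring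
  have h6 : |2 - c.A h g| ≤ 201 / 100 := by
    rw [abs_le] at h1 ⊢; constructor <;> linarith
  have h7 := abs_add_le (c.A h g * (2 - c.A h g)) (c.A h h * c.A g g)
  rw [abs_mul, abs_mul] at h7
  have h8 := mul_le_mul_of_nonneg_left h6 h4
  have h9 : 0 ≤ c.dv h g := by unfold dv; linarith
  rw [e, abs_div, abs_of_pos (a := lam c.A h g) (by linarith), div_le_iff₀ (by linarith)]
  have := mul_le_mul_of_nonneg_left h0 h9
  unfold dv at *
  linarith
theorem Allowed.be_sub : |be c.A h g - 1| ≤ 32 / 10 * c.dv h g := by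
  have h0 := H.lam_ge
  have h1 := H.g_le
  have h2 := xx_bb c h g
  have h3 := abs_nonneg (c.B h g)
  have h4 := abs_nonneg (c.A h g)
  have h5 : 0 ≤ |c.A h h| * |c.A g g| := by positivity
  have e : be c.A h g - 1 =
      (c.A h g * (1 - c.A h g) + c.A h h * c.A g g) / lam c.A h g := by
    rw [be, div_sub_one (by linarith)]; unfold lam; ring
  have h6 : |1 - c.A h g| ≤ 201 / 100 := by
    rw [abs_le] at h1 ⊢; constructor <;> linarith
  have h7 := abs_add_le (c.A h g * (1 - c.A h g)) (c.A h h * c.A g g)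
  rw [abs_mul, abs_mul] at h7
  have h8 := mul_le_mul_of_nonneg_left h6 h4
  have h9 : 0 ≤ c.dv h g := by unfold dv; linarith
  rw [e, abs_div, abs_of_pos (a := lam c.A h g) (by linarith), div_le_iff₀ (by linarith)]
  have := mul_le_mul_of_nonneg_left h0 h9
  unfold dv at *
  linarith
theorem Allowed.l2_sq : (c.A * c.A) h g ^ 2 ≤ c.m1 := by
  refine (mul_apply_sq_le _ _ h g).trans (le_trans ?_ H.SS)
  have e : ∑ k, c.A k g ^ 2 = rS c.A g := by simp only [rS, c.sA.ok.symm g]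
  rw [e]
  exact mul_le_mul (le_add_of_nonneg_right (rS_nonneg _ _)) (le_add_of_nonneg_right (rS_nonneg _ _))
    (rS_nonneg _ _) (add_nonneg (rS_nonneg _ _) (rS_nonneg _ _))
end Ctx
end Vale.Agent.P049
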