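import Vale.Agent.P049.BasB

/-! P049: elementary facts on the averaging context. -/

namespace Vale.Agent.P049
open Matrix Finset
variable {ι : Type} [Fintype ι] [DecidableEq ι]

namespace Ctx
variable (c : Ctx ι)

theorem swap_X : c.swap.X = c.X := by
  exact funext fun h => add_comm _ _
theorem swap_Sp : c.swap.Sp = c.Sp := by
  exact funext fun h => add_comm _ _
theorem swap_dv : c.swap.dv = c.dv := by
  funext h g
  unfold dv
  rw [swap_X, add_comm |c.A h g|]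
  rfl
theorem swap_k0_bc : c.swap.k0 = c.k0 := by
  funext h g
  unfold k0
  rw [swap_Sp, add_comm (c.A h g)]
  rfl
theorem swap_al_bc {c : Ctx ι} {h g : ι} (H : c.Allowed h g) : c.swap.Allowed h g :=
  ⟨H.hU, H.gU, H.ne, H.nf, by rw [add_comm]; exact H.G, by rw [swap_X]; exact H.XX,
    by rw [swap_Sp]; exact H.SS, by rw [swap_Sp, swap_X]; exact H.XS,
    by rw [swap_Sp, swap_X]; exact H.SX, by rw [swap_k0_bc]; exact H.ak⟩
theorem k0_comm_bc (h g : ι) : c.k0 g h = c.k0 h g := by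
  unfold k0
  rw [c.sA.ok.symm g h, c.sB.ok.symm g h]
  exact if_congr and_comm rfl rfl
theorem X_sq_bc (h : ι) : c.X h ^ 2 ≤ 2 * c.A h h ^ 2 + 2 * c.B h h ^ 2 := by
  unfold X
  nlinarith [sq_nonneg (|c.A h h| - |c.B h h|), sq_abs (c.A h h), sq_abs (c.B h h)]
theorem prod_bc {x y d : ℝ} (hx : |x - 1| ≤ 32 / 10 * d) (hy : |y - 1| ≤ 32 / 10 * d)
    (h0 : 0 < x) (h1 : x ≤ 1042 / 1000) (hd : 0 ≤ d) : |x * y - 1| ≤ 20 * d := by
  have := abs_add_le (x * (y - 1)) (x - 1)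
  rw [abs_mul, abs_of_pos h0, show x * (y - 1) + (x - 1) = x * y - 1 by ring] at this
  nlinarith [mul_le_mul h1 hy (abs_nonneg _) (by norm_num)]

theorem swap_allowed (h g : ι) : c.swap.Allowed h g ↔ c.Allowed h g := by
  refine ⟨fun H => ?_, swap_al_bc⟩
  have H' := swap_al_bc H
  exact ⟨H'.hU, H'.gU, H'.ne, H'.nf, H'.G, H'.XX, H'.SS, H'.XS, H'.SX, H'.ak⟩
theorem swap_om : c.swap.om = c.om := by
  funext h g
  unfold om
  rw [swap_k0_bc]
  by_cases H : c.Allowed h g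
  · rw [if_pos H, if_pos ((c.swap_allowed h g).2 H)]
    rfl
  · rw [if_neg H, if_neg (mt (c.swap_allowed h g).1 H)]
theorem swap_S (f : ι → ι → ℝ) : c.swap.S f = c.S f := by
  unfold S
  rw [swap_om]
  rfl
theorem swap_coef (f : ι → ι → ℝ) : c.swap.Coef f ↔ c.Coef f := by
  simp only [Coef, swap_allowed, swap_dv]
theorem Allowed.symm {c : Ctx ι} {h g : ι} (H : c.Allowed h g) : c.Allowed g h := by
  exact ⟨H.gU, H.hU, H.ne.symm, fun h' => H.nf (c.forb_symm _ _ h'),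
    by rw [c.sA.ok.symm g h, c.sB.ok.symm g h]; exact H.G, by rw [mul_comm]; exact H.XX,
    by rw [mul_comm]; exact H.SS, H.SX, H.XS, by rw [k0_comm_bc]; exact H.ak⟩
theorem dv_comm (h g : ι) : c.dv g h = c.dv h g := by
  unfold dv
  rw [c.sA.ok.symm g h, c.sB.ok.symm g h, mul_comm]
theorem om_comm (h g : ι) : c.om g h = c.om h g := by
  unfold om
  rw [k0_comm_bc]
  by_cases H : c.Allowed h g
  · rw [if_pos H, if_pos H.symm]
  · rw [if_neg H, if_neg (mt Allowed.symm H)]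
theorem om_nonneg (h g : ι) : 0 ≤ c.om h g := by
  unfold om
  split_ifs with H
  · have := mul_le_mul_of_nonneg_left (le_abs_self (c.k0 h g)) c.good.a_nonneg
    linarith [H.ak]
  · rfl
theorem om_le (h g : ι) : c.om h g ≤ 101 / 100 := by
  unfold om
  split_ifs with H
  · have := mul_le_mul_of_nonneg_left (neg_le_abs (c.k0 h g)) c.good.a_nonneg
    linarith [H.ak]
  · norm_num
theorem X_nonneg (h : ι) : 0 ≤ c.X h := by
  exact add_nonneg (abs_nonneg _) (abs_nonneg _)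
theorem Sp_nonneg (h : ι) : 0 ≤ c.Sp h := by
  exact add_nonneg (rS_nonneg _ _) (rS_nonneg _ _)
theorem dv_nonneg (h g : ι) : 0 ≤ c.dv h g := by
  exact add_nonneg (add_nonneg (abs_nonneg _) (abs_nonneg _))
    (mul_nonneg (c.X_nonneg _) (c.X_nonneg _))
theorem X_sq (h : ι) : c.X h ^ 2 ≤ 4 * c.Vb := by
  linarith [X_sq_bc c h, c.sA.diag_sq c.good h, c.sB.diag_sq c.good h]
theorem sum_X_sq : ∑ h ∈ c.U, c.X h ^ 2 ≤ 4 * c.Vb := by
  have := sum_le_sum fun h (_ : h ∈ c.U) => X_sq_bc c h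
  rw [sum_add_distrib, ← mul_sum, ← mul_sum, c.sA.ok.sum_diag_sq, c.sB.ok.sum_diag_sq] at this
  linarith [c.sA.Vb, c.sB.Vb]
theorem Sp_le (h : ι) : c.Sp h ≤ 2 * c.r * c.sN := by
  unfold Sp
  linarith [c.sA.rS_le c.good h, c.sB.rS_le c.good h]
theorem sum_Sp : ∑ h ∈ c.U, c.Sp h ≤ 4 * c.N := by
  unfold Sp
  rw [sum_add_distrib, c.sA.ok.sum_rS, c.sB.ok.sum_rS]
  linarith [c.sA.E2 c.good, c.sB.E2 c.good]
theorem sum_Sp_sq : ∑ h ∈ c.U, c.Sp h ^ 2 ≤ 4 * c.Wb := by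
  have := sum_le_sum fun h (_ : h ∈ c.U) =>
    show c.Sp h ^ 2 ≤ 2 * rS c.A h ^ 2 + 2 * rS c.B h ^ 2 by
      unfold Sp; nlinarith [sq_nonneg (rS c.A h - rS c.B h)]
  rw [sum_add_distrib, ← mul_sum, ← mul_sum, c.sA.ok.sum_rS_sq, c.sB.ok.sum_rS_sq] at this
  linarith [c.sA.Wb, c.sB.Wb]

theorem S_comm (f : ι → ι → ℝ) : c.S (fun h g => f g h) = c.S f := by
  unfold S
  rw [sum_comm]
  exact sum_congr rfl fun h _ => sum_congr rfl fun g _ => by rw [om_comm]
theorem S_add (f f' : ι → ι → ℝ) : c.S (fun h g => f h g + f' h g) = c.S f + c.S f' := by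
  simp only [S, mul_add, sum_add_distrib]
theorem S_sub (f f' : ι → ι → ℝ) : c.S (fun h g => f h g - f' h g) = c.S f - c.S f' := by
  simp only [S, mul_sub, sum_sub_distrib]
theorem S_mul (t : ℝ) (f : ι → ι → ℝ) : c.S (fun h g => t * f h g) = t * c.S f := by
  simp only [S, mul_sum, mul_left_comm]
theorem S_sum {κ : Type} (T : Finset κ) (f : κ → ι → ι → ℝ) :
    c.S (fun h g => ∑ k ∈ T, f k h g) = ∑ k ∈ T, c.S (f k) := by
  simp only [S, mul_sum]
  rw [sum_comm (s := T)]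
  exact sum_congr rfl fun h _ => sum_comm
theorem S_congr {f f' : ι → ι → ℝ} (H : ∀ h g, c.Allowed h g → f h g = f' h g) :
    c.S f = c.S f' := by
  refine sum_congr rfl fun h _ => sum_congr rfl fun g _ => ?_
  by_cases H1 : c.Allowed h g
  · rw [H h g H1]
  · simp [om, H1]
theorem S_mono {f f' : ι → ι → ℝ} (H : ∀ h g, c.Allowed h g → f h g ≤ f' h g) :
    c.S f ≤ c.S f' := by
  refine sum_le_sum fun h _ => sum_le_sum fun g _ => ?_
  by_cases H1 : c.Allowed h g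
  · exact mul_le_mul_of_nonneg_left (H h g H1) (c.om_nonneg h g)
  · simp [om, H1]
/-- crude bound by the unweighted sum of a nonnegative majorant -/
theorem S_le {f f' : ι → ι → ℝ} (H : ∀ h g, c.Allowed h g → f h g ≤ f' h g)
    (H' : ∀ h g, 0 ≤ f' h g) : c.S f ≤ 101 / 100 * ∑ h ∈ c.U, ∑ g ∈ c.U, f' h g := by
  refine (c.S_mono H).trans ?_
  simp only [S, mul_sum]
  exact sum_le_sum fun h _ => sum_le_sum fun g _ =>
    mul_le_mul_of_nonneg_right (c.om_le h g) (H' h g)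
theorem abs_S_le {f f' : ι → ι → ℝ} (H : ∀ h g, c.Allowed h g → |f h g| ≤ f' h g)
    (H' : ∀ h g, 0 ≤ f' h g) : |c.S f| ≤ 101 / 100 * ∑ h ∈ c.U, ∑ g ∈ c.U, f' h g := by
  refine abs_le.2 ⟨?_, c.S_le (fun h g a => (le_abs_self _).trans (H h g a)) H'⟩
  have := c.S_le (f := fun h g => -1 * f h g)
    (fun h g a => by linarith [neg_le_abs (f h g), H h g a]) H'
  rw [S_mul] at this
  linarith
/-- weighted Cauchy-Schwarz -/
theorem S_cs (f f' : ι → ι → ℝ) {u v : ℝ} (hu : 0 ≤ u) (hv : 0 ≤ v)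
    (H : c.S (fun h g => f h g ^ 2) ≤ u ^ 2) (H' : c.S (fun h g => f' h g ^ 2) ≤ v ^ 2) :
    c.S (fun h g => |f h g| * |f' h g|) ≤ u * v := by
  have h1 := sum_mul_sq_le_sq_mul_sq (c.U ×ˢ c.U) (fun p => √(c.om p.1 p.2) * |f p.1 p.2|)
    fun p => √(c.om p.1 p.2) * |f' p.1 p.2|
  have e : ∀ h g (x y : ℝ), √(c.om h g) * x * (√(c.om h g) * y) = c.om h g * (x * y) :=
    fun h g x y => by rw [mul_mul_mul_comm, Real.mul_self_sqrt (c.om_nonneg h g)]
  simp only [e, mul_pow, Real.sq_sqrt (c.om_nonneg _ _), sq_abs, sum_product] at h1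
  refine le_sq_bb (h1.trans ?_) (mul_nonneg hu hv)
  rw [mul_pow]
  exact mul_le_mul H H' (sum_nonneg fun h _ => sum_nonneg fun g _ =>
    mul_nonneg (c.om_nonneg h g) (sq_nonneg _)) (sq_nonneg _)

variable {c}
theorem coef_one : c.Coef fun _ _ => 1 := by
  intro h g _
  simpa using c.dv_nonneg h g
theorem coef_io : c.Coef (io c.A) := by
  exact fun h g H => by linarith [H.io_sub, c.dv_nonneg h g]
theorem coef_be : c.Coef (be c.A) := by
  exact fun h g H => by linarith [H.be_sub, c.dv_nonneg h g]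
theorem coef_be_sq : c.Coef fun h g => be c.A h g ^ 2 := by
  exact fun h g H => by
    simp only [sq]; exact prod_bc H.be_sub H.be_sub H.be_bd.1 H.be_bd.2 (c.dv_nonneg h g)
theorem coef_beB : c.Coef (be c.B) := by
  exact c.swap_coef _ |>.1 (coef_be (c := c.swap))
theorem coef_ioB : c.Coef (io c.B) := by
  exact c.swap_coef _ |>.1 (coef_io (c := c.swap))
theorem coef_beB_sq : c.Coef fun h g => be c.B h g ^ 2 := by
  exact c.swap_coef _ |>.1 (coef_be_sq (c := c.swap))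
theorem coef_be_beB : c.Coef fun h g => be c.A h g * be c.B h g := by
  intro h g H
  have := ((c.swap_allowed h g).2 H).be_sub
  rw [swap_dv] at this
  exact prod_bc H.be_sub this H.be_bd.1 H.be_bd.2 (c.dv_nonneg h g)

end Ctx
end Vale.Agent.P049
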