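import Vale.Agent.P049.Alg
import Mathlib.Analysis.Complex.ExponentialBounds

/-! P049: tables versus real matrices. -/

namespace Vale.Agent.P049
open Matrix Finset

theorem ent_tab {n : ℕ} (f : ℕ → ℕ → ℚ) {i j : ℕ} (hi : i < n) (hj : j < n) :
    ent (tab n f) i j = f i j := by
  simp [ent, tab, List.getD_eq_getElem?_getD, List.getElem?_range hi, List.getElem?_range hj]

theorem lamN_cast {n : ℕ} (K : Mat) (h g : Fin n) : (lamN K h g : ℝ) = lam (mr n K) h g := by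
  simp [lamN, lam, mr]

theorem mr_stepN {n : ℕ} (K : Mat) (h g : Fin n) :
    mr n (stepN n K h g) = step (mr n K) h g := by
  ext k j
  simp only [mr, stepN, ent_tab _ k.2 j.2, step, Fin.val_inj]
  split_ifs
  · simp
  · simp only [full, va, vb, ap, al, be, ← lamN_cast, mr]
    push_cast
    ring

theorem fl_cast (G : ℕ) (s x : ℚ) : ((fl G s x : ℚ) : ℝ) = fl G (s : ℝ) (x : ℝ) := by
  have : ⌊(s : ℝ) * G * x⌋ = ⌊s * G * x⌋ := by
    rw [← Rat.floor_cast (α := ℝ)]; push_cast; rfl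
  simp [fl, this]

theorem mr_rndN {n G : ℕ} (s : ℚ) (U : List ℕ) (K : Mat) :
    mr n (rndN n G s U K) = rnd G (s : ℝ) (fU n U) (mr n K) := by
  ext k j
  simp only [mr, rndN, ent_tab _ k.2 j.2, rnd, fU, mem_filter, mem_univ, true_and, Fin.val_inj]
  split_ifs with h1 h2
  · push_cast
    congr 1
    rw [← Fin.sum_univ_eq_sum_range
      (fun l => ((if l ∈ U ∧ l ≠ k then fl G s (ent K k l) else 0 : ℚ) : ℝ)) n,
      ← filter_ne', filter_filter, sum_filter]
    refine sum_congr rfl fun l _ => ?_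
    simp only [ne_eq, Fin.val_inj]
    split_ifs
    · exact fl_cast _ _ _
    · simp
  · exact fl_cast _ _ _
  · simp

theorem mr_k0 (n d : ℕ) (q b s : ℚ) :
    mr (n * d) (tab (n * d) (k0e n d q b s)) = K0 n d (q : ℝ) b s := by
  ext k j
  simp only [mr, ent_tab _ k.2 j.2, K0, k0e]
  split_ifs <;> push_cast <;> ring

section
variable {n : ℕ} (K K' : Mat)
theorem fP_cast : ((fP (mat n K) : ℚ) : ℝ) = fP (mr n K) := by simp [fP, mat, mr]
theorem rS_cast (k : Fin n) : ((rS (mat n K) k : ℚ) : ℝ) = rS (mr n K) k := by simp [rS, mat, mr]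
theorem fE_cast : ((fE (mat n K) : ℚ) : ℝ) = fE (mr n K) := by simp [fE, rS_cast]
theorem fT_cast : ((fT (mat n K) : ℚ) : ℝ) = fT (mr n K) := by
  simp [fT, trace, mul_apply, mat, mr]
theorem fV_cast : ((fV (mat n K) : ℚ) : ℝ) = fV (mr n K) := by simp [fV, mat, mr]
theorem fW_cast : ((fW (mat n K) : ℚ) : ℝ) = fW (mr n K) := by simp [fW, rS_cast]
theorem fR_cast : ((fR (mat n K) : ℚ) : ℝ) = fR (mr n K) := by simp [fR, rR, mat, mr]
theorem fC_cast : ((fC (mat n K) (mat n K') : ℚ) : ℝ) = fC (mr n K) (mr n K') := by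
  simp [fC, fE, rS, mul_apply, mat, mr]
end

theorem Phi_cast (r N0 : ℕ) (S : St) : (Phi r N0 S : ℝ) =
    pot (r : ℝ) S.1.length (piF N0 S.1.length : ℝ) (mr N0 S.2.2.1) (mr N0 S.2.2.2) := by
  simp only [Phi, pot, pot1, pF, pH, pG, pT, pV, pW, pR, pC, tH, tT, tV, tW, tR, tC,
    ← fP_cast, ← fE_cast, ← fT_cast, ← fV_cast, ← fW_cast, ← fR_cast, ← fC_cast]
  push_cast
  rfl

theorem barB_iff (r N0 N : ℕ) (s : ℚ) (K : Mat) :
    barB r N0 N s K = true ↔ Bar (r : ℝ) N (s : ℝ) (mr N0 K) := by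
  simp only [barB, Bar, Bool.and_eq_true, decide_eq_true_eq, ← fP_cast, ← fE_cast]
  exact ⟨fun ⟨h1, h2⟩ => ⟨by exact_mod_cast h1, by exact_mod_cast h2⟩,
    fun ⟨h1, h2⟩ => ⟨by exact_mod_cast h1, by exact_mod_cast h2⟩⟩

theorem fU_sum {n : ℕ} {U : List ℕ} (hU : U.Nodup) (hlt : ∀ k ∈ U, k < n) (f : ℕ → ℝ) :
    ∑ k ∈ fU n U, f k = (U.map f).sum := by
  rw [← List.sum_toFinset f hU]
  refine sum_bij (fun k _ => (k : ℕ)) ?_ ?_ ?_ ?_
  · intro a ha; simpa [fU] using ha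
  · intro a _ b _ h; exact Fin.ext h
  · intro b hb
    have hb' : b ∈ U := by simpa using hb
    exact ⟨⟨b, hlt b hb'⟩, by simpa [fU] using hb', rfl⟩
  · intro a _; rfl

theorem fU_card {n : ℕ} {U : List ℕ} (hU : U.Nodup) (hlt : ∀ k ∈ U, k < n) :
    (fU n U).card = U.length := by
  have := fU_sum hU hlt fun _ => 1
  simpa using this

theorem fU_rm {n : ℕ} (U : List ℕ) (h g : Fin n) :
    fU n (rm U (h, g)) = ((fU n U).erase h).erase g := by
  ext k
  simp [fU, rm, Fin.val_inj]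
  tauto

theorem fU_range (n : ℕ) : fU n (List.range n) = univ := by
  ext k; simp [fU]

theorem rm_perm {U : List ℕ} (hU : U.Nodup) {p : ℕ × ℕ} (h1 : p.1 ∈ U) (h2 : p.2 ∈ U)
    (hne : p.1 ≠ p.2) : (p.1 :: p.2 :: rm U p).Perm U := by
  refine (List.perm_ext_iff_of_nodup ?_ hU).2 fun a => ?_
  · simp [rm, hne, hU.filter]
  · simp only [rm, List.mem_cons, List.mem_filter, decide_eq_true_eq]
    constructor
    · rintro (rfl | rfl | h)
      exacts [h1, h2, h.1]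
    · intro h
      by_cases a1 : a = p.1
      · exact .inl a1
      by_cases a2 : a = p.2
      · exact .inr (.inl a2)
      · exact .inr (.inr ⟨h, a1, a2⟩)

theorem piF_self (N0 : ℕ) : piF N0 N0 = 1 := by simp [piF]

theorem piF_step {N0 N m : ℕ} (h : N0 = N + 2 + 2 * m) :
    (piF N0 N : ℝ) = piF N0 (N + 2) * (1 - 3 / (5 * ((N + 2 : ℕ) : ℝ))) := by
  have h1 : (N0 - N) / 2 = m + 1 := by omega
  have h2 : (N0 - (N + 2)) / 2 = m := by omega
  have h3 : N0 - 2 * m = N + 2 := by omega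
  simp only [piF, h1, h2, prod_range_succ, h3]
  push_cast
  rfl

theorem piF_bd (N0 N : ℕ) : 0 < (piF N0 N : ℝ) ∧ (piF N0 N : ℝ) ≤ 1 := by
  have key : ∀ j ∈ range ((N0 - N) / 2), 0 < (1 - 3 / (5 * ((N0 - 2 * j : ℕ) : ℚ))) ∧
      (1 - 3 / (5 * ((N0 - 2 * j : ℕ) : ℚ))) ≤ 1 := by
    intro j hj
    have h1 : 1 ≤ N0 - 2 * j := by have := mem_range.1 hj; omega
    have h2 : (1 : ℚ) ≤ ((N0 - 2 * j : ℕ) : ℚ) := by exact_mod_cast h1
    constructor
    · rw [sub_pos, div_lt_one (by positivity)]; linarith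
    · have : (0 : ℚ) ≤ 3 / (5 * ((N0 - 2 * j : ℕ) : ℚ)) := by positivity
      linarith
  have a1 : 0 < piF N0 N := prod_pos fun j hj => (key j hj).1
  have a2 : piF N0 N ≤ 1 := prod_le_one (fun j hj => (key j hj).1.le) fun j hj => (key j hj).2
  exact ⟨by exact_mod_cast a1, by exact_mod_cast a2⟩

/-- counting a downward closed predicate -/
theorem countP_spec (p : ℕ → Prop) [DecidablePred p] (hp : ∀ i j, i ≤ j → p j → p i) (n : ℕ) :
    (∀ j < (List.range n).countP fun j => decide (p j), p j) ∧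
      ((List.range n).countP (fun j => decide (p j)) ≤ n) ∧
      ((List.range n).countP (fun j => decide (p j)) < n →
        ¬ p ((List.range n).countP fun j => decide (p j))) := by
  induction n with
  | zero => simp
  | succ n ih =>
    obtain ⟨h1, h2, h3⟩ := ih
    rw [List.range_succ, List.countP_append]
    by_cases hn : p n
    · have he : (List.range n).countP (fun j => decide (p j)) = n := by
        by_contra hc
        exact h3 (lt_of_le_of_ne h2 hc) (hp _ _ h2 hn)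
      simp only [he, List.countP_singleton, hn, decide_true, if_true]
      exact ⟨fun j hj => hp _ _ (by omega) hn, le_rfl, fun h => absurd h (lt_irrefl _)⟩
    · simp only [List.countP_singleton, hn, decide_false, Bool.false_eq_true, if_false, add_zero]
      refine ⟨h1, by omega, fun _ => ?_⟩
      rcases lt_or_eq_of_le h2 with h | h
      · exact h3 h
      · rw [h]; exact hn

theorem root_spec (e n : ℕ) (he : e ≠ 0) :
    ((List.range n).countP fun j => decide ((j + 1) ^ e ≤ n)) ^ e ≤ n ∧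
      n < (((List.range n).countP fun j => decide ((j + 1) ^ e ≤ n)) + 1) ^ e := by
  obtain ⟨h1, h2, h3⟩ := countP_spec (fun j => (j + 1) ^ e ≤ n)
    (fun i j hij h => (Nat.pow_le_pow_left (by omega) _).trans h) n
  generalize (List.range n).countP (fun j => decide ((j + 1) ^ e ≤ n)) = m at *
  constructor
  · rcases Nat.eq_zero_or_pos m with h | h
    · rw [h, zero_pow he]; exact Nat.zero_le _
    · have := h1 (m - 1) (by omega)
      rwa [Nat.sub_add_cancel h] at this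
  · rcases lt_or_eq_of_le h2 with h | h
    · exact not_le.1 (h3 h)
    · rw [h]
      exact lt_of_lt_of_le (Nat.lt_succ_self n) (Nat.le_self_pow he _)

theorem rOf_spec (n : ℕ) : rOf n ^ 12000 ≤ n ∧ n < (rOf n + 1) ^ 12000 :=
  root_spec 12000 n (by norm_num)

theorem succ_pow_le {x : ℝ} (e : ℕ) (x0 : 0 < x) (hx : 2 * (e : ℝ) ≤ x) :
    (x + 1) ^ e ≤ 2 * x ^ e := by
  have h1 : x + 1 = x * (1 + 1 / x) := by field_simp
  have h2 : (1 + 1 / x) ^ e ≤ Real.exp (1 / x) ^ e :=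
    pow_le_pow_left₀ (by positivity) (by linarith [Real.add_one_le_exp (1 / x)]) _
  have h3 : Real.exp (1 / x) ^ e = Real.exp (e * (1 / x)) := by
    rw [← Real.exp_nat_mul]
  have h4 : e * (1 / x) ≤ 1 / 2 := by
    rw [mul_one_div, div_le_div_iff₀ x0 (by norm_num)]
    linarith
  have h5 : Real.exp (e * (1 / x)) ≤ 2 := by
    refine (Real.exp_le_exp.2 h4).trans ?_
    have := Real.exp_one_lt_d9
    have h6 : Real.exp (1 / 2) * Real.exp (1 / 2) = Real.exp 1 := by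
      rw [← Real.exp_add]; norm_num
    nlinarith [Real.exp_pos (1 / 2)]
  rw [h1, mul_pow, mul_comm 2]
  exact mul_le_mul_of_nonneg_left (h2.trans (h3.le.trans h5)) (by positivity)

theorem qOf_spec {d r : ℕ} (hd : 3 ≤ d) (hr : d ≤ r) :
    0 ≤ (qOf d r : ℝ) ∧
      ((d : ℝ) - 1) * (qOf d r * (r : ℝ) ^ 4200 + 1) ^ 2 ≤ ((r : ℝ) ^ 4200) ^ 2 ∧
      ((r : ℝ) ^ 4200) ^ 2 ≤ ((d : ℝ) - 1) * (qOf d r * (r : ℝ) ^ 4200 + 2) ^ 2 := by
  have hR : r ≤ r ^ 4200 := Nat.le_self_pow (by norm_num) _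
  have hc : ((r : ℝ)) ^ 4200 = ((r ^ 4200 : ℕ) : ℝ) := by push_cast; rfl
  have hq : (qOf d r : ℝ) = ((((List.range (r ^ 4200)).countP fun j =>
      decide ((d - 1) * (j + 1) ^ 2 ≤ (r ^ 4200) ^ 2) : ℕ) : ℝ) - 1) / ((r ^ 4200 : ℕ) : ℝ) := by
    simp only [qOf]; push_cast; rfl
  rw [hq, hc]
  generalize r ^ 4200 = R at *
  obtain ⟨h1, h2, h3⟩ := countP_spec (fun j => (d - 1) * (j + 1) ^ 2 ≤ R ^ 2)
    (fun i j hij h => (Nat.mul_le_mul_left _ (Nat.pow_le_pow_left (by omega) _)).trans h) R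
  generalize (List.range R).countP (fun j => decide ((d - 1) * (j + 1) ^ 2 ≤ R ^ 2)) = m at *
  obtain ⟨e, rfl⟩ : ∃ e, d = e + 1 := ⟨d - 1, by omega⟩
  simp only [Nat.add_sub_cancel] at *
  have R0 : (0 : ℝ) < R := by exact_mod_cast (by omega : 0 < R)
  have m1 : 1 ≤ m := by
    by_contra hm
    have : m = 0 := by omega
    subst this
    exact h3 (by omega) (by nlinarith)
  have m2 : e * m ^ 2 ≤ R ^ 2 := by
    have := h1 (m - 1) (by omega)
    rwa [Nat.sub_add_cancel m1] at this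
  have m3 : R ^ 2 ≤ e * (m + 1) ^ 2 := by
    rcases lt_or_eq_of_le h2 with h | h
    · exact (not_le.1 (h3 h)).le
    · subst h; nlinarith
  have m1' : (1 : ℝ) ≤ m := by exact_mod_cast m1
  rw [div_mul_cancel₀ _ R0.ne']
  refine ⟨div_nonneg (by linarith) R0.le, ?_, ?_⟩
  · have : ((e * m ^ 2 : ℕ) : ℝ) ≤ ((R ^ 2 : ℕ) : ℝ) := by exact_mod_cast m2
    push_cast at this ⊢
    nlinarith
  · have : ((R ^ 2 : ℕ) : ℝ) ≤ ((e * (m + 1) ^ 2 : ℕ) : ℝ) := by exact_mod_cast m3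
    push_cast at this ⊢
    nlinarith

theorem start_aux {d r n e : ℕ} (h5 : 2 * d ≤ r) (he : 2 * e ≤ r) (r0 : 0 < r)
    (h2 : n < (r + 1) ^ e) : ((n * d : ℕ) : ℝ) ≤ (r : ℝ) ^ (e + 1) := by
  have a1 : (n : ℝ) ≤ ((r : ℝ) + 1) ^ e := by exact_mod_cast h2.le
  have a2 := succ_pow_le (x := r) e (by exact_mod_cast r0) (by exact_mod_cast he)
  have a3 : 2 * (d : ℝ) ≤ r := by exact_mod_cast h5
  have a4 : (0 : ℝ) ≤ (r : ℝ) ^ e := by positivity
  rw [pow_succ]
  push_cast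
  nlinarith [(Nat.cast_nonneg d : (0 : ℝ) ≤ d)]

theorem start_of {d : ℕ} (hd : 3 ≤ d) : ∃ n0, ∀ n ≥ n0,
    Start n d (rOf n) (qOf d (rOf n)) (bOf d (rOf n)) := by
  obtain ⟨c, hc⟩ : ∃ c, c = 10 ^ 50 * d ^ 10 := ⟨_, rfl⟩
  refine ⟨(c + 1) ^ 12000, fun n hn => ?_⟩
  obtain ⟨h1, h2⟩ := rOf_spec n
  have h3 : c + 1 < rOf n + 1 := lt_of_pow_lt_pow_left₀ 12000 (Nat.zero_le _) (hn.trans_lt h2)
  clear hn
  generalize rOf n = r at *
  have n1 : r ^ 12000 ≤ n * d := h1.trans (Nat.le_mul_of_pos_right _ (by clear h1 h2; omega))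
  have n1' : (r : ℝ) ^ 12000 ≤ ((n * d : ℕ) : ℝ) := by exact_mod_cast n1
  have d1 : d ≤ d ^ 10 := Nat.le_self_pow (by norm_num) _
  have h4 : 10 ^ 50 * d ^ 10 ≤ r := by clear h1 h2 n1 n1'; omega
  have h5 : 2 * d ≤ r ∧ 2 * 12000 ≤ r := by clear h1 h2 n1 n1'; omega
  have n2 := start_aux h5.1 h5.2 (by clear h1 h2 n1 n1'; omega) h2
  obtain ⟨q0, q1, q2⟩ := qOf_spec hd (by clear h1 h2 n1 n1' n2; omega : d ≤ r)
  exact ⟨hd, by exact_mod_cast h4, n1', n2, q0, q1, q2, by simp [bOf]⟩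

end Vale.Agent.P049
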