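import Vale.Agent.P049.Cast

/-! P049: forbidden pairs and the completion of the matching. -/

namespace Vale.Agent.P049
open Finset

theorem okE_iff {d : ℕ} {es : Edges} :
    okE d es = true ↔ (∀ e ∈ es, e.1 / d ≠ e.2 / d) ∧ (es.map (ekey d)).Nodup := by
  simp only [okE, Bool.and_eq_true, List.all_eq_true, decide_eq_true_eq]

theorem okE_cons_iff {d : ℕ} {es : Edges} (hes : okE d es = true) (p : ℕ × ℕ) :
    okE d (p :: es) = true ↔ p.1 / d ≠ p.2 / d ∧ ekey d p ∉ es.map (ekey d) := by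
  rw [okE_iff] at hes ⊢
  rw [List.forall_mem_cons, List.map_cons, List.nodup_cons]
  exact ⟨fun h => ⟨h.1.1, h.2.1⟩, fun h => ⟨⟨h.1, hes.1⟩, h.2, hes.2⟩⟩

theorem okE_swap {d : ℕ} (es : Edges) (h g : ℕ) : okE d ((h, g) :: es) = okE d ((g, h) :: es) := by
  have e : ekey d (h, g) = ekey d (g, h) := by simp only [ekey, min_comm, max_comm]
  rw [Bool.eq_iff_iff, okE_iff, okE_iff, List.forall_mem_cons, List.forall_mem_cons, List.map_cons,
    List.map_cons, e, ne_comm]

theorem okE_perm {d : ℕ} {es es' : Edges} (h : es.Perm es') : okE d es = okE d es' := by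
  rw [Bool.eq_iff_iff, okE_iff, okE_iff, (h.map _).nodup_iff]
  simp only [h.mem_iff]

namespace CombX

theorem flat_cons (e : ℕ × ℕ) (es : Edges) : flat (e :: es) = e.1 :: e.2 :: flat es := rfl

theorem flat_append (es es' : Edges) : flat (es ++ es') = flat es ++ flat es' :=
  List.flatMap_append

theorem flat_length (es : Edges) : (flat es).length = 2 * es.length := by
  induction es with
  | nil => rfl
  | cons e es ih => simp only [flat_cons, List.length_cons, ih]; ring

theorem mem_flat {es : Edges} {e : ℕ × ℕ} (he : e ∈ es) : e.1 ∈ flat es ∧ e.2 ∈ flat es :=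
  ⟨List.mem_flatMap.2 ⟨e, he, by simp⟩, List.mem_flatMap.2 ⟨e, he, by simp⟩⟩

/-- the partner of a half-edge -/
def pa : Edges → ℕ → ℕ
  | [], _ => 0
  | e :: es, k => if k = e.1 then e.2 else if k = e.2 then e.1 else pa es k

theorem pa_spec {es : Edges} (hn : (flat es).Nodup) {e : ℕ × ℕ} (he : e ∈ es) :
    pa es e.1 = e.2 ∧ pa es e.2 = e.1 := by
  induction es with
  | nil => simp at he
  | cons f es ih =>
    rw [flat_cons, List.nodup_cons, List.nodup_cons, List.mem_cons, not_or] at hn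
    obtain ⟨⟨h1, h2⟩, h3, h4⟩ := hn
    rcases List.mem_cons.1 he with rfl | he
    · simp [pa, Ne.symm h1]
    · obtain ⟨m1, m2⟩ := mem_flat he
      have a1 : e.1 ≠ f.1 := fun h => h2 (h ▸ m1)
      have a2 : e.1 ≠ f.2 := fun h => h3 (h ▸ m1)
      have a3 : e.2 ≠ f.1 := fun h => h2 (h ▸ m2)
      have a4 : e.2 ≠ f.2 := fun h => h3 (h ▸ m2)
      simpa only [pa, if_neg a1, if_neg a2, if_neg a3, if_neg a4] using ih h4 he

theorem mem_blk {d : ℕ} (hd : 0 < d) {k v : ℕ} (h : k / d = v) : k ∈ Ico (v * d) (v * d + d) := by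
  subst h
  exact mem_Ico.2 ⟨Nat.div_mul_le_self k d, Nat.lt_div_mul_add hd⟩

theorem ekey_eq {d : ℕ} {e e' : ℕ × ℕ} (h : ekey d e = ekey d e') :
    (e.1 / d = e'.1 / d ∧ e.2 / d = e'.2 / d) ∨ (e.1 / d = e'.2 / d ∧ e.2 / d = e'.1 / d) := by
  simp only [ekey, Prod.mk.injEq] at h
  omega

end CombX
open CombX

theorem forb_card {d : ℕ} (hd : 0 < d) {es : Edges} (hes : okE d es = true)
    (hn : (flat es).Nodup) (h : ℕ) (T : Finset ℕ)
    (hT : ∀ g ∈ T, ¬ okE d ((h, g) :: es) = true) : T.card ≤ d ^ 2 + d := by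
  have h1 : T ⊆ (Ico (h / d * d) (h / d * d + d)).biUnion
      (fun k => Ico (pa es k / d * d) (pa es k / d * d + d)) ∪ Ico (h / d * d) (h / d * d + d) := by
    intro g hg
    have h2 := hT g hg
    rw [okE_cons_iff hes, not_and_or, not_not, not_not] at h2
    rcases h2 with h2 | h2
    · exact mem_union_right _ (mem_blk hd h2.symm)
    · obtain ⟨e, he, h3⟩ := List.mem_map.1 h2
      obtain ⟨p1, p2⟩ := pa_spec hn he
      refine mem_union_left _ (mem_biUnion.2 ?_)
      rcases ekey_eq h3 with h4 | h4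
      · exact ⟨e.1, mem_blk hd h4.1, mem_blk hd (p1 ▸ h4.2.symm)⟩
      · exact ⟨e.2, mem_blk hd h4.2, mem_blk hd (p2 ▸ h4.1.symm)⟩
  refine (card_le_card h1).trans ((card_union_le _ _).trans (add_le_add
    ((card_biUnion_le_card_mul _ _ d fun k _ => by simp).trans_eq ?_) (by simp)))
  simp [sq]

namespace CombX

theorem mem_cands {C C' : CSt} : C' ∈ cands C ↔ ∃ p : ℕ × ℕ, p.1 ∈ C.1 ∧ p.2 ∈ C.1 ∧ p.1 ≠ p.2 ∧
    (C' = (rm C.1 p, p :: C.2) ∨ ∃ e ∈ C.2, (rm C.1 p, (p.1, e.1) :: (p.2, e.2) ::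
      C.2.filter fun e' => decide (e' ≠ e)) = C') := by
  rw [cands, List.mem_flatMap]
  refine exists_congr fun p => ?_
  rw [List.pair_mem_product (x := p.1) (y := p.2), and_assoc]
  by_cases h : p.1 = p.2
  · simp [h]
  · rw [if_neg h, List.mem_cons, List.mem_map]
    simp only [ne_eq, h, not_false_eq_true, true_and]

theorem perm_filter {es : Edges} (hn : es.Nodup) {e : ℕ × ℕ} (he : e ∈ es) :
    es.Perm (e :: es.filter fun e' => decide (e' ≠ e)) := by
  have := List.perm_cons_erase he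
  rw [hn.erase_eq_filter] at this
  simpa only [bne, ne_eq, decide_not, Bool.beq_eq_decide_eq] using this

theorem cand_spec {C C' : CSt} (h1 : C.1.Nodup) (h2 : C.2.Nodup) (h : C' ∈ cands C) :
    (C'.1 ++ flat C'.2).Perm (C.1 ++ flat C.2) ∧ C'.1.length + 2 = C.1.length := by
  obtain ⟨p, p1, p2, p3, h⟩ := mem_cands.1 h
  have h3 := rm_perm h1 p1 p2 p3
  rcases h with rfl | ⟨e, he, rfl⟩
  · refine ⟨List.Perm.trans ?_ (h3.append_right _), h3.length_eq⟩
    rw [List.perm_iff_count]
    intro a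
    simp only [flat_cons, List.count_append, List.count_cons]
    ring
  · refine ⟨List.Perm.trans ?_ (h3.append ((perm_filter h2 he).flatMap_right _).symm),
      h3.length_eq⟩
    rw [List.perm_iff_count]
    intro a
    simp only [flat, List.flatMap_cons, List.count_append, List.count_cons, List.count_nil]
    ring

theorem cand_ex {d : ℕ} (hd : 0 < d) {es : Edges} {C : CSt} (h1 : C.1.Nodup)
    (hn : (flat (C.2 ++ es)).Nodup) (hok : okE d (C.2 ++ es) = true)
    (hU : 20 * d ^ 2 ≤ C.1.length + 2 * C.2.length) (h2 : 2 ≤ C.1.length) :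
    ∃ C' ∈ cands C, okE d (C'.2 ++ es) = true := by
  obtain ⟨h, hh, g, hg, hne⟩ := one_lt_card.1
    (show 1 < C.1.toFinset.card by rwa [List.toFinset_card_of_nodup h1])
  rw [List.mem_toFinset] at hh hg
  by_cases hc : d ^ 2 + d < C.1.length
  · by_contra hcon
    refine absurd (forb_card hd hok hn h C.1.toFinset fun g hg h3 => hcon ⟨_, mem_cands.2
      ⟨(h, g), hh, List.mem_toFinset.1 hg, fun e => ((okE_cons_iff hok _).1 h3).1
        (congrArg (· / d) e), Or.inl rfl⟩, h3⟩) ?_
    rwa [List.toFinset_card_of_nodup h1, not_le]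
  have h3 : C.2.Nodup := ((okE_iff.1 hok).2.of_map _).of_append_left
  have hp : ∀ e ∈ C.2, pa (C.2 ++ es) e.1 = e.2 ∧ pa (C.2 ++ es) e.2 = e.1 :=
    fun e he => pa_spec hn (List.mem_append_left _ he)
  have key : ∀ (k : ℕ) (π : ℕ × ℕ → ℕ), Set.InjOn π C.2.toFinset →
      (C.2.toFinset.filter fun e => ¬ okE d ((k, π e) :: (C.2 ++ es)) = true).card ≤ d ^ 2 + d := by
    intro k π hπ
    rw [← card_image_of_injOn (hπ.mono (coe_subset.2 (filter_subset _ _)))]
    refine forb_card hd hok hn k _ fun g hg => ?_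
    obtain ⟨e, he, rfl⟩ := mem_image.1 hg
    exact (mem_filter.1 he).2
  have i1 : Set.InjOn Prod.fst (C.2.toFinset : Set (ℕ × ℕ)) := fun e he e' he' h => Prod.ext h (by
    rw [← (hp e (List.mem_toFinset.1 he)).1, ← (hp e' (List.mem_toFinset.1 he')).1, h])
  have i2 : Set.InjOn Prod.snd (C.2.toFinset : Set (ℕ × ℕ)) := fun e he e' he' h => Prod.ext (by
    rw [← (hp e (List.mem_toFinset.1 he)).2, ← (hp e' (List.mem_toFinset.1 he')).2, h]) h
  obtain ⟨e, he, h4⟩ := exists_mem_notMem_of_card_lt_card (t := C.2.toFinset)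
    ((card_union_le _ _).trans_lt ((add_le_add ((card_union_le _ _).trans
      (add_le_add (key h _ i1) (key g _ i2))) (key h _ i2)).trans_lt (by
        rw [List.toFinset_card_of_nodup h3]
        nlinarith)))
  simp only [mem_union, mem_filter, he, true_and, not_or, not_not, okE_cons_iff hok] at h4
  obtain ⟨⟨a1, a2⟩, a3⟩ := h4
  rw [List.mem_toFinset] at he
  refine ⟨_, mem_cands.2 ⟨(h, g), hh, hg, hne, Or.inr ⟨e, he, rfl⟩⟩, ?_⟩
  have s1 : ((C.2.filter fun e' => decide (e' ≠ e)) ++ es).Sublist (C.2 ++ es) :=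
    List.filter_sublist.append_right _
  have h5 := okE_iff.1 hok
  have h6 := h5.1 e (List.mem_append_left _ he)
  have k1 : okE d ((C.2.filter fun e' => decide (e' ≠ e)) ++ es) = true :=
    okE_iff.2 ⟨fun e he => h5.1 e (s1.subset he), h5.2.sublist (s1.map _)⟩
  have k2 := (okE_cons_iff k1 (g, e.2)).2 ⟨a2.1, fun h => a2.2 ((s1.map _).subset h)⟩
  refine (okE_cons_iff k2 (h, e.1)).2 ⟨a1.1, fun h7 => ?_⟩
  rcases List.mem_cons.1 h7 with h7 | h7
  · rcases ekey_eq h7 with h8 | h8
    · exact h6 h8.2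
    · exact a3.1 h8.1
  · exact a1.2 ((s1.map _).subset h7)

end CombX

/-- one completion step makes progress -/
theorem cstep_spec {d : ℕ} (hd : 0 < d) {es : Edges} {U : List ℕ} {C : CSt}
    (hn : (U ++ flat es).Nodup) (hC : (C.1 ++ flat C.2).Perm U) (hok : okE d (C.2 ++ es) = true)
    (hU : 20 * d ^ 2 ≤ U.length) (h2 : 2 ≤ C.1.length) :
    ((cstep d es C).1 ++ flat (cstep d es C).2).Perm U ∧ okE d ((cstep d es C).2 ++ es) = true ∧
      (cstep d es C).1.length + 2 = C.1.length := by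
  have h1 := (hC.append_right _).nodup_iff.2 hn
  rw [List.append_assoc, ← flat_append] at h1
  obtain ⟨C', h3, h4⟩ := cand_ex hd h1.of_append_left h1.of_append_right hok
    (by rwa [← hC.length_eq, List.length_append, flat_length] at hU) h2
  obtain ⟨D, hD⟩ := Option.isSome_iff_exists.1
    ((List.find?_isSome (p := fun C' : CSt => okE d (C'.2 ++ es))).2 ⟨C', h3, h4⟩)
  have h5 := cand_spec h1.of_append_left ((okE_iff.1 hok).2.of_map _).of_append_left
    (List.mem_of_find?_eq_some hD)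
  rw [cstep, hD, Option.getD_some]
  exact ⟨h5.1.trans hC, List.find?_some (p := fun C' : CSt => okE d (C'.2 ++ es)) hD, h5.2⟩

theorem phase2_spec {d m : ℕ} (hd : 0 < d) {es : Edges} {U : List ℕ}
    (hn : (U ++ flat es).Nodup) (hok : okE d es = true) (hU : 20 * d ^ 2 ≤ U.length)
    (he : Even U.length) (hm : U.length ≤ m) :
    (flat (phase2 d m U es)).Perm U ∧ okE d (phase2 d m U es ++ es) = true := by
  have key : ∀ k, ∀ C, C = (cstep d es)^[k] (U, []) → (C.1 ++ flat C.2).Perm U ∧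
      okE d (C.2 ++ es) = true ∧ C.1.length ≤ U.length - k := by
    intro k
    induction k with
    | zero => rintro C rfl; simpa [flat] using hok
    | succ k ih =>
      intro C hC
      obtain ⟨h1, h2, h3⟩ := ih _ rfl
      rw [Function.iterate_succ_apply'] at hC
      generalize (cstep d es)^[k] (U, []) = D at *
      by_cases h4 : D.1 = []
      · have : C = D := by simp [hC, cstep, cands, h4, List.product]
        exact this ▸ ⟨h1, h2, by simp [h4]⟩
      · have h5 := h1.length_eq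
        rw [List.length_append, flat_length] at h5
        have h6 := List.length_pos_iff.2 h4
        obtain ⟨a, ha⟩ := he
        obtain ⟨c1, c2, c3⟩ := cstep_spec hd hn h1 h2 hU (by omega)
        exact hC ▸ ⟨c1, c2, by omega⟩
  obtain ⟨h1, h2, h3⟩ := key m _ rfl
  rw [Nat.sub_eq_zero_of_le hm, Nat.le_zero, List.length_eq_zero_iff] at h3
  rw [h3] at h1
  exact ⟨h1, h2⟩

end Vale.Agent.P049
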