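import Vale.Agent.P049.BasA

/-! P049: spectral inequalities for one matrix. -/

namespace Vale.Agent.P049
open Matrix Finset
variable {ι : Type} [Fintype ι] [DecidableEq ι] {U : Finset ι} {q s L : ℝ} {K : Matrix ι ι ℝ}

/-- one-sided bound on all vectors -/
def Lo (s : ℝ) (K : Matrix ι ι ℝ) : Prop := ∀ φ : ι → ℝ, -(φ ⬝ᵥ φ) ≤ s * (φ ⬝ᵥ K *ᵥ φ)

namespace SpecX

theorem form_shift (hK : Ok U K) (φ : ι → ℝ) (m : ℝ) :
    (fun k => φ k - m) ⬝ᵥ K *ᵥ (fun k => φ k - m) =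
      φ ⬝ᵥ K *ᵥ φ - 2 * m * ∑ k ∈ U, φ k + m ^ 2 * U.card := by
  have r : ∀ k, ∑ j, K k j = if k ∈ U then 1 else 0 := fun k => by
    split_ifs with h
    · exact hK.row k h
    · exact sum_eq_zero fun j _ => hK.supp k j h
  have e1 : ∑ k, ∑ j, K k j * φ j = ∑ k ∈ U, φ k := by
    rw [sum_comm]
    simp only [← sum_mul, hK.symm _ _, r]
    simp
  have e2 : ∀ k, (K *ᵥ fun k => φ k - m) k = (K *ᵥ φ) k - if k ∈ U then m else 0 := fun k => by
    simp only [mulVec, dotProduct, mul_sub, sum_sub_distrib, ← sum_mul, r, ite_mul, one_mul,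
      zero_mul]
  simp only [dotProduct, e2, mul_sub, sub_mul, sum_sub_distrib, ← mul_sum, mul_ite, mul_zero,
    sum_ite_mem, univ_inter, ← sum_mul, sum_const, nsmul_eq_mul]
  simp only [mulVec, dotProduct, e1]
  ring

theorem psd_gen (hK : Ok U K) (hP : Psd U q s K) (φ : ι → ℝ) {m : ℝ}
    (hm : ∑ k ∈ U, φ k = m * U.card) : 0 ≤ ∑ k ∈ U, φ k ^ 2 - m ^ 2 * U.card ∧
      -q * (∑ k ∈ U, φ k ^ 2 - m ^ 2 * U.card) ≤ s * (φ ⬝ᵥ K *ᵥ φ - m ^ 2 * U.card) := by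
  have e : ∑ k ∈ U, (φ k - m) ^ 2 = ∑ k ∈ U, φ k ^ 2 - m ^ 2 * U.card := by
    simp only [sub_sq, sum_add_distrib, sum_sub_distrib, ← sum_mul, ← mul_sum, hm, sum_const,
      nsmul_eq_mul]
    ring
  have := hP (fun k => φ k - m) (by simp [hm, mul_comm])
  rw [e, form_shift hK, hm] at this
  exact ⟨e ▸ sum_nonneg fun _ _ => sq_nonneg _, this.trans_eq (by ring)⟩

theorem dot_row (K : Matrix ι ι ℝ) (h : ι) : K h ⬝ᵥ K h = rS K h := by
  simp only [dotProduct, rS, sq]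

theorem form3 (hK : ∀ i j, K i j = K j i) (h : ι) : K h ⬝ᵥ K *ᵥ K h = (K * K * K) h h := by
  rw [mul_assoc]
  simp only [dotProduct, mulVec, mul_apply, hK h]

structure Sp (K V : Matrix ι ι ℝ) (d : ι → ℝ) : Prop where
  l : Vᵀ * V = 1
  r : V * Vᵀ = 1
  e : K = V * diagonal d * Vᵀ

theorem spec (hK : ∀ i j, K i j = K j i) : ∃ V d, Sp K V d := by
  have h : K.IsHermitian := by ext i j; exact hK j i
  refine ⟨h.eigenvectorUnitary, h.eigenvalues, ?_, ?_, ?_⟩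
  · exact h.eigenvectorUnitary.2.1
  · exact h.eigenvectorUnitary.2.2
  · exact h.spectral_theorem

namespace Sp
variable {V : Matrix ι ι ℝ} {d : ι → ℝ} (S : Sp K V d)
include S

theorem mul (d' : ι → ℝ) :
    V * diagonal d' * Vᵀ * K = V * diagonal (fun i => d' i * d i) * Vᵀ := by
  rw [S.e, ← diagonal_mul_diagonal]
  simp only [mul_assoc]
  rw [← mul_assoc Vᵀ, S.l, one_mul]

theorem tr (d' : ι → ℝ) : trace (V * diagonal d' * Vᵀ) = ∑ i, d' i := by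
  rw [trace_mul_cycle, S.l, one_mul, trace_diagonal]

theorem k2 : K * K = V * diagonal (fun i => d i * d i) * Vᵀ := by
  rw [← S.mul, ← S.e]

theorem fE_eq {X : Matrix ι ι ℝ} {d' : ι → ℝ} (h : X = V * diagonal d' * Vᵀ) :
    fE X = ∑ i, d' i ^ 2 := by
  have h1 : Sp X V d' := ⟨S.l, S.r, h⟩
  have h2 : Xᵀ = X := by
    rw [h, transpose_mul, transpose_mul, transpose_transpose, diagonal_transpose, mul_assoc]
  have h3 : fE X = trace (X * Xᵀ) := by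
    simp only [fE, rS, trace, Matrix.diag, mul_apply, transpose_apply, sq]
  rw [h3, h2, h1.k2, S.tr]
  simp only [sq]

theorem e2 : fE K = ∑ i, d i ^ 2 := S.fE_eq S.e

theorem e3 : fT K = ∑ i, d i ^ 3 := by
  rw [fT, S.k2, S.mul, S.tr]
  exact sum_congr rfl fun _ _ => by ring

theorem e4 : fQ K = ∑ i, d i ^ 4 := by
  rw [fQ, S.fE_eq S.k2]
  exact sum_congr rfl fun _ _ => by ring

theorem e5 : trace (K * K * K * K * K) = ∑ i, d i ^ 5 := by
  rw [S.k2, S.mul, S.mul, S.mul, S.tr]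
  exact sum_congr rfl fun _ _ => by ring

theorem unit (i : ι) : Vᵀ i ⬝ᵥ Vᵀ i = 1 := by
  simpa [mul_apply, dotProduct] using congrFun (congrFun S.l i) i

theorem eig (i : ι) : K *ᵥ Vᵀ i = d i • Vᵀ i := by
  have : K * V = V * diagonal d := by rw [S.e, mul_assoc, S.l, mul_one]
  funext k
  have h := congrFun (congrFun this k) i
  rw [mul_diagonal, mul_comm] at h
  exact h

theorem form (i : ι) (X : Matrix ι ι ℝ) : (Vᵀ * X * V) i i = Vᵀ i ⬝ᵥ X *ᵥ Vᵀ i := by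
  rw [mul_assoc]
  rfl

theorem lo (hl : Lo s K) (i : ι) : -1 ≤ s * d i := by
  simpa [S.eig, S.unit] using hl (Vᵀ i)

theorem op (ho : Op K L) (i : ι) : d i ^ 2 ≤ L ^ 2 := by
  simpa [S.eig, S.unit, sq] using ho (Vᵀ i)

theorem iso (φ : ι → ℝ) : (V *ᵥ φ) ⬝ᵥ (V *ᵥ φ) = φ ⬝ᵥ φ := by
  rw [dotProduct_mulVec, vecMul_mulVec, S.l, vecMul_one]

theorem op' (h : ∀ i, d i ^ 2 ≤ L ^ 2) : Op K L := fun φ => by
  have e : φ ⬝ᵥ φ = (Vᵀ *ᵥ φ) ⬝ᵥ (Vᵀ *ᵥ φ) := by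
    rw [← S.iso (Vᵀ *ᵥ φ), mulVec_mulVec, S.r, one_mulVec]
  rw [S.e, ← mulVec_mulVec, ← mulVec_mulVec, S.iso, e, dotProduct, dotProduct, mul_sum]
  refine sum_le_sum fun i _ => ?_
  rw [mulVec_diagonal]
  nlinarith [mul_le_mul_of_nonneg_right (h i) (sq_nonneg ((Vᵀ *ᵥ φ) i))]

end Sp

/-- the trace of a product of two nonnegative forms -/
theorem trace_nonneg {X Y : Matrix ι ι ℝ} (hY : ∀ i j, Y i j = Y j i)
    (h1 : ∀ φ, 0 ≤ φ ⬝ᵥ X *ᵥ φ) (h2 : ∀ φ, 0 ≤ φ ⬝ᵥ Y *ᵥ φ) : 0 ≤ trace (X * Y) := by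
  obtain ⟨V, d, S⟩ := spec hY
  rw [S.e, ← mul_assoc, trace_mul_comm, ← mul_assoc, ← mul_assoc]
  refine sum_nonneg fun i _ => ?_
  rw [Matrix.diag, mul_diagonal, S.form]
  exact mul_nonneg (h1 _) (by simpa [S.eig, S.unit] using h2 (Vᵀ i))

end SpecX

open SpecX

theorem Psd.lo (hK : Ok U K) (hP : Psd U q s K) (hs : s = 1 ∨ s = -1) (q0 : 0 ≤ q)
    (q1 : q ≤ 1) : Lo s K := by
  intro φ
  have h0 : ∑ k ∈ U, φ k ^ 2 ≤ φ ⬝ᵥ φ := by
    simp only [dotProduct, ← sq]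
    exact sum_le_sum_of_subset_of_nonneg (subset_univ _) fun _ _ _ => sq_nonneg _
  obtain ⟨m, hm⟩ : ∃ m : ℝ, ∑ k ∈ U, φ k = m * U.card := by
    rcases U.eq_empty_or_nonempty with rfl | hU
    · exact ⟨0, by simp⟩
    · exact ⟨_, (div_mul_cancel₀ _ (by exact_mod_cast hU.card_pos.ne')).symm⟩
  obtain ⟨h1, h2⟩ := psd_gen hK hP φ hm
  have h3 : 0 ≤ m ^ 2 * U.card := by positivity
  have h4 := mul_le_mul_of_nonneg_right q1 h1
  rcases hs with rfl | rfl <;> linarith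

theorem c3_nonneg (hK : ∀ i j, K i j = K j i) (hl : Lo s K) : 0 ≤ s * fT K + fE K := by
  have := sum_le_sum fun h (_ : h ∈ univ) => hl (K h)
  simp only [form3 hK, dot_row, sum_neg_distrib, ← mul_sum] at this
  change -fE K ≤ s * fT K at this
  linarith

theorem diag3_ge (hK : ∀ i j, K i j = K j i) (hl : Lo s K) (h : ι) :
    -rS K h ≤ s * (K * K * K) h h := by
  simpa only [form3 hK, dot_row] using hl (K h)

theorem diag3_abs (hK : ∀ i j, K i j = K j i) (ho : Op K L) (hL : 0 ≤ L) (h : ι) :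
    |(K * K * K) h h| ≤ L * rS K h := by
  simpa only [form3 hK, dot_row] using ho.form hL (K h)

theorem sum_abs_diag3 (hK : ∀ i j, K i j = K j i) (hl : Lo s K) (hs : s = 1 ∨ s = -1) :
    ∑ h, |(K * K * K) h h| ≤ s * fT K + 2 * fE K := by
  have := sum_le_sum fun h (_ : h ∈ univ) =>
    show |(K * K * K) h h| ≤ s * (K * K * K) h h + 2 * rS K h by
      have h1 := diag3_ge hK hl h
      have h2 := rS_nonneg K h
      rw [abs_le]
      rcases hs with rfl | rfl <;> constructor <;> linarith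
  rwa [sum_add_distrib, ← mul_sum, ← mul_sum] at this

theorem c3_le (hK : ∀ i j, K i j = K j i) (ho : Op K L) (hL : 1 ≤ L) (hs : s = 1 ∨ s = -1) :
    s * fT K + fE K ≤ 2 * L * fE K := by
  have := sum_le_sum fun h (_ : h ∈ univ) =>
    show s * (K * K * K) h h ≤ L * rS K h by
      have h1 := abs_le.1 (diag3_abs hK ho (zero_le_one.trans hL) h)
      rcases hs with rfl | rfl <;> linarith
  rw [← mul_sum, ← mul_sum] at this
  change s * fT K ≤ L * fE K at this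
  nlinarith [mul_le_mul_of_nonneg_right hL (fE_nonneg K)]

theorem fQ_le (hK : ∀ i j, K i j = K j i) (hl : Lo s K) (hs : s = 1 ∨ s = -1) (ho : Op K L)
    (hL : 0 ≤ L) : fQ K ≤ L * (s * fT K + fE K) + fE K := by
  obtain ⟨V, d, S⟩ := spec hK
  rw [S.e2, S.e3, S.e4, mul_sum, ← sum_add_distrib, mul_sum, ← sum_add_distrib]
  refine sum_le_sum fun i _ => ?_
  have h1 := S.lo hl i
  have h2 := abs_le.1 (abs_le_of_sq_le_sq (S.op ho i) hL)
  obtain ⟨μ, hμ⟩ : ∃ μ, μ = s * d i := ⟨_, rfl⟩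
  have e : d i ^ 4 = μ ^ 4 ∧ s * d i ^ 3 = μ ^ 3 ∧ d i ^ 2 = μ ^ 2 ∧ μ ≤ L := by
    rcases hs with rfl | rfl <;> subst hμ <;> refine ⟨by ring, by ring, by ring, by linarith⟩
  rw [e.1, e.2.1, e.2.2.1]
  rw [← hμ] at h1
  rcases le_total 0 μ with h | h
  · nlinarith [mul_le_mul_of_nonneg_right e.2.2.2 (pow_nonneg h 3), mul_nonneg hL (sq_nonneg μ),
      sq_nonneg μ]
  · nlinarith [mul_nonneg hL (mul_nonneg (sq_nonneg μ) (show 0 ≤ μ + 1 by linarith)),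
      mul_nonneg (sq_nonneg μ) (mul_nonneg (show 0 ≤ μ + 1 by linarith)
        (show 0 ≤ 1 - μ by linarith))]

theorem tr5_ge (hK : ∀ i j, K i j = K j i) (hl : Lo s K) (hs : s = 1 ∨ s = -1) {θ : ℝ}
    (hθ : 0 ≤ θ) : θ ^ 2 * (s * fT K + fE K) - (θ ^ 3 + θ ^ 2 + 1) * fE K
      ≤ s * trace (K * K * K * K * K) := by
  obtain ⟨V, d, S⟩ := spec hK
  rw [S.e2, S.e3, S.e5, mul_sum, ← sum_add_distrib, mul_sum, mul_sum, mul_sum, ← sum_sub_distrib]
  refine sum_le_sum fun i _ => ?_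
  have h1 := S.lo hl i
  obtain ⟨μ, hμ⟩ : ∃ μ, μ = s * d i := ⟨_, rfl⟩
  have e : s * d i ^ 5 = μ ^ 5 ∧ s * d i ^ 3 = μ ^ 3 ∧ d i ^ 2 = μ ^ 2 := by
    rcases hs with rfl | rfl <;> subst hμ <;> refine ⟨by ring, by ring, by ring⟩
  rw [e.1, e.2.1, e.2.2]
  rw [← hμ] at h1
  have k : θ ^ 2 * μ - θ ^ 3 - 1 ≤ μ ^ 3 := by
    rcases le_total 0 μ with h | h
    · rcases le_total θ μ with h' | h'
      · nlinarith [mul_le_mul_of_nonneg_right (pow_le_pow_left₀ hθ h' 2) h, pow_nonneg hθ 3]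
      · nlinarith [mul_le_mul_of_nonneg_left h' (sq_nonneg θ), pow_nonneg h 3]
    · nlinarith [mul_nonneg (sq_nonneg θ) (neg_nonneg.2 h), pow_nonneg hθ 3,
        mul_nonneg (show 0 ≤ μ + 1 by linarith) (show 0 ≤ μ ^ 2 - μ + 1 by nlinarith)]
  nlinarith [mul_le_mul_of_nonneg_left k (sq_nonneg μ)]

theorem op_of_c3 (hK : ∀ i j, K i j = K j i) (hl : Lo s K) (hs : s = 1 ∨ s = -1) (hL : 1 ≤ L)
    (h : s * fT K + fE K ≤ L ^ 3) : Op K L := by
  obtain ⟨V, d, S⟩ := spec hK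
  refine S.op' fun i => ?_
  rw [S.e2, S.e3, mul_sum, ← sum_add_distrib] at h
  have e : ∀ i, s * d i ^ 3 + d i ^ 2 = (s * d i) ^ 2 * (s * d i + 1) := fun i => by
    rcases hs with rfl | rfl <;> ring
  have h2 := (single_le_sum (f := fun i => s * d i ^ 3 + d i ^ 2) (fun i _ => by
    rw [e]; exact mul_nonneg (sq_nonneg _) (by linarith [S.lo hl i])) (mem_univ i)).trans h
  have h3 : s * d i ≤ L := by
    refine le_of_not_gt fun h' => ?_
    have := pow_lt_pow_left₀ h' (zero_le_one.trans hL) (n := 3) (by norm_num)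
    rw [e] at h2
    nlinarith [sq_nonneg (s * d i)]
  have h4 := sq_le_sq' (by linarith [S.lo hl i]) h3
  rcases hs with rfl | rfl <;> linarith

end Vale.Agent.P049
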