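import Vale.Agent.P049.Basic
import Vale.Agent.P049.SpecA

/-! P049: spectral inequalities. -/

namespace Vale.Agent.P049
open Matrix Finset
variable {ι : Type} [Fintype ι] [DecidableEq ι] {U : Finset ι} {q s L : ℝ} {K : Matrix ι ι ℝ}

namespace SpecX

theorem tr_sand (K X : Matrix ι ι ℝ) : trace (Xᵀ * K * X) = ∑ j, Xᵀ j ⬝ᵥ K *ᵥ Xᵀ j := by
  rw [mul_assoc]
  rfl

theorem fE_cols (X : Matrix ι ι ℝ) : fE X = ∑ j, Xᵀ j ⬝ᵥ Xᵀ j := by
  simp only [fE_eq_col, dotProduct, transpose_apply, sq]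

theorem form_U (hK : Ok U K) (ψ : ι → ℝ) :
    ψ ⬝ᵥ K *ᵥ ψ = ∑ k ∈ U, ∑ j ∈ U, K k j * (ψ k * ψ j) := by
  simp only [dotProduct, mulVec, mul_sum]
  rw [← sum_subset (subset_univ U) fun k _ hk => by simp [hK.supp k _ hk]]
  refine sum_congr rfl fun k _ => ?_
  rw [← sum_subset (subset_univ U) fun j _ hj => by simp [hK.symm k j, hK.supp j _ hj]]
  exact sum_congr rfl fun j _ => by ring

theorem sum_sq_U (hK : Ok U K) : ∑ k ∈ U, ∑ j ∈ U, K k j ^ 2 = fE K := by
  rw [← hK.sum_rS]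
  exact sum_congr rfl fun k _ => sum_subset (subset_univ U) fun j _ hj => by
    simp [hK.symm k j, hK.supp j _ hj]

noncomputable def shf (U : Finset ι) (q s : ℝ) (K : Matrix ι ι ℝ) : Matrix ι ι ℝ := fun k j =>
  if k ∈ U ∧ j ∈ U then s * K k j + (if k = j then q else 0) - (s + q) / U.card else 0

theorem shf_symm (hK : Ok U K) (q s : ℝ) (k j : ι) : shf U q s K k j = shf U q s K j k := by
  simp only [shf, hK.symm k j, and_comm, eq_comm]

theorem shf_psd (hK : Ok U K) (hP : Psd U q s K) (hU : U.Nonempty) (φ : ι → ℝ) :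
    0 ≤ φ ⬝ᵥ shf U q s K *ᵥ φ := by
  have hn : (0 : ℝ) < U.card := by exact_mod_cast hU.card_pos
  have h := (psd_gen hK hP φ (div_mul_cancel₀ _ hn.ne').symm).2
  have e : φ ⬝ᵥ shf U q s K *ᵥ φ = ∑ k ∈ U, ∑ j ∈ U, (s * (K k j * (φ k * φ j))
      + (if k = j then q * φ k ^ 2 else 0) - (s + q) / U.card * (φ k * φ j)) := by
    simp only [dotProduct, mulVec, mul_sum]
    rw [← sum_subset (subset_univ U) fun k _ hk => by simp [shf, hk]]
    refine sum_congr rfl fun k hk => ?_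
    rw [← sum_subset (subset_univ U) fun j _ hj => by simp [shf, hj]]
    refine sum_congr rfl fun j hj => ?_
    simp only [shf, hk, hj, and_self, if_true]
    split_ifs with h1
    · subst h1; ring
    · ring
  rw [e, sum_congr rfl fun k hk => by
    rw [sum_sub_distrib, sum_add_distrib, sum_ite_eq, if_pos hk]]
  simp only [sum_add_distrib, sum_sub_distrib, ← mul_sum, ← sum_mul]
  simp only [mul_sum, ← form_U hK] at h ⊢
  simp only [← mul_sum] at h ⊢
  have e2 : ((∑ k ∈ U, φ k) / U.card) ^ 2 * U.card = (∑ k ∈ U, φ k) * (∑ k ∈ U, φ k) / U.card := by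
    field_simp
  rw [e2] at h
  linear_combination h

end SpecX

open SpecX

/-- a sandwich of `K` by `X` -/
theorem sandwich_ge (hl : Lo s K) (X : Matrix ι ι ℝ) :
    -fE X ≤ s * trace (Xᵀ * K * X) := by
  rw [tr_sand, fE_cols, mul_sum, ← sum_neg_distrib]
  exact sum_le_sum fun j _ => hl _

theorem sandwich_abs (ho : Op K L) (hL : 0 ≤ L) (X : Matrix ι ι ℝ) :
    |trace (Xᵀ * K * X)| ≤ L * fE X := by
  rw [tr_sand, fE_cols, mul_sum]
  exact (abs_sum_le_sum_abs _ _).trans (sum_le_sum fun j _ => ho.form hL _)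

theorem form_le_of_fE (hK : Ok U K) (hU : U.Nonempty) (hE : fE K ≤ 2) (ψ : ι → ℝ)
    (hψ : ∑ k ∈ U, ψ k = 0) : |ψ ⬝ᵥ K *ᵥ ψ| ≤ ∑ k ∈ U, ψ k ^ 2 := by
  have hn : (0 : ℝ) < U.card := by exact_mod_cast hU.card_pos
  have e1 : ψ ⬝ᵥ K *ᵥ ψ = ∑ p ∈ U ×ˢ U, (K p.1 p.2 - 1 / U.card) * (ψ p.1 * ψ p.2) := by
    rw [form_U hK, sum_product]
    simp only [sub_mul, sum_sub_distrib, ← mul_sum, hψ, mul_zero, sub_zero]
  have e2 : ∑ p ∈ U ×ˢ U, (K p.1 p.2 - 1 / U.card) ^ 2 ≤ 1 := by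
    have := sum_sq_U hK
    simp only [sum_product, sub_sq, sum_add_distrib, sum_sub_distrib, ← sum_mul, ← mul_sum,
      hK.sum_all, sum_const, nsmul_eq_mul, this, card_product, Nat.cast_mul]
    field_simp
    linarith
  have e3 : ∑ p ∈ U ×ˢ U, (ψ p.1 * ψ p.2) ^ 2 = (∑ k ∈ U, ψ k ^ 2) ^ 2 := by
    rw [sum_product, sq (∑ k ∈ U, ψ k ^ 2), sum_mul_sum]
    simp only [mul_pow]
  refine abs_le_of_sq_le_sq ?_ (sum_nonneg fun _ _ => sq_nonneg _)
  rw [e1]
  refine (sum_mul_sq_le_sq_mul_sq _ _ _).trans ?_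
  rw [e3]
  exact mul_le_of_le_one_left (sq_nonneg _) e2

theorem entry_le (hK : Ok U K) (hP : Psd U q s K) (hs : s = 1 ∨ s = -1) (q0 : 0 ≤ q) (k j : ι) :
    |K k j| ≤ q + 2 / U.card + (|K k k| + |K j j|) / 2 := by
  have h0 : (0 : ℝ) ≤ 2 / U.card := by positivity
  have a1 := abs_le.1 (le_refl |K k k|)
  have a2 := abs_le.1 (le_refl |K j j|)
  by_cases hk : k ∈ U
  swap
  · rw [hK.supp k j hk, abs_zero]; positivity
  by_cases hj : j ∈ U
  swap
  · rw [hK.symm k j, hK.supp j k hj, abs_zero]; positivity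
  by_cases hkj : k = j
  · subst hkj; linarith
  have hn : (0 : ℝ) < U.card := by exact_mod_cast card_pos.2 ⟨k, hk⟩
  have key : ∀ t m : ℝ, t ^ 2 = 1 → 1 + t = m * U.card →
      -q * (2 - m ^ 2 * U.card) ≤ s * (K k k + K j j + 2 * t * K k j - m ^ 2 * U.card) := by
    intro t m ht hm
    have := (psd_gen hK hP (Pi.single k 1 + Pi.single j t) (m := m)
      (by simp [sum_add_distrib, hk, hj, hm])).2
    have e : ∑ l ∈ U, (Pi.single k 1 + Pi.single j t : ι → ℝ) l ^ 2 = 2 := by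
      rw [sum_congr rfl (g := (Pi.single k 1 + Pi.single j 1 : ι → ℝ)) fun l _ => ?_]
      · simp [sum_add_distrib, hk, hj, one_add_one_eq_two]
      · by_cases h1 : l = k
        · subst h1; simp [hkj]
        · by_cases h2 : l = j
          · subst h2; simp [h1, ht]
          · simp [h1, h2]
    rw [e] at this
    refine this.trans_eq ?_
    simp only [mulVec_add, dotProduct_add, add_dotProduct, single_dotProduct, mulVec_single,
      Pi.smul_apply, col_apply, MulOpposite.smul_eq_mul_unop, MulOpposite.unop_op, hK.symm j k]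
    linear_combination s * K j j * ht
  have k1 := key (-1) 0 (by norm_num) (by simp)
  have k2 := key 1 (2 / U.card) (by norm_num) (by field_simp; norm_num)
  rw [show (2 / U.card : ℝ) ^ 2 * U.card = 2 * (2 / U.card) by field_simp] at k2
  have k3 := mul_nonneg q0 h0
  rw [abs_le]
  rcases hs with rfl | rfl <;> constructor <;> linarith

theorem trace_mul_le {A B : Matrix ι ι ℝ} (hA : Ok U A) (hB : Ok U B) (hPA : Psd U q s A)
    (hPB : Psd U q (-s) B) (hs : s = 1 ∨ s = -1) (q0 : 0 ≤ q) (hU : U.Nonempty) :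
    trace (A * B) ≤ q ^ 2 * U.card + q * (|fP A| + |fP B|) + 1 := by
  have hn : (0 : ℝ) < U.card := by exact_mod_cast hU.card_pos
  have h := trace_nonneg (shf_symm hB q (-s)) (shf_psd hA hPA hU) (shf_psd hB hPB hU)
  have e0 : trace (A * B) = ∑ k ∈ U, ∑ j ∈ U, A k j * B k j := by
    simp only [trace, Matrix.diag, mul_apply]
    rw [← sum_subset (subset_univ U) fun k _ hk => by simp [hA.supp k _ hk]]
    refine sum_congr rfl fun k _ => ?_
    rw [← sum_subset (subset_univ U) fun j _ hj => by rw [hB.supp j _ hj, mul_zero]]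
    simp only [hB.symm k]
  have e1 : trace (shf U q s A * shf U q (-s) B) = ∑ k ∈ U, ∑ j ∈ U,
      (s * A k j + (if k = j then q else 0) - (s + q) / U.card) *
        (-s * B k j + (if k = j then q else 0) - (-s + q) / U.card) := by
    simp only [trace, Matrix.diag, mul_apply]
    rw [← sum_subset (subset_univ U) fun k _ hk => by simp [shf, hk]]
    refine sum_congr rfl fun k hk => ?_
    rw [← sum_subset (subset_univ U) fun j _ hj => by simp [shf, hj]]
    refine sum_congr rfl fun j hj => ?_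
    rw [shf_symm hB q (-s) j k]
    simp only [shf, hk, hj, and_self, if_true]
  have e2 : ∀ k ∈ U, ∑ j ∈ U, (s * A k j + (if k = j then q else 0) - (s + q) / U.card) *
        (-s * B k j + (if k = j then q else 0) - (-s + q) / U.card) =
      -(s * s) * ∑ j ∈ U, A k j * B k j + q * s * A k k - q * s * B k k + q ^ 2
        + (s * s - q ^ 2) / U.card := fun k hk => by
    have r : ∀ {K : Matrix ι ι ℝ}, Ok U K → ∑ j ∈ U, K k j = 1 := fun hK => by
      simp only [hK.symm k, hK.col_ba, if_pos hk]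
    rw [sum_congr rfl (g := fun j => -(s * s) * (A k j * B k j)
      - s * (-s + q) / U.card * A k j + s * (s + q) / U.card * B k j
      + (s + q) * (-s + q) / U.card ^ 2
      + if k = j then q * s * A k j - q * s * B k j + q ^ 2 - 2 * q ^ 2 / U.card else 0)
      fun j _ => by split_ifs <;> ring]
    simp only [sum_add_distrib, sum_sub_distrib, ← mul_sum, r hA, r hB, sum_ite_eq, if_pos hk,
      sum_const, nsmul_eq_mul]
    field_simp
    ring
  rw [e1, sum_congr rfl e2] at h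
  simp only [sum_add_distrib, sum_sub_distrib, ← mul_sum, hA.sum_diag, hB.sum_diag, ← e0,
    sum_const, nsmul_eq_mul] at h
  rw [mul_div_cancel₀ _ hn.ne'] at h
  have a1 := mul_le_mul_of_nonneg_left (le_abs_self (fP A)) q0
  have a2 := mul_le_mul_of_nonneg_left (neg_le_abs (fP A)) q0
  have a3 := mul_le_mul_of_nonneg_left (le_abs_self (fP B)) q0
  have a4 := mul_le_mul_of_nonneg_left (neg_le_abs (fP B)) q0
  have a5 := sq_nonneg q
  rcases hs with rfl | rfl <;> linarith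

namespace Ctx
variable (c : Ctx ι)
theorem q1_sp : c.q ≤ 1 := by nlinarith [c.q2]

theorem loA : Lo c.s c.A := by
  exact c.sA.psd.lo c.sA.ok c.hs c.q0 c.q1_sp
theorem c3_bd : 0 ≤ c.c3 ∧ c.c3 ≤ c.Tb := by
  exact ⟨c3_nonneg c.sA.ok.symm c.loA, c.sA.Tb⟩
theorem fR_le : fR c.A ≤ 52 / 100 * fE c.A + c.N / c.r ^ 2 := by
  have hr : (10 : ℝ) ^ 50 ≤ c.r := c.good.hr
  have hr0 := c.good.r_pos
  have hN : (1000 : ℝ) ≤ c.N := le_trans (le_trans (by linarith)
    (le_self_pow₀ (by linarith) (by norm_num))) c.good.N_ge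
  have h1 : 2 / c.N ≤ 2 / 1000 := by gcongr
  have h0 : 0 ≤ 2 / c.N := by positivity
  have hq : (c.q + 2 / c.N) ^ 2 ≤ 505 / 1000 := by nlinarith [c.q2, c.q1_sp, c.q0]
  have h2 : ∀ k j, c.A k j ^ 4 ≤ 52 / 100 * c.A k j ^ 2
      + 26 * (c.A k k ^ 2 * c.A k j ^ 2) + 26 * (c.A j j ^ 2 * c.A j k ^ 2) := fun k j => by
    have h3 := entry_le c.sA.ok c.sA.psd c.hs c.q0 k j
    rw [c.hN] at h3
    have h4 := pow_le_pow_left₀ (abs_nonneg _) h3 2
    rw [sq_abs] at h4
    have h5 : c.A k j ^ 2 ≤ 52 / 100 + 26 * c.A k k ^ 2 + 26 * c.A j j ^ 2 := by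
      nlinarith [sq_abs (c.A k k), sq_abs (c.A j j), sq_nonneg (|c.A k k| - |c.A j j|),
        sq_nonneg ((c.q + 2 / c.N) - 50 * ((|c.A k k| + |c.A j j|) / 2))]
    rw [c.sA.ok.symm j k]
    nlinarith [mul_le_mul_of_nonneg_right h5 (sq_nonneg (c.A k j))]
  have h3 := sum_le_sum fun k (_ : k ∈ univ) => sum_le_sum fun j (_ : j ∈ univ) => h2 k j
  simp only [sum_add_distrib, ← mul_sum] at h3
  rw [sum_comm (f := fun k j => c.A j j ^ 2 * c.A j k ^ 2)] at h3
  simp only [← mul_sum] at h3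
  have h4 : ∑ k, c.A k k ^ 2 * ∑ j, c.A k j ^ 2 ≤ c.Vb * (c.r * c.sN) :=
    (sum_le_sum fun k _ => mul_le_mul_of_nonneg_left (c.sA.rS_le c.good k) (sq_nonneg _)).trans
      (by rw [← sum_mul]; exact mul_le_mul_of_nonneg_right c.sA.Vb (mul_pos hr0 c.good.sN_pos).le)
  have h5 : 52 * (c.Vb * (c.r * c.sN)) ≤ c.N / c.r ^ 2 := by
    rw [le_div_iff₀ (by positivity), ← c.good.sq]
    have a1 : 52 * c.r ^ 3 ≤ c.r ^ 22 := by
      calc _ ≤ c.r * c.r ^ 3 := by gcongr; linarith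
        _ = c.r ^ 4 := by ring
        _ ≤ _ := pow_le_pow_right₀ (by linarith) (by norm_num)
    have a2 := mul_le_mul_of_nonneg_right a1 c.good.V0.le
    have a3 := mul_le_mul_of_nonneg_right (a2.trans c.good.Vb_le) c.good.sN_pos.le
    linarith
  change fR c.A ≤ 52 / 100 * fE c.A + _ + _ at h3
  linarith
theorem fR_le' : fR c.A ≤ 53 / 100 * c.N := by
  have hr : (10 : ℝ) ^ 50 ≤ c.r := c.good.hr
  have hN : (1000 : ℝ) ≤ c.N := le_trans (le_trans (by linarith)
    (le_self_pow₀ (by linarith) (by norm_num))) c.good.N_ge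
  have h1 : c.N / c.r ^ 2 ≤ c.N / 1000 := by
    gcongr
    nlinarith
  linarith [c.fR_le, c.sA.E1]
theorem trAB_le : trace (c.A * c.B) ≤ c.N / 2 + 2 * c.Pa + 1 := by
  have hN := c.good.N_pos
  have h := trace_mul_le c.sA.ok c.sB.ok c.sA.psd c.sB.psd c.hs c.q0
    (card_pos.1 (by rw [← c.hN] at hN; exact_mod_cast hN))
  rw [c.hN] at h
  have h1 := mul_le_mul_of_nonneg_right c.q2 hN.le
  have h2 := mul_le_of_le_one_left (add_nonneg (abs_nonneg (fP c.A)) (abs_nonneg (fP c.B))) c.q1_sp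
  linarith [c.sA.Pa, c.sB.Pa]
theorem fQ_bd : fQ c.A ≤ 3 * c.L * c.Tb ∧ fQ c.A ≤ c.Qb := by
  have hr : (10 : ℝ) ^ 50 ≤ c.r := c.good.hr
  have hL := c.good.L1
  have hN := c.good.N_pos
  have hE := c.sA.E2 c.good
  refine ⟨?_, le_min ?_ ?_⟩
  · have h1 := fQ_le c.sA.ok.symm c.loA c.hs c.sA.op (by linarith)
    have h2 := mul_le_mul_of_nonneg_left c.sA.Tb (zero_le_one.trans hL)
    have h3 : c.N ≤ c.Tb :=
      (le_mul_of_one_le_left hN.le (one_le_pow₀ (by linarith))).trans c.good.MT2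
    have h4 := le_mul_of_one_le_left (hN.le.trans h3) hL
    linarith
  · have := mul_le_mul_of_nonneg_left hE (sq_nonneg c.L)
    linarith [c.sA.op.left c.A, show fQ c.A = fE (c.A * c.A) from rfl]
  · refine (fE_mul_le _ _).trans ?_
    rw [← sq]
    exact pow_le_pow_left₀ (fE_nonneg _) c.sA.Eb 2
theorem f6_bd : fE (c.A * c.A * c.A) ≤ c.L ^ 2 * fQ c.A ∧ c.L ^ 2 * fQ c.A ≤ 3 * c.Tb ^ 2 := by
  refine ⟨c.sA.op.right c.sA.ok.symm _, ?_⟩
  have h0 := zero_le_one.trans c.good.L1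
  have h1 := mul_le_mul_of_nonneg_left c.fQ_bd.1 (sq_nonneg c.L)
  have h2 := mul_le_mul_of_nonneg_right c.good.MT1 ((pow_nonneg h0 3).trans c.good.MT1)
  linarith
end Ctx

end Vale.Agent.P049
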