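import Vale.Agent.P049.TrA
import Vale.Agent.P049.Spec

/-! P049: the dual inequality, easy parts. -/

namespace Vale.Agent.P049
open Matrix Finset
variable {ι : Type} [Fintype ι] [DecidableEq ι] {U : Finset ι} {q s M : ℝ} {K K' : Matrix ι ι ℝ}
  {y : ι → ℝ}

namespace DualAux

theorem form_nonpos (D : Matrix ι ι ℝ) (hs : ∀ i j, D i j = D j i) (hr : ∀ i, ∑ j, D i j = 0)
    (h0 : ∀ k j, k ≠ j → 0 ≤ D k j) (ψ : ι → ℝ) : ∑ k, ∑ j, ψ k * (D k j * ψ j) ≤ 0 := by
  have h1 : 0 ≤ ∑ k, ∑ j, D k j * (ψ k - ψ j) ^ 2 := by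
    refine sum_nonneg fun k _ => sum_nonneg fun j _ => ?_
    by_cases hkj : k = j
    · simp [hkj]
    · exact mul_nonneg (h0 k j hkj) (sq_nonneg _)
  have h2 : ∑ k, ∑ j, D k j * ψ k ^ 2 = 0 := by
    refine sum_eq_zero fun k _ => ?_
    rw [← sum_mul, hr, zero_mul]
  have h3 : ∑ k, ∑ j, D k j * ψ j ^ 2 = 0 := by
    rw [sum_comm]
    refine sum_eq_zero fun k _ => ?_
    rw [← sum_mul, sum_congr rfl fun i _ => hs i k, hr, zero_mul]
  have h4 : ∑ k, ∑ j, D k j * (ψ k - ψ j) ^ 2 = ∑ k, ∑ j, D k j * ψ k ^ 2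
      + ∑ k, ∑ j, D k j * ψ j ^ 2 - 2 * ∑ k, ∑ j, ψ k * (D k j * ψ j) := by
    simp only [mul_sum, ← sum_add_distrib, ← sum_sub_distrib]
    refine sum_congr rfl fun k _ => sum_congr rfl fun j _ => by ring
  linarith

theorem list_a (es : List (ℝ × ℝ)) :
    (es.map fun p => 2 * p.1 * p.2).sum ≤ (es.map fun p => p.1 ^ 2 + p.2 ^ 2).sum := by
  induction es with
  | nil => simp
  | cons p es ih =>
    simp only [List.map_cons, List.sum_cons]
    nlinarith [sq_nonneg (p.1 - p.2)]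

theorem list_b (es : List (ℝ × ℝ)) (t : ℝ) :
    2 * t * (es.map fun p => p.1 + p.2).sum ≤ es.length * t ^ 2
      + (es.map fun p => p.1 ^ 2 + p.2 ^ 2).sum + (es.map fun p => 2 * p.1 * p.2).sum := by
  induction es with
  | nil => simp
  | cons p es ih =>
    simp only [List.map_cons, List.sum_cons, List.length_cons, Nat.cast_add, Nat.cast_one]
    nlinarith [sq_nonneg (p.1 + p.2 - t)]

end DualAux

theorem J_psd (q2 : q ^ 2 < 1) (H : Jv U q s K (fun _ => 0) 0) : Psd U q s K := by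
  intro ψ hψ
  have h := H ψ hψ
  have hq : 0 < 1 - q ^ 2 := by linarith
  simp only [mul_zero, sum_const_zero, ne_eq, OfNat.ofNat_ne_zero, not_false_eq_true, zero_pow,
    zero_div, sub_self, zero_add] at h
  have := (div_nonneg_iff.1 h).resolve_right fun h' => absurd h'.2 (not_le.2 hq)
  linarith [this.1]

theorem J_round (q2 : q ^ 2 < 1) (hK : Ok U K) (hK' : Ok U K')
    (hle : ∀ k j, k ≠ j → s * K' k j ≤ s * K k j) (H : Jv U q s K y M) : Jv U q s K' y M := by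
  intro ψ hψ
  refine (H ψ hψ).trans ?_
  have hq : 0 < 1 - q ^ 2 := by linarith
  have key := DualAux.form_nonpos (fun k j => s * K k j - s * K' k j)
    (fun i j => by simp only [hK.symm i j, hK'.symm i j])
    (fun i => by
      simp only [sum_sub_distrib, ← mul_sum]
      by_cases hi : i ∈ U
      · rw [hK.row i hi, hK'.row i hi, sub_self]
      · simp [hK.supp i _ hi, hK'.supp i _ hi])
    (fun k j hkj => sub_nonneg.2 (hle k j hkj)) ψ
  have e : ∑ k, ∑ j, ψ k * ((s * K k j - s * K' k j) * ψ j)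
      = s * (ψ ⬝ᵥ K *ᵥ ψ) - s * (ψ ⬝ᵥ K' *ᵥ ψ) := by
    simp only [dotProduct, mulVec, mul_sum, ← sum_sub_distrib]
    refine sum_congr rfl fun k _ => sum_congr rfl fun j _ => by ring
  rw [e] at key
  exact add_le_add le_rfl (div_le_div_of_nonneg_right (by linarith) hq.le)

theorem J_final (q0 : 0 ≤ q) (q2 : q ^ 2 < 1) (hs : s = 1 ∨ s = -1) (hK : Ok U K)
    (hU : U.Nonempty) (hE : fE K ≤ 2) (H : Jv U q s K y M) (es : List (ℝ × ℝ))
    (h1 : ∑ k ∈ U, y k = (es.map fun p => p.1 + p.2).sum)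
    (h2 : ∑ k ∈ U, y k ^ 2 = (es.map fun p => p.1 ^ 2 + p.2 ^ 2).sum)
    (h3 : U.card = 2 * es.length) :
    s * (es.map fun p => 2 * p.1 * p.2).sum ≤ M := by
  have hN : (0 : ℝ) < U.card := by exact_mod_cast hU.card_pos
  have hq : 0 < 1 - q ^ 2 := by linarith
  have hq1 : q < 1 := by nlinarith
  set S := ∑ k ∈ U, y k with hS
  set Q := ∑ k ∈ U, y k ^ 2 with hQ
  set N : ℝ := (U.card : ℝ) with hNd
  set ψ : ι → ℝ := fun k => (1 - q) * (y k - S / N) with hψ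
  have a1 : ∑ k ∈ U, ψ k = 0 := by
    simp only [hψ, ← mul_sum, sum_sub_distrib, sum_const, nsmul_eq_mul, ← hS, ← hNd]
    field_simp
    ring
  have a2 : ∑ k ∈ U, ψ k * y k = (1 - q) * (Q - S ^ 2 / N) := by
    have : ∀ k, ψ k * y k = (1 - q) * (y k ^ 2 - S / N * y k) := fun k => by simp only [hψ]; ring
    simp only [this, ← mul_sum, sum_sub_distrib, ← hS, ← hQ]
    ring
  have a3 : ∑ k ∈ U, ψ k ^ 2 = (1 - q) ^ 2 * (Q - S ^ 2 / N) := by
    have : ∀ k, ψ k ^ 2 = (1 - q) ^ 2 * (y k ^ 2 - 2 * (S / N) * y k + (S / N) ^ 2) :=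
      fun k => by simp only [hψ]; ring
    simp only [this, ← mul_sum, sum_add_distrib, sum_sub_distrib, sum_const, nsmul_eq_mul,
      ← hS, ← hQ, ← hNd]
    field_simp
    ring
  have a4 := form_le_of_fE hK hU hE ψ a1
  have a5 : s * (ψ ⬝ᵥ K *ᵥ ψ) ≤ ∑ k ∈ U, ψ k ^ 2 := by
    have := abs_le.1 a4
    rcases hs with h | h <;> rw [h] <;> linarith [this.1, this.2]
  have a6 := H ψ a1
  rw [← hS, ← hQ, ← hNd, a2] at a6
  have a7 : (q * ∑ k ∈ U, ψ k ^ 2 + s * (ψ ⬝ᵥ K *ᵥ ψ)) / (1 - q ^ 2)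
      ≤ (1 - q) * (Q - S ^ 2 / N) := by
    rw [div_le_iff₀ hq]
    rw [a3] at a5 ⊢
    nlinarith
  have a8 : s * S ^ 2 / N + (Q - S ^ 2 / N) ≤ M := by nlinarith
  have hL : N = 2 * es.length := by rw [hNd, h3]; push_cast; ring
  rcases hs with h | h
  · rw [h] at a8 ⊢
    have := DualAux.list_a es
    rw [← h2] at this
    have e : 1 * S ^ 2 / N + (Q - S ^ 2 / N) = Q := by ring
    linarith
  · rw [h] at a8 ⊢
    have := DualAux.list_b es (2 * S / N)
    rw [← h1, ← h2] at this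
    have hl : (es.length : ℝ) = N / 2 := by linarith
    rw [hl] at this
    have e1 : 2 * (2 * S / N) * S = 4 * (S ^ 2 / N) := by ring
    have e2 : N / 2 * (2 * S / N) ^ 2 = 2 * (S ^ 2 / N) := by field_simp
    have e3 : -1 * S ^ 2 / N = -(S ^ 2 / N) := by ring
    linarith

end Vale.Agent.P049
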