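import Vale.Agent.P049.TrA
import Vale.Agent.P049.BasA

/-! P049: the dual inequality survives a step. -/

namespace Vale.Agent.P049
open Matrix Finset
variable {ι : Type} [Fintype ι] [DecidableEq ι] {U : Finset ι} {q s M : ℝ} {K : Matrix ι ι ℝ}
  {y : ι → ℝ}

/-- an indefinite binary form has a nonpositive value on every line -/
theorem indef_line {a b c : ℝ} (h : a * c - b ^ 2 < 0) (η : ℝ) :
    ∃ t : ℝ, a * t ^ 2 + 2 * b * t * η + c * η ^ 2 ≤ 0 := by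
  by_cases ha : a = 0
  · have hb : b ≠ 0 := by
      rintro rfl
      simp [ha] at h
    refine ⟨-c * η / (2 * b), le_of_eq ?_⟩
    rw [ha]
    field_simp
    ring
  · have hr : √(b ^ 2 - a * c) ^ 2 = b ^ 2 - a * c := Real.sq_sqrt (by linarith)
    refine ⟨η * (√(b ^ 2 - a * c) - b) / a, le_of_eq ?_⟩
    generalize √(b ^ 2 - a * c) = r at hr
    field_simp
    linear_combination η ^ 2 * hr

namespace DualSAux

theorem form_U (hK : Ok U K) (ψ : ι → ℝ) :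
    ψ ⬝ᵥ K *ᵥ ψ = ∑ k ∈ U, ∑ j ∈ U, ψ k * (K k j * ψ j) := by
  simp only [dotProduct, mulVec, mul_sum]
  symm
  rw [sum_subset (subset_univ U) fun k _ hk => by simp [hK.supp k _ hk]]
  refine sum_congr rfl fun k _ => ?_
  exact sum_subset (subset_univ U) fun j _ hj => by simp [hK.symm k j, hK.supp j _ hj]

theorem shift (hK : Ok U K) (ρ : ι → ℝ) (c : ℝ) :
    ∑ k ∈ U, ∑ j ∈ U, (ρ k + c) * (K k j * (ρ j + c))
      = ∑ k ∈ U, ∑ j ∈ U, ρ k * (K k j * ρ j) + 2 * c * ∑ k ∈ U, ρ k + c ^ 2 * U.card := by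
  have h1 : ∑ k ∈ U, ∑ j ∈ U, ρ k * K k j = ∑ k ∈ U, ρ k := by
    refine sum_congr rfl fun k hk => ?_
    rw [← mul_sum, sum_congr rfl fun j _ => hK.symm k j, hK.col_ba, if_pos hk, mul_one]
  have h2 : ∑ k ∈ U, ∑ j ∈ U, K k j * ρ j = ∑ k ∈ U, ρ k := by
    rw [sum_comm]
    refine sum_congr rfl fun k hk => ?_
    rw [← sum_mul, hK.col_ba, if_pos hk, one_mul]
  have h3 := hK.sum_all
  have h4 : ∑ k ∈ U, ∑ j ∈ U, (ρ k + c) * (K k j * (ρ j + c))
      = ∑ k ∈ U, ∑ j ∈ U, ρ k * (K k j * ρ j) + c * ∑ k ∈ U, ∑ j ∈ U, ρ k * K k j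
        + c * ∑ k ∈ U, ∑ j ∈ U, K k j * ρ j + c ^ 2 * ∑ k ∈ U, ∑ j ∈ U, K k j := by
    simp only [mul_sum, ← sum_add_distrib]
    refine sum_congr rfl fun k _ => sum_congr rfl fun j _ => by ring
  rw [h4, h1, h2, h3]
  ring

omit [Fintype ι] in
theorem split {h g : ι} (hh : h ∈ U) (hg : g ∈ U) (hne : h ≠ g) (f : ι → ℝ) :
    ∑ k ∈ U, f k = f h + f g + ∑ k ∈ (U.erase h).erase g, f k := by
  rw [← add_sum_erase U f hh, ← add_sum_erase (U.erase h) f (mem_erase.2 ⟨hne.symm, hg⟩)]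
  ring

theorem core {x x' γ u w e mu nu : ℝ} (q0 : 0 ≤ q) (q2 : q ^ 2 < 1) (hs : s = 1 ∨ s = -1)
    (hl : 0 < (1 - γ) ^ 2 - x * x') (hnu : 0 ≤ nu) : ∃ l1 l2 : ℝ,
    0 ≤ (s + q) * e ^ 2 / 2 - (s - q) * nu * mu ^ 2 + 2 * l1 * e + 2 * l2 * nu * mu
      - (q * (2 * l1 ^ 2 + nu * l2 ^ 2) + s * ((nu - 2) * l2 ^ 2 + 2 * (l2 + l1) * u
        + 2 * (l2 - l1) * w + (l2 + l1) ^ 2 * x + 2 * (l2 + l1) * (l2 - l1) * γ
        + (l2 - l1) ^ 2 * x' - (x' / ((1 - γ) ^ 2 - x * x') * u ^ 2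
          + 2 * ((1 - γ) / ((1 - γ) ^ 2 - x * x')) * u * w
          + x / ((1 - γ) ^ 2 - x * x') * w ^ 2))) / (1 - q ^ 2) := by
  have hq : 0 < 1 - q ^ 2 := by linarith
  have hq1 : q < 1 := by nlinarith
  set L := (1 - γ) ^ 2 - x * x' with hL
  set a0 := (x' * u + (1 - γ) * w) / L with ha0
  set b0 := ((1 - γ) * u + x * w) / L with hb0
  have hu : u = (1 - γ) * b0 - x * a0 := by
    rw [ha0, hb0]
    field_simp
    rw [hL]
    ring
  have hw : w = (1 - γ) * a0 - x' * b0 := by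
    rw [ha0, hb0]
    field_simp
    rw [hL]
    ring
  have hz : x' / L * u ^ 2 + 2 * ((1 - γ) / L) * u * w + x / L * w ^ 2 = a0 * u + b0 * w := by
    rw [ha0, hb0]
    field_simp
    ring
  rw [hz]
  clear_value a0 b0
  have key : ∀ l1 l2 : ℝ, q * (2 * l1 ^ 2 + nu * l2 ^ 2) + s * ((nu - 2) * l2 ^ 2
      + 2 * (l2 + l1) * u + 2 * (l2 - l1) * w + (l2 + l1) ^ 2 * x
      + 2 * (l2 + l1) * (l2 - l1) * γ + (l2 - l1) ^ 2 * x' - (a0 * u + b0 * w))
      = 2 * (q - s) * l1 ^ 2 + (s + q) * nu * l2 ^ 2 + s * (x * (l2 + l1 - a0) ^ 2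
        - 2 * (1 - γ) * (l2 + l1 - a0) * (l2 - l1 - b0) + x' * (l2 - l1 - b0) ^ 2) := by
    intro l1 l2
    rw [hu, hw]
    ring
  simp only [key]
  rcases hs with rfl | rfl
  · obtain ⟨t, ht⟩ := indef_line (a := x + x' + 2 * (1 - γ)) (b := x - x')
      (c := x + x' - 2 * (1 - γ)) (by nlinarith) ((2 * ((1 - q) * mu) - a0 - b0) / 2)
    refine ⟨t + (a0 - b0) / 2, (1 - q) * mu, ?_⟩
    set l1 := t + (a0 - b0) / 2 with hl1
    set G := x * ((1 - q) * mu + l1 - a0) ^ 2 - 2 * (1 - γ) * ((1 - q) * mu + l1 - a0)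
      * ((1 - q) * mu - l1 - b0) + x' * ((1 - q) * mu - l1 - b0) ^ 2 with hG
    have hG0 : G ≤ 0 := by
      refine le_of_eq_of_le ?_ ht
      rw [hG, hl1]
      ring
    clear_value G l1
    rw [sub_nonneg, div_le_iff₀ hq]
    have : 0 ≤ (1 - q) * ((1 + q) * e + 2 * l1) ^ 2 := by
      have : 0 ≤ 1 - q := by linarith
      positivity
    linarith
  · obtain ⟨t, ht⟩ := indef_line (a := -(x + x' - 2 * (1 - γ))) (b := -(x - x'))
      (c := -(x + x' + 2 * (1 - γ))) (by nlinarith) ((2 * ((1 - q) * e / 2) - a0 + b0) / 2)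
    refine ⟨(1 - q) * e / 2, t + (a0 + b0) / 2, ?_⟩
    set l2 := t + (a0 + b0) / 2 with hl2
    set G := x * (l2 + (1 - q) * e / 2 - a0) ^ 2 - 2 * (1 - γ) * (l2 + (1 - q) * e / 2 - a0)
      * (l2 - (1 - q) * e / 2 - b0) + x' * (l2 - (1 - q) * e / 2 - b0) ^ 2 with hG
    have hG0 : -G ≤ 0 := by
      refine le_of_eq_of_le ?_ ht
      rw [hG, hl2]
      ring
    clear_value G l2
    rw [sub_nonneg, div_le_iff₀ hq]
    have : 0 ≤ (1 - q) * nu * ((1 + q) * mu + l2) ^ 2 := by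
      have : 0 ≤ 1 - q := by linarith
      positivity
    linarith

end DualSAux

theorem J_step (q0 : 0 ≤ q) (q2 : q ^ 2 < 1) (hs : s = 1 ∨ s = -1) (hK : Ok U K) {h g : ι}
    (hh : h ∈ U) (hg : g ∈ U) (hne : h ≠ g) (h3 : 3 ≤ U.card) (hl : 0 < lam K h g)
    (H : Jv U q s K y M) :
    Jv ((U.erase h).erase g) q s (step K h g) y (M - 2 * s * y h * y g) := by
  intro φ hφ
  have hK' := hK.step hh hg hne hl.ne'
  set V := (U.erase h).erase g with hV
  have hq : 0 < 1 - q ^ 2 := by linarith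
  have hVc : (U.card : ℝ) = V.card + 2 := by
    have := DualSAux.split hh hg hne fun _ => 1
    simp only [sum_const, nsmul_eq_mul, mul_one, ← hV] at this
    linarith
  have hn : (0 : ℝ) < V.card := by
    have : (3 : ℝ) ≤ U.card := by exact_mod_cast h3
    linarith
  have hm : ∀ k ∈ V, k ≠ h ∧ k ≠ g := fun k hk => by
    rw [hV, mem_erase, mem_erase] at hk
    exact ⟨hk.2.1, hk.1⟩
  set n : ℝ := (V.card : ℝ) with hnd
  set u := ∑ k ∈ V, φ k * K k h with hu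
  set w := ∑ k ∈ V, φ k * K k g with hw
  set S := ∑ k ∈ V, y k with hS
  set Q := ∑ k ∈ V, y k ^ 2 with hQ
  set B := ∑ k ∈ V, ∑ j ∈ V, φ k * (K k j * φ j) with hB
  obtain ⟨l1, l2, hc⟩ := DualSAux.core (x := K h h) (x' := K g g) (γ := K h g) (u := u) (w := w)
    (e := y h - y g) (mu := (y h + y g) / 2 - S / n) (nu := 2 * n / (n + 2)) q0 q2 hs hl
    (by positivity)
  have e1 : φ ⬝ᵥ step K h g *ᵥ φ = B + (ap K h g * u ^ 2 + 2 * be K h g * u * w
      + al K h g * w ^ 2) := by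
    rw [DualSAux.form_U hK']
    have : ∀ k ∈ V, ∀ j ∈ V, φ k * (step K h g k j * φ j) = φ k * (K k j * φ j)
        + ap K h g * ((φ k * K k h) * (φ j * K j h)) + be K h g * ((φ k * K k h) * (φ j * K j g))
        + al K h g * ((φ k * K k g) * (φ j * K j g))
        + be K h g * ((φ k * K k g) * (φ j * K j h)) := fun k hk j hj => by
      have h1 := hm k hk
      have h2 := hm j hj
      simp only [step, full, va, vb, h1.1, h1.2, h2.1, h2.2, or_self, if_false]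
      ring
    rw [sum_congr rfl fun k hk => sum_congr rfl fun j hj => this k hk j hj]
    simp only [sum_add_distrib, ← mul_sum, ← sum_mul, ← hu, ← hw]
    simp only [hB, mul_sum]
    ring
  set c : ℝ := -2 * l2 / (n + 2) with hcd
  set ρ : ι → ℝ := fun k => if k = h then l2 + l1 else if k = g then l2 - l1 else φ k with hρ
  have r1 : ρ h = l2 + l1 := by simp [hρ]
  have r2 : ρ g = l2 - l1 := by simp [hρ, hne.symm]
  have r3 : ∀ k ∈ V, ρ k = φ k := fun k hk => by simp [hρ, (hm k hk).1, (hm k hk).2]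
  have s0 : ∑ k ∈ U, ρ k = 2 * l2 := by
    rw [DualSAux.split hh hg hne, ← hV, sum_congr rfl r3, hφ, r1, r2]
    ring
  have s1 : ∑ k ∈ U, (ρ k + c) = 0 := by
    rw [sum_add_distrib, s0, sum_const, nsmul_eq_mul, hVc, hcd]
    field_simp
    ring
  have s2 : ∑ k ∈ U, y k = y h + y g + S := DualSAux.split hh hg hne _
  have s3 : ∑ k ∈ U, y k ^ 2 = y h ^ 2 + y g ^ 2 + Q := DualSAux.split hh hg hne _
  have s4 : ∑ k ∈ U, (ρ k + c) * y k = ∑ k ∈ V, φ k * y k + (l2 + l1) * y h + (l2 - l1) * y g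
      + c * (y h + y g + S) := by
    simp only [add_mul, sum_add_distrib, ← mul_sum]
    rw [s2, DualSAux.split hh hg hne, ← hV, sum_congr rfl fun k hk => by rw [r3 k hk], r1, r2]
    ring
  have s5 : ∑ k ∈ U, (ρ k + c) ^ 2 = ∑ k ∈ V, φ k ^ 2 + (l2 + l1) ^ 2 + (l2 - l1) ^ 2
      + 2 * c * (2 * l2) + c ^ 2 * (n + 2) := by
    have : ∀ k, (ρ k + c) ^ 2 = ρ k ^ 2 + 2 * c * ρ k + c ^ 2 := fun k => by ring
    simp only [this, sum_add_distrib, ← mul_sum, sum_const, nsmul_eq_mul]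
    rw [s0, hVc, DualSAux.split hh hg hne, ← hV, sum_congr rfl fun k hk => by rw [r3 k hk], r1, r2]
    ring
  have s6 : (fun k => ρ k + c) ⬝ᵥ K *ᵥ (fun k => ρ k + c) = B + 2 * (l2 + l1) * u
      + 2 * (l2 - l1) * w + (l2 + l1) ^ 2 * K h h + 2 * (l2 + l1) * (l2 - l1) * K h g
      + (l2 - l1) ^ 2 * K g g + 2 * c * (2 * l2) + c ^ 2 * (n + 2) := by
    rw [DualSAux.form_U hK, DualSAux.shift hK, s0, hVc]
    have t1 : ∀ k, ∑ j ∈ U, ρ k * (K k j * ρ j) = ρ k * (K k h * (l2 + l1))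
        + ρ k * (K k g * (l2 - l1)) + ∑ j ∈ V, ρ k * (K k j * φ j) := fun k => by
      rw [DualSAux.split hh hg hne, ← hV, sum_congr rfl fun j hj => by rw [r3 j hj], r1, r2]
    have t2 : ∀ i, ∑ j ∈ V, K i j * φ j = ∑ j ∈ V, φ j * K j i := fun i =>
      sum_congr rfl fun j _ => by rw [hK.symm i j, mul_comm]
    have t3 : ∑ k ∈ V, (ρ k * (K k h * (l2 + l1)) + ρ k * (K k g * (l2 - l1))
        + ∑ j ∈ V, ρ k * (K k j * φ j)) = (l2 + l1) * u + (l2 - l1) * w + B := by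
      rw [hu, hw, hB, mul_sum, mul_sum, ← sum_add_distrib, ← sum_add_distrib]
      refine sum_congr rfl fun k hk => ?_
      rw [r3 k hk]
      ring
    simp only [t1]
    rw [DualSAux.split hh hg hne, ← hV, t3, r1, r2, ← mul_sum, ← mul_sum, t2, t2, ← hu, ← hw,
      hK.symm g h]
    ring
  have H1 := H (fun k => ρ k + c) s1
  rw [s2, s3, s4, s5, s6, hVc] at H1
  rw [e1]
  unfold ap be al lam
  set A := K g g / ((1 - K h g) ^ 2 - K h h * K g g) * u ^ 2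
    + 2 * ((1 - K h g) / ((1 - K h g) ^ 2 - K h h * K g g)) * u * w
    + K h h / ((1 - K h g) ^ 2 - K h h * K g g) * w ^ 2 with hA
  refine le_of_sub_nonneg (le_of_le_of_eq (add_nonneg hc (sub_nonneg.2 H1)) ?_)
  rw [hcd]
  field_simp
  ring

end Vale.Agent.P049
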