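import Vale.Agent.P049.InitA
import Vale.Agent.P049.SpecA

/-! P049: the initial potential. -/

namespace Vale.Agent.P049
open Matrix Finset
variable {n d : ℕ} {r q b : ℝ}

namespace InitAux

theorem half {X N Y : ℝ} (hX : 0 ≤ X) (hY : 0 ≤ Y) (hN : 0 < N) (h : Y ≤ N) :
    X / 2 ≤ X * N / (N + Y) := by
  rw [div_le_div_iff₀ (by norm_num) (by positivity)]
  nlinarith [mul_le_mul_of_nonneg_left h hX]

theorem fE_le (H : Start n d r q b) {s : ℝ} (hs : s = 1 ∨ s = -1) :
    fE (K0 n d q b s) ≤ (n * d : ℕ) := by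
  have r0 : 0 < r := lt_of_lt_of_le (by norm_num) H.facts.1
  refine (H.fE_bd hs).trans (mul_le_of_le_one_right (by positivity) ?_)
  have : 0 ≤ 1 / (2 * r ^ 4200) := by positivity
  linarith

theorem pot1_le (H : Start n d r q b) {s : ℝ} (hs : s = 1 ∨ s = -1) :
    pot1 r (n * d : ℕ) 1 s (K0 n d q b s) ≤ 315 / 1000 := by
  obtain ⟨hd, hr, -, -, -, -⟩ := InitAAux.num H
  have r50 := H.facts.1
  have r2 : 1000 ≤ r := le_trans (by norm_num) r50
  have r1 : 1 ≤ r := by linarith
  have r0 : 0 < r := by linarith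
  have hd8 : 800 * (d : ℝ) ≤ r := by nlinarith
  have n1 := H.n1
  have n2 := H.n2
  have hP := H.fP_bd hs
  have hE := H.fE_bd hs
  have hE' := fE_le H hs
  have hV := H.fV_bd hs
  have hR := H.fR_bd hs
  have hT := c3_le (s := s) (K0_ok q b s).symm (H.op_bd hs) (by linarith) hs
  have hW : fW (K0 n d q b s) ≤ (n * d : ℕ) := by
    have : ∀ k, rS (K0 n d q b s) k ^ 2 ≤ 1 := fun k => by
      have h1 := H.rS_bd hs k
      have h2 : 0 ≤ 1 / (2 * r ^ 4200) := by positivity
      exact pow_le_one₀ (rS_nonneg _ _) (by linarith)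
    refine (sum_le_sum fun k _ => this k).trans (le_of_eq ?_)
    simp only [sum_const, card_univ, Fintype.card_fin, nsmul_eq_mul, mul_one]
  have pw : ∀ {i j : ℕ}, i ≤ j → r ^ i ≤ r ^ j := fun h => pow_le_pow_right₀ r1 h
  have pw' : ∀ {i j : ℕ} {c : ℝ}, i < j → c ≤ r → c * r ^ i ≤ r ^ j := fun {i j c} h hc => by
    refine le_trans ?_ (pw (Nat.succ_le_of_lt h))
    rw [pow_succ, mul_comm]
    exact mul_le_mul_of_nonneg_left hc (by positivity)
  have hN0 : (0 : ℝ) < (n * d : ℕ) := lt_of_lt_of_le (by positivity) n1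
  generalize K0 n d q b s = K at *
  generalize ((n * d : ℕ) : ℝ) = N at *
  have hsP : s * fP K ≤ r ^ 3602 := by
    have := abs_le.1 hP
    rcases hs with rfl | rfl <;> linarith [this.1, this.2]
  have a1 : pF r s K ≤ 1 / 100 := by
    have h1 : s * fP K / r ^ 3750 ≤ 1 :=
      div_le_one_of_le₀ (hsP.trans (pw (by norm_num))) (by positivity)
    have h2 : 1 / r ≤ 1 / 100 := one_div_le_one_div_of_le (by norm_num) (by linarith)
    unfold pF
    rw [div_le_iff₀ (by linarith)]
    linarith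
  have a2 : pH r N K ≤ 1 / 100 := by
    have h1 : r ^ 4790 / 2 ≤ tH r N :=
      half (by positivity) (by positivity) hN0 ((pw (by norm_num)).trans n1)
    have h2 : 20 * r ^ 3602 ≤ r ^ 4790 := pw' (by norm_num) (by linarith)
    have h3 : 0 < tH r N := lt_of_lt_of_le (by positivity) h1
    have h4 : 10 * |fP K| ≤ tH r N := by linarith
    have h5 := pow_le_pow_left₀ (by positivity) h4 2
    rw [mul_pow, sq_abs] at h5
    unfold pH
    rw [div_le_iff₀ (pow_pos h3 2)]
    linarith
  have a3 : pG r N K ≤ 1 / 100 := by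
    have h1 : N / (2 * r ^ 4200) ≤ N + 1 - fE K := by
      have : N * (1 - 1 / (2 * r ^ 4200)) = N - N / (2 * r ^ 4200) := by ring
      linarith
    have h2 : 1 / (N + 1 - fE K) ≤ 1 / (N / (2 * r ^ 4200)) :=
      one_div_le_one_div_of_le (by positivity) h1
    have h3 : 1 / (N + 1 - fE K) - 1 / N ≤ 2 * r ^ 4200 / N := by
      rw [one_div_div] at h2
      have : 0 ≤ 1 / N := by positivity
      linarith
    refine (mul_le_mul_of_nonneg_left h3 (by positivity)).trans ?_
    have h4 : 200 * r ^ 11999 ≤ N := (pw' (by norm_num) (by linarith)).trans n1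
    rw [← mul_div_assoc, div_le_iff₀ hN0, mul_left_comm, ← pow_add]
    linarith
  have a4 : pT r N s K ≤ 1 / 100 := by
    have h1 : 800 * d * N ≤ tT r N := by
      refine le_min (mul_le_mul_of_nonneg_right ?_ hN0.le) ?_
      · exact hd8.trans (le_self_pow₀ r1 (by norm_num))
      · exact (mul_le_mul_of_nonneg_left n2 (by positivity)).trans (pw' (by norm_num) hd8)
    have h2 : 0 < tT r N := lt_of_lt_of_le (by positivity) h1
    have h3 := mul_le_mul_of_nonneg_left hE' (show (0 : ℝ) ≤ 2 * (4 * d) by positivity)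
    unfold pT
    rw [div_le_iff₀ h2]
    linarith
  have a5 : pV r N K ≤ 1 / 100 := by
    have h1 : r ^ 1900 / 2 ≤ tV r N :=
      half (by positivity) (by positivity) hN0 ((pw (by norm_num)).trans n1)
    have h2 : r ≤ r ^ 1900 := le_self_pow₀ r1 (by norm_num)
    unfold pV
    rw [div_le_iff₀ (by linarith)]
    linarith
  have a6 : pW r N 1 K ≤ 1 / 100 := by
    have h1 : 100 ≤ r ^ 2 / 2 ^ 55 := by
      rw [le_div_iff₀ (by norm_num)]
      exact le_trans (le_trans (by norm_num) r50) (le_self_pow₀ r1 (by norm_num))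
    have h2 : 100 * N ≤ tW r N 1 := by
      unfold tW
      rw [show (2 - 1 : ℝ) = 1 by norm_num, one_pow, mul_one]
      exact mul_le_mul_of_nonneg_right h1 hN0.le
    unfold pW
    rw [div_le_iff₀ (by linarith)]
    linarith
  have a7 : pR r N 1 K ≤ 255 / 1000 := by
    have h1 : 2 * N ≤ tR r N 1 := by
      have : 0 ≤ N * (1 / r) := by positivity
      unfold tR
      linarith
    unfold pR
    rw [div_le_iff₀ (by linarith)]
    linarith
  unfold pot1
  linarith

end InitAux

theorem Start.bar (H : Start n d r q b) {s : ℝ} (hs : s = 1 ∨ s = -1) :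
    Bar r (n * d : ℕ) s (K0 n d q b s) := by
  have r1 : 1 ≤ r := le_trans (by norm_num) H.facts.1
  refine ⟨?_, (InitAux.fE_le H hs).trans_lt (lt_add_one _)⟩
  have h1 := abs_le.1 (H.fP_bd hs)
  have h2 : r ^ 3602 ≤ r ^ 3750 := pow_le_pow_right₀ r1 (by norm_num)
  have h3 : 0 < r ^ 3750 := by positivity
  generalize r ^ 3602 = X at *
  generalize r ^ 3750 = Y at *
  rcases hs with rfl | rfl <;> linarith [h1.1, h1.2]

theorem Start.pot_le (H : Start n d r q b) :
    pot r (n * d : ℕ) 1 (K0 n d q b 1) (K0 n d q b (-1)) ≤ 4 / 5 := by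
  obtain ⟨hd, hr, -, -, -, -⟩ := InitAAux.num H
  have r1 : 1 ≤ r := le_trans (by norm_num) H.facts.1
  have h1 := InitAux.pot1_le H (Or.inl rfl)
  have h2 := InitAux.pot1_le H (Or.inr rfl)
  have h3 := (H.op_bd (Or.inl rfl)).left (K0 n d q b (-1))
  have h4 := InitAux.fE_le H (Or.inr rfl)
  have hN0 : (0 : ℝ) < (n * d : ℕ) := lt_of_lt_of_le (by positivity) H.n1
  have h5 : pC r (n * d : ℕ) (K0 n d q b 1) (K0 n d q b (-1)) ≤ 1 / 10 := by
    have h6 : 1000 * (d : ℝ) ^ 2 * (n * d : ℕ) ≤ tC r (n * d : ℕ) :=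
      mul_le_mul_of_nonneg_right (hr.trans (le_self_pow₀ r1 (by norm_num))) hN0.le
    have h7 := mul_le_mul_of_nonneg_left h4 (sq_nonneg (4 * (d : ℝ)))
    have h8 : 0 < (d : ℝ) ^ 2 * (n * d : ℕ) := by positivity
    unfold pC fC
    rw [div_le_iff₀ (by linarith)]
    linarith
  unfold pot
  linarith

end Vale.Agent.P049
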