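import Vale.Agent.P049.Cast
import Vale.Agent.P049.Init
import Vale.Agent.P049.Dual
import Vale.Agent.P049.DualS

/-! P049: the invariant holds at the start and is kept by good pairs. -/

namespace Vale.Agent.P049
open Matrix Finset
variable {d n r : ℕ}

theorem inv_init (H : Start n d r (qOf d r) (bOf d r)) :
    Inv d n r (qOf d r) ((qOf d r : ℝ) * d + (1 - (qOf d r : ℝ) ^ 2) / bOf d r) (init d n r) := by
  obtain ⟨f1, f2, f3, f4, -⟩ := H.facts
  have eA : mr (n * d) (init d n r).2.2.1 = K0 n d (qOf d r : ℝ) (bOf d r) 1 := by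
    have := mr_k0 n d (qOf d r) (bOf d r) 1
    rwa [Rat.cast_one] at this
  have eB : mr (n * d) (init d n r).2.2.2 = K0 n d (qOf d r : ℝ) (bOf d r) (-1) := by
    have := mr_k0 n d (qOf d r) (bOf d r) (-1)
    rwa [Rat.cast_neg, Rat.cast_one] at this
  have eU : fU (n * d) (init d n r).1 = univ := fU_range _
  have eL : (init d n r).1.length = n * d := List.length_range
  have e0 : ∀ φ, esum d φ (init d n r).2.1 = 0 := fun _ => rfl
  refine ⟨by simp [init, flat], rfl, ?_, ?_, fun φ hφ => ?_, fun φ hφ => ?_, ?_, ?_, ?_, ?_⟩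
  · rw [eA, eU]; exact K0_ok _ _ _
  · rw [eB, eU]; exact K0_ok _ _ _
  · rw [eA, eU, e0, sub_zero]; exact J_init (Or.inl rfl) (by linarith) (by linarith) φ hφ
  · rw [eB, eU, e0, add_zero]; exact J_init (Or.inr rfl) (by linarith) (by linarith) φ hφ
  · rw [eA, eL]; exact H.bar (Or.inl rfl)
  · rw [eB, eL]; exact H.bar (Or.inr rfl)
  · rw [Phi_cast, eA, eB, eL, piF_self, Rat.cast_one, sub_self, mul_zero, add_zero]
    exact H.pot_le
  · have r1 : 1 ≤ r := by exact_mod_cast (le_trans (by norm_num) f1 : (1 : ℝ) ≤ r)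
    have h1 : r ^ 12000 ≤ n * d := by exact_mod_cast H.n1
    rw [eL]
    refine ((Nat.pow_le_pow_right r1 (by norm_num)).trans h1).trans_lt ?_
    nlinarith

theorem inv_nxt {q z : ℝ} {S : St} (hr : 10 ^ 50 ≤ r) (q0 : 0 ≤ q) (q2 : q ^ 2 ≤ 1 / 2)
    (H : Inv d n r q z S) (hN : r ^ 7799 < S.1.length ^ 2) {p : ℕ × ℕ} (h1 : p.1 ∈ S.1)
    (h2 : p.2 ∈ S.1) (hg : good d r (n * d) S p = true) :
    Inv d n r q z (nxt r (n * d) S p) ∧ (nxt r (n * d) S p).1.length + 2 = S.1.length := by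
  obtain ⟨a, b⟩ := p
  have nd : S.1.Nodup := (H.perm.nodup_iff.2 List.nodup_range).of_append_left
  have lt : ∀ k ∈ S.1, k < n * d := fun k hk =>
    List.mem_range.1 (H.perm.subset (List.mem_append_left _ hk))
  obtain ⟨h, rfl⟩ : ∃ h : Fin (n * d), (h : ℕ) = a := ⟨⟨a, lt a h1⟩, rfl⟩
  obtain ⟨g, rfl⟩ : ∃ g : Fin (n * d), (g : ℕ) = b := ⟨⟨b, lt b h2⟩, rfl⟩
  simp only [good, Bool.and_eq_true, decide_eq_true_eq, barB_iff] at hg
  obtain ⟨⟨⟨⟨⟨⟨g1, g2⟩, g3⟩, g4⟩, g5⟩, g6⟩, g7⟩ := hg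
  rw [Rat.cast_one] at g5
  rw [Rat.cast_neg, Rat.cast_one] at g6
  have pm := rm_perm nd h1 h2 g1
  have len : (rm S.1 (h, g)).length + 2 = S.1.length := pm.length_eq
  have hh : h ∈ fU (n * d) S.1 := mem_filter.2 ⟨mem_univ _, h1⟩
  have hg : g ∈ fU (n * d) S.1 := mem_filter.2 ⟨mem_univ _, h2⟩
  have hne : h ≠ g := fun e => g1 (congrArg Fin.val e)
  have h3 : 3 ≤ S.1.length := by
    by_contra hc
    have b1 : S.1.length ^ 2 ≤ 2 ^ 2 := Nat.pow_le_pow_left (by omega) 2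
    have b2 : r ≤ r ^ 7799 := Nat.le_self_pow (by norm_num) r
    omega
  have h3' : 3 ≤ (fU (n * d) S.1).card := by rwa [fU_card nd lt]
  have lA : 0 < lam (mr (n * d) S.2.2.1) h g := by rw [← lamN_cast]; exact_mod_cast g3
  have lB : 0 < lam (mr (n * d) S.2.2.2) h g := by rw [← lamN_cast]; exact_mod_cast g4
  have eU : fU (n * d) (nxt r (n * d) S (h, g)).1 = ((fU (n * d) S.1).erase h).erase g :=
    fU_rm _ h g
  have eA : mr (n * d) (nxt r (n * d) S (h, g)).2.2.1 = rnd (r ^ 200000) 1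
      (((fU (n * d) S.1).erase h).erase g) (step (mr (n * d) S.2.2.1) h g) := by
    rw [← mr_stepN, ← fU_rm, ← Rat.cast_one]
    exact mr_rndN _ _ _
  have eB : mr (n * d) (nxt r (n * d) S (h, g)).2.2.2 = rnd (r ^ 200000) (-1)
      (((fU (n * d) S.1).erase h).erase g) (step (mr (n * d) S.2.2.2) h g) := by
    rw [← mr_stepN, ← fU_rm, ← Rat.cast_one, ← Rat.cast_neg]
    exact mr_rndN _ _ _
  have oA := H.okA.step hh hg hne lA.ne'
  have oB := H.okB.step hh hg hne lB.ne'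
  have G0 : 0 < r ^ 200000 := Nat.pow_pos (lt_of_lt_of_le (by norm_num) hr)
  have q2' : q ^ 2 < 1 := by linarith
  have es : ∀ φ, esum d φ (nxt r (n * d) S (h, g)).2.1 =
      2 * φ (h / d) * φ (g / d) + esum d φ S.2.1 := fun φ => by simp [esum, nxt]
  refine ⟨⟨?_, g2, ?_, ?_, fun φ hφ => ?_, fun φ hφ => ?_, g5, g6, ?_, ?_⟩, len⟩
  · refine List.Perm.trans ?_ ((pm.append_right _).trans H.perm)
    change (rm S.1 (h, g) ++ (h : ℕ) :: (g : ℕ) :: flat S.2.1).Perm _
    exact List.perm_middle.trans (List.perm_middle.cons _)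
  · rw [eU, eA]; exact rnd_ok oA
  · rw [eU, eB]; exact rnd_ok oB
  · rw [eU, eA, es]
    refine J_round q2' oA (rnd_ok oA) (fun k j hkj => rnd_le G0 (Or.inl rfl) oA hkj) ?_
    convert J_step q0 q2' (Or.inl rfl) H.okA hh hg hne h3' lA (H.JA φ hφ) using 1
    ring
  · rw [eU, eB, es]
    refine J_round q2' oB (rnd_ok oB) (fun k j hkj => rnd_le G0 (Or.inr rfl) oB hkj) ?_
    convert J_step q0 q2' (Or.inr rfl) H.okB hh hg hne h3' lB (H.JB φ hφ) using 1
    ring
  · have c1 : (Phi r (n * d) (nxt r (n * d) S (h, g)) : ℝ) ≤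
        Phi r (n * d) S + 2 ^ 61 / (r * S.1.length) := by
      have := (Rat.cast_le (K := ℝ)).2 g7
      push_cast at this
      exact this
    have c2 := H.hp
    have r0 : (0 : ℝ) < r := by exact_mod_cast lt_of_lt_of_le (by norm_num) hr
    have c3 : ((nxt r (n * d) S (h, g)).1.length : ℝ) = S.1.length - 2 := by
      rw [← len]; push_cast; exact (add_sub_cancel_right _ _).symm
    have c4 : (3 : ℝ) ≤ S.1.length := by exact_mod_cast h3
    rw [c3]
    generalize (S.1.length : ℝ) = N at *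
    have c5 := Real.log_le_sub_one_of_pos (show 0 < (N - 2) / N by
      apply div_pos <;> linarith)
    rw [Real.log_div (by linarith) (by linarith), sub_div, div_self (by linarith)] at c5
    have c6 : 1 / N ≤ 2 / N := div_le_div_of_nonneg_right one_le_two (by linarith)
    have c7 := mul_le_mul_of_nonneg_left (show 1 / N ≤ Real.log N - Real.log (N - 2) by linarith)
      (show (0 : ℝ) ≤ 2 ^ 61 / r by positivity)
    rw [div_mul_div_comm, mul_one] at c7
    rw [mul_sub] at c2 c7 ⊢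
    linarith
  · change _ < ((rm S.1 (h, g)).length + 2) ^ 2
    rwa [len]

end Vale.Agent.P049
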