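import Vale.Agent.P049.NumX

/-! P049: numeric verification. -/

namespace Vale.Agent.P049

theorem parA_good {r N : ℝ} (hr : 10 ^ 50 ≤ r) (h1 : r ^ 7650 ≤ N) (h2 : N ≤ r ^ 12001) :
    (parA r N).Good := by
  obtain ⟨ν, z, m, τ, l, hN, hν, E, R⟩ := exA hr h1 h2
  have r1 := (r_one_lt hr).le
  have N1 : 1 ≤ N := (one_le_pow₀ r1).trans h1
  refine good_mk N1 E R (.inr (le_self_pow₀ r1 (by norm_num))) ?_ (tT_cube hr (by linarith)).le
  exact Real.one_le_rpow (le_min (one_le_mul_of_one_le_of_one_le (one_le_pow₀ r1) N1)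
    (one_le_pow₀ r1)) (by norm_num)

end Vale.Agent.P049
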