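import Vale.Agent.P049.NumX

/-! P049: numeric verification. -/

namespace Vale.Agent.P049

theorem parA_extra {r N : ℝ} (hr : 10 ^ 50 ≤ r) (h1 : r ^ 7650 ≤ N) (h2 : N ≤ r ^ 12001) :
    (parA r N).Extra := by
  obtain ⟨ν, z, m, τ, l, hN, hν, E, R⟩ := exA hr h1 h2
  have r1 := (r_one_lt hr).le
  have r0 := r_pos' hr
  have N1 : 1 ≤ N := (one_le_pow₀ r1).trans h1
  have la : Lb (parA r N).r (parA r N).a 870 := by
    simpa [parA, mkPar] using (Lb.self (r := r)).pow hr 870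
  have hN1 : r ^ 7799 < N ^ 2 := by
    calc r ^ 7799 < r ^ 15300 := pow_lt_pow_right₀ (r_one_lt hr) (by norm_num)
      _ = (r ^ 7650) ^ 2 := by ring
      _ ≤ N ^ 2 := pow_le_pow_left₀ (by positivity) h1 2
  refine ⟨hN1, h2, rfl, rfl, rfl, rfl, rfl, rfl, rfl, .inl (tT_cube hr (by linarith)).ge, E.F1 R,
    E.F2 R, .inl (E.F3a R la (by norm_num)), E.H1 R, E.H2 R, E.G1 R, E.G2 R, E.G3 R,
    .inl ⟨E.G4a R la (by norm_num), E.G4b R la (by norm_num), le_self_pow₀ r1 (by norm_num)⟩,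
    E.T0 R, ?_⟩
  rcases le_total 8271 ν with h | h
  · left
    have := E.T1a R h
    linarith
  · right; right
    have ha : 0 < (parA r N).a := la.pos hr
    refine ⟨√((parA r N).N / (parA r N).a), Real.sqrt_nonneg _, ?_,
      E.T1c R _ ((E.uN.div hr la).sqrt hr) (by norm_num) h⟩
    rw [Real.sq_sqrt (div_nonneg E.uN.1 ha.le)]
    field_simp

end Vale.Agent.P049
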