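import Vale.Agent.P049.NumX

/-! P049: numeric verification. -/

namespace Vale.Agent.P049

theorem one_le_N {r N : ℝ} (hr : 10 ^ 50 ≤ r) (h0 : 0 < N) (h1 : r ^ 7799 < N ^ 2) : 1 ≤ N := by
  have : 1 ≤ r ^ 7799 := one_le_pow₀ (r_one_lt hr).le
  nlinarith

theorem parB_good {r N : ℝ} (hr : 10 ^ 50 ≤ r) (h0 : 0 < N) (h1 : r ^ 7799 < N ^ 2)
    (h2 : N < r ^ 7650) : (parB r N).Good := by
  obtain ⟨ν, z, m, τ, l, hN, hν, E, R⟩ := exB hr h0 h1 h2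
  have N1 := one_le_N hr h0 h1
  exact good_mk N1 E R (.inl rfl) (Real.one_le_sqrt.2 (Eb_bd hr N1).1) (E.MT1 R (by norm_num))

end Vale.Agent.P049
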