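import Vale.Agent.P049.NumC

/-! P049: numeric verification. -/

namespace Vale.Agent.P049

theorem parB_extra {r N : ℝ} (hr : 10 ^ 50 ≤ r) (h0 : 0 < N) (h1 : r ^ 7799 < N ^ 2)
    (h2 : N < r ^ 7650) : (parB r N).Extra := by
  obtain ⟨ν, z, m, τ, l, hN, hν, E, R⟩ := exB hr h0 h1 h2
  have N1 := one_le_N hr h0 h1
  have hα : (-20000 : ℝ) < 0 := by norm_num
  refine ⟨h1, h2.le.trans (pow_le_pow_right₀ (r_one_lt hr).le (by norm_num)), rfl, rfl, rfl, rfl,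
    rfl, rfl, rfl, .inr (Real.sq_sqrt E.uE.1).ge, E.F1 R, E.F2 R, .inr ⟨E.F3b R hα, E.F3c R hα⟩,
    E.H1 R, E.H2 R, E.G1 R, E.G2 R, E.G3 R, .inr ⟨E.G4c R hα, E.G4d R hα⟩, E.T0 R, ?_⟩
  right; left
  have := E.T1b R hα
  linarith

end Vale.Agent.P049
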