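import Vale.Agent.P049.DPH

/-! P049: size of the jumps of the trace of the square. -/

namespace Vale.Agent.P049
open Matrix Finset DPX
variable {ι : Type} [Fintype ι] [DecidableEq ι]

namespace Ctx
variable (c : Ctx ι)

theorem dE_abs {h g : ι} (H : c.Allowed h g) :
    |fE (step c.A h g) - fE c.A| ≤ 30 * (rS c.A h * rS c.A g + rS c.A h + rS c.A g
      + |(c.A * c.A * c.A) h g| + c.L * (|c.A g g| * rS c.A h + |c.A h h| * rS c.A g)
      + c.A g g ^ 2 * rS c.A h ^ 2 + c.A h h ^ 2 * rS c.A g ^ 2 + c.A h h ^ 2 + c.A g g ^ 2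
      + c.A h g ^ 2) := by
  have l : 0 ≤ c.L := zero_le_one.trans c.good.L1
  have s1 := rS_nonneg c.A h
  have s2 := rS_nonneg c.A g
  have e := abs_le.1 (dE_split H)
  have b0 := H.be_bd.1.le
  have b1 := H.be_bd.2
  have b2 : be c.A h g ^ 2 ≤ 109 / 100 := by nlinarith
  have k : ∀ {t u v : ℝ}, 0 ≤ t → t ≤ 11 / 10 → |u| ≤ v → |t * u| ≤ 11 / 10 * v :=
    fun h0 h1 h2 => by
      rw [abs_mul, abs_of_nonneg h0]; exact mul_le_mul h1 h2 (abs_nonneg _) (by norm_num)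
  have t1 := abs_le.1 (k b0 (by linarith) (le_refl |(c.A * c.A * c.A) h g|))
  have t2 := abs_le.1 (k b0 (by linarith) (abs_of_nonneg s1).le)
  have t3 := abs_le.1 (k b0 (by linarith) (abs_of_nonneg s2).le)
  have t4 := abs_le.1 (k (sq_nonneg (be c.A h g)) (by linarith)
    (abs_of_nonneg (mul_nonneg s1 s2)).le)
  have t5 := abs_le.1 (k H.io_bd.1.le (by linarith [H.io_bd.2])
    (show |(c.A * c.A * c.A) h h * c.A g g| ≤ c.L * rS c.A h * |c.A g g| by
      rw [abs_mul]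
      exact mul_le_mul_of_nonneg_right (diag3_abs c.sA.ok.symm c.sA.op l h) (abs_nonneg _)))
  have t6 := abs_le.1 (k H.io_bd.1.le (by linarith [H.io_bd.2])
    (show |c.A h h * (c.A * c.A * c.A) g g| ≤ |c.A h h| * (c.L * rS c.A g) by
      rw [abs_mul]
      exact mul_le_mul_of_nonneg_left (diag3_abs c.sA.ok.symm c.sA.op l g) (abs_nonneg _)))
  have t7 := k2_sq c h g
  have t8 := mul_le_mul_of_nonneg_right H.g_le s1
  have t9 := mul_le_mul_of_nonneg_right H.g_le s2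
  have p1 : 0 ≤ c.L * (|c.A g g| * rS c.A h) := by positivity
  have p2 : 0 ≤ c.L * (|c.A h h| * rS c.A g) := by positivity
  have p3 := mul_nonneg s1 s2
  have p4 := abs_nonneg ((c.A * c.A * c.A) h g)
  unfold maj at e
  rw [abs_le]
  constructor <;> linarith [sq_nonneg (c.A h h), sq_nonneg (c.A g g), sq_nonneg (c.A h g),
    sq_nonneg (c.A g g * rS c.A h), sq_nonneg (c.A h h * rS c.A g)]

theorem sq11_deb (a b c d e f g h i j k : ℝ) :
    (a + b + c + d + e + f + g + h + i + j + k) ^ 2 ≤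
    11 * (a ^ 2 + b ^ 2 + c ^ 2 + d ^ 2 + e ^ 2 + f ^ 2 + g ^ 2 + h ^ 2 + i ^ 2 + j ^ 2
      + k ^ 2) := by
  have := sum_mul_sq_le_sq_mul_sq univ (fun _ => (1 : ℝ)) ![a, b, c, d, e, f, g, h, i, j, k]
  simp [Fin.sum_univ_succ] at this
  linarith

theorem dE2 : c.S (fun h g => (fE (step c.A h g) - fE c.A) ^ 2)
      ≤ 10 ^ 5 * (c.r3 + c.L ^ 2 * fQ c.A) := by
  have n := c.good.N_pos
  have v := c.good.V0
  have w := c.good.W0
  have m := AvgH.m2_pos c
  have e0 := zero_le_one.trans c.good.E1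
  refine (c.S_le (f' := fun h g => 9900 * (rS c.A h ^ 2 * rS c.A g ^ 2 + rS c.A h ^ 2
      + rS c.A g ^ 2 + (c.A * c.A * c.A) h g ^ 2
      + (c.L ^ 2 + c.m2) * (rS c.A h ^ 2 * c.A g g ^ 2)
      + (c.L ^ 2 + c.m2) * (c.A h h ^ 2 * rS c.A g ^ 2) + c.Vb * c.A h h ^ 2
      + c.Vb * c.A g g ^ 2 + c.A h g ^ 2)) (fun h g H => ?_) fun h g => by positivity).trans ?_
  · have a1 := pow_le_pow_left₀ (abs_nonneg _) (c.dE_abs H) 2
    have a2 := sq11_deb (rS c.A h * rS c.A g) (rS c.A h) (rS c.A g) |(c.A * c.A * c.A) h g|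
      (c.L * (|c.A g g| * rS c.A h)) (c.L * (|c.A h h| * rS c.A g))
      (c.A g g ^ 2 * rS c.A h ^ 2) (c.A h h ^ 2 * rS c.A g ^ 2) (c.A h h ^ 2) (c.A g g ^ 2)
      (c.A h g ^ 2)
    have a3 := mul_le_mul_of_nonneg_right (xS H) (sq_nonneg (c.A g g * rS c.A h))
    have a4 := mul_le_mul_of_nonneg_right (xS H.symm) (sq_nonneg (c.A h h * rS c.A g))
    have a5 := mul_le_mul_of_nonneg_right (c.sA.diag_sq c.good h) (sq_nonneg (c.A h h))
    have a6 := mul_le_mul_of_nonneg_right (c.sA.diag_sq c.good g) (sq_nonneg (c.A g g))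
    have a7 := mul_le_of_le_one_left (sq_nonneg (c.A h g))
      ((sq_le_one_iff_abs_le_one (c.A h g)).2 (by linarith [H.g_le]))
    rw [sq_abs, mul_pow, mul_add c.L, ← add_assoc] at a1
    simp only [mul_pow, sq_abs] at a2
    linarith
  · simp only [sum_add_distrib, ← mul_sum, ← sum_mul, sum_const, nsmul_eq_mul, c.hN,
      c.sA.ok.sum_diag_sq, c.sA.ok.sum_rS_sq]
    have w0 : 0 ≤ fW c.A := sum_nonneg fun _ _ => sq_nonneg _
    have g1 := mul_le_mul c.sA.Wb c.sA.Wb w0 w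
    have g2 := mul_le_mul_of_nonneg_left c.sA.Wb n.le
    have g3 := (sq_U c.U (c.A * c.A * c.A)).trans c.f6_bd.1
    have g4 := mul_le_mul_of_nonneg_left (mul_le_mul c.sA.Vb c.sA.Wb w0 v.le)
      (show 0 ≤ c.L ^ 2 + c.m2 by positivity)
    have g5 := mul_le_mul_of_nonneg_left c.sA.Vb (mul_pos n v).le
    have g6 := (sq_U c.U c.A).trans c.sA.Eb
    have p1 : 0 ≤ c.L ^ 2 * fQ c.A := mul_nonneg (sq_nonneg _) (fE_nonneg _)
    have p2 : 0 ≤ (c.L ^ 2 + c.m2) * c.Vb * c.Wb := by positivity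
    have p3 : 0 ≤ c.N * c.Vb * c.Vb := by positivity
    have p4 := mul_pos n v
    have p5 := mul_nonneg n.le w
    have p6 := sq_nonneg c.Wb
    unfold Par.r3
    linarith

theorem dE3 {h g : ι} (H : c.Allowed h g) :
    |fE (step c.A h g) - fE c.A| ≤ c.r ^ 11 * c.sN + c.r ^ 6 * c.L * √c.sN := by
  have r := AvgH.r_ge c
  have r1 : 1 ≤ c.r := by linarith
  have sn := c.good.sN_pos
  have l : 0 ≤ c.L := zero_le_one.trans c.good.L1
  have m2 : c.m2 ≤ c.sN :=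
    (le_mul_of_one_le_left (AvgH.m2_pos c).le (one_le_pow₀ r1)).trans c.good.m2_le
  have vb : c.Vb ≤ c.sN :=
    (le_mul_of_one_le_left c.good.V0.le (one_le_pow₀ r1)).trans c.good.Vb_le
  have a1 := SS H
  have a2 : |(c.A * c.A * c.A) h g| ≤ c.r ^ 5 * (c.L * √c.sN) := by
    refine abs_le_of_sq_le_sq ((k3_sq c h g).trans ?_) (by positivity)
    rw [mul_pow, mul_pow, Real.sq_sqrt sn.le]
    have := mul_le_mul_of_nonneg_left a1 (sq_nonneg c.L)
    unfold Par.m1 at this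
    linarith
  have a3 : ∀ {h g}, c.Allowed h g → c.L * (|c.A g g| * rS c.A h) ≤ c.r ^ 5 * (c.L * √c.sN) := by
    intro h g H
    refine le_trans (mul_le_mul_of_nonneg_left (Real.le_sqrt_of_sq_le ?_) l)
      (le_mul_of_one_le_left (by positivity) (one_le_pow₀ r1))
    rw [mul_pow, sq_abs]
    exact (xS H).trans m2
  have a4 : c.A h g ^ 2 ≤ 1 := (sq_le_one_iff_abs_le_one _).2 (by linarith [H.g_le])
  have a5 : c.r * c.sN ≤ c.r ^ 10 * c.sN :=
    mul_le_mul_of_nonneg_right (le_self_pow₀ r1 (by norm_num)) sn.le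
  have a6 : c.sN ≤ c.r * c.sN := le_mul_of_one_le_left sn.le r1
  have a7 := mul_le_mul_of_nonneg_right r (show 0 ≤ c.r ^ 10 * c.sN by positivity)
  have a8 := mul_le_mul_of_nonneg_right r (show 0 ≤ c.r ^ 5 * (c.L * √c.sN) by positivity)
  have a9 : 0 ≤ c.r ^ 5 * (c.L * √c.sN) := by positivity
  unfold Par.m1 at a1
  linarith [c.dE_abs H, a3 H, a3 H.symm, xS H, xS H.symm, c.sA.rS_le c.good h,
    c.sA.rS_le c.good g, c.sA.diag_sq c.good h, c.sA.diag_sq c.good g, AvgH.one_le_sN c]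

end Ctx
end Vale.Agent.P049
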