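import Vale.Agent.P049.DE
import Vale.Agent.P049.DEb

/-! P049: drift of the barrier for the trace of the square. -/

namespace Vale.Agent.P049
open Matrix Finset
variable {ι : Type} [Fintype ι] [DecidableEq ι]

namespace PotGX

lemma pt {N Z y yb D : ℝ} (Z0 : 0 < Z) (N2 : 2 < N) (hy : yb ≤ y) (hN : y ≤ N) (h8 : 8 ≤ yb)
    (hD : 8 * |D| ≤ yb) : 0 < y - 2 - D ∧
    Z * (1 / (y - 2 - D) - 1 / (N - 2)) - Z * (1 / y - 1 / N) ≤
      Z / (y - 2) ^ 2 * (D + 2 / yb * D ^ 2 + (2 - 2 * y ^ 2 / N ^ 2) * 1) := by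
  have h1 := le_abs_self D
  have y0 : 0 < y := by linarith
  have w0 : 0 < y - 2 := by linarith
  have N0 : 0 < N := by linarith
  have N3 : 0 < N - 2 := by linarith
  have h2 : yb ≤ 2 * (y - 2 - D) := by linarith
  have h3 : 0 < y - 2 - D := by linarith
  refine ⟨h3, ?_⟩
  have e : Z * (1 / (y - 2 - D) - 1 / (N - 2)) - Z * (1 / y - 1 / N) = Z / (y - 2) ^ 2 *
      (D + 1 / (y - 2 - D) * D ^ 2 + (2 * (y - 2) / y - 2 * (y - 2) ^ 2 / (N * (N - 2)))) := by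
    field_simp
    ring
  have e2 : 2 - 2 * y ^ 2 / N ^ 2 - (2 * (y - 2) / y - 2 * (y - 2) ^ 2 / (N * (N - 2))) =
      4 * ((N - y) * (N * (N - 2) + y * (N - y))) / (y * N ^ 2 * (N - 2)) := by
    field_simp
    ring
  have e3 : 0 ≤ 4 * ((N - y) * (N * (N - 2) + y * (N - y))) / (y * N ^ 2 * (N - 2)) := by
    have : 0 ≤ N - y := by linarith
    positivity
  have e4 : 1 / (y - 2 - D) ≤ 2 / yb := by
    rw [div_le_div_iff₀ h3 (by linarith)]
    linarith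
  rw [e]
  refine mul_le_mul_of_nonneg_left ?_ (by positivity)
  linarith [mul_le_mul_of_nonneg_right e4 (sq_nonneg D)]

lemma mk1 {r N E Eb KP m : ℝ} (hr : 100 ≤ r) (N0 : 0 < N) (E1 : 1 ≤ E) (E2 : E ≤ N + 1)
    (E3 : E ≤ Eb) (E4 : Eb ≤ 2 * N) (K0 : 0 ≤ KP) (h1 : |m - N ^ 2| ≤ N ^ 2 / r ^ 3)
    (h2 : |m - N ^ 2| ≤ KP * N) :
    2 * E ^ 2 - 4 * E * N + 4 * N + (2 - 2 * (N + 1 - E) ^ 2 / N ^ 2) * m ≤
      4 * Eb + min (KP * r ^ 2 * N) (N * Eb / r ^ 2) := by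
  have rp : 0 < r := by linarith
  have e1 : (2 - 2 * (N + 1 - E) ^ 2 / N ^ 2) * N ^ 2 = 2 * N ^ 2 - 2 * (N + 1 - E) ^ 2 := by
    field_simp
  have k0 : 0 ≤ 2 - 2 * (N + 1 - E) ^ 2 / N ^ 2 := by
    rw [sub_nonneg, div_le_iff₀ (by positivity)]
    nlinarith
  have k1 : 2 - 2 * (N + 1 - E) ^ 2 / N ^ 2 ≤ 4 * Eb / N := by
    refine le_of_mul_le_mul_right ?_ (pow_pos N0 2)
    rw [e1, show 4 * Eb / N * N ^ 2 = 4 * Eb * N by field_simp]
    nlinarith [sq_nonneg (E - 1)]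
  generalize 2 - 2 * (N + 1 - E) ^ 2 / N ^ 2 = k at *
  have Eb0 : 0 ≤ Eb := by linarith
  have h3 : k * (m - N ^ 2) ≤ min (KP * r ^ 2 * N) (N * Eb / r ^ 2) := by
    have h4 := mul_le_mul_of_nonneg_left (le_abs_self (m - N ^ 2)) k0
    refine le_min (h4.trans ((mul_le_mul k1 h2 (abs_nonneg _) (by positivity)).trans ?_))
      (h4.trans ((mul_le_mul k1 h1 (abs_nonneg _) (by positivity)).trans ?_))
    · rw [show 4 * Eb / N * (KP * N) = KP * (4 * Eb) by field_simp, mul_assoc]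
      have := mul_le_mul_of_nonneg_right (show 8 ≤ r ^ 2 by nlinarith) N0.le
      exact mul_le_mul_of_nonneg_left (by linarith) K0
    · rw [show 4 * Eb / N * (N ^ 2 / r ^ 3) = N * Eb / r ^ 2 * (4 / r) by field_simp]
      exact mul_le_of_le_one_right (by positivity) (by rw [div_le_one rp]; linarith)
  linarith

lemma g4 {r N sN a L Q Eb ee yb : ℝ} (hr : 10 ^ 6 ≤ r) (hN : sN ^ 2 = N) (s0 : 0 < sN)
    (a0 : 0 ≤ a) (L0 : 0 ≤ L) (Q0 : 0 ≤ Q) (Q2 : Q ≤ Eb ^ 2) (E0 : 0 ≤ Eb) (y0 : 0 < yb)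
    (e0 : 0 ≤ ee) (G4 : (r ^ 3 * N * L ^ 2 ≤ a * ee ∧ r * L ^ 2 ≤ a * yb ∧ r ≤ a) ∨
      (1000 * (r * sN * L * Eb + Eb ^ 2) ≤ ee ∧ 10 ^ 7 * L ^ 2 * Eb ^ 2 ≤ ee * yb)) :
    -(2 * a * Q) + 4 * r * sN * L * √Q + 30 * Q + 2 / yb * (10 ^ 5 * (L ^ 2 * Q)) ≤ ee / 10 := by
  have rp : 0 < r := by linarith
  rcases G4 with ⟨h1, h2, h3⟩ | ⟨h1, h2⟩
  · have ap : 0 < a := by linarith
    have q1 : 4 * r * sN * L * √Q ≤ a * Q / 2 + ee / 10 := by
      refine le_of_mul_le_mul_left ?_ ap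
      have e1 := sq_nonneg (a * √Q - 4 * r * sN * L)
      have e2 : (a * √Q - 4 * r * sN * L) ^ 2 = a ^ 2 * Q - 2 * (a * (4 * r * sN * L * √Q)) +
          16 * (r ^ 2 * N * L ^ 2) := by
        rw [← hN, sub_sq, mul_pow a, Real.sq_sqrt Q0]; ring
      have e3 := mul_le_mul_of_nonneg_right hr (show 0 ≤ r ^ 2 * N * L ^ 2 by
        rw [← hN]; positivity)
      have := mul_nonneg a0 e0
      linarith
    have q2 := mul_le_mul_of_nonneg_right (hr.trans h3) Q0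
    have q3 : 2 / yb * (10 ^ 5 * (L ^ 2 * Q)) ≤ a * Q := by
      rw [div_mul_eq_mul_div, div_le_iff₀ y0]
      have e1 := mul_le_mul_of_nonneg_right h2 Q0
      have e2 := mul_le_mul_of_nonneg_right hr (show 0 ≤ L ^ 2 * Q by positivity)
      have : 0 ≤ L ^ 2 * Q := by positivity
      linarith
    linarith
  · have q1 := mul_le_mul_of_nonneg_left (Real.sqrt_le_iff.2 ⟨E0, Q2⟩)
      (show 0 ≤ 4 * r * sN * L by positivity)
    have q3 : 2 / yb * (10 ^ 5 * (L ^ 2 * Q)) ≤ ee / 50 := by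
      rw [div_mul_eq_mul_div, div_le_iff₀ y0]
      have e1 := mul_le_mul_of_nonneg_left Q2 (sq_nonneg L)
      linarith
    have : 0 ≤ r * sN * L * Eb := by positivity
    have := mul_nonneg a0 Q0
    have := sq_nonneg Eb
    linarith

lemma fin {r N Z y G : ℝ} (rp : 0 < r) (N0 : 0 < N) (Z0 : 0 < Z) (hy : Z * N / (N + Z) ≤ y)
    (h8 : 8 ≤ Z * N / (N + Z)) (hG : G ≤ Z * N ^ 3 / (r * (N + Z) ^ 2)) :
    Z / (y - 2) ^ 2 * G ≤ 20 * N / r := by
  have e : Z * N ^ 3 / (r * (N + Z) ^ 2) = (Z * N / (N + Z)) ^ 2 * (N / r) / Z := by field_simp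
  rw [e] at hG
  generalize Z * N / (N + Z) = yb at *
  have w0 : 0 < (y - 2) ^ 2 := pow_pos (by linarith) 2
  have h1 : yb ^ 2 ≤ 20 * (y - 2) ^ 2 := by nlinarith
  refine (mul_le_mul_of_nonneg_left hG (by positivity)).trans ?_
  rw [show Z / (y - 2) ^ 2 * (yb ^ 2 * (N / r) / Z) = yb ^ 2 / (y - 2) ^ 2 * (N / r) by field_simp,
    mul_div_assoc]
  exact mul_le_mul_of_nonneg_right ((div_le_iff₀ w0).2 h1) (by positivity)

end PotGX

namespace Ctx
variable (c : Ctx ι)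

open PotGX

theorem potG (X : c.toPar.Extra) (hb : fE c.A < c.N + 1) (h1 : pG c.r c.N c.A ≤ 1) :
    (∀ h g, c.Allowed h g → fE (step c.A h g) < c.N - 2 + 1) ∧
      c.S (fun h g => pG c.r (c.N - 2) (step c.A h g) - pG c.r c.N c.A) ≤ 20 * c.N / c.r := by
  have hr6 : 10 ^ 6 ≤ c.r := le_trans (by norm_num) c.good.hr
  have hr : 100 ≤ c.r := by linarith
  have r1 : 1 ≤ c.r := by linarith
  have rp := c.good.r_pos
  have N0 := c.good.N_pos
  have s0 := c.good.sN_pos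
  have L0 := zero_le_one.trans c.good.L1
  have N2 : 2 < c.N := lt_of_lt_of_le (by linarith)
    ((le_self_pow₀ r1 (by norm_num)).trans c.good.N_ge)
  have Z0 : 0 < c.r ^ 7799 := by positivity
  have E1 : 1 ≤ fE c.A := c.sA.ok.one_le_fE (card_pos.1 (by exact_mod_cast c.hN ▸ N0))
  have hy : c.yb ≤ c.N + 1 - fE c.A := by
    unfold pG at h1
    unfold Par.yb
    have y0 : 0 < c.N + 1 - fE c.A := by linarith
    generalize c.N + 1 - fE c.A = y at *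
    generalize c.r ^ 7799 = Z at *
    rw [show Z * (1 / y - 1 / c.N) = Z * (c.N - y) / (y * c.N) by field_simp,
      div_le_one (by positivity)] at h1
    rw [div_le_iff₀ (by positivity)]
    linarith
  have h8 : 8 ≤ c.yb := by
    have h2 : 1 ≤ c.r ^ 11 * c.sN :=
      one_le_mul_of_one_le_of_one_le (one_le_pow₀ r1) ((one_le_pow₀ r1).trans c.good.big)
    have h3 : 0 ≤ c.r ^ 6 * c.L * √c.sN := by positivity
    linarith [X.G1]
  have y0 : 0 < c.yb := by linarith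
  have key : ∀ h g, c.Allowed h g → _ := fun h g H =>
    pt (D := fE (step c.A h g) - fE c.A) Z0 N2 hy (by linarith) h8
      (by linarith [c.dE3 H, X.G1])
  refine ⟨fun h g H => by linarith [(key h g H).1], le_trans (c.S_mono fun h g H =>
    le_trans (le_of_eq ?_) (key h g H).2) ?_⟩
  · unfold pG
    congr 4
    ring
  rw [S_mul, S_add, S_add, S_mul, S_mul]
  refine fin rp N0 Z0 hy h8 ?_
  have Q2 := c.fQ_bd.2.trans (min_le_right _ _)
  have E0 := zero_le_one.trans c.good.E1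
  have e0 : 0 ≤ c.ee := by unfold Par.ee; positivity
  have q1 := mk1 hr N0 E1 c.sA.E1 c.sA.Eb c.good.E2 c.good.KP_nonneg c.mass.1 c.mass.2
  have q2 := g4 hr6 c.good.sq s0 c.good.a_nonneg L0 (fE_nonneg (c.A * c.A)) Q2 E0 y0 e0 X.G4
  have q3 := mul_le_mul_of_nonneg_left c.dE2 (div_pos two_pos y0).le
  have q4 : 2 / c.yb * (10 ^ 5 * c.r3) ≤ c.ee / 50 := by
    rw [div_mul_eq_mul_div, div_le_iff₀ y0]
    linarith [X.G3]
  have q5 : c.P * c.c3 ≤ c.P * min c.Tb (2 * c.L * c.Eb) :=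
    mul_le_mul_of_nonneg_left (le_min c.c3_bd.2 ((c3_le c.sA.ok.symm c.sA.op c.good.L1 c.hs).trans
      (mul_le_mul_of_nonneg_left c.sA.Eb (by positivity)))) c.good.P0
  have q6 : c.Eb + c.e1 ≤ c.r2 := by
    have a0 := c.good.a_nonneg
    have := c.good.KP_nonneg
    have := c.good.Pa0
    have := c.good.V0
    have := c.good.W0
    have := zero_le_one.trans c.good.S1
    have : 0 ≤ c.Cb := le_trans (by positivity) c.good.Cb_ge
    have : 0 ≤ c.a * c.Cb + c.r * c.a ^ 2 * c.S0 * c.L * c.Eb + c.Pa * c.Eb +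
      c.KP * √c.Vb * c.L * √c.Wb + c.Vb * c.Wb + c.N * c.Vb + √(c.N * c.Eb * c.Wb) := by positivity
    unfold Par.r2
    linarith
  have q7 : 0 ≤ c.e1 := by
    have := c.good.KP_nonneg
    exact le_min (by positivity) (by positivity)
  have q8 := mul_nonneg c.good.P0 c.c3_bd.1
  have q9 := c.dE1
  have q10 := X.G2
  change _ ≤ 4 * c.Eb + c.e1 at q1
  change _ ≤ c.ee
  change -(2 * c.a * fQ c.A) + 4 * c.r * c.sN * c.L * √(fQ c.A) + 30 * fQ c.A +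
    2 / c.yb * (10 ^ 5 * (c.L ^ 2 * fQ c.A)) ≤ _ at q2
  generalize 2 / c.yb = u at *
  generalize 2 - 2 * (c.N + 1 - fE c.A) ^ 2 / c.N ^ 2 = k at *
  clear * - q1 q2 q3 q4 q5 q6 q7 q8 q9 q10 E0
  linarith

end Ctx
end Vale.Agent.P049
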