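import Vale.Agent.P049.DTa

/-! P049: drift of the trace of the cube. -/

namespace Vale.Agent.P049
open Matrix Finset
variable {ι : Type} [Fintype ι] [DecidableEq ι]

namespace DTX
variable (c : Ctx ι)

theorem n11_20 {h g : ι} (H : c.Allowed h g) : n11 c.A h g ^ 2 ≤
    20 * (rS c.A h ^ 2 * c.A g g ^ 2 + c.A g g ^ 2 + (c.A * c.A) h g ^ 2) :=
  (n11_sq H).trans (mul_le_mul_of_nonneg_right (by norm_num) (by positivity))

theorem S_n11 : c.S (fun h g => n11 c.A h g ^ 2) ≤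
    101 / 100 * 5 * (2 * (c.N * c.sN / c.r ^ 20) + fQ c.A) :=
  S_three c (by norm_num) fun _ _ H => n11_sq H

theorem sA : c.S (fun h g => |n11 c.A h g| * |-(ap c.A h g * (c.A * c.A) h g) +
    be c.A h g * (c.A * c.A * c.A) h g + -(be c.A h g * rS c.A g)|) ≤ 9 * 5 * dl c := by
  refine sm_mul c (fun _ _ H => n11_20 c H) (by norm_num) ?_
  have hm := m1_nonneg c
  refine (c.S_mono (f' := fun h g => 33 / 10 * (c.m1 * c.A g g ^ 2 +
    (c.A * c.A * c.A) h g ^ 2 + rS c.A g ^ 2)) fun h g H => ?_).trans ?_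
  · refine (sq3 _ _ _).trans ?_
    simp only [neg_sq, mul_pow]
    have h1 := mul_le_mul (ap_sq H) H.l2_sq (sq_nonneg _) (by positivity)
    have h2 := mul_le_mul_of_nonneg_right (be_sq H) (sq_nonneg ((c.A * c.A * c.A) h g))
    have h3 := mul_le_mul_of_nonneg_right (be_sq H) (sq_nonneg (rS c.A g))
    linarith
  · rw [c.S_mul, c.S_add, c.S_add, c.S_mul]
    have h0 := c.good.r_pos
    have hN := c.good.N_pos
    have h1 := mul_le_mul_of_nonneg_left (S_x' c) hm
    have h2 : c.m1 * fV c.A ≤ c.N := (le_mul_of_one_le_left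
      (mul_nonneg hm (V0 c)) (one_le_pow₀ (r1 c))).trans (m1V_le c)
    have h3 := mul_le_mul_of_nonneg_left h2 hN.le
    have h4 := mul_le_mul_of_nonneg_left (c.sA.W2 c.good) hN.le
    have h5 : c.r * c.N ≤ c.r ^ 2 * c.Tb :=
      mul_le_mul (by nlinarith [r1 c]) (N_le c) hN.le (by positivity)
    have h6 := pow_le_pow_left₀ (by positivity) h5 2
    have h7 : c.N ≤ c.r * c.N := le_mul_of_one_le_left hN.le (r1 c)
    have h8 := pow_le_pow_left₀ hN.le (h7.trans h5) 2
    nlinarith [S_k3' c, S_S' c, sq_nonneg (c.r ^ 2 * c.Tb)]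

theorem sB : c.S (fun h g => |n11 c.A h g| * |ap c.A h g * (c.A * c.A * c.A) h h|) ≤
    6 * dl c := by
  have h0 := c.good.r_pos
  have hN := c.good.N_pos
  have hsN := c.good.sN_pos
  have hT := Tb_pos c
  have hQ := Q0 c
  have hL := c.good.L1
  set t := c.N * c.sN / c.r ^ 20 with ht
  have ht0 : 0 ≤ t := by positivity
  have h1 : c.S (fun h g => (ap c.A h g * (c.A * c.A * c.A) h h) ^ 2) ≤
      6 / 5 * (c.L ^ 2 * t) := by
    refine (c.S_mono (f' := fun h g => 11 / 10 * c.L ^ 2 * (rS c.A h ^ 2 * c.A g g ^ 2))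
      fun h g H => ?_).trans ?_
    · have h2 := pow_le_pow_left₀ (abs_nonneg _)
        (diag3_abs c.sA.ok.symm c.sA.op (by linarith) h) 2
      rw [sq_abs] at h2
      rw [mul_pow]
      refine (mul_le_mul (ap_sq H) h2 (sq_nonneg _) (by positivity)).trans (le_of_eq ?_)
      ring
    · rw [c.S_mul]
      have h3 := (S_Sx c).trans (mul_le_mul_of_nonneg_left (div_le c (WV_le c)) (by norm_num))
      have h4 := mul_le_mul_of_nonneg_left h3 (by positivity : 0 ≤ 11 / 10 * c.L ^ 2)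
      nlinarith [mul_nonneg (sq_nonneg c.L) ht0]
  refine (c.S_cs _ _ (Real.sqrt_nonneg _) (Real.sqrt_nonneg _)
    ((S_n11 c).trans (Real.sq_sqrt (by positivity)).ge)
    (h1.trans (Real.sq_sqrt (by positivity)).ge)).trans
    (small c 10 (by norm_num) (by norm_num) (le_sq_bb ?_ (by positivity)))
  rw [mul_pow, mul_pow, Real.sq_sqrt (by positivity), Real.sq_sqrt (by positivity), ← ht]
  have e : c.r ^ 20 * t = c.N * c.sN := by
    rw [ht]
    field_simp
  have h5 : c.L ^ 2 * t * (c.N * c.sN) ≤ c.N ^ 2 * c.Tb ^ 2 := by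
    have h6 : c.L ^ 2 ≤ c.N := (le_mul_of_one_le_left (sq_nonneg _) (one_le_pow₀ (r1 c))).trans
      c.good.M1
    have h7 : t ≤ c.N * c.sN := e ▸ le_mul_of_one_le_left ht0 (one_le_pow₀ (r1 c))
    have h8 := N_le c
    calc c.L ^ 2 * t * (c.N * c.sN) ≤ c.N * (c.N * c.sN) * (c.N * c.sN) := by gcongr
      _ = c.N ^ 2 * (c.N * c.sN ^ 2) := by ring
      _ = c.N ^ 2 * c.N ^ 2 := by
          rw [c.good.sq]
          ring
      _ ≤ _ := by gcongr
  have h9 : c.L ^ 2 * fQ c.A * (c.N * c.sN) ≤ 3 * c.Tb ^ 2 * (c.N * c.N) :=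
    mul_le_mul c.f6_bd.2 (mul_le_mul_of_nonneg_left (sN_le' c) hN.le) (by positivity)
      (by positivity)
  calc (c.r ^ 10) ^ 2 * (101 / 100 * 5 * (2 * t + fQ c.A) * (6 / 5 * (c.L ^ 2 * t)))
      = 101 / 100 * 6 * ((2 * t + fQ c.A) * c.L ^ 2 * (c.r ^ 20 * t)) := by ring
    _ ≤ _ := by
        rw [e]
        nlinarith [mul_nonneg (sq_nonneg c.N) (sq_nonneg c.Tb)]

theorem n11_le {h g : ι} (H : c.Allowed h g) : |n11 c.A h g| ≤ c.sN := by
  have h0 := c.good.r_pos
  have hsN := c.good.sN_pos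
  refine abs_le_of_sq_le_sq ((n11_sq H).trans ?_) hsN.le
  have h1 : rS c.A h ^ 2 * c.A g g ^ 2 ≤ c.m2 := by
    refine le_trans ?_ H.XS
    rw [mul_comm, ← sq_abs (c.A g g)]
    have h2 : |c.A g g| ≤ c.X g := le_add_of_nonneg_right (abs_nonneg _)
    have h3 : rS c.A h ≤ c.Sp h := le_add_of_nonneg_right (rS_nonneg _ _)
    have h4 := rS_nonneg c.A h
    have h5 := c.X_nonneg g
    gcongr
  have hm2 : 0 ≤ c.m2 := le_trans (by positivity) h1
  have h2 : c.m2 ≤ c.sN := (le_mul_of_one_le_left hm2 (one_le_pow₀ (r1 c))).trans c.good.m2_le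
  have h3 : c.A g g ^ 2 ≤ c.sN := (c.sA.diag_sq c.good g).trans
    ((le_mul_of_one_le_left c.good.V0.le (one_le_pow₀ (r1 c))).trans c.good.Vb_le)
  have h4 : (c.A * c.A) h g ^ 2 ≤ c.r ^ 10 * c.sN := H.l2_sq
  have h5 : c.sN ≤ c.r ^ 10 * c.sN := le_mul_of_one_le_left hsN.le (one_le_pow₀ (r1 c))
  have h6 : 15 * c.r ^ 10 ≤ c.sN := by
    refine le_trans ?_ ((rpow c (by norm_num : 11 ≤ 30)).trans c.good.big)
    rw [pow_succ' c.r 10]
    exact mul_le_mul_of_nonneg_right (le_trans (by norm_num) (r_ge c)) (by positivity)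
  nlinarith [mul_le_mul_of_nonneg_right h6 hsN.le]

theorem sC : c.S (fun h g => |n11 c.A h g| ^ 3) ≤ 27 * dl c := by
  have h0 := c.good.r_pos
  have hN := c.good.N_pos
  have hsN := c.good.sN_pos
  have hT := Tb_pos c
  refine (c.S_mono (f' := fun h g => c.sN * n11 c.A h g ^ 2) fun h g H => ?_).trans ?_
  · rw [pow_succ', sq_abs]
    exact mul_le_mul_of_nonneg_right (n11_le c H) (sq_nonneg _)
  · rw [c.S_mul]
    have h1 : c.sN * (c.N * c.sN / c.r ^ 20) ≤ 1 * dl c := by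
      refine small c 20 (by norm_num) (by norm_num) ?_
      have e : c.r ^ 20 * (c.sN * (c.N * c.sN / c.r ^ 20)) = c.N * c.sN ^ 2 := by field_simp
      rw [e, c.good.sq, one_mul]
      exact mul_le_mul_of_nonneg_left (N_le c) hN.le
    have h2 : c.sN * fQ c.A ≤ 3 * dl c := by
      refine (mul_le_mul_of_nonneg_left c.fQ_bd.1 hsN.le).trans
        (small c 10 (by norm_num) (by norm_num) ?_)
      have := mul_le_mul_of_nonneg_left c.good.L_le (mul_pos hsN hT).le
      rw [← c.good.sq]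
      nlinarith
    nlinarith [mul_le_mul_of_nonneg_left (S_n11 c) hsN.le, dl_pos c]

theorem sD : c.S (fun h g => |n11 c.A h g| * |n12 c.A h g * n21 c.A h g|) ≤ 9 * 7 * dl c := by
  refine sm_mul c (fun _ _ H => n11_20 c H) (by norm_num) ?_
  have hm := m1_nonneg c
  have h0 := c.good.r_pos
  have hN := c.good.N_pos
  refine (c.S_mono (f' := fun h g => 5 * (rS c.A h ^ 2 + 1 + c.m1 * c.A h h ^ 2) *
    (5 * (rS c.A g ^ 2 + 1 + c.m1 * c.A g g ^ 2))) fun h g H => ?_).trans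
    ((S_prod c (fun _ => by positivity) fun _ => by positivity).trans ?_)
  · rw [mul_pow, ← n12_comm c.sA.ok.symm h g]
    exact mul_le_mul (n12_sq H) (n12_sq H.symm) (sq_nonneg _) (by positivity)
  · have h1 := mul_le_mul (sum_n12 c) (sum_n12 c) (sum_nonneg fun _ _ => by positivity)
      (by positivity)
    have h2 : c.r ^ 2 * c.N ≤ c.r ^ 2 * c.Tb := mul_le_mul_of_nonneg_left (N_le c) (by positivity)
    have h3 := pow_le_pow_left₀ (by positivity) h2 2
    nlinarith [sq_nonneg (c.r ^ 2 * c.N)]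

theorem abs_bound (a b p q m : ℝ) : |3 * (a * p + b * q) + a ^ 3 + b ^ 3 + m * (a + b)| ≤
    3 * (|a| * |p|) + |a| ^ 3 + |a| * |m| + (3 * (|b| * |q|) + |b| ^ 3 + |b| * |m|) := by
  simp only [← abs_mul, ← abs_pow]
  refine abs_le.2 ⟨?_, ?_⟩
  · linarith [neg_abs_le (a * p), neg_abs_le (b * q), neg_abs_le (a ^ 3), neg_abs_le (b ^ 3),
      neg_abs_le (a * m), neg_abs_le (b * m)]
  · linarith [le_abs_self (a * p), le_abs_self (b * q), le_abs_self (a ^ 3), le_abs_self (b ^ 3),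
      le_abs_self (a * m), le_abs_self (b * m)]

end DTX

namespace Ctx
variable (c : Ctx ι)
open DTX

theorem dT_small : c.S (fun h g => |3 * (n11 c.A h g * p11 c.A h g + n22 c.A h g * p22 c.A h g)
      + n11 c.A h g ^ 3 + n22 c.A h g ^ 3
      + 3 * n12 c.A h g * n21 c.A h g * (n11 c.A h g + n22 c.A h g)|)
      ≤ c.N * c.Tb / (4 * c.r) := by
  have hs := c.sA.ok.symm
  set F : ι → ι → ℝ := fun h g => 3 * (|n11 c.A h g| * |p11 c.A h g|) + |n11 c.A h g| ^ 3 +
    3 * (|n11 c.A h g| * |n12 c.A h g * n21 c.A h g|) with hF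
  refine (c.S_mono (f' := fun h g => F h g + F g h) fun h g _ => ?_).trans ?_
  · refine (abs_bound _ _ _ _ _).trans (le_of_eq ?_)
    simp only [hF]
    rw [n11_comm hs h g, p11_comm hs h g, n12_comm hs h g, ← n12_comm hs g h, mul_assoc 3,
      abs_mul 3, mul_comm (n21 c.A h g), abs_of_pos (by norm_num : (0 : ℝ) < 3)]
    ring
  · have h1 : c.S (fun h g => |n11 c.A h g| * |p11 c.A h g|) ≤ 9 * 5 * dl c + 6 * dl c := by
      refine le_trans ?_ (add_le_add (DTX.sA c) (DTX.sB c))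
      rw [← c.S_add]
      refine c.S_mono fun h g _ => ?_
      rw [← mul_add]
      refine mul_le_mul_of_nonneg_left (le_trans (le_of_eq ?_) (abs_add_le _ _)) (abs_nonneg _)
      rw [p11]
      congr 1
      ring
    rw [c.S_add, c.S_comm F, hF, c.S_add, c.S_add, c.S_mul, c.S_mul]
    linarith [sC c, sD c, dl_le c, dl_pos c]

theorem dT {θ : ℝ} (hθ : 0 ≤ θ) (hT : c.r ^ 2 * c.a * (θ ^ 3 + θ ^ 2 + 1) ≤ c.Tb) :
    c.S (fun h g => c.s * (fT (step c.A h g) - fT c.A))
      ≤ -6 * (c.N - fE c.A) * c.c3 - 6 * c.a * θ ^ 2 * c.c3 + c.N * c.Tb / c.r := by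
  have h1 : c.S (fun h g => c.s * (fT (step c.A h g) - fT c.A)) ≤ _ :=
    (c.S_mono fun h g H => ?_).trans
      ((c.S_add _ _).trans_le (add_le_add ((c.S_add _ _).trans_le
        (add_le_add (c.dT_t2 hθ hT) c.dT_np)) c.dT_small))
  · have h0 := c.good.r_pos
    have hN := c.good.N_pos
    have h2 : c.N * fE c.A ≤ 2 * dl c := by
      refine small c 10 (by norm_num) (by norm_num) ?_
      nlinarith [mul_le_mul_of_nonneg_left (c.sA.E2 c.good) (mul_pos (pow_pos h0 10) hN).le,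
        mul_le_mul_of_nonneg_left c.good.MT2 hN.le]
    have e : c.N * c.Tb / c.r = 4 * (c.N * c.Tb / (4 * c.r)) := by field_simp
    have e2 : c.s * fT c.A = c.c3 - fE c.A := by
      unfold c3
      ring
    rw [e2] at h1
    nlinarith [dl_le c, dl_pos c, sq_nonneg (fE c.A)]
  · rw [dT_eq c.sA.ok.symm H.ne (by linarith [H.lam_ge])]
    have := s_le c (3 * (n11 c.A h g * p11 c.A h g + n22 c.A h g * p22 c.A h g)
      + n11 c.A h g ^ 3 + n22 c.A h g ^ 3
      + 3 * n12 c.A h g * n21 c.A h g * (n11 c.A h g + n22 c.A h g))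
    linear_combination this

end Ctx
end Vale.Agent.P049
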