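import Vale.Agent.P049.DX

/-! P049: drift of the diagonal square sum. -/

namespace Vale.Agent.P049
open Matrix Finset
variable {ι : Type} [Fintype ι] [DecidableEq ι]

namespace DVX
open DX

noncomputable def u (K : Matrix ι ι ℝ) (h : ι) : ℝ := ∑ k, K k k * K k h ^ 2
noncomputable def D (K : Matrix ι ι ℝ) (h g k : ι) : ℝ :=
  ap K h g * K k h ^ 2 + al K h g * K k g ^ 2 + 2 * be K h g * (K k h * K k g)

theorem dV_eq {K : Matrix ι ι ℝ} (hs : ∀ i j, K i j = K j i) {h g : ι} (hne : h ≠ g)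
    (hl : lam K h g ≠ 0) :
    fV (step K h g) - fV K = 2 * (io K h g * (u K h * K g g)) + 2 * (io K h g * (K h h * u K g))
      + 4 * ∑ k, K k k * (be K h g * (K k h * K k g)) + ∑ k, D K h g k ^ 2
      - io K h g ^ 2 * K h h ^ 2 - io K h g ^ 2 * K g g ^ 2 := by
  have e : ∀ k, step K h g k k ^ 2 = if k = h ∨ k = g then 0 else full K h g k k ^ 2 := fun k => by
    unfold step
    by_cases hk : k = h ∨ k = g
    · rw [if_pos hk, if_pos (by tauto)]; simp
    · rw [if_neg hk, if_neg (by tauto)]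
  have e1 : full K h g h h = io K h g * K h h := by
    rw [full_h hs hl]; unfold vb al be io; field_simp; ring
  have e2 : full K h g g g = io K h g * K g g := by
    rw [full_g hs hl]; unfold va ap be io; rw [hs g h]; field_simp; ring
  have e3 : ∑ k, full K h g k k ^ 2 = ∑ k, K k k ^ 2 + (2 * (io K h g * (u K h * K g g))
      + 2 * (io K h g * (K h h * u K g))
      + 4 * ∑ k, K k k * (be K h g * (K k h * K k g)) + ∑ k, D K h g k ^ 2) := by
    simp only [u, mul_sum, sum_mul, ← sum_add_distrib]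
    refine sum_congr rfl fun k _ => ?_
    unfold full va vb D ap al io
    ring
  simp only [fV, e]
  rw [sum_del_ta hne, e1, e2, e3]
  ring

variable (c : Ctx ι)

theorem xS_sum : ∑ k, |c.A k k| * rS c.A k ≤ √c.Vb * √c.Wb :=
  (le_abs_self _).trans (AvgX.cs1 univ _ _ (Real.sqrt_nonneg _) (Real.sqrt_nonneg _)
    (by simp only [sq_abs]; rw [Real.sq_sqrt c.good.V0.le]; exact c.sA.Vb)
    (by rw [Real.sq_sqrt c.good.W0]; exact c.sA.Wb))

theorem sum_u : ∑ h ∈ c.U, |u c.A h| ≤ √c.Vb * √c.Wb := by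
  refine le_trans ?_ (xS_sum c)
  calc ∑ h ∈ c.U, |u c.A h| ≤ ∑ h, |u c.A h| := sumU _ _ fun _ => abs_nonneg _
    _ ≤ ∑ h, ∑ k, |c.A k k| * c.A k h ^ 2 := sum_le_sum fun h _ =>
        (abs_sum_le_sum_abs _ _).trans (le_of_eq (sum_congr rfl fun k _ => by
          rw [abs_mul, abs_of_nonneg (sq_nonneg (c.A k h))]))
    _ = _ := by rw [sum_comm]; simp only [rS, mul_sum]

section num
variable {p : Par} (H : p.Good)
include H

theorem aux {X : ℝ} (h : p.r ^ 10 * X ^ 2 * p.Wb ≤ p.N ^ 2 * p.Vb) :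
    p.r ^ 5 * (X * (√p.Vb * √p.Wb)) ≤ p.N * p.Vb := by
  refine le_sq_bb ?_ (mul_pos H.N_pos H.V0).le
  simp only [mul_pow, Real.sq_sqrt H.V0.le, Real.sq_sqrt H.W0]
  have := mul_le_mul_of_nonneg_left h H.V0.le
  linarith

theorem n1 : p.r ^ 2 * (p.Pa * (√p.Vb * √p.Wb)) ≤ p.N * p.Vb :=
  wk (r1 H) (by have := H.Pa0; positivity) (aux H H.MV3) (by norm_num)

theorem n2 : p.r ^ 2 * (p.sN / p.r ^ 3 * (√p.Vb * √p.Wb * √p.Vb)) ≤ p.N * p.Vb := by
  have h0 := H.r_pos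
  have h1 : √p.Wb ≤ p.r * p.sN := by
    refine le_sq_bb ?_ (mul_pos H.r_pos H.sN_pos).le
    rw [Real.sq_sqrt H.W0, mul_pow, H.sq]
    exact H.W2
  have h2 : √p.Vb * √p.Wb * √p.Vb = p.Vb * √p.Wb := by
    rw [mul_right_comm, Real.mul_self_sqrt H.V0.le]
  rw [h2]
  calc _ = p.sN * p.Vb * √p.Wb / p.r := by field_simp
    _ ≤ p.sN * p.Vb * (p.r * p.sN) / p.r := by have := H.sN_pos; have := H.V0; gcongr
    _ = _ := by rw [← H.sq]; field_simp

theorem n3 : p.r ^ 2 * (p.KP * (√p.Vb * √p.Wb)) ≤ 4 * (p.N * p.Vb) := by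
  have h1 := wk (k := 3) (r1 H) (by have := H.sN_pos; positivity) (aux H (X := p.sN) (by
    have := mul_le_mul_of_nonneg_left H.MV1 H.N_pos.le
    rw [H.sq]; linarith)) (by norm_num)
  have h2 := wk (k := 2) (r1 H) (by have := H.a_nonneg; have := L0 H; positivity)
    (aux H (X := p.a * p.L) (by linarith [H.MV2])) (by norm_num)
  unfold Par.KP
  linarith

theorem n4 : p.r ^ 2 * p.Pa ≤ p.N * p.Vb := by
  have := wk (k := 2) (r1 H) (by linarith [H.Pa0]) H.MV4 (by norm_num)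
  nlinarith [pow_pos H.r_pos 2]

theorem n5 : p.r ^ 2 * p.Wb ≤ p.N * p.Vb := wk (r1 H) H.W0 H.MV1 (by norm_num)

theorem fin {X C : ℝ} (hC : 0 ≤ C) (h : p.r ^ 2 * X ≤ C * (p.N * p.Vb)) :
    X ≤ C / 10 ^ 50 * (p.N * p.Vb / p.r) := by
  have h0 := H.r_pos
  have h1 := H.N_pos
  have h2 := H.V0
  calc X ≤ C * (p.N * p.Vb) / p.r ^ 2 := by rw [le_div_iff₀ (by positivity)]; linarith
    _ = C / p.r * (p.N * p.Vb / p.r) := by field_simp
    _ ≤ _ := by gcongr; exact H.hr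

end num

theorem t1 : c.N * fV c.A - 1 / 10 ^ 50 * (c.N * c.Vb / c.r)
    ≤ c.S (fun h g => io c.A h g ^ 2 * c.A h h ^ 2) := by
  have h1 := (abs_le.1 (c.P0 coef_io_sq fun h => c.A h h ^ 2)).1
  simp only [abs_pow, sq_abs] at h1
  rw [c.sA.ok.sum_diag_sq] at h1
  have h2 : c.N / c.r ^ 3 * fV c.A ≤ 1 / 10 ^ 50 * (c.N * c.Vb / c.r) := by
    refine fin c.good zero_le_one ?_
    have h0 := c.good.r_pos
    have h3 := c.good.N_pos
    have h4 := c.good.V0
    calc _ = c.N * fV c.A / c.r := by field_simp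
      _ ≤ c.N * c.Vb / 1 := by gcongr; exacts [c.sA.Vb, r1 c.good]
      _ = _ := by ring
  linarith

theorem t2 : c.S (fun h g => io c.A h g * (u c.A h * c.A g g))
    ≤ 2 / 10 ^ 50 * (c.N * c.Vb / c.r) := by
  have h1 := (abs_le.1 (c.P1 Ctx.coef_io (u c.A) (fun g => c.A g g) (Real.sqrt_nonneg c.Vb)
    (by rw [Real.sq_sqrt c.good.V0.le]; exact sum_x c))).2
  rw [c.sA.ok.sum_diag] at h1
  have h2 : (∑ h ∈ c.U, u c.A h) * fP c.A ≤ c.Pa * (√c.Vb * √c.Wb) := by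
    refine (le_abs_self _).trans ?_
    rw [abs_mul, mul_comm]
    exact mul_le_mul c.sA.Pa ((abs_sum_le_sum_abs _ _).trans (sum_u c)) (abs_nonneg _)
      c.good.Pa0.le
  have h3 : c.sN / c.r ^ 3 * ((∑ h ∈ c.U, |u c.A h|) * √c.Vb)
      ≤ c.sN / c.r ^ 3 * (√c.Vb * √c.Wb * √c.Vb) := by
    have := c.good.r_pos
    have := c.good.sN_pos
    gcongr
    exact sum_u c
  have h4 := fin c.good zero_le_one ((n1 c.good).trans (one_mul _).ge)
  have h5 := fin c.good zero_le_one ((n2 c.good).trans (one_mul _).ge)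
  linarith

theorem t4 : ∑ k, c.A k k * c.S (fun h g => be c.A h g * (c.A k h * c.A k g))
    ≤ 5 / 10 ^ 50 * (c.N * c.Vb / c.r) := by
  have h1 : ∀ k, c.A k k * c.S (fun h g => be c.A h g * (c.A k h * c.A k g))
      ≤ c.A k k + c.KP * (|c.A k k| * rS c.A k) := fun k => by
    have h0 : ∑ h ∈ c.U, c.A k h ^ 2 ≤ √(rS c.A k) ^ 2 := by
      rw [Real.sq_sqrt (rS_nonneg _ _)]
      exact sumU _ _ fun _ => sq_nonneg _
    have h2 := c.P2 Ctx.coef_be (c.A k) (c.A k) (Real.sqrt_nonneg _) (Real.sqrt_nonneg _) h0 h0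
    rw [Real.mul_self_sqrt (rS_nonneg _ _), row_sum] at h2
    by_cases hk : k ∈ c.U
    · rw [if_pos hk] at h2
      have h3 := mul_le_mul_of_nonneg_left h2 (abs_nonneg (c.A k k))
      rw [← abs_mul] at h3
      linarith [le_abs_self (c.A k k *
        (c.S (fun h g => be c.A h g * (c.A k h * c.A k g)) - 1 * 1))]
    · simp [c.sA.ok.supp k k hk]
  refine (sum_le_sum fun k _ => h1 k).trans ?_
  rw [sum_add_distrib, ← mul_sum]
  have h2 := mul_le_mul_of_nonneg_left (xS_sum c) c.good.KP_nonneg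
  have h3 : ∑ k, c.A k k ≤ c.Pa := (le_abs_self _).trans c.sA.Pa
  have h4 := fin c.good zero_le_one ((n4 c.good).trans (one_mul _).ge)
  have h5 := fin c.good (by norm_num) (n3 c.good)
  linarith

theorem D_sq {a1 a2 b m : ℝ} (h1 : a1 * a2 ≤ 11 / 1000 * m) (h2 : b ^ 2 ≤ 5 * m) (hm : 0 ≤ m) :
    (a1 + a2 + b) ^ 2 ≤ 102 / 100 * (a1 ^ 2 + a2 ^ 2) + 260 * m := by
  nlinarith [sq_nonneg (a1 + a2 - 50 * b)]

theorem t5 : c.S (fun h g => ∑ k, D c.A h g k ^ 2)
    ≤ 22 / 10 * fR c.A * fV c.A + 300 / 10 ^ 50 * (c.N * c.Vb / c.r) := by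
  have h1 : c.S (fun h g => ∑ k, D c.A h g k ^ 2) ≤
      c.S (fun h g => 1085 / 1000 * (rR c.A h * c.A g g ^ 2)
        + 1085 / 1000 * (c.A h h ^ 2 * rR c.A g) + 260 * ∑ k, c.A k h ^ 2 * c.A k g ^ 2) := by
    refine c.S_mono fun h g H => ?_
    rw [← col4, ← col4]
    simp only [mul_sum, sum_mul, ← sum_add_distrib]
    refine sum_le_sum fun k _ => ?_
    have hm : 0 ≤ c.A k h ^ 2 * c.A k g ^ 2 := by positivity
    have a1 := mul_le_mul_of_nonneg_right ((le_abs_self _).trans (apal H)) hm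
    have a2 := mul_le_mul_of_nonneg_right (be_sq H) hm
    have a3 := mul_le_mul_of_nonneg_right (ap_sq H) (show 0 ≤ c.A k h ^ 4 by positivity)
    have a4 := mul_le_mul_of_nonneg_right (al_sq H) (show 0 ≤ c.A k g ^ 4 by positivity)
    have a5 : 0 ≤ c.A g g ^ 2 * c.A k h ^ 4 := by positivity
    have a6 : 0 ≤ c.A h h ^ 2 * c.A k g ^ 4 := by positivity
    refine (D_sq (m := c.A k h ^ 2 * c.A k g ^ 2) (by linarith) (by linarith) hm).trans ?_
    linarith
  rw [c.S_add, c.S_add] at h1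
  have h2 := S_prod c (C := 1085 / 1000) (rR c.A) (fun g => c.A g g ^ 2) (rR_nonneg _)
    (fun _ => sq_nonneg _) (by norm_num) (fun _ _ _ => le_rfl) c.sA.ok.sum_rR.le
    c.sA.ok.sum_diag_sq.le
  have h3 := S_prod c (C := 1085 / 1000) (fun g => c.A g g ^ 2) (rR c.A)
    (fun _ => sq_nonneg _) (rR_nonneg _) (by norm_num) (fun _ _ _ => le_rfl)
    c.sA.ok.sum_diag_sq.le c.sA.ok.sum_rR.le
  have h4 := S_all c (C := 260) (fun h g => ∑ k, c.A k h ^ 2 * c.A k g ^ 2)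
    (fun _ _ => sum_nonneg fun _ _ => by positivity) (by norm_num) (fun _ _ _ => le_rfl)
    ((sum_kk c).trans c.sA.Wb)
  have h5 := fin c.good zero_le_one ((n5 c.good).trans (one_mul _).ge)
  have h6 := mul_nonneg (fR_nonneg c.A) (fV_nonneg c.A)
  have h7 := c.good.W0
  linarith

end DVX

open DX DVX

namespace Ctx
variable (c : Ctx ι)

theorem dV : c.S (fun h g => fV (step c.A h g) - fV c.A)
      ≤ -2 * c.N * fV c.A + 22 / 10 * fR c.A * fV c.A + c.N * c.Vb / c.r := by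
  have ei : ∀ h g, io c.A g h = io c.A h g := fun h g => by
    unfold io; rw [lam_comm c.sA.ok.symm]
  rw [c.S_congr fun h g H => dV_eq c.sA.ok.symm H.ne (lam_ne H), c.S_sub, c.S_sub, c.S_add,
    c.S_add, c.S_add, c.S_mul, c.S_mul, c.S_mul, c.S_sum]
  simp only [c.S_mul]
  have e1 : c.S (fun h g => io c.A h g * (c.A h h * u c.A g)) =
      c.S (fun h g => io c.A h g * (u c.A h * c.A g g)) := by
    rw [← c.S_comm]
    exact c.S_congr fun h g _ => by rw [ei, mul_comm (c.A g g)]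
  have e2 : c.S (fun h g => io c.A h g ^ 2 * c.A g g ^ 2) =
      c.S (fun h g => io c.A h g ^ 2 * c.A h h ^ 2) := by
    rw [← c.S_comm]
    exact c.S_congr fun h g _ => by rw [ei]
  rw [e1, e2]
  have h0 : 0 ≤ c.N * c.Vb / c.r := by
    have := c.good.r_pos
    have := c.good.N_pos
    have := c.good.V0
    positivity
  linarith [t1 c, DVX.t2 c, t4 c, t5 c]

end Ctx
end Vale.Agent.P049
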