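import Vale.Agent.P049.Avg

/-! P049: drift of a quotient. -/

namespace Vale.Agent.P049
open Matrix Finset
variable {ι : Type} [Fintype ι] [DecidableEq ι]

namespace Ctx
variable (c : Ctx ι)

theorem rN_px : c.r ^ 2 ≤ c.N :=
  (pow_le_pow_right₀ (le_trans (by norm_num) c.good.hr) (by norm_num)).trans c.good.N_ge

theorem N_px : c.r ≤ c.N :=
  (le_self_pow₀ (le_trans (by norm_num) c.good.hr) two_ne_zero).trans c.rN_px

theorem pot_gen {F : ι → ι → ℝ} {f t t' D k B : ℝ} (h : c.S (fun h g => F h g - f) ≤ D)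
    (f0 : 0 ≤ f) (t0 : 0 < t) (t0' : 0 < t') (hk : |k| ≤ 20) (ht : t * (1 - k / c.N) ≤ t')
    (hB : D + c.N * k * f + 20 * c.N * f / c.r ^ 3 ≤ B * t') :
    c.S (fun h g => F h g / t' - f / t) ≤ B := by
  have N0 := c.good.N_pos
  have r0 := c.good.r_pos
  have e : c.S (fun h g => F h g / t' - f / t) =
      1 / t' * (c.S (fun h g => F h g - f) + f * (1 - t' / t) * c.S fun _ _ => 1) := by
    rw [← S_mul c (f * _), ← S_add, ← S_mul]
    exact c.S_congr fun h g _ => by field_simp; ring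
  have m0 : 0 ≤ c.S fun _ _ => 1 :=
    sum_nonneg fun h _ => sum_nonneg fun g _ => mul_nonneg (c.om_nonneg h g) zero_le_one
  have h1 : 1 - t' / t ≤ k / c.N := by
    rw [sub_le_comm, le_div_iff₀' t0]; exact ht
  have h2 : k / c.N * (c.S fun _ _ => 1) ≤ c.N * k + 20 * c.N / c.r ^ 3 := by
    have h3 : |k / c.N * ((c.S fun _ _ => 1) - c.N ^ 2)| ≤ 20 / c.N * (c.N ^ 2 / c.r ^ 3) := by
      rw [abs_mul, abs_div, abs_of_pos N0]
      gcongr
      exact c.mass.1
    have h4 := (abs_le.1 h3).2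
    rw [mul_sub, show k / c.N * c.N ^ 2 = c.N * k by field_simp,
      show 20 / c.N * (c.N ^ 2 / c.r ^ 3) = 20 * c.N / c.r ^ 3 by field_simp] at h4
    linarith
  have h3 := mul_le_mul_of_nonneg_left ((mul_le_mul_of_nonneg_right h1 m0).trans h2) f0
  rw [e, one_div, inv_mul_le_iff₀ t0', mul_comm t', mul_assoc f]
  refine le_trans ?_ hB
  rw [show 20 * c.N * f / c.r ^ 3 = f * (20 * c.N / c.r ^ 3) by ring]
  linarith

theorem small_px {f t : ℝ} (f0 : 0 ≤ f) (ft : f ≤ t) :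
    20 * c.N * f / c.r ^ 3 ≤ c.N * t / c.r := by
  have N0 := c.good.N_pos
  have r0 := c.good.r_pos
  have hr := c.good.hr
  calc 20 * c.N * f / c.r ^ 3 = 20 / c.r ^ 2 * (c.N * f / c.r) := by field_simp
    _ ≤ 1 * (c.N * t / c.r) := by
      gcongr
      rw [div_le_one (by positivity)]
      nlinarith
    _ = _ := one_mul _

theorem half_px {t t' k : ℝ} (t0 : 0 < t) (hk : k ≤ 2) (ht : t * (1 - k / c.N) ≤ t') :
    t ≤ 2 * t' := by
  have : k / c.N ≤ 1 / 2 := by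
    rw [div_le_iff₀ c.good.N_pos]
    linarith [c.N_px, c.good.hr]
  nlinarith

theorem pot_std {F : ι → ι → ℝ} {f t t' D k : ℝ} (h : c.S (fun h g => F h g - f) ≤ D)
    (f0 : 0 ≤ f) (ft : f ≤ t) (t0 : 0 < t) (k0 : 0 ≤ k) (hk : k ≤ 2)
    (ht : t * (1 - k / c.N) ≤ t') (hB : D + c.N * k * f ≤ 9 * (c.N * t / c.r)) :
    c.S (fun h g => F h g / t' - f / t) ≤ 20 * c.N / c.r := by
  have N0 := c.good.N_pos
  have r0 := c.good.r_pos
  have h2 := c.half_px t0 hk ht
  refine c.pot_gen h f0 t0 (by linarith) (abs_le.2 ⟨by linarith, by linarith⟩) ht ?_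
  have h3 : c.N * t / c.r ≤ c.N * (2 * t') / c.r := by gcongr
  rw [show 20 * c.N / c.r * t' = 10 * (c.N * (2 * t') / c.r) by ring]
  linarith [c.small_px f0 ft]

end Ctx
end Vale.Agent.P049
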