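import Vale.Agent.P049.DE
import Vale.Agent.P049.DT
import Vale.Agent.P049.DV
import Vale.Agent.P049.PotX

/-! P049: drift of the cubic and the diagonal potentials. -/

namespace Vale.Agent.P049
open Matrix Finset
variable {ι : Type} [Fintype ι] [DecidableEq ι]

namespace PotTX

theorem tv_ratio {a N M : ℝ} (N2 : 2 < N) (M0 : 0 < M) :
    a * N / (N + M) * (1 - 2 * M / (N - 2 + M) / N) = a * (N - 2) / (N - 2 + M) := by
  have h1 : N + M ≠ 0 := by linarith
  have h2 : N - 2 + M ≠ 0 := by linarith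
  have h3 : N ≠ 0 := by linarith
  field_simp
  ring

theorem tv_gain {N M Z : ℝ} (N2 : 10 ≤ N) (M0 : 0 < M) (MZ : M ≤ Z) :
    -2 * N + N * (2 * M / (N - 2 + M)) + 1144 / 1000 * (N ^ 2 / (N + Z)) ≤ 0 := by
  have h2 : 0 < N - 2 + M := by linarith
  have h1 : N ^ 2 / (N + Z) ≤ N ^ 2 / (N - 2 + M) := by gcongr; linarith
  have h3 : -2 * N + N * (2 * M / (N - 2 + M)) + 1144 / 1000 * (N ^ 2 / (N - 2 + M))
      = (N * (4 - 856 / 1000 * N)) / (N - 2 + M) := by field_simp; ring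
  have h4 : (N * (4 - 856 / 1000 * N)) / (N - 2 + M) ≤ 0 :=
    div_nonpos_of_nonpos_of_nonneg (mul_nonpos_of_nonneg_of_nonpos (by linarith) (by linarith))
      h2.le
  linarith

end PotTX

namespace Ctx
variable (c : Ctx ι)

theorem potT (X : c.toPar.Extra) :
    c.S (fun h g => pT c.r (c.N - 2) c.s (step c.A h g) - pT c.r c.N c.s c.A)
      ≤ 20 * c.N / c.r := by
  have N0 := c.good.N_pos
  have r0 := c.good.r_pos
  have hr := c.good.hr
  have hN := c.N_px
  have eT : c.Tb = tT c.r c.N := X.eT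
  obtain ⟨f0, f1⟩ := c.c3_bd
  have t0 : 0 < c.Tb := lt_of_lt_of_le (by positivity) c.good.MT2
  have hD : ∀ θ : ℝ, 0 ≤ θ → c.r ^ 2 * c.a * (θ ^ 3 + θ ^ 2 + 1) ≤ c.Tb →
      c.S (fun h g => (c.s * fT (step c.A h g) + fE (step c.A h g)) - c.c3) ≤
        -6 * (c.N - fE c.A) * c.c3 - 6 * c.a * θ ^ 2 * c.c3 + 2 * (c.N * c.Tb / c.r) := by
    intro θ h0 h1
    have h2 := add_le_add (c.dT h0 h1) c.dE1'
    rw [← S_add, c.S_congr (f' := fun h g => (c.s * fT (step c.A h g) + fE (step c.A h g)) - c.c3)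
      fun h g _ => by unfold c3; ring] at h2
    linarith
  have h2 : c.Tb * (1 - 2 / c.N) ≤ tT c.r (c.N - 2) := by
    have h3 : 0 ≤ 1 - 2 / c.N := by
      rw [sub_nonneg, div_le_one N0]; linarith
    refine le_min ?_ ?_
    · calc c.Tb * (1 - 2 / c.N) ≤ c.r ^ 3751 * c.N * (1 - 2 / c.N) := by
            gcongr; rw [eT]; exact min_le_left _ _
        _ = _ := by field_simp
    · have : c.Tb ≤ c.r ^ 12021 := by rw [eT]; exact min_le_right _ _
      have h4 : 0 ≤ c.Tb * (2 / c.N) := by positivity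
      linarith
  have h6 : c.c3 ≤ c.N * c.Tb / c.r := by
    rw [le_div_iff₀ r0, mul_comm c.N]
    gcongr
  have h7 := mul_le_mul_of_nonneg_right (show -1 ≤ c.N - fE c.A by linarith [c.sA.E1]) f0
  have T0 : c.r ^ 2 * c.a * ((0 : ℝ) ^ 3 + 0 ^ 2 + 1) ≤ c.Tb := by simpa using X.T0
  have h8 : 0 ≤ c.N * c.c3 := by positivity
  show c.S (fun h g => (c.s * fT (step c.A h g) + fE (step c.A h g)) / tT c.r (c.N - 2)
    - c.c3 / tT c.r c.N) ≤ _
  rw [← eT]
  rcases X.T1 with h | h | ⟨θ, h0, h1, h⟩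
  · refine c.pot_std (k := 0) (hD 0 le_rfl T0) f0 f1 t0 le_rfl (by norm_num) ?_ (by nlinarith)
    rw [zero_div, sub_zero, mul_one, eT]
    refine le_min ((min_le_right _ _).trans ?_) (min_le_right _ _)
    rw [show 12021 = 3751 + 8270 by norm_num, pow_add]
    gcongr
  · refine c.pot_std (k := 2) (hD 0 le_rfl T0) f0 f1 t0 (by norm_num) le_rfl h2 ?_
    have h9 := mul_le_mul_of_nonneg_right
      (show c.N / 2 ≤ c.N - fE c.A by linarith [c.sA.Eb]) f0
    nlinarith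
  · refine c.pot_std (k := 2) (hD θ h0 h) f0 f1 t0 (by norm_num) le_rfl h2 ?_
    rw [show 6 * c.a * θ ^ 2 = 6 * c.N by rw [← h1]; ring]
    nlinarith

theorem potV (X : c.toPar.Extra) :
    c.S (fun h g => pV c.r (c.N - 2) (step c.A h g) - pV c.r c.N c.A) ≤ 20 * c.N / c.r := by
  have N0 := c.good.N_pos
  have r0 := c.good.r_pos
  have hr := c.good.hr
  have hN := c.N_px
  have eV : c.Vb = tV c.r c.N := X.eV
  have eE : c.Eb = 1 + c.N ^ 2 / (c.N + c.r ^ 7799) := X.eE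
  have M0 : 0 < c.r ^ 6500 := by positivity
  have MZ : c.r ^ 6500 ≤ c.r ^ 7799 := pow_le_pow_right₀ (by linarith) (by norm_num)
  have f0 : 0 ≤ fV c.A := sum_nonneg fun _ _ => sq_nonneg _
  have f1 := c.sA.Vb
  have t0 := c.good.V0
  have h2 : 0 < c.N - 2 + c.r ^ 6500 := by linarith
  show c.S (fun h g => fV (step c.A h g) / tV c.r (c.N - 2) - fV c.A / tV c.r c.N) ≤ _
  rw [← eV]
  refine c.pot_std (k := 2 * c.r ^ 6500 / (c.N - 2 + c.r ^ 6500)) c.dV f0 f1 t0 (by positivity)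
    (by rw [div_le_iff₀ h2]; linarith) ?_ ?_
  · rw [eV]
    exact (PotTX.tv_ratio (by linarith) M0).le
  · have h3 := PotTX.tv_gain (N := c.N) (by linarith) M0 MZ
    have h4 : c.N / c.r ^ 2 ≤ c.N / c.r := by
      gcongr; nlinarith
    have h5 : 1 ≤ c.N / c.r := by rw [le_div_iff₀ r0]; linarith
    have h6 : -2 * c.N + c.N * (2 * c.r ^ 6500 / (c.N - 2 + c.r ^ 6500)) + 22 / 10 * fR c.A
        ≤ 4 * (c.N / c.r) := by
      linarith [c.fR_le, c.sA.Eb]
    have h7 := (mul_le_mul_of_nonneg_right h6 f0).trans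
      (mul_le_mul_of_nonneg_left f1 (by positivity))
    have h8 : 0 ≤ c.N * c.Vb / c.r := by positivity
    rw [show 4 * (c.N / c.r) * c.Vb = 4 * (c.N * c.Vb / c.r) by ring] at h7
    linarith

end Ctx
end Vale.Agent.P049
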