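import Vale.Agent.P049.DCz

/-! P049: drift of the mixed functional: small inner products. -/

namespace Vale.Agent.P049
open Matrix Finset
variable {ι : Type} [Fintype ι] [DecidableEq ι]

namespace DCbX
open DCZ

theorem colsq (X : Matrix ι ι ℝ) {K : Matrix ι ι ℝ} (hs : ∀ i j, K i j = K j i) (h : ι) :
    ∑ k, (X * K) k h ^ 2 ≤ fE X * rS K h := by
  have := mulVec_sq_le X (col K h)
  rwa [mv, dot_self, dot_self, TrBX.tr_eq hs] at this

theorem main_real {τ π C L P Pa : ℝ} (h1 : -C ≤ τ) (h2 : τ ≤ L * C) (h3 : -Pa ≤ π) (h4 : π ≤ P)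
    (hC : 0 ≤ C) (hL : 0 ≤ L) (hP : 0 ≤ P) (hPa : 0 ≤ Pa) : τ * π ≤ P * L * C + Pa * C := by
  have a1 : 0 ≤ P * L * C := by positivity
  have a2 : 0 ≤ Pa * C := by positivity
  rcases le_total 0 τ with h | h <;> rcases le_total 0 π with h' | h'
  · nlinarith [mul_le_mul h2 h4 h' (by positivity)]
  · nlinarith [mul_nonneg h (neg_nonneg.2 h')]
  · nlinarith [mul_nonneg (neg_nonneg.2 h) h']
  · nlinarith [mul_le_mul (neg_le.1 h1) (neg_le.1 h3) (neg_nonneg.2 h') hC]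

theorem num {p : Par} (H : p.Good) : p.r ^ 3 * (p.KP * (√(p.r * p.sN) * √p.Vb)) ≤ p.N ∧
    p.r ^ 3 * (p.P * p.L) ≤ p.N ∧ p.r ^ 3 * p.Pa ≤ p.N ∧ p.r ^ 3 * p.sN ≤ p.N ∧
    p.r ^ 3 * p.L ^ 2 ≤ p.N ∧ p.r ^ 3 * (p.r ^ 2 * p.sN * p.Vb) ≤ p.N := by
  have r0 := H.r_pos
  have s0 := H.sN_pos
  have v0 := H.V0
  have r4 : 4 ≤ p.r := le_trans (by norm_num) H.hr
  have r1 : 1 ≤ p.r := by linarith
  have l0 : 0 ≤ p.L := zero_le_one.trans H.L1
  have p0 := H.P0
  have p1 := H.Pa0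
  have k0 := H.KP_nonneg
  have e3 : p.r ^ 3 ≤ p.r ^ 20 := pow_le_pow_right₀ r1 (by norm_num)
  refine ⟨?_, ?_, ?_, ?_, ?_, ?_⟩
  · have h1 : p.r ^ 9 * (p.KP * (√(p.r * p.sN) * √p.Vb)) ≤ 4 * p.N := by
      refine le_sq_bb ?_ (by have := H.N_pos; positivity)
      simp only [mul_pow]
      rw [Real.sq_sqrt (by positivity), Real.sq_sqrt v0.le]
      linarith [H.KP_sq_Vb]
    have h2 : 4 * p.r ^ 3 ≤ p.r ^ 9 :=
      calc _ ≤ p.r * p.r ^ 3 := by gcongr
        _ = p.r ^ 4 := by ring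
        _ ≤ _ := pow_le_pow_right₀ r1 (by norm_num)
    have h3 := mul_le_mul_of_nonneg_right h2
      (show 0 ≤ p.KP * (√(p.r * p.sN) * √p.Vb) by positivity)
    linarith
  · exact (mul_le_mul_of_nonneg_right e3 (by positivity)).trans (by linarith [H.M5])
  · exact (mul_le_mul_of_nonneg_right e3 p1.le).trans H.M5'
  · rw [← H.sq, sq p.sN]
    exact mul_le_mul_of_nonneg_right ((pow_le_pow_right₀ r1 (by norm_num)).trans H.big) s0.le
  · exact (mul_le_mul_of_nonneg_right e3 (by positivity)).trans H.M1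
  · rw [← H.sq, sq p.sN]
    calc _ = p.r ^ 5 * p.Vb * p.sN := by ring
      _ ≤ p.r ^ 22 * p.Vb * p.sN := by gcongr; norm_num
      _ ≤ _ := by gcongr; exact H.Vb_le

variable (c : Ctx ι)

theorem t1 : 100 * c.S (fun h g => ap c.A h g * (c.A * c.B * (c.B * c.A * c.A)) h h) ≤
    3 * (c.N * c.Cb / c.r ^ 2) := by
  have r0 := c.good.r_pos
  have s0 := c.good.sN_pos
  have c0 : 0 ≤ c.Cb := (fE_nonneg _).trans c.hC
  have l0 : 0 ≤ c.L := zero_le_one.trans c.good.L1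
  have h0 : ∀ h, (c.A * c.B * (c.B * c.A * c.A)) h h ^ 2 ≤
      rS (c.A * c.B) h * (c.Cb * (c.r * c.sN)) := fun h => by
    have k1 := colsq (c.B * c.A) c.sA.ok.symm h
    have k2 := mul_le_mul c.hC' (c.sA.rS_le c.good h) (rS_nonneg _ _) c0
    exact (mul_apply_sq_le (c.A * c.B) (c.B * c.A * c.A) h h).trans
      (mul_le_mul_of_nonneg_left (k1.trans k2) (rS_nonneg _ _))
  have h1 := c.P2 Ctx.coef_io (fun h => (c.A * c.B * (c.B * c.A * c.A)) h h) (fun g => c.A g g)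
    (p := c.Cb * √(c.r * c.sN)) (p' := √c.Vb) (by positivity) (by positivity) (by
      rw [mul_pow, Real.sq_sqrt (by positivity), sq c.Cb, mul_assoc c.Cb]
      refine le_trans (sum_le_sum fun h _ => h0 h) ?_
      rw [← sum_mul]
      exact mul_le_mul_of_nonneg_right ((sum_rS c.U _).trans c.hC) (by positivity))
    (by rw [Real.sq_sqrt c.good.V0.le, c.sA.ok.sum_diag_sq]; exact c.sA.Vb)
  have h2 : ∑ h ∈ c.U, (c.A * c.B * (c.B * c.A * c.A)) h h =
      trace ((c.A * c.B)ᵀ * c.A * (c.A * c.B)) := by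
    rw [transpose_mul, TrBX.tr_eq c.sA.ok.symm, TrBX.tr_eq c.sB.ok.symm, trace_mul_comm,
      Matrix.mul_assoc c.A]
    refine sum_subset (subset_univ _) fun k _ hk => ?_
    rw [mul_apply]
    simp [c.sA.ok.supp k _ hk]
  rw [h2, c.sA.ok.sum_diag] at h1
  have hs : c.s * c.s = 1 := by rcases c.hs with h | h <;> simp [h]
  have ha : ∀ x : ℝ, |c.s * x| = |x| := fun x => by rcases c.hs with h | h <;> simp [h]
  have h3 := main_real (le_trans (neg_le_neg c.hC) (sandwich_ge c.loA (c.A * c.B)))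
    ((le_abs_self _).trans ((ha _).trans_le ((sandwich_abs c.sA.op l0 _).trans
      (mul_le_mul_of_nonneg_left c.hC l0))))
    (abs_le.1 ((ha _).trans_le c.sA.Pa)).1 c.sA.P c0 l0 c.good.P0 c.good.Pa0.le
  rw [mul_mul_mul_comm, hs, one_mul] at h3
  rw [c.S_congr (f' := fun h g => io c.A h g * ((c.A * c.B * (c.B * c.A * c.A)) h h * c.A g g))
    fun h g _ => by unfold ap io; ring]
  obtain ⟨a1, a2, a3, -⟩ := num c.good
  have b1 := fin c.good 2 (K := 100) (by have := c.good.KP_nonneg; positivity) a1 (by norm_num)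
  have b2 := fin c.good 2 (K := 100) (mul_nonneg c.good.P0 l0) a2 (by norm_num)
  have b3 := fin c.good 2 (K := 100) c.good.Pa0.le a3 (by norm_num)
  linarith [(abs_le.1 h1).2]

theorem t2 : 100 * c.S (fun h g => b1 c.A c.B h g * (c.A * (c.A * c.B * c.B)) h h +
    b2 c.A c.B h g * (c.A * (c.A * c.B * c.B)) h g) ≤ 3 * (c.N * c.Cb / c.r ^ 2) := by
  have r0 := c.good.r_pos
  have s0 := c.good.sN_pos
  have v0 := c.good.V0
  have c0 : 0 ≤ c.Cb := (fE_nonneg _).trans c.hC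
  have l0 : 0 < c.L := zero_lt_one.trans_le c.good.L1
  have h1 := c.S_le (f := fun h g => b1 c.A c.B h g * (c.A * (c.A * c.B * c.B)) h h +
      b2 c.A c.B h g * (c.A * (c.A * c.B * c.B)) h g)
    (f' := fun h g => (128 * c.sN + 128 * c.L ^ 2) * G c h g +
      c.Cb / c.sN * (c.X g ^ 2 * c.Sp h ^ 2) + 1 / c.L ^ 2 * (c.A * (c.A * c.B * c.B)) h g ^ 2)
    (fun h g H => by
      have n0 := G_nonneg c h g
      have k0 : (c.A * (c.A * c.B * c.B)) h h ^ 2 ≤ c.Cb * c.Sp h ^ 2 :=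
        calc _ ≤ rS c.A h * (c.Cb * rS c.B h) := (mul_apply_sq_le _ _ h h).trans
              (mul_le_mul_of_nonneg_left ((colsq _ c.sB.ok.symm h).trans
                (mul_le_mul_of_nonneg_right c.hC (rS_nonneg _ _))) (rS_nonneg _ _))
          _ = c.Cb * (rS c.A h * rS c.B h) := by ring
          _ ≤ _ := by rw [sq]; exact mul_le_mul_of_nonneg_left (SS_le c h h) c0
      have k1 := amgm (z := b1 c.A c.B h g * (c.A * (c.A * c.B * c.B)) h h) (p := 128 * G c h g)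
        (q := c.Cb * (c.X g ^ 2 * c.Sp h ^ 2)) (by positivity) (by positivity) s0 (by
          rw [mul_pow]
          exact (mul_le_mul (b1_le H) k0 (sq_nonneg _) (by positivity)).trans_eq (by ring))
      have k2 := amgm (z := b2 c.A c.B h g * (c.A * (c.A * c.B * c.B)) h g) (p := 128 * G c h g)
        (q := (c.A * (c.A * c.B * c.B)) h g ^ 2) (by positivity) (by positivity)
        (pow_pos l0 2) (by
          rw [mul_pow]
          exact mul_le_mul_of_nonneg_right (b2_le H) (sq_nonneg _))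
      refine (add_le_add k1 k2).trans_eq ?_
      ring)
    fun h g => by have := G_nonneg c h g; positivity
  simp only [sum_add_distrib, ← mul_sum (a := 128 * c.sN + 128 * c.L ^ 2),
    ← mul_sum (a := c.Cb / c.sN), ← mul_sum (a := 1 / c.L ^ 2)] at h1
  have h2 := mul_le_mul_of_nonneg_left (sum_G c)
    (show 0 ≤ 128 * c.sN + 128 * c.L ^ 2 by positivity)
  have h3 : c.Cb / c.sN * ∑ h ∈ c.U, ∑ g ∈ c.U, c.X g ^ 2 * c.Sp h ^ 2 ≤
      16 * (c.r ^ 2 * c.sN * c.Vb) * c.Cb := by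
    refine (mul_le_mul_of_nonneg_left (sum_pr' c.U (fun h => sq_nonneg (c.X h))
      (fun h => sq_nonneg (c.Sp h)) c.sum_X_sq (c.sum_Sp_sq.trans (mul_le_mul_of_nonneg_left
        c.good.W2 (by norm_num)))) (by positivity)).trans_eq ?_
    rw [← c.good.sq]
    field_simp
    norm_num
  have h4 : 1 / c.L ^ 2 * ∑ h ∈ c.U, ∑ g ∈ c.U, (c.A * (c.A * c.B * c.B)) h g ^ 2 ≤
      c.L ^ 2 * c.Cb := by
    refine (mul_le_mul_of_nonneg_left ((sum_fE c.U _).trans ((c.sA.op.left _).trans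
      (mul_le_mul_of_nonneg_left ((c.sB.op.right c.sB.ok.symm _).trans
        (mul_le_mul_of_nonneg_left c.hC (sq_nonneg _))) (sq_nonneg _)))) (by positivity)).trans_eq ?_
    field_simp
  obtain ⟨-, -, -, a1, a2, a3⟩ := num c.good
  have b1 := fin c.good 2 (K := 10 ^ 5) s0.le a1 (by norm_num)
  have b2 := fin c.good 2 (K := 10 ^ 5) (sq_nonneg _) a2 (by norm_num)
  have b3 := fin c.good 2 (K := 10 ^ 5) (by positivity) a3 (by norm_num)
  have d1 : 0 ≤ c.r ^ 2 * c.sN * c.Vb * c.Cb := by positivity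
  have d2 := mul_nonneg s0.le c0
  have d3 := mul_nonneg (sq_nonneg c.L) c0
  linarith

theorem ip_zz {A B : Matrix ι ι ℝ} (hA : ∀ i j, A i j = A j i) (hB : ∀ i j, B i j = B j i)
    (h g : ι) : ip (A * B) (zz A B h g) = ap B h g * (B * A * (A * B * B)) h h
      + ap A h g * (A * B * (B * A * A)) h h
      + (b1 A B h g * (A * (A * B * B)) h h + b2 A B h g * (A * (A * B * B)) h g) := by
  have tA := TrBX.tr_eq hA
  have tB := TrBX.tr_eq hB
  have e : (A * (A * B * (B * A))) h h = (A * B * (B * A * A)) h h := by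
    rw [← transpose_apply (A * _)]
    simp only [transpose_mul, tA, tB, Matrix.mul_assoc]
  simp only [zz, ip_add, ip_r1, mv, dot, transpose_mul, tA, tB, e, add_assoc]

end DCbX

namespace Ctx
variable (c : Ctx ι)

theorem dC_S : c.S (fun h g => 2 * ip (c.A * c.B) (nS c.A c.B h g))
      ≤ c.N * c.Cb / c.r ^ 2 := by
  simp only [DCZ.nS_eq c.sA.ok.symm c.sB.ok.symm, DCZ.ip_add]
  rw [c.S_mul, c.S_add, c.S_comm fun h g => ip (c.A * c.B) (DCZ.zz c.A c.B h g)]
  simp only [DCbX.ip_zz c.sA.ok.symm c.sB.ok.symm]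
  rw [c.S_add, c.S_add]
  have h1 := DCbX.t1 c
  have h2 : 100 * c.S (fun h g => ap c.B h g * (c.B * c.A * (c.A * c.B * c.B)) h h) ≤
      3 * (c.N * c.Cb / c.r ^ 2) := by
    have := DCbX.t1 c.swap
    rwa [c.swap_S] at this
  have h3 := DCbX.t2 c
  have h4 : 0 ≤ c.N * c.Cb / c.r ^ 2 :=
    div_nonneg (mul_nonneg c.good.N_pos.le ((fE_nonneg _).trans c.hC)) (sq_nonneg _)
  linarith

end Ctx
end Vale.Agent.P049
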