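import Vale.Agent.P049.DCz

/-! P049: drift of the mixed functional: norm of the leading terms. -/

namespace Vale.Agent.P049
open Matrix Finset
variable {ι : Type} [Fintype ι] [DecidableEq ι]

namespace DCcX
open DCZ

omit [DecidableEq ι] in
theorem fE_four (x y : ℝ) (u1 u2 u3 u4 v1 v2 v3 v4 : ι → ℝ) :
    fE (x • (vecMulVec u1 v1 + vecMulVec u2 v2) + y • (vecMulVec u3 v3 + vecMulVec u4 v4)) =
      (x ^ 2 * (v1 ⬝ᵥ v1 * u1 ⬝ᵥ u1) + y ^ 2 * (u3 ⬝ᵥ u3 * v3 ⬝ᵥ v3)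
        + x ^ 2 * (v1 ⬝ᵥ v2 * u1 ⬝ᵥ u2) + y ^ 2 * (u3 ⬝ᵥ u4 * v3 ⬝ᵥ v4)
        + 2 * (y * x * (v1 ⬝ᵥ v3 * u1 ⬝ᵥ u3)) + 2 * (y * x * (v1 ⬝ᵥ v4 * u1 ⬝ᵥ u4)))
      + (x ^ 2 * (v2 ⬝ᵥ v2 * u2 ⬝ᵥ u2) + y ^ 2 * (u4 ⬝ᵥ u4 * v4 ⬝ᵥ v4)
        + x ^ 2 * (v2 ⬝ᵥ v1 * u2 ⬝ᵥ u1) + y ^ 2 * (u4 ⬝ᵥ u3 * v4 ⬝ᵥ v3)
        + 2 * (y * x * (v2 ⬝ᵥ v4 * u2 ⬝ᵥ u4)) + 2 * (y * x * (v2 ⬝ᵥ v3 * u2 ⬝ᵥ u3))) := by
  have e : ∀ a b p q : ι → ℝ, a ⬝ᵥ b * p ⬝ᵥ q = ∑ k, ∑ j, a k * b k * (p j * q j) :=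
    fun a b p q => sum_mul_sum _ _ _ _
  simp only [mul_comm (v1 ⬝ᵥ _), mul_comm (v2 ⬝ᵥ _), e]
  simp only [fE, rS, mul_sum, ← sum_add_distrib, Matrix.add_apply, Matrix.smul_apply,
    vecMulVec_apply, smul_eq_mul]
  exact sum_congr rfl fun _ _ => sum_congr rfl fun _ _ => by ring

/-- half of the squared norm -/
noncomputable def FF (A B : Matrix ι ι ℝ) (h g : ι) : ℝ :=
  be B h g ^ 2 * (rS B h * rS (B * A) g) + be A h g ^ 2 * (rS A h * rS (A * B) g)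
    + be B h g ^ 2 * ((B * B) h g * (B * A * (A * B)) g h)
    + be A h g ^ 2 * ((A * A) h g * (A * B * (B * A)) g h)
    + 2 * (be A h g * be B h g * ((B * (B * A)) h g * (B * A * A) g h))
    + 2 * (be A h g * be B h g * ((B * (B * A)) h h * (B * A * A) g g))

theorem n14_eq {A B : Matrix ι ι ℝ} (hA : ∀ i j, A i j = A j i) (hB : ∀ i j, B i j = B j i)
    (h g : ι) : fE (n14 A B h g) = FF A B h g + FF A B g h := by
  rw [n14, fE_four, FF, FF, be_comm hA h g, be_comm hB h g]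
  simp only [mv, dot_self]
  simp only [dot, transpose_mul, TrBX.tr_eq hA, TrBX.tr_eq hB]

theorem neg_mul_le {a b E D : ℝ} (h1 : -E ≤ a) (h2 : -E ≤ b) (h3 : a ^ 2 ≤ D ^ 2)
    (h4 : b ^ 2 ≤ D ^ 2) (hE : 0 ≤ E) (hD : 0 ≤ D) : -(a * b) ≤ E * D := by
  have a1 := le_sq_bb h3 hD
  have a2 := le_sq_bb h4 hD
  have a3 := mul_nonneg hE hD
  rcases le_total 0 a with h | h <;> rcases le_total 0 b with h' | h'
  · nlinarith [mul_nonneg h h']
  · nlinarith [mul_le_mul (neg_le.1 h2) a1 h hE]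
  · nlinarith [mul_le_mul (neg_le.1 h1) a2 h' hE]
  · nlinarith [mul_nonneg (neg_nonneg.2 h) (neg_nonneg.2 h')]

theorem num {p : Par} (H : p.Good) : p.r ^ 3 * 1 ≤ p.N ∧ p.r ^ 3 * (p.L * p.sN) ≤ p.N ∧
    p.r ^ 3 * p.L ^ 2 ≤ p.N ∧ p.r ^ 3 * (p.N / p.r ^ 5) ≤ p.N ∧
    2 * p.N * p.Cb ≤ (p.Cb / p.r ^ 5) ^ 2 := by
  have r0 := H.r_pos
  have s0 := H.sN_pos
  have n0 := H.N_pos
  have r2 : 2 ≤ p.r := le_trans (by norm_num) H.hr
  have r1 : 1 ≤ p.r := by linarith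
  have l0 : 0 ≤ p.L := zero_le_one.trans H.L1
  refine ⟨?_, ?_, ?_, ?_, ?_⟩
  · rw [mul_one]
    exact (pow_le_pow_right₀ r1 (by norm_num)).trans H.N_ge
  · rw [← H.sq, sq p.sN, ← mul_assoc]
    refine mul_le_mul_of_nonneg_right (le_trans ?_ H.L_le) s0.le
    gcongr; norm_num
  · refine le_trans ?_ H.M1
    gcongr; norm_num
  · rw [← mul_div_assoc, div_le_iff₀ (by positivity), mul_comm]
    gcongr; norm_num
  · have c0 : 0 ≤ p.Cb := le_trans (by positivity) H.Cb_ge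
    rw [div_pow, le_div_iff₀ (by positivity)]
    calc _ = 2 * p.r ^ 10 * p.N * p.Cb := by ring
      _ ≤ p.r * p.r ^ 10 * p.N * p.Cb := by gcongr
      _ = p.r ^ 11 * p.N * p.Cb := by ring
      _ ≤ p.r ^ 20 * p.N * p.Cb := by gcongr; norm_num
      _ ≤ p.Cb * p.Cb := by gcongr; exact H.Cb_ge
      _ = _ := by ring

variable (c : Ctx ι)

theorem crude {f : ι → ι → ℝ} (hf : ∀ h g, c.Allowed h g → |f h g| ≤ 4) (X Y : Matrix ι ι ℝ)
    {u v : ℝ} (hu : 0 ≤ u) (hv : 0 ≤ v) (h1 : fE X ≤ u ^ 2) (h2 : fE Y ≤ v ^ 2) :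
    c.S (fun h g => f h g * (X h g * Y g h)) ≤ 5 * (u * v) := by
  have h3 := AvgX.cs2 c.U (fun h g => |X h g|) (fun h g => |Y g h|) hu hv
    (by simpa only [sq_abs] using (sum_fE c.U X).trans h1)
    (by simpa only [sq_abs] using (sum_fE' c.U Y).trans h2)
  have h4 := c.S_le (f := fun h g => f h g * (X h g * Y g h))
    (f' := fun h g => 4 * (|X h g| * |Y g h|)) (fun h g H => by
      refine (le_abs_self _).trans ?_
      rw [abs_mul, abs_mul]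
      exact mul_le_mul_of_nonneg_right (hf h g H) (by positivity)) fun h g => by positivity
  simp only [← mul_sum (a := (4 : ℝ))] at h4
  linarith [mul_nonneg hu hv]

theorem sumS : ∑ h ∈ c.U, rS c.A h ^ 2 ≤ (c.r * c.sN) ^ 2 := by
  rw [c.sA.ok.sum_rS_sq, mul_pow, c.good.sq]
  exact c.sA.W2 c.good

theorem err {X : Matrix ι ι ℝ} (hX : fE X ≤ c.Cb) :
    c.sN / c.r ^ 3 * ((∑ h ∈ c.U, |rS X h|) * (c.r * c.sN)) ≤ c.N * c.Cb / c.r ^ 2 := by
  have r0 := c.good.r_pos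
  have s0 := c.good.sN_pos
  simp only [abs_of_nonneg (rS_nonneg X _)]
  calc _ ≤ c.sN / c.r ^ 3 * (c.Cb * (c.r * c.sN)) := by
        gcongr; exact (sum_rS c.U X).trans hX
    _ = _ := by rw [← c.good.sq]; field_simp

theorem m1 : 100 * c.S (fun h g => be c.A h g ^ 2 * (rS c.A h * rS (c.A * c.B) g)) ≤
    100 * (c.N * fC c.A c.B) + 101 * (c.N * c.Cb / c.r ^ 2) := by
  have h1 := (abs_le.1 ((c.P1' Ctx.coef_be_sq (rS (c.A * c.B)) (rS c.A)
    (mul_pos c.good.r_pos c.good.sN_pos).le (sumS c)).trans (err c c.hC))).2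
  have h2 : (∑ h ∈ c.U, rS c.A h) * ∑ g ∈ c.U, rS (c.A * c.B) g ≤ (c.N + 1) * fC c.A c.B :=
    mul_le_mul ((sum_rS c.U _).trans c.sA.E1) (sum_rS c.U _)
      (sum_nonneg fun _ _ => rS_nonneg _ _) (by linarith [c.good.N_pos])
  have b1 := fin c.good 2 (K := 100) zero_le_one (num c.good).1 (by norm_num)
  linarith [c.hC]

theorem m2 : 100 * c.S (fun h g => be c.A h g ^ 2 *
    ((c.A * c.A) h g * (c.A * c.B * (c.B * c.A)) g h)) ≤ c.N * c.Cb / c.r ^ 2 := by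
  have s0 := c.good.sN_pos
  have c0 : 0 ≤ c.Cb := (fE_nonneg _).trans c.hC
  have l0 : 0 ≤ c.L := zero_le_one.trans c.good.L1
  have h1 := crude c (f := fun h g => be c.A h g ^ 2)
    (fun h g H => (abs_of_nonneg (sq_nonneg _)).trans_le (beA H)) (c.A * c.A)
    (c.A * c.B * (c.B * c.A)) (u := 2 * c.L * c.sN) (v := c.Cb) (by positivity) c0 (by
      have := (c.sA.op.left c.A).trans (mul_le_mul_of_nonneg_left (c.sA.E2 c.good) (sq_nonneg _))
      rw [mul_pow, mul_pow, c.good.sq]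
      nlinarith [mul_nonneg (sq_nonneg c.L) c.good.N_pos.le]) (by
      rw [sq]
      exact (fE_mul_le _ _).trans (mul_le_mul c.hC c.hC' (fE_nonneg _) c0))
  have b1 := fin c.good 2 (K := 1000) (mul_nonneg l0 s0.le) (num c.good).2.1 (by norm_num)
  linarith

theorem m3 : 100 * c.S (fun h g => be c.A h g * be c.B h g *
    ((c.B * (c.B * c.A)) h g * (c.B * c.A * c.A) g h)) ≤ c.N * c.Cb / c.r ^ 2 := by
  have c0 : 0 ≤ c.Cb := (fE_nonneg _).trans c.hC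
  have l0 : 0 ≤ c.L := zero_le_one.trans c.good.L1
  have e : (c.L * √c.Cb) ^ 2 = c.L ^ 2 * c.Cb := by rw [mul_pow, Real.sq_sqrt c0]
  have h1 := crude c (f := fun h g => be c.A h g * be c.B h g)
    (fun h g H => abs_le_of_sq_le_sq (by
      rw [mul_pow]
      linarith [mul_le_mul (beA H) (beB H) (sq_nonneg _) (by norm_num)]) (by norm_num))
    (c.B * (c.B * c.A)) (c.B * c.A * c.A) (u := c.L * √c.Cb) (v := c.L * √c.Cb) (by positivity)
    (by positivity)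
    (e ▸ (c.sB.op.left _).trans (mul_le_mul_of_nonneg_left c.hC' (sq_nonneg _)))
    (e ▸ (c.sA.op.right c.sA.ok.symm _).trans (mul_le_mul_of_nonneg_left c.hC' (sq_nonneg _)))
  rw [← sq, e] at h1
  have b1 := fin c.good 2 (K := 500) (sq_nonneg _) (num c.good).2.2.1 (by norm_num)
  linarith

theorem m4a : (∑ h ∈ c.U, (c.B * (c.B * c.A)) h h) * ∑ g ∈ c.U, (c.B * c.A * c.A) g g ≤
    2 * c.N * (c.Cb / c.r ^ 5) := by
  have c0 : 0 ≤ c.Cb := (fE_nonneg _).trans c.hC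
  have n0 := c.good.N_pos
  have tA := TrBX.tr_eq c.sA.ok.symm
  have tB := TrBX.tr_eq c.sB.ok.symm
  have e0 : ∀ X : Matrix ι ι ℝ, ∑ h ∈ c.U, (c.B * X) h h = trace (c.B * X) := fun X =>
    sum_subset (subset_univ _) fun k _ hk => by
      rw [mul_apply]
      simp [c.sB.ok.supp k _ hk]
  have e1 : trace (c.B * (c.B * c.A)) = trace (c.Bᵀ * c.A * c.B) := by rw [tB, trace_mul_comm]
  have e2 : trace (c.B * (c.A * c.A)) = trace (c.Aᵀ * c.B * c.A) := by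
    rw [tA, Matrix.mul_assoc, trace_mul_comm c.A, Matrix.mul_assoc]
  have e3 : trace (c.B * (c.B * c.A)) = ip c.B (c.A * c.B) := by
    rw [← tA, ← tB, ← transpose_mul, tA, tB]
    rfl
  have e4 : trace (c.B * (c.A * c.A)) = ip (c.B * c.A) c.A := by
    rw [← Matrix.mul_assoc]
    nth_rw 2 [← tA]
    rfl
  have hs : c.s ^ 2 = 1 := by rcases c.hs with h | h <;> simp [h]
  have h1 := neg_mul_le (E := 2 * c.N) (D := c.Cb / c.r ^ 5)
    (le_trans (neg_le_neg (c.sB.E2 c.good)) (sandwich_ge c.loA c.B))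
    (le_trans (neg_le_neg (c.sA.E2 c.good)) (sandwich_ge (s := -c.s) (K := c.B) c.swap.loA c.A))
    (by
      rw [mul_pow, hs, one_mul, ← e1, e3]
      exact (ip_sq_le _ _).trans ((mul_le_mul (c.sB.E2 c.good) c.hC (fE_nonneg _)
        (by positivity)).trans (num c.good).2.2.2.2))
    (by
      rw [mul_pow, neg_sq, hs, one_mul, ← e2, e4]
      exact (ip_sq_le _ _).trans ((mul_le_mul c.hC' (c.sA.E2 c.good) (fE_nonneg _) c0).trans
        ((mul_comm _ _).trans_le (num c.good).2.2.2.2)))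
    (by positivity) (by have := c.good.r_pos; positivity)
  rw [Matrix.mul_assoc c.B c.A c.A, e0, e0, e1, e2]
  refine le_trans (le_of_eq ?_) h1
  linear_combination (-(trace (c.Bᵀ * c.A * c.B) * trace (c.Aᵀ * c.B * c.A))) * hs

theorem m4 : 100 * c.S (fun h g => be c.A h g * be c.B h g *
    ((c.B * (c.B * c.A)) h h * (c.B * c.A * c.A) g g)) ≤ 101 * (c.N * c.Cb / c.r ^ 2) := by
  have r0 := c.good.r_pos
  have s0 := c.good.sN_pos
  have h1 := (abs_le.1 (AvgX.dev1 c (fun h g => be c.A h g * be c.B h g)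
    (fun h => (c.B * (c.B * c.A)) h h) fun g => (c.B * c.A * c.A) g g)).2
  have h2 := (c.P1abs' Ctx.coef_be_beB (rS (c.B * c.A)) (rS c.B) (mul_pos r0 s0).le
    (sumS c.swap)).trans (err c c.hC')
  have h3 := (c.P1abs Ctx.coef_be_beB (rS (c.A * c.B)) (rS c.A) (mul_pos r0 s0).le
    (sumS c)).trans (err c c.hC)
  have h4 : ∀ h g, 2 * (|(c.B * (c.B * c.A)) h h| * |(c.B * c.A * c.A) g g|) ≤
      |rS c.B h| * |rS (c.B * c.A) g| + |rS (c.A * c.B) h| * |rS c.A g| := fun h g => by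
    have k1 := mul_apply_sq_le c.B (c.B * c.A) h h
    have k2 := mul_apply_sq_le (c.B * c.A) c.A g g
    have e1 : ∑ k, (c.B * c.A) k h ^ 2 = rS (c.A * c.B) h := by
      rw [← TrBX.tr_eq c.sA.ok.symm, ← TrBX.tr_eq c.sB.ok.symm, ← transpose_mul,
        TrBX.tr_eq c.sA.ok.symm, TrBX.tr_eq c.sB.ok.symm]
      rfl
    have e2 : ∑ k, c.A k g ^ 2 = rS c.A g := by simp only [rS, c.sA.ok.symm g]
    rw [e1] at k1
    rw [e2] at k2
    have k3 := mul_le_mul k1 k2 (sq_nonneg _) (mul_nonneg (rS_nonneg _ _) (rS_nonneg _ _))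
    refine le_sq_bb ?_ (by positivity)
    simp only [abs_of_nonneg (rS_nonneg _ _), mul_pow, sq_abs]
    nlinarith [sq_nonneg (rS c.B h * rS (c.B * c.A) g - rS (c.A * c.B) h * rS c.A g)]
  have h5 := sum_le_sum fun h (_ : h ∈ c.U) => sum_le_sum fun g (_ : g ∈ c.U) =>
    mul_le_mul_of_nonneg_left (h4 h g) (abs_nonneg (c.om h g * (be c.A h g * be c.B h g) - 1))
  simp only [mul_left_comm _ (2 : ℝ), ← mul_sum (a := (2 : ℝ)), mul_add, sum_add_distrib] at h5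
  have b1 := fin c.good 2 (K := 200) (by have := c.good.N_pos; positivity) (num c.good).2.2.2.1
    (by norm_num)
  have h6 := m4a c
  have e : 200 * (c.N / c.r ^ 5) * c.Cb = 100 * (2 * c.N * (c.Cb / c.r ^ 5)) := by ring
  linarith

end DCcX

namespace Ctx
variable (c : Ctx ι)

theorem dC_n14 : c.S (fun h g => fE (n14 c.A c.B h g))
      ≤ 4 * c.N * fC c.A c.B + c.N * c.Cb / c.r ^ 2 * 10 := by
  simp only [DCcX.n14_eq c.sA.ok.symm c.sB.ok.symm]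
  rw [c.S_add, c.S_comm (DCcX.FF c.A c.B)]
  have e : c.S (DCcX.FF c.A c.B) = _ := c.S_congr fun h g _ => DCcX.FF.eq_1 c.A c.B h g
  simp only [c.S_add] at e
  rw [c.S_mul, c.S_mul] at e
  have h1 : 100 * c.S (fun h g => be c.B h g ^ 2 * (rS c.B h * rS (c.B * c.A) g)) ≤
      100 * (c.N * fC c.B c.A) + 101 * (c.N * c.Cb / c.r ^ 2) := by
    have := DCcX.m1 c.swap
    rwa [c.swap_S] at this
  have h2 : 100 * c.S (fun h g => be c.B h g ^ 2 *
      ((c.B * c.B) h g * (c.B * c.A * (c.A * c.B)) g h)) ≤ c.N * c.Cb / c.r ^ 2 := by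
    have := DCcX.m2 c.swap
    rwa [c.swap_S] at this
  rw [fC_comm c.sA.ok.symm c.sB.ok.symm] at h1
  have h4 : 0 ≤ c.N * c.Cb / c.r ^ 2 :=
    div_nonneg (mul_nonneg c.good.N_pos.le ((fE_nonneg _).trans c.hC)) (sq_nonneg _)
  linarith [DCcX.m1 c, DCcX.m2 c, DCcX.m3 c, DCcX.m4 c]

theorem dC_n56 : c.S (fun h g => fE (n56 c.A c.B h g)) ≤ c.N * c.Cb / c.r ^ 5 := by
  have r0 := c.good.r_pos
  have n0 := c.good.N_pos
  have tA := TrBX.tr_eq c.sA.ok.symm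
  have tB := TrBX.tr_eq c.sB.ok.symm
  have h1 := c.S_le (f := fun h g => fE (n56 c.A c.B h g))
    (f' := fun h g => 64 * ((c.Sp g ^ 2 + 1) * c.Sp h ^ 2) + 64 * ((c.Sp h ^ 2 + 1) * c.Sp g ^ 2))
    (fun h g H => by
      have k : ∀ i j, (be c.A h g * be c.B h g * ((c.A * c.B) i i - 1)) ^ 2 *
          (rS c.A j * rS c.B j) ≤ 4 * 4 * (2 * (c.Sp i ^ 2 + 1)) * (c.Sp j * c.Sp j) := fun i j => by
        refine mul_le_mul ?_ (DCZ.SS_le c j j) (mul_nonneg (rS_nonneg _ _) (rS_nonneg _ _))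
          (by positivity)
        rw [mul_pow, mul_pow]
        gcongr
        exacts [DCZ.beA H, DCZ.beB H, DCZ.t_sq c i]
      rw [n56, smul_add, smul_smul, smul_smul]
      refine (DCZ.fE_add_le _ _).trans ?_
      simp only [DCZ.fE_r1, DCZ.dot_self]
      simp only [DCZ.dot, tA, tB]
      linarith [k g h, k h g])
    fun h g => by positivity
  have h0 := c.sum_Sp_sq.trans (mul_le_mul_of_nonneg_left c.good.W2 (by norm_num))
  have h2 := DCZ.sum_pr' c.U (fun h => by positivity) (fun h => sq_nonneg (c.Sp h))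
    (DCZ.sum_Sp1 c) h0
  have h3 := DCZ.sum_pr c.U (fun h => by positivity) (fun h => sq_nonneg (c.Sp h))
    (DCZ.sum_Sp1 c) h0
  have h4 : 3000 * (c.r ^ 4 * c.N ^ 2) ≤ c.N * c.Cb / c.r ^ 5 := by
    have r1 : 3000 ≤ c.r := le_trans (by norm_num) c.good.hr
    rw [le_div_iff₀ (by positivity)]
    calc _ = c.N * (3000 * c.r ^ 9 * c.N) := by ring
      _ ≤ c.N * (c.r * c.r ^ 9 * c.N) := by gcongr
      _ = c.N * (c.r ^ 10 * c.N) := by ring
      _ ≤ c.N * (c.r ^ 20 * c.N) := by gcongr <;> [linarith; norm_num]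
      _ ≤ _ := by gcongr; exact c.good.Cb_ge
  have h5 : 0 ≤ c.r ^ 4 * c.N ^ 2 := by positivity
  simp only [sum_add_distrib, ← mul_sum (a := (64 : ℝ))] at h1
  linarith

end Ctx
end Vale.Agent.P049
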