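import Vale.Agent.P049.DCz

/-! P049: drift of the mixed functional: norm of the small terms. -/

namespace Vale.Agent.P049
open Matrix Finset
variable {ι : Type} [Fintype ι] [DecidableEq ι]

namespace DCdX
open DCZ

theorem zz_pt {c : Ctx ι} {h g : ι} (H : c.Allowed h g) : fE (zz c.A c.B h g) ≤
    32 * (c.r * c.sN) * (c.X g ^ 2 * rS (c.B * c.A) h) + 32 * (c.r * c.sN) *
      (c.X g ^ 2 * rS (c.A * c.B) h) + (512 * c.m2 + 256 * c.m1) * G c h g := by
  have tA := TrBX.tr_eq c.sA.ok.symm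
  have tB := TrBX.tr_eq c.sB.ok.symm
  have sA := c.sA.rS_le c.good h
  have sB := c.sB.rS_le c.good h
  have n1 := rS_nonneg (c.B * c.A) h
  have n2 := rS_nonneg (c.A * c.B) h
  have n3 := rS_nonneg c.A h
  have n4 := rS_nonneg c.B h
  have n5 := rS_nonneg c.B g
  have n6 := G_nonneg c h g
  have k1 : ap c.B h g ^ 2 * rS (c.B * c.A) h * rS c.B h ≤
      4 * c.X g ^ 2 * rS (c.B * c.A) h * (c.r * c.sN) := by gcongr; exact apB H
  have k2 : ap c.A h g ^ 2 * rS c.A h * rS (c.A * c.B) h ≤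
      4 * c.X g ^ 2 * (c.r * c.sN) * rS (c.A * c.B) h := by gcongr; exact apA H
  have k3 : b1 c.A c.B h g ^ 2 * (rS c.A h * rS c.B h) ≤ 128 * G c h g * c.m2 :=
    calc _ ≤ 128 * (c.X g ^ 2 * G c h g) * (c.Sp h * c.Sp h) :=
          mul_le_mul (b1_le H) (SS_le c h h) (by positivity) (by positivity)
      _ = 128 * G c h g * (c.X g ^ 2 * c.Sp h ^ 2) := by ring
      _ ≤ _ := mul_le_mul_of_nonneg_left H.XS (by positivity)
  have k4 : b2 c.A c.B h g ^ 2 * (rS c.A h * rS c.B g) ≤ 128 * G c h g * c.m1 :=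
    mul_le_mul (b2_le H) ((SS_le c h g).trans H.SS) (by positivity) (by positivity)
  have e1 := fE_add_le (ap c.B h g • vecMulVec (col (c.A * c.B) h) (col c.B h))
    (ap c.A h g • vecMulVec (col c.A h) (col (c.B * c.A) h))
  have e2 := fE_add_le (ap c.B h g • vecMulVec (col (c.A * c.B) h) (col c.B h) +
    ap c.A h g • vecMulVec (col c.A h) (col (c.B * c.A) h))
    (b1 c.A c.B h g • vecMulVec (col c.A h) (col c.B h))
  refine (fE_add_le _ _).trans ?_
  simp only [fE_r1, dot_self, transpose_mul, tA, tB] at e1 e2 ⊢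
  linarith

theorem num {p : Par} (H : p.Good) : p.r ^ 6 * (p.r * p.sN * p.Vb) ≤ p.N ∧
    p.r ^ 6 * p.m1 ≤ p.N ∧ p.r ^ 6 * p.m2 ≤ p.N := by
  have r0 := H.r_pos
  have s0 := H.sN_pos
  have v0 := H.V0
  have r1 : 1 ≤ p.r := le_trans (by norm_num) H.hr
  have s1 : 1 ≤ p.sN := (one_le_pow₀ r1).trans H.big
  rw [← H.sq, sq]
  refine ⟨?_, ?_, ?_⟩
  · calc _ = p.r ^ 7 * p.Vb * p.sN := by ring
      _ ≤ p.r ^ 22 * p.Vb * p.sN := by gcongr <;> norm_num
      _ ≤ _ := by gcongr; exact H.Vb_le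
  · calc _ = p.r ^ 16 * p.sN := by unfold Par.m1; ring
      _ ≤ p.r ^ 30 * p.sN := by gcongr <;> norm_num
      _ ≤ _ := by gcongr; exact H.big
  · have m0 : 0 ≤ p.m2 := by unfold Par.m2; positivity
    calc _ ≤ p.r ^ 9 * p.m2 := by gcongr <;> norm_num
      _ ≤ p.sN := H.m2_le
      _ ≤ _ := le_mul_of_one_le_right s0.le s1

theorem zz_S (c : Ctx ι) : 4 * c.S (fun h g => fE (zz c.A c.B h g)) ≤ c.N * c.Cb / c.r ^ 5 := by
  have r0 := c.good.r_pos
  have s0 := c.good.sN_pos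
  have v0 := c.good.V0
  have m1 : 0 ≤ c.m1 := by unfold Par.m1; positivity
  have m2 : 0 ≤ c.m2 := by unfold Par.m2; positivity
  have h1 := c.S_le (fun h g H => zz_pt H) fun h g => by
    have := rS_nonneg (c.B * c.A) h
    have := rS_nonneg (c.A * c.B) h
    have := G_nonneg c h g
    positivity
  simp only [sum_add_distrib, ← mul_sum (a := 32 * (c.r * c.sN)),
    ← mul_sum (a := 512 * c.m2 + 256 * c.m1)] at h1
  have h2 := mul_le_mul_of_nonneg_left (sum_pr' c.U (fun h => sq_nonneg (c.X h)) (rS_nonneg _)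
    c.sum_X_sq ((sum_rS c.U _).trans c.hC')) (show 0 ≤ 32 * (c.r * c.sN) by positivity)
  have h3 := mul_le_mul_of_nonneg_left (sum_pr' c.U (fun h => sq_nonneg (c.X h)) (rS_nonneg _)
    c.sum_X_sq ((sum_rS c.U _).trans c.hC)) (show 0 ≤ 32 * (c.r * c.sN) by positivity)
  have h4 := mul_le_mul_of_nonneg_left (sum_G c) (show 0 ≤ 512 * c.m2 + 256 * c.m1 by positivity)
  obtain ⟨a1, a2, a3⟩ := num c.good
  have b1 := fin c.good 5 (K := 10 ^ 5) (by positivity) a1 (by norm_num)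
  have b2 := fin c.good 5 (K := 10 ^ 5) m1 a2 (by norm_num)
  have b3 := fin c.good 5 (K := 10 ^ 5) m2 a3 (by norm_num)
  have c0 : 0 ≤ c.Cb := (fE_nonneg _).trans c.hC
  have d1 : 0 ≤ c.r * c.sN * c.Vb * c.Cb := by positivity
  have d2 := mul_nonneg m1 c0
  have d3 := mul_nonneg m2 c0
  linarith

end DCdX

namespace Ctx
variable (c : Ctx ι)

theorem dC_nS : c.S (fun h g => fE (nS c.A c.B h g)) ≤ c.N * c.Cb / c.r ^ 5 := by
  refine (c.S_mono (f' := fun h g => 2 * fE (DCZ.zz c.A c.B h g) + 2 * fE (DCZ.zz c.A c.B g h))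
    fun h g _ => ?_).trans ?_
  · rw [DCZ.nS_eq c.sA.ok.symm c.sB.ok.symm]
    exact DCZ.fE_add_le _ _
  · rw [c.S_add, c.S_mul, c.S_mul, c.S_comm fun h g => fE (DCZ.zz c.A c.B h g)]
    linarith [DCdX.zz_S c]

end Ctx
end Vale.Agent.P049
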