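import Vale.Agent.P049.Tr
import Vale.Agent.P049.Spec
import Vale.Agent.P049.Avg
import Vale.Agent.P049.DCc
import Vale.Agent.P049.DCd

/-! P049: drift of the mixed functional: deleted rows. -/

namespace Vale.Agent.P049
open Matrix Finset
variable {ι : Type} [Fintype ι] [DecidableEq ι]

namespace DCeX

theorem pt4 {a b u v w z : ℝ} (ha : 0 < a ∧ a ≤ 1042 / 1000) (hb : 0 < b ∧ b ≤ 1042 / 1000) :
    (b * (u + v) + a * (w + z)) ^ 2 ≤ 5 * (u ^ 2 + v ^ 2 + w ^ 2 + z ^ 2) := by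
  have a2 : a ^ 2 ≤ 5 / 4 := by nlinarith [ha.1, ha.2]
  have b2 : b ^ 2 ≤ 5 / 4 := by nlinarith [hb.1, hb.2]
  have h1 : (b * (u + v) + a * (w + z)) ^ 2 ≤ 2 * (b ^ 2 * (u + v) ^ 2) + 2 * (a ^ 2 * (w + z) ^ 2) := by
    nlinarith [sq_nonneg (b * (u + v) - a * (w + z))]
  have h2 : b ^ 2 * (u + v) ^ 2 ≤ 5 / 4 * (u + v) ^ 2 := mul_le_mul_of_nonneg_right b2 (sq_nonneg _)
  have h3 : a ^ 2 * (w + z) ^ 2 ≤ 5 / 4 * (w + z) ^ 2 := mul_le_mul_of_nonneg_right a2 (sq_nonneg _)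
  nlinarith [sq_nonneg (u - v), sq_nonneg (w - z)]

theorem row14 {c : Ctx ι} {h g : ι} (H : c.Allowed h g) :
    rS (n14 c.A c.B h g) h ≤ 5 * ((c.A * c.B) h g ^ 2 * rS c.B h + (c.A * c.B) h h ^ 2 * rS c.B g
      + c.A h h ^ 2 * rS (c.A * c.B) g + c.A h g ^ 2 * rS (c.A * c.B) h) := by
  have sA := c.sA.ok.symm
  have sB := c.sB.ok.symm
  have e : ∀ j, n14 c.A c.B h g h j = be c.B h g * ((c.A * c.B) h g * c.B h j + (c.A * c.B) h h * c.B g j)
      + be c.A h g * (c.A h h * (c.A * c.B) g j + c.A h g * (c.A * c.B) h j) := by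
    intro j
    have e1 : ∀ k, (c.B *ᵥ col c.A k) j = (c.A * c.B) k j := fun k => by
      simp only [mulVec, dotProduct, col, Matrix.mul_apply]
      exact Finset.sum_congr rfl fun l _ => by rw [sA l k, sB j l, mul_comm]
    have e2 : ∀ k, (c.A *ᵥ col c.B k) h = (c.A * c.B) h k := fun k => rfl
    simp only [n14, Matrix.add_apply, Matrix.smul_apply, vecMulVec_apply, smul_eq_mul, e1, e2]
    simp only [col, sB j h, sB j g]
  simp only [rS, e, Finset.mul_sum, ← Finset.sum_add_distrib]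
  refine Finset.sum_le_sum fun j _ => ?_
  have := pt4 (u := (c.A * c.B) h g * c.B h j) (v := (c.A * c.B) h h * c.B g j)
    (w := c.A h h * (c.A * c.B) g j) (z := c.A h g * (c.A * c.B) h j) H.be_bd
    ((c.swap_allowed h g).2 H).be_bd
  simp only [mul_pow] at this
  exact this

omit [DecidableEq ι] in
theorem le_univ (U : Finset ι) (f : ι → ℝ) (hf : ∀ k, 0 ≤ f k) : ∑ k ∈ U, f k ≤ ∑ k, f k :=
  Finset.sum_le_sum_of_subset_of_nonneg (Finset.subset_univ _) fun k _ _ => hf k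

theorem sumC (c : Ctx ι) : ∑ h ∈ c.U, rS (c.A * c.B) h ≤ c.Cb :=
  (le_univ _ _ (rS_nonneg _)).trans c.hC

theorem sumD (c : Ctx ι) : ∑ h ∈ c.U, (c.A * c.B) h h ^ 2 ≤ c.r ^ 2 * c.N := by
  have h1 : ∀ h, (c.A * c.B) h h ^ 2 ≤ (rS c.A h ^ 2 + rS c.B h ^ 2) / 2 := fun h => by
    have := mul_apply_sq_le c.A c.B h h
    have e : ∑ k, c.B k h ^ 2 = rS c.B h := Finset.sum_congr rfl fun k _ => by
      rw [c.sB.ok.symm k h]
    rw [e] at this
    nlinarith [sq_nonneg (rS c.A h - rS c.B h)]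
  refine (Finset.sum_le_sum fun h _ => h1 h).trans ?_
  rw [← Finset.sum_div, Finset.sum_add_distrib, c.sA.ok.sum_rS_sq, c.sB.ok.sum_rS_sq]
  linarith [c.sA.W2 c.good, c.sB.W2 c.good]

theorem facts (c : Ctx ι) : c.r * c.sN * c.Cb ≤ c.N * c.Cb / c.r ^ 6 ∧
    c.r ^ 2 * c.N * c.N ≤ c.N * c.Cb / c.r ^ 6 ∧ c.Vb * c.Cb ≤ c.N * c.Cb / c.r ^ 6 ∧
    c.Cb ≤ c.N * c.Cb / c.r ^ 6 := by
  have G := c.good
  have r0 := G.r_pos
  have s0 := G.sN_pos
  have N0 := G.N_pos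
  have r1 : 1 ≤ c.r := le_trans (by norm_num) G.hr
  have C1 := G.Cb_ge
  have C0 : 0 ≤ c.Cb := le_trans (by positivity) C1
  have p : ∀ {i j : ℕ}, i ≤ j → c.r ^ i ≤ c.r ^ j := fun h => pow_le_pow_right₀ r1 h
  have s1 : c.r ^ 7 ≤ c.sN := (p (by norm_num)).trans G.big
  have s2 : 1 ≤ c.sN := (one_le_pow₀ r1).trans s1
  have k1 : c.r * c.sN * c.r ^ 6 ≤ c.N := by rw [← G.sq]; nlinarith
  refine ⟨?_, ?_, ?_, ?_⟩ <;> rw [le_div_iff₀ (by positivity)]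
  · nlinarith
  · have := p (show 8 ≤ 20 by norm_num)
    have : c.r ^ 8 * c.N ≤ c.Cb := le_trans (mul_le_mul_of_nonneg_right this N0.le) C1
    nlinarith
  · have h1 := G.Vb_le
    have h2 : c.r ^ 6 * c.Vb ≤ c.r ^ 22 * c.Vb :=
      mul_le_mul_of_nonneg_right (p (by norm_num)) G.V0.le
    have h3 : c.sN ≤ c.N := by rw [← G.sq]; nlinarith
    have : c.Vb * c.r ^ 6 ≤ c.N := by linarith
    nlinarith
  · have : c.r ^ 6 ≤ c.N := (p (by norm_num)).trans G.N_ge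
    nlinarith

theorem S14 (c : Ctx ι) :
    c.S (fun h g => rS (n14 c.A c.B h g) h) ≤ 30 * (c.N * c.Cb / c.r ^ 6) := by
  have G := c.good
  have hS : 0 ≤ c.r * c.sN := (mul_pos G.r_pos G.sN_pos).le
  refine (c.S_le (fun h g H => row14 H) fun h g => ?_).trans ?_
  · have := rS_nonneg c.B h; have := rS_nonneg c.B g
    have := rS_nonneg (c.A * c.B) h; have := rS_nonneg (c.A * c.B) g
    positivity
  simp only [← Finset.mul_sum, Finset.sum_add_distrib, ← Finset.sum_mul]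
  have t1 : ∑ h ∈ c.U, (∑ g ∈ c.U, (c.A * c.B) h g ^ 2) * rS c.B h ≤ c.r * c.sN * c.Cb := by
    refine le_trans (Finset.sum_le_sum fun h _ => ?_)
      ((Finset.mul_sum _ _ _).symm.le.trans (mul_le_mul_of_nonneg_left (sumC c) hS))
    rw [mul_comm]
    exact mul_le_mul (c.sB.rS_le G h) (le_univ _ _ fun _ => sq_nonneg _)
      (Finset.sum_nonneg fun _ _ => sq_nonneg _) hS
  have t2 : (∑ h ∈ c.U, (c.A * c.B) h h ^ 2) * ∑ g ∈ c.U, rS c.B g ≤ c.r ^ 2 * c.N * (2 * c.N) := by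
    rw [c.sB.ok.sum_rS]
    exact mul_le_mul (sumD c) (c.sB.E2 G) (fE_nonneg _) (by have := G.N_pos; positivity)
  have t3 : (∑ h ∈ c.U, c.A h h ^ 2) * ∑ g ∈ c.U, rS (c.A * c.B) g ≤ c.Vb * c.Cb := by
    rw [c.sA.ok.sum_diag_sq]
    exact mul_le_mul c.sA.Vb (sumC c) (Finset.sum_nonneg fun _ _ => rS_nonneg _ _) G.V0.le
  have t4 : ∑ h ∈ c.U, (∑ g ∈ c.U, c.A h g ^ 2) * rS (c.A * c.B) h ≤ c.r * c.sN * c.Cb := by
    refine le_trans (Finset.sum_le_sum fun h _ => ?_)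
      ((Finset.mul_sum _ _ _).symm.le.trans (mul_le_mul_of_nonneg_left (sumC c) hS))
    exact mul_le_mul_of_nonneg_right
      ((le_univ _ _ fun _ => sq_nonneg _).trans (c.sA.rS_le G h)) (rS_nonneg _ _)
  obtain ⟨f1, f2, f3, f4⟩ := facts c
  have C0 : 0 ≤ c.Cb := le_trans (fE_nonneg _) c.hC
  linarith

theorem rS_le_fE (X : Matrix ι ι ℝ) (h : ι) : rS X h ≤ fE X :=
  Finset.single_le_sum (f := rS X) (fun k _ => rS_nonneg X k) (Finset.mem_univ h)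

/-- the total perturbation -/
noncomputable def nn (c : Ctx ι) (h g : ι) : Matrix ι ι ℝ :=
  n14 c.A c.B h g + n56 c.A c.B h g + nS c.A c.B h g

theorem mM_nn {c : Ctx ι} {h g : ι} (H : c.Allowed h g) (k j : ι) :
    mM c.A c.B h g k j = (c.A * c.B) k j + nn c h g k j := by
  have lA : lam c.A h g ≠ 0 := (lt_of_lt_of_le (by norm_num) H.lam_ge).ne'
  have lB : lam c.B h g ≠ 0 :=
    (lt_of_lt_of_le (by norm_num) ((c.swap_allowed h g).2 H).lam_ge).ne'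
  rw [mM_eq c.sA.ok.symm c.sB.ok.symm H.ne lA lB]
  simp only [nn, Matrix.add_apply]; ring

theorem Snn (c : Ctx ι) : c.S (fun h g => rS (nn c h g) h) ≤ 7 * (c.N * c.Cb / c.r ^ 5) := by
  have h1 : c.S (fun h g => rS (nn c h g) h) ≤ c.S (fun h g => 3 * rS (n14 c.A c.B h g) h
      + 3 * fE (n56 c.A c.B h g) + 3 * fE (nS c.A c.B h g)) := by
    refine c.S_mono fun h g _ => ?_
    have a1 := rS_le_fE (n56 c.A c.B h g) h
    have a2 := rS_le_fE (nS c.A c.B h g) h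
    have a3 : rS (nn c h g) h ≤ 3 * rS (n14 c.A c.B h g) h + 3 * rS (n56 c.A c.B h g) h
        + 3 * rS (nS c.A c.B h g) h := by
      simp only [rS, nn, Matrix.add_apply, Finset.mul_sum, ← Finset.sum_add_distrib]
      refine Finset.sum_le_sum fun j _ => ?_
      nlinarith [sq_nonneg (n14 c.A c.B h g h j - n56 c.A c.B h g h j),
        sq_nonneg (n14 c.A c.B h g h j - nS c.A c.B h g h j),
        sq_nonneg (n56 c.A c.B h g h j - nS c.A c.B h g h j)]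
    linarith
  rw [c.S_add, c.S_add, c.S_mul, c.S_mul, c.S_mul] at h1
  have G := c.good
  have r0 := G.r_pos
  have C0 : 0 ≤ c.N * c.Cb := mul_nonneg G.N_pos.le (le_trans (fE_nonneg _) c.hC)
  have h2 : 90 * (c.N * c.Cb / c.r ^ 6) ≤ c.N * c.Cb / c.r ^ 5 := by
    have e : c.N * c.Cb / c.r ^ 5 = c.r * (c.N * c.Cb / c.r ^ 6) := by field_simp
    rw [e]
    exact mul_le_mul_of_nonneg_right (le_trans (by norm_num) G.hr) (by positivity)
  linarith [S14 c, c.dC_n56, c.dC_nS]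

theorem down (c : Ctx ι) (i : ℕ) :
    100 * (c.N * c.Cb / c.r ^ (i + 1)) ≤ c.N * c.Cb / c.r ^ i ∧ 0 ≤ c.N * c.Cb / c.r ^ (i + 1) := by
  have G := c.good
  have r0 := G.r_pos
  have C0 : 0 ≤ c.N * c.Cb := mul_nonneg G.N_pos.le (le_trans (fE_nonneg _) c.hC)
  have e : c.N * c.Cb / c.r ^ i = c.r * (c.N * c.Cb / c.r ^ (i + 1)) := by
    rw [pow_succ]; field_simp
  rw [e]
  exact ⟨mul_le_mul_of_nonneg_right (le_trans (by norm_num) G.hr) (by positivity), by positivity⟩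

theorem low (p n t : ℝ) (ht : 0 < t) : (1 - 1 / t) * p ^ 2 - t * n ^ 2 ≤ (p + n) ^ 2 := by
  have h1 : 0 ≤ 1 / t * (p + t * n) ^ 2 := by positivity
  have h2 : 1 / t * (p + t * n) ^ 2 = 1 / t * p ^ 2 + 2 * p * n + t * n ^ 2 := by field_simp; ring
  nlinarith [sq_nonneg n]

end DCeX

namespace Ctx
variable (c : Ctx ι)
open DCeX

theorem dC_row : c.N * fC c.A c.B - 3 * (c.N * c.Cb / c.r ^ 2)
      ≤ c.S (fun h g => rS (mM c.A c.B h g) h) := by
  have G := c.good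
  have r0 := G.r_pos
  have N0 := G.N_pos
  have r1 : 1 ≤ c.r := le_trans (by norm_num) G.hr
  have h1 : c.S (fun h g => (1 - 1 / c.r ^ 2) * (1 * rS (c.A * c.B) h) - c.r ^ 2 * rS (nn c h g) h)
      ≤ c.S (fun h g => rS (mM c.A c.B h g) h) := by
    refine c.S_mono fun h g H => ?_
    simp only [one_mul, rS, mM_nn H, Finset.mul_sum, ← Finset.sum_sub_distrib]
    exact Finset.sum_le_sum fun j _ => low _ _ _ (by positivity)
  rw [c.S_sub, c.S_mul (1 - 1 / c.r ^ 2), c.S_mul (c.r ^ 2)] at h1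
  have h2 := c.P0 coef_one (rS (c.A * c.B))
  have e : ∑ h ∈ c.U, rS (c.A * c.B) h = fC c.A c.B := by
    refine Finset.sum_subset (Finset.subset_univ _) fun k _ hk => ?_
    simp only [rS, Matrix.mul_apply, c.sA.ok.supp k _ hk, zero_mul, Finset.sum_const_zero]
    simp
  simp only [abs_of_nonneg (rS_nonneg _ _), e] at h2
  have h3 := (abs_le.1 h2).1
  have C0 : 0 ≤ fC c.A c.B := fE_nonneg _
  have h4 : c.N / c.r ^ 3 * fC c.A c.B ≤ c.N * c.Cb / c.r ^ 3 := by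
    rw [div_mul_eq_mul_div]; gcongr; exact c.hC
  have h5 : 1 / c.r ^ 2 * (c.N * fC c.A c.B) ≤ c.N * c.Cb / c.r ^ 2 := by
    rw [div_mul_eq_mul_div, one_mul]; gcongr; exact c.hC
  have h6 : 0 ≤ 1 - 1 / c.r ^ 2 := by
    rw [sub_nonneg, div_le_one (by positivity)]; exact one_le_pow₀ r1
  have h7 := mul_le_mul_of_nonneg_left
    (show c.N * fC c.A c.B - c.N * c.Cb / c.r ^ 3 ≤ c.S fun h g => 1 * rS (c.A * c.B) h by
      linarith) h6
  have h8 := mul_le_mul_of_nonneg_left (Snn c) (show 0 ≤ c.r ^ 2 by positivity)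
  have e2 : c.r ^ 2 * (7 * (c.N * c.Cb / c.r ^ 5)) = 7 * (c.N * c.Cb / c.r ^ 3) := by field_simp
  have h9 := down c 2
  have h10 : 0 ≤ 1 / c.r ^ 2 * (c.N * c.Cb / c.r ^ 3) := mul_nonneg (by positivity) h9.2
  norm_num only at h9
  nlinarith [h9.1, h9.2]

theorem dC_blk : c.S (fun h g => mM c.A c.B h g h h ^ 2 + mM c.A c.B h g h g ^ 2)
      ≤ c.N * c.Cb / c.r ^ 3 := by
  have G := c.good
  have h1 : c.S (fun h g => mM c.A c.B h g h h ^ 2 + mM c.A c.B h g h g ^ 2)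
      ≤ c.S (fun h g => 2 * ((c.A * c.B) h h ^ 2 + (c.A * c.B) h g ^ 2) + 4 * rS (nn c h g) h) := by
    refine c.S_mono fun h g H => ?_
    rw [mM_nn H, mM_nn H]
    nlinarith [sq_le_rS (nn c h g) h h, sq_le_rS (nn c h g) h g,
      sq_nonneg ((c.A * c.B) h h - nn c h g h h), sq_nonneg ((c.A * c.B) h g - nn c h g h g)]
  rw [c.S_add (fun h g => 2 * ((c.A * c.B) h h ^ 2 + (c.A * c.B) h g ^ 2)), c.S_mul 2,
    c.S_mul 4] at h1
  have h2 := c.S_le (f := fun h g => (c.A * c.B) h h ^ 2 + (c.A * c.B) h g ^ 2)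
    (fun _ _ _ => le_rfl) fun _ _ => by positivity
  simp only [Finset.sum_add_distrib, Finset.sum_const, nsmul_eq_mul, c.hN, ← Finset.mul_sum] at h2
  have h3 : ∑ h ∈ c.U, ∑ g ∈ c.U, (c.A * c.B) h g ^ 2 ≤ c.Cb :=
    (Finset.sum_le_sum fun h _ => le_univ _ _ fun _ => sq_nonneg _).trans (sumC c)
  have h4 := mul_le_mul_of_nonneg_left (sumD c) G.N_pos.le
  obtain ⟨-, f2, -, f4⟩ := facts c
  have d3 := down c 3
  have d4 := down c 4
  have d5 := down c 5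
  norm_num only at d3 d4 d5
  nlinarith [Snn c, d3.1, d3.2, d4.1, d4.2, d5.1, d5.2]

end Ctx
end Vale.Agent.P049
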