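import Vale.Agent.P049.DCa
import Vale.Agent.P049.DCb
import Vale.Agent.P049.DCc
import Vale.Agent.P049.DCd
import Vale.Agent.P049.DCe

/-! P049: drift of the mixed functional. -/

namespace Vale.Agent.P049
open Matrix Finset
variable {ι : Type} [Fintype ι] [DecidableEq ι]

namespace DCX

theorem pt (p x y z t : ℝ) (ht : 0 < t) :
    (p + x + y + z) ^ 2 ≤ p ^ 2 + 2 * (p * x) + 2 * (p * y) + 2 * (p * z)
      + (1 + 1 / t) * x ^ 2 + 2 * (1 + t) * y ^ 2 + 2 * (1 + t) * z ^ 2 := by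
  have h1 : 2 * (x * (y + z)) ≤ 1 / t * x ^ 2 + t * (y + z) ^ 2 := by
    have : 0 ≤ 1 / t * (x - t * (y + z)) ^ 2 := by positivity
    have h2 : 1 / t * (x - t * (y + z)) ^ 2
        = 1 / t * x ^ 2 + t * (y + z) ^ 2 - 2 * (x * (y + z)) := by
      field_simp; ring
    linarith
  have h3 : (1 + t) * (y + z) ^ 2 ≤ (1 + t) * (2 * y ^ 2 + 2 * z ^ 2) :=
    mul_le_mul_of_nonneg_left (by nlinarith [sq_nonneg (y - z)]) (by linarith)
  nlinarith

omit [DecidableEq ι] in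
theorem fE_four (P X Y Z : Matrix ι ι ℝ) (t : ℝ) (ht : 0 < t) :
    fE (P + X + Y + Z) ≤ fE P + 2 * ip P X + 2 * ip P Y + 2 * ip P Z
      + (1 + 1 / t) * fE X + 2 * (1 + t) * fE Y + 2 * (1 + t) * fE Z := by
  simp only [fE, rS, ip, Finset.mul_sum, ← Finset.sum_add_distrib, Matrix.add_apply]
  exact Finset.sum_le_sum fun k _ => Finset.sum_le_sum fun j _ => pt _ _ _ _ t ht

theorem num {r N C Cb : ℝ} (hr : 10 ^ 50 ≤ r) (hN : 0 < N) (hC0 : 0 ≤ C) (hC : C ≤ Cb) :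
    N * Cb / r ^ 2 + (-2 * N * C + N * Cb / r ^ 2) + N * Cb / r ^ 2
      + (1 + 1 / r ^ 2) * (4 * N * C + N * Cb / r ^ 2 * 10)
      + 2 * (1 + r ^ 2) * (N * Cb / r ^ 5) + 2 * (1 + r ^ 2) * (N * Cb / r ^ 5)
      - 4 * (N * C - 3 * (N * Cb / r ^ 2)) + 2 * (N * Cb / r ^ 3) ≤ -2 * N * C + N * Cb / r := by
  have r0 : 0 < r := lt_of_lt_of_le (by norm_num) hr
  have r1 : 100 ≤ r := le_trans (by norm_num) hr
  have hb : 0 ≤ N * Cb := mul_nonneg hN.le (hC0.trans hC)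
  set e := N * Cb / r ^ 2 with he
  have e0 : 0 ≤ e := by positivity
  have a1 : 1 / r ^ 2 * (4 * N * C) ≤ 4 * e := by
    rw [he, div_mul_eq_mul_div, ← mul_div_assoc]
    apply div_le_div_of_nonneg_right _ (by positivity)
    nlinarith
  have a2 : 1 / r ^ 2 * (e * 10) ≤ e * 10 := by
    apply mul_le_of_le_one_left (by positivity)
    rw [div_le_one (by positivity)]; nlinarith
  have a3 : 2 * (1 + r ^ 2) * (N * Cb / r ^ 5) ≤ e := by
    have : N * Cb / r ^ 5 = e / r ^ 3 := by rw [he]; field_simp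
    rw [this, ← mul_div_assoc, div_le_iff₀ (by positivity), mul_comm e]
    apply mul_le_mul_of_nonneg_right _ e0
    nlinarith
  have a4 : N * Cb / r ^ 3 ≤ e := by
    rw [he]; apply div_le_div_of_nonneg_left hb (by positivity); nlinarith
  have a5 : 100 * e ≤ N * Cb / r := by
    have : N * Cb / r = r * e := by rw [he]; field_simp
    rw [this]; exact mul_le_mul_of_nonneg_right r1 e0
  nlinarith

end DCX

namespace Ctx
variable (c : Ctx ι)

theorem dC : c.S (fun h g => fC (step c.A h g) (step c.B h g) - fC c.A c.B)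
      ≤ -2 * c.N * fC c.A c.B + c.N * c.Cb / c.r := by
  have sA := c.sA.ok.symm
  have sB := c.sB.ok.symm
  have r0 := c.good.r_pos
  have hr2 : 0 < c.r ^ 2 := by positivity
  have key : c.S (fun h g => fC (step c.A h g) (step c.B h g) - fC c.A c.B)
      ≤ c.S (fun h g => 2 * ip (c.A * c.B) (n14 c.A c.B h g) + 2 * ip (c.A * c.B) (n56 c.A c.B h g)
        + 2 * ip (c.A * c.B) (nS c.A c.B h g) + (1 + 1 / c.r ^ 2) * fE (n14 c.A c.B h g)
        + 2 * (1 + c.r ^ 2) * fE (n56 c.A c.B h g) + 2 * (1 + c.r ^ 2) * fE (nS c.A c.B h g)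
        - rS (mM c.A c.B h g) h - rS (mM c.A c.B g h) g
        - rS (mM c.B c.A h g) h - rS (mM c.B c.A g h) g
        + (mM c.A c.B h g h h ^ 2 + mM c.A c.B h g h g ^ 2)
        + (mM c.A c.B g h g g ^ 2 + mM c.A c.B g h g h ^ 2)) := by
    apply c.S_mono
    intro h g H
    have lA : lam c.A h g ≠ 0 := (lt_of_lt_of_le (by norm_num) H.lam_ge).ne'
    have lB : lam c.B h g ≠ 0 :=
      (lt_of_lt_of_le (by norm_num) ((c.swap_allowed h g).2 H).lam_ge).ne'
    rw [fC_step c.A c.B H.ne, mM_comm sA sB h g, mM_comm sB sA h g]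
    have e1 : ∀ j, rS (mM c.B c.A h g) j = ∑ k, mM c.A c.B h g k j ^ 2 := fun j => by
      simp only [rS, mM_swap sA sB]
    rw [e1, e1]
    have e2 := DCX.fE_four (c.A * c.B) (n14 c.A c.B h g) (n56 c.A c.B h g) (nS c.A c.B h g) _ hr2
    rw [← mM_eq sA sB H.ne lA lB] at e2
    have e3 : fC c.A c.B = fE (c.A * c.B) := rfl
    linarith
  refine key.trans ?_
  simp only [c.S_add, c.S_sub]
  rw [c.S_mul (1 + 1 / c.r ^ 2), c.S_mul (2 * (1 + c.r ^ 2)), c.S_mul (2 * (1 + c.r ^ 2)),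
    c.S_comm (fun h g => rS (mM c.A c.B h g) h), c.S_comm (fun h g => rS (mM c.B c.A h g) h),
    c.S_comm (fun h g => mM c.A c.B h g h h ^ 2), c.S_comm (fun h g => mM c.A c.B h g h g ^ 2)]
  have b1 := c.dC_14
  have b2 := c.dC_56
  have b3 := c.dC_S
  have b4 := mul_le_mul_of_nonneg_left c.dC_n14 (show 0 ≤ 1 + 1 / c.r ^ 2 by positivity)
  have b5 := mul_le_mul_of_nonneg_left c.dC_n56 (show 0 ≤ 2 * (1 + c.r ^ 2) by positivity)
  have b6 := mul_le_mul_of_nonneg_left c.dC_nS (show 0 ≤ 2 * (1 + c.r ^ 2) by positivity)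
  have b7 := c.dC_row
  have b8 : c.N * fC c.A c.B - 3 * (c.N * c.Cb / c.r ^ 2)
      ≤ c.S (fun h g => rS (mM c.B c.A h g) h) := by
    have := c.swap.dC_row
    rw [c.swap_S] at this
    rw [← fC_comm sA sB]
    exact this
  have b9 := c.dC_blk
  rw [c.S_add] at b9
  have := DCX.num c.good.hr c.good.N_pos (fE_nonneg (c.A * c.B)) c.hC
  have e3 : fC c.A c.B = fE (c.A * c.B) := rfl
  rw [← e3] at this
  linarith

end Ctx
end Vale.Agent.P049
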