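import Vale.Agent.P049.DRa

/-! P049: drift of the fourth power sum. -/

namespace Vale.Agent.P049
open Matrix Finset
variable {ι : Type} [Fintype ι] [DecidableEq ι]

namespace DRX

theorem sq2 (x y : ℝ) : (x + y) ^ 2 ≤ 201 / 200 * x ^ 2 + 201 * y ^ 2 := by
  nlinarith [sq_nonneg (x - 200 * y)]

theorem pow4 (a a' b b' : ℝ) : (a + a' + b + b') ^ 4
    ≤ 104 / 100 * (b ^ 4 + b' ^ 4) + 10 ^ 8 * (b ^ 2 * b' ^ 2 + a ^ 4 + a' ^ 4) := by
  have h1 := pow_le_pow_left₀ (sq_nonneg _) (sq2 (b + b') (a + a')) 2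
  have h2 := sq2 (201 / 200 * (b + b') ^ 2) (201 * (a + a') ^ 2)
  have h3 : (b + b') ^ 4 ≤ 102 / 100 * (b ^ 4 + b' ^ 4) + 207 * (b ^ 2 * b' ^ 2) := by
    nlinarith [sq_nonneg (b ^ 2 + b' ^ 2 - 100 * (b * b')), sq_nonneg (b * b')]
  have h4 : (a + a') ^ 4 ≤ 8 * (a ^ 4 + a' ^ 4) := by
    have := pow_le_pow_left₀ (sq_nonneg _)
      (show (a + a') ^ 2 ≤ 2 * (a ^ 2 + a' ^ 2) by nlinarith [sq_nonneg (a - a')]) 2
    nlinarith [sq_nonneg (a ^ 2 - a' ^ 2)]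
  have h5 : 0 ≤ b ^ 2 * b' ^ 2 := by positivity
  have h6 : 0 ≤ b ^ 4 + b' ^ 4 := by positivity
  have h7 : 0 ≤ a ^ 4 + a' ^ 4 := by positivity
  have e1 : (a + a' + b + b') ^ 4 = ((b + b' + (a + a')) ^ 2) ^ 2 := by ring
  have e2 : 201 / 200 * (201 / 200 * (b + b') ^ 2) ^ 2 + 201 * (201 * (a + a') ^ 2) ^ 2
      = (201 / 200) ^ 3 * (b + b') ^ 4 + 201 ^ 3 * (a + a') ^ 4 := by ring
  rw [e2] at h2
  rw [e1]
  linarith

theorem up4 (x y : ℝ) : y ^ 4 - x ^ 4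
    ≤ 4 * (x ^ 3 * (y - x)) + 406 * (x ^ 2 * (y - x) ^ 2) + 101 / 100 * (y - x) ^ 4 := by
  nlinarith [sq_nonneg (200 * x * (y - x) - (y - x) ^ 2)]

theorem lo4 (x y : ℝ) : x ^ 4 - 4 * (|x| ^ 3 * |y - x|) ≤ y ^ 4 := by
  have h1 : -(|x| ^ 3 * |y - x|) ≤ x ^ 3 * (y - x) := by
    rw [← abs_pow, ← abs_mul]
    exact neg_abs_le _
  nlinarith [sq_nonneg ((y - x) * (y + x)), sq_nonneg (x * (y - x))]

theorem colR {K : Matrix ι ι ℝ} (hs : ∀ i j, K i j = K j i) (h : ι) :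
    ∑ k, K k h ^ 4 = rR K h := sum_congr rfl fun k _ => by rw [hs]

theorem fR_step {K : Matrix ι ι ℝ} (hs : ∀ i j, K i j = K j i) {h g : ι} (hne : h ≠ g) :
    fR (step K h g) = fR (full K h g) - 2 * rR (full K h g) h - 2 * rR (full K h g) g
      + (full K h g h h ^ 4 + 2 * full K h g h g ^ 4 + full K h g g g ^ 4) := by
  have hf := fun k j => full_symm K h g k j hs
  have e : ∀ k, rR (step K h g) k = if k = h ∨ k = g then 0 else
      rR (full K h g) k - full K h g k h ^ 4 - full K h g k g ^ 4 := by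
    intro k
    rw [rR, rR, ← sum_del_ta hne]
    split_ifs with hk
    · exact sum_eq_zero fun j _ => by rcases hk with hk | hk <;> simp [step, hk]
    · exact sum_congr rfl fun j _ => by
        rw [not_or] at hk
        by_cases hj : j = h ∨ j = g <;> simp [step, hk, hj]
  rw [fR, sum_congr rfl fun k _ => e k, sum_del_ta hne, sum_sub_distrib, sum_sub_distrib,
    colR hf, colR hf, hf g h, fR]
  ring

theorem xS {c : Ctx ι} {h g : ι} (hA : c.Allowed h g) :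
    ap c.A h g ^ 4 * rR c.A h ^ 2 ≤ 7 * (c.m2 * (c.A g g ^ 2 * rR c.A h)) := by
  have a1 := pow_le_pow_left₀ (sq_nonneg _) (coef2 hA).1 2
  have a0 := rR_nonneg c.A h
  have a2 : c.A g g ^ 2 * rR c.A h ≤ c.m2 := by
    refine le_trans (mul_le_mul ?_ ((rR_le _ _).trans ?_) a0 (sq_nonneg _)) hA.XS
    · rw [← sq_abs]
      exact pow_le_pow_left₀ (abs_nonneg _) (le_add_of_nonneg_right (abs_nonneg _)) 2
    · exact pow_le_pow_left₀ (rS_nonneg _ _) (le_add_of_nonneg_right (rS_nonneg _ _)) 2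
  have a3 : 0 ≤ c.A g g ^ 2 * rR c.A h := by positivity
  have a4 := mul_le_mul_of_nonneg_right a2 a3
  have a5 := mul_le_mul_of_nonneg_right a1 (sq_nonneg (rR c.A h))
  nlinarith [mul_nonneg a3 a3]

theorem four_pt {c : Ctx ι} {h g : ι} (hA : c.Allowed h g) :
    ∑ k, ∑ j, (full c.A h g k j - c.A k j) ^ 4 ≤ 246 / 100 * (rR c.A h * rR c.A g)
      + 10 ^ 9 * (c.m1 * ∑ k, c.A k h ^ 2 * c.A k g ^ 2
        + c.m2 * (c.A g g ^ 2 * rR c.A h) + c.m2 * (c.A h h ^ 2 * rR c.A g)) := by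
  have hs := c.sA.ok.symm
  have h1 : ∑ k, ∑ j, (full c.A h g k j - c.A k j) ^ 4 ≤
      104 / 100 * (be c.A h g ^ 4 * ((∑ k, c.A k h ^ 4) * ∑ k, c.A k g ^ 4)
        + be c.A h g ^ 4 * ((∑ k, c.A k g ^ 4) * ∑ k, c.A k h ^ 4))
      + 10 ^ 8 * (be c.A h g ^ 4 * ((∑ k, c.A k h ^ 2 * c.A k g ^ 2)
          * ∑ k, c.A k h ^ 2 * c.A k g ^ 2)
        + ap c.A h g ^ 4 * ((∑ k, c.A k h ^ 4) * ∑ k, c.A k h ^ 4)
        + al c.A h g ^ 4 * ((∑ k, c.A k g ^ 4) * ∑ k, c.A k g ^ 4)) := by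
    simp only [sum_mul_sum]
    simp only [mul_sum, ← sum_add_distrib]
    refine sum_le_sum fun k _ => sum_le_sum fun j _ => ?_
    rw [delta]
    exact (pow4 _ _ _ _).trans_eq (by ring)
  rw [colR hs, colR hs] at h1
  have a1 := pow_le_pow_left₀ hA.be_bd.1.le hA.be_bd.2 4
  have a2 := xS hA
  have a3 := xS hA.symm
  rw [show ap c.A g h = al c.A h g by rw [ap, al, lam_comm hs]] at a3
  have a4 : 0 ≤ ∑ k, c.A k h ^ 2 * c.A k g ^ 2 := sum_nonneg fun k _ => by positivity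
  have a5 : ∑ k, c.A k h ^ 2 * c.A k g ^ 2 ≤ c.m1 := by
    refine le_trans ?_ hA.SS
    calc _ ≤ ∑ k, c.A h k ^ 2 * rS c.A g := sum_le_sum fun k _ => by
          rw [hs k h, hs k g]
          exact mul_le_mul_of_nonneg_left (sq_le_rS _ _ _) (sq_nonneg _)
      _ = rS c.A h * rS c.A g := by rw [← sum_mul]; rfl
      _ ≤ _ := mul_le_mul (le_add_of_nonneg_right (rS_nonneg _ _))
          (le_add_of_nonneg_right (rS_nonneg _ _)) (rS_nonneg _ _) (c.Sp_nonneg _)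
  have a6 := mul_le_mul_of_nonneg_right a5 a4
  have a7 := mul_le_mul_of_nonneg_right a1 (mul_nonneg a4 a4)
  have a8 := mul_nonneg (rR_nonneg c.A h) (rR_nonneg c.A g)
  have a9 := mul_le_mul_of_nonneg_right a1 a8
  have b1 : 0 ≤ c.m2 * (c.A g g ^ 2 * rR c.A h) := by
    have : 0 ≤ ap c.A h g ^ 4 * rR c.A h ^ 2 := by positivity
    linarith
  have b2 : 0 ≤ c.m2 * (c.A h h ^ 2 * rR c.A g) := by
    have : 0 ≤ al c.A h g ^ 4 * rR c.A g ^ 2 := by positivity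
    linarith
  have b3 := mul_nonneg a4 a4
  rw [mul_comm (rR c.A g) (rR c.A h), ← sq (rR c.A h), ← sq (rR c.A g)] at h1
  linarith

theorem blk_pt {c : Ctx ι} {h g : ι} (hA : c.Allowed h g) :
    full c.A h g h h ^ 4 ≤ 16 * c.A h h ^ 4 ∧ full c.A h g h g ^ 4 ≤ c.dv h g ^ 2 := by
  have hs := c.sA.ok.symm
  have hl : lam c.A h g ≠ 0 := by linarith [hA.lam_ge]
  have hb : |be c.A h g| ≤ 1042 / 1000 := by rw [abs_of_pos hA.be_bd.1]; exact hA.be_bd.2
  rw [full_h hs hl, full_h hs hl, vb, vb]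
  constructor
  · have a1 : |al c.A h g * c.A h g + be c.A h g * c.A h h| ≤ 2 * |c.A h h| := by
      refine (abs_add_le _ _).trans ?_
      rw [abs_mul, abs_mul]
      have b1 := mul_le_mul hA.al_bd hA.g_le (abs_nonneg _) (by positivity)
      have b2 := mul_le_mul_of_nonneg_right hb (abs_nonneg (c.A h h))
      linarith [abs_nonneg (c.A h h)]
    have a2 := pow_le_pow_left₀ (abs_nonneg _) a1 4
    rw [mul_pow, Even.pow_abs (by decide), Even.pow_abs (by decide)] at a2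
    linarith
  · have a1 : |al c.A h g * c.A g g + be c.A h g * c.A g h| ≤ 2 * c.dv h g := by
      refine (abs_add_le _ _).trans ?_
      rw [abs_mul, abs_mul, hs g h, Ctx.dv]
      have b1 := mul_le_mul_of_nonneg_right hA.al_bd (abs_nonneg (c.A g g))
      have b2 := mul_le_mul_of_nonneg_right hb (abs_nonneg (c.A h g))
      have b3 := mul_nonneg (c.X_nonneg h) (c.X_nonneg g)
      linarith [abs_nonneg (c.A h g), abs_nonneg (c.B h g), xx_bb c h g]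
    have a2 := pow_le_pow_left₀ (abs_nonneg _) a1 4
    rw [Even.pow_abs (by decide)] at a2
    have a3 := pow_le_pow_left₀ (c.dv_nonneg h g) hA.dv_le 2
    nlinarith [sq_nonneg (c.dv h g)]

end DRX

open DRX

namespace Ctx
variable (c : Ctx ι)

theorem dR_four : c.S (fun h g => ∑ k, ∑ j, (full c.A h g k j - c.A k j) ^ 4)
      ≤ 5 / 2 * fR c.A ^ 2 + c.N ^ 2 / c.r ^ 3 := by
  have H := c.good
  have hs := c.sA.ok.symm
  have h0 := H.r_pos
  have hN := H.N_pos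
  have hsN := H.sN_pos
  have hV := H.V0
  have hm1 : 0 ≤ c.m1 := by rw [Par.m1]; positivity
  have hm2 : 0 ≤ c.m2 := by rw [Par.m2]; positivity
  have h1 := c.S_le (fun h g hA => four_pt hA) fun h g => by
    have := rR_nonneg c.A h
    have := rR_nonneg c.A g
    positivity
  have h2 : ∑ h ∈ c.U, ∑ g ∈ c.U, ∑ k, c.A k h ^ 2 * c.A k g ^ 2 ≤ c.r ^ 2 * c.N := by
    refine le_trans ?_ (c.sA.W2 H)
    simp only [sum_comm (s := c.U) (t := univ), ← sum_mul_sum]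
    exact sum_le_sum fun k _ => by
      rw [← sq]
      exact pow_le_pow_left₀ (sum_nonneg fun _ _ => sq_nonneg _) (sumU_sq _ _ _) 2
  have h3 : fV c.A * fR c.A ≤ c.Vb * c.N :=
    mul_le_mul c.sA.Vb (by linarith [c.fR_le']) (sum_nonneg fun _ _ => rR_nonneg _ _) hV.le
  have n1 : c.m1 * (c.r ^ 2 * c.N) ≤ c.N ^ 2 / c.r ^ 4 := by
    refine le_D H 18 (by norm_num) (by positivity) ?_
    calc _ = c.r ^ 30 * c.sN * c.N := by rw [Par.m1]; ring
      _ ≤ c.N * c.N := by gcongr; exact sN_le H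
      _ = _ := by ring
  have n2 : c.m2 * (c.Vb * c.N) ≤ c.N ^ 2 / c.r ^ 4 := by
    refine le_D H 31 (by norm_num) (by positivity) ?_
    calc _ = c.r ^ 9 * c.m2 * (c.r ^ 22 * c.Vb) * c.N := by ring
      _ ≤ c.sN * c.sN * c.N := by gcongr; exacts [H.m2_le, H.Vb_le]
      _ = _ := by rw [← H.sq]; ring
  simp only [sum_add_distrib, ← mul_sum, ← sum_mul, c.sA.ok.sum_rR, c.sA.ok.sum_diag_sq] at h1
  have h4 := mul_le_mul_of_nonneg_left h2 hm1
  have h5 := mul_le_mul_of_nonneg_left h3 hm2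
  nlinarith [D_le H, D_nonneg H, sq_nonneg (fR c.A)]

theorem dR : c.S (fun h g => fR (step c.A h g) - fR c.A)
      ≤ -4 * c.N * fR c.A + 26 / 10 * fR c.A ^ 2 + c.N ^ 2 / c.r ^ 2 := by
  have H := c.good
  have hs := c.sA.ok.symm
  have h0 := H.r_pos
  have hN := H.N_pos
  have hsN := H.sN_pos
  have hV := H.V0
  let G : ι → ι → ℝ := fun h g => -2 * (1 * rR c.A h)
    + 8 * (∑ j, |c.A h j| ^ 3 * |full c.A h g h j - c.A h j|) + (16 * c.A h h ^ 4 + c.dv h g ^ 2)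
  have hG : ∀ h g, c.Allowed h g → -2 * rR (full c.A h g) h
      + (full c.A h g h h ^ 4 + full c.A h g h g ^ 4) ≤ G h g := fun h g hA => by
    have a1 : rR c.A h - 4 * ∑ j, |c.A h j| ^ 3 * |full c.A h g h j - c.A h j|
        ≤ rR (full c.A h g) h := by
      rw [rR, rR, mul_sum, ← sum_sub_distrib]
      exact sum_le_sum fun j _ => lo4 _ _
    have a2 := blk_pt hA
    simp only [G]
    linarith [a2.1, a2.2]
  have h1 : c.S (fun h g => fR (step c.A h g) - fR c.A) ≤ c.S (fun h g =>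
      4 * (∑ k, ∑ j, c.A k j ^ 3 * (full c.A h g k j - c.A k j))
      + 406 * (∑ k, ∑ j, c.A k j ^ 2 * (full c.A h g k j - c.A k j) ^ 2)
      + 101 / 100 * (∑ k, ∑ j, (full c.A h g k j - c.A k j) ^ 4) + G h g + G g h) := by
    refine c.S_mono fun h g hA => ?_
    have a1 := hG h g hA
    have a2 := hG g h hA.symm
    rw [full_comm hs, full_symm _ _ _ g h hs] at a2
    have a3 : fR (full c.A h g) - fR c.A ≤
        4 * (∑ k, ∑ j, c.A k j ^ 3 * (full c.A h g k j - c.A k j))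
        + 406 * (∑ k, ∑ j, c.A k j ^ 2 * (full c.A h g k j - c.A k j) ^ 2)
        + 101 / 100 * (∑ k, ∑ j, (full c.A h g k j - c.A k j) ^ 4) := by
      simp only [fR, rR, mul_sum, ← sum_add_distrib, ← sum_sub_distrib]
      exact sum_le_sum fun k _ => sum_le_sum fun j _ => up4 _ _
    rw [fR_step hs hA.ne]
    linarith
  have hR : 0 ≤ fR c.A := sum_nonneg fun _ _ => rR_nonneg _ _
  have h2 := (abs_le.1 (c.P0 coef_one (rR c.A))).1
  simp only [abs_of_nonneg (rR_nonneg _ _), c.sA.ok.sum_rR] at h2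
  have h3 : c.N / c.r ^ 3 * fR c.A ≤ c.N ^ 2 / c.r ^ 3 :=
    calc _ ≤ c.N / c.r ^ 3 * c.N := by gcongr; linarith [c.fR_le']
      _ = _ := by ring
  have h4 := c.S_le (f := fun h g => 16 * c.A h h ^ 4 + c.dv h g ^ 2) (fun _ _ _ => le_rfl)
    fun h g => by positivity
  have h5 : ∑ h ∈ c.U, ∑ g ∈ c.U, c.dv h g ^ 2 ≤ c.N ^ 2 / c.r ^ 4 := by
    refine le_D H 6 (by norm_num) (by positivity) ?_
    calc _ ≤ c.r ^ 6 * ∑ h ∈ c.U, c.N / c.r ^ 6 := by gcongr; exact c.row_dv _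
      _ = _ := by rw [sum_const, nsmul_eq_mul, c.hN]; field_simp
  have h6 : ∑ h ∈ c.U, ∑ g ∈ c.U, c.A h h ^ 4 ≤ c.N ^ 2 / c.r ^ 4 := by
    refine le_D H 44 (by norm_num) (by positivity) ?_
    calc _ ≤ c.r ^ 44 * ∑ h ∈ c.U, ∑ g ∈ c.U, c.Vb * c.A h h ^ 2 := by
          gcongr with h _ g _
          rw [show c.A h h ^ 4 = c.A h h ^ 2 * c.A h h ^ 2 by ring]
          exact mul_le_mul_of_nonneg_right (c.sA.diag_sq H h) (sq_nonneg _)
      _ = c.r ^ 44 * (c.N * (c.Vb * fV c.A)) := by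
          simp only [sum_const, nsmul_eq_mul, c.hN, ← mul_sum, c.sA.ok.sum_diag_sq]
      _ ≤ c.r ^ 44 * (c.N * (c.Vb * c.Vb)) := by gcongr; exact c.sA.Vb
      _ = (c.r ^ 22 * c.Vb) ^ 2 * c.N := by ring
      _ ≤ c.sN ^ 2 * c.N := by gcongr; exact H.Vb_le
      _ = _ := by rw [H.sq]; ring
  simp only [sum_add_distrib, ← mul_sum] at h4
  have h7 : c.S G ≤ -2 * c.N * fR c.A + 19 * (c.N ^ 2 / c.r ^ 3) := by
    simp only [G]
    rw [S_add, S_add, S_mul, c.S_mul 8]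
    have := c.dR_blk
    rw [mul_div_assoc] at this
    linarith [D_le H, D_nonneg H]
  have h8 : 1000 * (c.N ^ 2 / c.r ^ 3) ≤ c.N ^ 2 / c.r ^ 2 :=
    calc _ ≤ c.r * (c.N ^ 2 / c.r ^ 3) := by gcongr; exact le_trans (by norm_num) H.hr
      _ = _ := by field_simp
  rw [S_add, S_add, S_add, S_add, S_mul, S_mul, S_mul, c.S_comm G] at h1
  have h9 : 0 ≤ c.N ^ 2 / c.r ^ 3 := by positivity
  nlinarith [c.dR_lin, c.dR_two, c.dR_four, sq_nonneg (fR c.A)]

end Ctx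
end Vale.Agent.P049
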