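import Vale.Agent.P049.DW
import Vale.Agent.P049.DR
import Vale.Agent.P049.DC
import Vale.Agent.P049.PotX

/-! P049: drift of the row, fourth power and mixed potentials. -/

namespace Vale.Agent.P049
open Matrix Finset
variable {ι : Type} [Fintype ι] [DecidableEq ι]

namespace PotWX

theorem tw_ratio {N π : ℝ} (hN : 1000 ≤ N) (π0 : 0 < π) (π1 : π ≤ 1) :
    N * (2 - π) ^ 54 * (1 - (2 - 161 / 10 * π) / N)
      ≤ (N - 2) * (2 - π * (1 - 3 / (5 * N))) ^ 54 := by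
  have N0 : 0 < N := by linarith
  obtain ⟨x, hx⟩ : ∃ x, x = π / N := ⟨_, rfl⟩
  have x0 : 0 < x := hx ▸ div_pos π0 N0
  have xN : x * N = π := by rw [hx]; field_simp
  have h1 : (2 - π) * (1 + 3 / 10 * x) ≤ 2 - π * (1 - 3 / (5 * N)) := by
    rw [show π * (1 - 3 / (5 * N)) = π - 3 / 5 * x by rw [hx]; field_simp]
    nlinarith
  have h2 : 1 + (54 : ℕ) * (3 / 10 * x) ≤ (1 + 3 / 10 * x) ^ 54 :=
    one_add_mul_le_pow (by linarith) 54
  have h3 : 0 ≤ (2 - π) ^ 54 := pow_nonneg (by linarith) _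
  have h4 : N * (1 - (2 - 161 / 10 * π) / N) ≤ (N - 2) * (1 + (54 : ℕ) * (3 / 10 * x)) := by
    rw [show N * (1 - (2 - 161 / 10 * π) / N) = N - 2 + 161 / 10 * π by field_simp; ring]
    push_cast
    nlinarith
  calc N * (2 - π) ^ 54 * (1 - (2 - 161 / 10 * π) / N)
      = (2 - π) ^ 54 * (N * (1 - (2 - 161 / 10 * π) / N)) := by
        rw [mul_comm N, mul_assoc]
    _ ≤ (2 - π) ^ 54 * ((N - 2) * (1 + 3 / 10 * x) ^ 54) :=
        mul_le_mul_of_nonneg_left (h4.trans (mul_le_mul_of_nonneg_left h2 (by linarith))) h3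
    _ = (N - 2) * ((2 - π) * (1 + 3 / 10 * x)) ^ 54 := by
        rw [mul_pow, mul_left_comm]
    _ ≤ _ := mul_le_mul_of_nonneg_left
        (pow_le_pow_left₀ (mul_nonneg (by linarith) (by linarith)) h1 54) (by linarith)

theorem tr_ratio {N π u : ℝ} (hN : 1000 ≤ N) (π0 : 0 < π) (u0 : 0 < u) :
    N * (2 * π + u) * (1 - 26 / 10 / N) ≤ (N - 2) * (2 * (π * (1 - 3 / (5 * N))) + u) := by
  have N0 : 0 < N := by linarith
  obtain ⟨x, hx⟩ : ∃ x, x = π / N := ⟨_, rfl⟩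
  have x0 : 0 < x := hx ▸ div_pos π0 N0
  have xN : x * N = π := by rw [hx]; field_simp
  rw [show π * (1 - 3 / (5 * N)) = π - 3 / 5 * x by rw [hx]; field_simp,
    show N * (2 * π + u) * (1 - 26 / 10 / N) = (N - 26 / 10) * (2 * π + u) by field_simp]
  nlinarith

end PotWX

namespace Ctx
variable (c : Ctx ι)

theorem potW {π : ℝ} (π0 : 0 < π) (π1 : π ≤ 1) (hR : fR c.A ≤ tR c.r c.N π)
    (hW : fW c.A ≤ tW c.r c.N π) :
    c.S (fun h g => pW c.r (c.N - 2) (π * (1 - 3 / (5 * c.N))) (step c.A h g) - pW c.r c.N π c.A)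
      ≤ 2 ^ 57 * c.N / c.r := by
  have N0 := c.good.N_pos
  have r0 := c.good.r_pos
  have hr := c.good.hr
  have hN := c.N_px
  have f0 : 0 ≤ fW c.A := sum_nonneg fun _ _ => sq_nonneg _
  have t0 : 0 < tW c.r c.N π := by
    have : 0 < 2 - π := by linarith
    unfold tW; positivity
  have ht : tW c.r c.N π * (1 - (2 - 161 / 10 * π) / c.N)
      ≤ tW c.r (c.N - 2) (π * (1 - 3 / (5 * c.N))) := by
    unfold tW
    rw [mul_assoc _ c.N, mul_assoc, mul_assoc _ (c.N - 2)]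
    exact mul_le_mul_of_nonneg_left (PotWX.tw_ratio (by linarith) π0 π1) (by positivity)
  have h1 : c.r ^ 2 / 2 ^ 55 * (c.N - 2) ≤ tW c.r (c.N - 2) (π * (1 - 3 / (5 * c.N))) := by
    refine le_mul_of_one_le_right (mul_nonneg (by positivity) (by linarith)) (one_le_pow₀ ?_)
    have : 0 ≤ π * (3 / (5 * c.N)) := by positivity
    linarith
  have h2 := c.half_px t0 (by linarith) ht
  refine c.pot_gen c.dW f0 t0 (by linarith) (abs_le.2 ⟨by linarith, by linarith⟩) ht ?_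
  have h3 := c.small_px f0 hW
  generalize tW c.r (c.N - 2) (π * (1 - 3 / (5 * c.N))) = t' at *
  generalize tW c.r c.N π = t at *
  have h4 : fR c.A * fW c.A ≤ 2 * (c.N * π * fW c.A) + c.N * t / c.r := by
    calc fR c.A * fW c.A ≤ c.N * (2 * π + 1 / c.r) * fW c.A := mul_le_mul_of_nonneg_right hR f0
      _ = 2 * (c.N * π * fW c.A) + c.N * fW c.A / c.r := by ring
      _ ≤ _ := by gcongr
  have h5 : c.N * t / c.r ≤ c.N * (2 * t') / c.r := by gcongr
  have h6 : c.N * (c.r ^ 2 / 2 ^ 55 * (c.N - 2)) / c.r ≤ c.N * t' / c.r := by gcongr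
  rw [show c.N * (c.r ^ 2 / 2 ^ 55 * (c.N - 2)) / c.r = c.N * (c.r * (c.N - 2)) / 2 ^ 55 by
    field_simp] at h6
  have h7 := mul_le_mul_of_nonneg_right c.fR_le' N0.le
  have h8 : c.N * (c.r * c.N + 5 * c.N) ≤ c.N * (2 * (c.r * (c.N - 2))) := by
    gcongr; nlinarith
  have h9 : 0 ≤ c.N * π * fW c.A := by positivity
  have h10 : 0 ≤ c.N * t' / c.r := by
    have : 0 < t' := by linarith
    positivity
  have h11 : 0 ≤ c.N ^ 2 := by positivity
  rw [show 2 ^ 57 * c.N / c.r * t' = 2 ^ 57 * (c.N * t' / c.r) by ring]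
  rw [show c.N * (2 * t') / c.r = 2 * (c.N * t' / c.r) by ring] at h5
  linarith

theorem potR {π : ℝ} (π0 : 0 < π) (π1 : π ≤ 1) :
    c.S (fun h g => pR c.r (c.N - 2) (π * (1 - 3 / (5 * c.N))) (step c.A h g) - pR c.r c.N π c.A)
      ≤ 20 * c.N / c.r := by
  have N0 := c.good.N_pos
  have r0 := c.good.r_pos
  have hr := c.good.hr
  have hN := c.N_px
  have f0 : 0 ≤ fR c.A := sum_nonneg fun _ _ => rR_nonneg _ _
  have f1 := c.fR_le'
  have t0 : 0 < tR c.r c.N π := by unfold tR; positivity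
  have ht : tR c.r c.N π * (1 - 26 / 10 / c.N) ≤ tR c.r (c.N - 2) (π * (1 - 3 / (5 * c.N))) :=
    PotWX.tr_ratio (by linarith) π0 (by positivity)
  have h1 : c.N / 2 * (1 / c.r) ≤ tR c.r (c.N - 2) (π * (1 - 3 / (5 * c.N))) := by
    have : 3 / (5 * c.N) ≤ 1 := by rw [div_le_one (by positivity)]; linarith
    have : 0 ≤ π * (1 - 3 / (5 * c.N)) := mul_nonneg π0.le (by linarith)
    exact mul_le_mul (by linarith) (by linarith) (by positivity) (by linarith)
  refine c.pot_gen c.dR f0 t0 (lt_of_lt_of_le (by positivity) h1)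
    (abs_le.2 ⟨by norm_num, by norm_num⟩) ht ?_
  have h2 := mul_le_mul_of_nonneg_left h1 (show 0 ≤ 20 * c.N / c.r by positivity)
  rw [show 20 * c.N / c.r * (c.N / 2 * (1 / c.r)) = 10 * (c.N ^ 2 / c.r ^ 2) by field_simp; ring]
    at h2
  have h3 : 20 * c.N * fR c.A / c.r ^ 3 ≤ c.N ^ 2 / c.r ^ 2 := by
    calc 20 * c.N * fR c.A / c.r ^ 3 ≤ c.r * c.N * c.N / c.r ^ 3 := by
          gcongr <;> linarith
      _ = _ := by field_simp
  have h4 := mul_le_mul_of_nonneg_left f1 f0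
  have h5 : 0 ≤ c.N * fR c.A := by positivity
  have h6 : 0 ≤ c.N ^ 2 / c.r ^ 2 := by positivity
  nlinarith

theorem potC (X : c.toPar.Extra) :
    c.S (fun h g => pC c.r (c.N - 2) (step c.A h g) (step c.B h g) - pC c.r c.N c.A c.B)
      ≤ 20 * c.N / c.r := by
  have N0 := c.good.N_pos
  have r0 := c.good.r_pos
  have eC : c.Cb = tC c.r c.N := X.eC
  have t0 : 0 < c.Cb := lt_of_lt_of_le (by positivity) c.good.Cb_ge
  show c.S (fun h g => fC (step c.A h g) (step c.B h g) / tC c.r (c.N - 2)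
    - fC c.A c.B / tC c.r c.N) ≤ _
  rw [← eC]
  refine c.pot_std (k := 2) c.dC (fE_nonneg _) c.hC t0 (by norm_num) le_rfl ?_ ?_
  · rw [eC]
    unfold tC
    exact le_of_eq (by field_simp)
  · have : 0 ≤ c.N * c.Cb / c.r := by positivity
    linarith

end Ctx
end Vale.Agent.P049
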