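import Vale.Agent.P049.PotF
import Vale.Agent.P049.PotG
import Vale.Agent.P049.PotT
import Vale.Agent.P049.PotW
import Vale.Agent.P049.NumA
import Vale.Agent.P049.NumB
import Vale.Agent.P049.NumC
import Vale.Agent.P049.NumD

/-! P049: existence of a good pair. -/

namespace Vale.Agent.P049
open Matrix Finset
variable {ι : Type} [Fintype ι] [DecidableEq ι]

/-- all pieces of the one-sided potential are nonnegative -/
theorem pieces_nonneg {r N π s q : ℝ} {U : Finset ι} {K : Matrix ι ι ℝ} (hr : 0 < r)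
    (hN : 0 < N) (hU : U.Nonempty) (hs : s = 1 ∨ s = -1) (q0 : 0 ≤ q) (q1 : q ≤ 1) (π0 : 0 < π)
    (π1 : π ≤ 1) (hK : Ok U K) (hP : Psd U q s K) (hb : Bar r N s K) :
    0 ≤ pF r s K ∧ 0 ≤ pH r N K ∧ 0 ≤ pG r N K ∧ 0 ≤ pT r N s K ∧ 0 ≤ pV r N K ∧
      0 ≤ pW r N π K ∧ 0 ≤ pR r N π K := by
  have h1 : 0 < 2 - s * fP K / r ^ 3750 := by
    rw [sub_pos, div_lt_iff₀ (by positivity)]
    exact hb.1
  have h2 : 0 < 2 - π := by linarith
  have h3 := hK.one_le_fE hU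
  refine ⟨div_nonneg (by positivity) h1.le, div_nonneg (sq_nonneg _) (sq_nonneg _),
    mul_nonneg (by positivity) (sub_nonneg.2 (one_div_le_one_div_of_le (sub_pos.2 hb.2)
      (by linarith))), div_nonneg (c3_nonneg hK.symm (hP.lo hK hs q0 q1))
      (le_min (by positivity) (by positivity)),
    div_nonneg (Finset.sum_nonneg fun _ _ => sq_nonneg _) ?_,
    div_nonneg (Finset.sum_nonneg fun _ _ => sq_nonneg _) ?_,
    div_nonneg (Finset.sum_nonneg fun k _ => rR_nonneg K k) ?_⟩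
  · unfold tV
    positivity
  · unfold tW
    positivity
  · unfold tR
    positivity

theorem pC_nonneg {r N : ℝ} (hr : 0 < r) (hN : 0 < N) (A B : Matrix ι ι ℝ) : 0 ≤ pC r N A B := by
  refine div_nonneg (fE_nonneg _) ?_
  unfold tC
  positivity

theorem fE_le_of_pG {r N : ℝ} {K : Matrix ι ι ℝ} (hr : 0 < r) (hN : 0 < N) (hb : fE K < N + 1)
    (h : pG r N K ≤ 1) : fE K ≤ 1 + N ^ 2 / (N + r ^ 7799) := by
  unfold pG at h
  have h0 : 0 < r ^ 7799 := by positivity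
  generalize r ^ 7799 = Z at *
  have h1 : 0 < N + 1 - fE K := sub_pos.2 hb
  rw [div_sub_div _ _ h1.ne' hN.ne', ← mul_div_assoc, div_le_one (by positivity)] at h
  rw [← sub_le_iff_le_add', le_div_iff₀ (by positivity)]
  linarith

theorem side_st {p : Par} {π s q : ℝ} {U : Finset ι} {K : Matrix ι ι ℝ} (H : p.Good)
    (X : p.Extra) (hs : s = 1 ∨ s = -1) (q0 : 0 ≤ q) (q1 : q ≤ 1) (π0 : 0 < π) (π1 : π ≤ 1)
    (hK : Ok U K) (hP : Psd U q s K) (hb : Bar p.r p.N s K) (h2 : pH p.r p.N K ≤ 1)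
    (h3 : pG p.r p.N K ≤ 1) (h4 : pT p.r p.N s K ≤ 1) (h5 : pV p.r p.N K ≤ 1)
    (h6 : fW K ≤ tW p.r p.N π) : Side p U q s K := by
  have hr := H.r_pos
  have hN := H.N_pos
  have e1 : fE K ≤ p.Eb := X.eE ▸ fE_le_of_pG hr hN hb.2 h3
  have e2 : s * fT K + fE K ≤ p.Tb :=
    X.eT ▸ (div_le_one (lt_min (by positivity) (by positivity))).1 h4
  refine ⟨hK, hP, ?_, hb.2.le, e1, ?_, X.eV ▸ (div_le_one (X.eV ▸ H.V0)).1 h5, e2, X.eP ▸ hb.1.le,
    ?_⟩
  · rcases X.eL with h | h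
    · exact op_of_c3 hK.symm (hP.lo hK hs q0 q1) hs H.L1 (e2.trans h)
    · exact op_of_fE K (e1.trans h)
  · rw [X.eW]
    refine le_min (h6.trans ?_) ((fW_le_sq K).trans (pow_le_pow_left₀ (fE_nonneg K) e1 2))
    have h7 : (2 - π) ^ 54 ≤ 2 ^ 55 :=
      (pow_le_pow_left₀ (by linarith) (by linarith) 54).trans
        (pow_le_pow_right₀ one_le_two (by norm_num))
    refine (mul_le_mul_of_nonneg_left h7 (by positivity)).trans_eq ?_
    field_simp
  · unfold pH at h2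
    rw [← X.ePa, div_le_one (pow_pos H.Pa0 2)] at h2
    exact abs_le_of_sq_le_sq h2 H.Pa0.le

theorem one_st (c : Ctx ι) (X : c.toPar.Extra) {π : ℝ} (π0 : 0 < π) (π1 : π ≤ 1)
    (hb : Bar c.r c.N c.s c.A) (h1 : pF c.r c.s c.A ≤ 1) (h3 : pG c.r c.N c.A ≤ 1)
    (hR : fR c.A ≤ tR c.r c.N π) (hW : fW c.A ≤ tW c.r c.N π) :
    (∀ h g, c.Allowed h g → Bar c.r (c.N - 2) c.s (step c.A h g)) ∧
      c.S (fun h g => pot1 c.r (c.N - 2) (π * (1 - 3 / (5 * c.N))) c.s (step c.A h g) -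
        pot1 c.r c.N π c.s c.A) ≤ (2 ^ 57 + 103) * (c.N / c.r) := by
  obtain ⟨a1, b1⟩ := c.potF X hb.1 h1
  obtain ⟨a2, b2⟩ := c.potG X hb.2 h3
  refine ⟨fun h g H => ⟨a1 h g H, a2 h g H⟩, ?_⟩
  have b := add_le_add (add_le_add (add_le_add (add_le_add (add_le_add (add_le_add b1 (c.potH X))
    b2) (c.potT X)) (c.potV X)) (c.potW π0 π1 hR hW)) (c.potR π0 π1)
  simp only [← c.S_add] at b
  refine ((c.S_congr fun h g _ => ?_).trans_le b).trans_eq (by ring)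
  unfold pot1
  ring

theorem step_exists {r N π q : ℝ} {U : Finset ι} {A B : Matrix ι ι ℝ} (forb : ι → ι → Prop)
    (hr : 10 ^ 50 ≤ r) (hN1 : r ^ 7799 < N ^ 2) (hN2 : N ≤ r ^ 12001) (hU : (U.card : ℝ) = N)
    (q0 : 0 ≤ q) (q2 : q ^ 2 ≤ 1 / 2) (π0 : 0 < π) (π1 : π ≤ 1) (hA : Ok U A) (hB : Ok U B)
    (pA : Psd U q 1 A) (pB : Psd U q (-1) B) (bA : Bar r N 1 A) (bB : Bar r N (-1) B)
    (hp : pot r N π A B ≤ 1) (fs : ∀ h g, forb h g → forb g h)
    (fc : ∀ h ∈ U, ∀ T : Finset ι, (∀ g ∈ T, forb h g) → (T.card : ℝ) ≤ r) :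
    ∃ h ∈ U, ∃ g ∈ U, h ≠ g ∧ ¬ forb h g ∧ 0 < lam A h g ∧ 0 < lam B h g ∧
      Bar r (N - 2) 1 (step A h g) ∧ Bar r (N - 2) (-1) (step B h g) ∧
      pot r (N - 2) (π * (1 - 3 / (5 * N))) (step A h g) (step B h g)
        ≤ pot r N π A B + 2 ^ 60 / (r * N) := by
  have r0 : 0 < r := lt_of_lt_of_le (by positivity) hr
  have N0 : 0 < N := by
    refine lt_of_le_of_ne (hU ▸ Nat.cast_nonneg _) fun e => ?_
    rw [← e, zero_pow two_ne_zero] at hN1
    exact hN1.not_ge (by positivity)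
  have Un : U.Nonempty := Finset.card_pos.1 (Nat.cast_pos.1 (hU ▸ N0))
  have q1 : q ≤ 1 := by nlinarith
  obtain ⟨p, H, X, rfl, rfl⟩ : ∃ p : Par, p.Good ∧ p.Extra ∧ p.r = r ∧ p.N = N := by
    rcases le_or_gt (r ^ 7650) N with h | h
    · exact ⟨_, parA_good hr h hN2, parA_extra hr h hN2, rfl, rfl⟩
    · exact ⟨_, parB_good hr N0 hN1 h, parB_extra hr N0 hN1 h, rfl, rfl⟩
  obtain ⟨a1, a2, a3, a4, a5, a6, a7⟩ :=
    pieces_nonneg r0 N0 Un (Or.inl rfl) q0 q1 π0 π1 hA pA bA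
  obtain ⟨b1, b2, b3, b4, b5, b6, b7⟩ :=
    pieces_nonneg r0 N0 Un (Or.inr rfl) q0 q1 π0 π1 hB pB bB
  have c1 := pC_nonneg r0 N0 A B
  have hp' := hp
  unfold pot pot1 at hp'
  have h2 : 0 < 2 - π := by linarith
  have tw : 0 < tW p.r p.N π := by
    unfold tW
    positivity
  have tr : 0 < tR p.r p.N π := by
    unfold tR
    positivity
  have tc : 0 < tC p.r p.N := by
    unfold tC
    positivity
  have wA : fW A ≤ tW p.r p.N π := (div_le_one tw).1 (show pW p.r p.N π A ≤ 1 by linarith)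
  have wB : fW B ≤ tW p.r p.N π := (div_le_one tw).1 (show pW p.r p.N π B ≤ 1 by linarith)
  have rA : fR A ≤ tR p.r p.N π := (div_le_one tr).1 (show pR p.r p.N π A ≤ 1 by linarith)
  have rB : fR B ≤ tR p.r p.N π := (div_le_one tr).1 (show pR p.r p.N π B ≤ 1 by linarith)
  have cA : fC A B ≤ p.Cb := X.eC ▸ (div_le_one tc).1 (show pC p.r p.N A B ≤ 1 by linarith)
  let c : Ctx ι :=
    { p with
      U := U, A := A, B := B, s := 1, q := q, forb := forb, good := H, hN := hU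
      hs := Or.inl rfl, q0 := q0, q2 := q2
      sA := side_st H X (Or.inl rfl) q0 q1 π0 π1 hA pA bA (by linarith) (by linarith)
        (by linarith) (by linarith) wA
      sB := side_st H X (Or.inr rfl) q0 q1 π0 π1 hB pB bB (by linarith) (by linarith)
        (by linarith) (by linarith) wB
      hC := cA, hC' := fC_comm hA.symm hB.symm ▸ cA, forb_symm := fs, forb_card := fc }
  obtain ⟨d1, e1⟩ := one_st c X π0 π1 bA (show pF p.r 1 A ≤ 1 by linarith)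
    (show pG p.r p.N A ≤ 1 by linarith) rA wA
  obtain ⟨d2, e2⟩ := one_st c.swap X π0 π1 bB (show pF p.r (-1) B ≤ 1 by linarith)
    (show pG p.r p.N B ≤ 1 by linarith) rB wB
  rw [c.swap_S] at e2
  have e := add_le_add (add_le_add e1 e2) (c.potC X)
  rw [← c.S_add, ← c.S_add] at e
  obtain ⟨h, g, al, le⟩ := c.exists_pair _ (t := 2 ^ 60 / (p.r * p.N)) (by positivity)
    (e.trans (by
      change (2 ^ 57 + 103) * (p.N / p.r) + (2 ^ 57 + 103) * (p.N / p.r) + 20 * p.N / p.r ≤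
        2 ^ 60 / (p.r * p.N) * (p.N ^ 2 / 2)
      have h3 : 2 ^ 60 / (p.r * p.N) * (p.N ^ 2 / 2) = 2 ^ 59 * (p.N / p.r) := by
        field_simp
      have h4 : 0 < p.N / p.r := by positivity
      rw [h3, mul_div_assoc]
      linarith))
  have al' := Ctx.swap_al_bc al
  refine ⟨h, al.hU, g, al.gU, al.ne, al.nf, lt_of_lt_of_le (by norm_num) al.lam_ge,
    lt_of_lt_of_le (by norm_num) al'.lam_ge, d1 h g al, d2 h g al', ?_⟩
  change pot1 p.r (p.N - 2) (π * (1 - 3 / (5 * p.N))) 1 (step A h g) - pot1 p.r p.N π 1 A +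
    (pot1 p.r (p.N - 2) (π * (1 - 3 / (5 * p.N))) (-1) (step B h g) - pot1 p.r p.N π (-1) B) +
    (pC p.r (p.N - 2) (step A h g) (step B h g) - pC p.r p.N A B) ≤ _ at le
  unfold pot
  linarith

end Vale.Agent.P049
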