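import Vale.Agent.P049.Comb
import Vale.Agent.P049.Step
import Vale.Agent.P049.Dual
import Vale.Agent.P049.DualS
import Mathlib.Analysis.SpecialFunctions.Log.Basic

/-! P049: a good pair exists. -/

namespace Vale.Agent.P049
open Matrix Finset
variable {d n r : ℕ}

namespace CorrBX

theorem flat_length (es : Edges) : (flat es).length = 2 * es.length := by
  induction es with
  | nil => rfl
  | cons e es ih =>
    simp only [flat, List.flatMap_cons, List.length_append, List.length_cons, List.length_nil] at *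
    omega

theorem esum_zero (es : Edges) : esum d (fun _ => 0) es = 0 := by
  simp [esum]

theorem J0 {q z : ℝ} {S : St} (H : Inv d n r q z S) :
    Jv (fU (n * d) S.1) q 1 (mr (n * d) S.2.2.1) (fun _ => 0) 0 ∧
      Jv (fU (n * d) S.1) q (-1) (mr (n * d) S.2.2.2) (fun _ => 0) 0 := by
  have a := H.JA (fun _ => 0) (by simp)
  have b := H.JB (fun _ => 0) (by simp)
  rw [esum_zero] at a b
  simp only [ne_eq, OfNat.ofNat_ne_zero, not_false_eq_true, zero_pow, sum_const_zero, mul_zero,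
    sub_zero, add_zero] at a b
  exact ⟨a, b⟩

theorem le_of_sq_le_sq' {a b : ℝ} (hb : 0 ≤ b) (h : a ^ 2 ≤ b ^ 2) : a ≤ b :=
  (le_abs_self a).trans (abs_le_of_sq_le_sq h hb)

theorem num {R N : ℝ} (hr : 10 ^ 50 ≤ R) (hN : R ^ 7799 < N ^ 2) (N0 : 0 ≤ N) :
    R ^ 3000 ≤ N - 2 ∧ 10 ≤ N := by
  have r1 : 2 ≤ R := le_trans (by norm_num) hr
  have h1 : R ^ 3002 ≤ N := by
    apply le_of_sq_le_sq' N0
    rw [← pow_mul]
    exact (pow_le_pow_right₀ (by linarith) (by norm_num)).trans hN.le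
  have h2 : R ≤ R ^ 3000 := le_self_pow₀ (by linarith) (by norm_num)
  have h3 : R ^ 3002 = R ^ 3000 * R ^ 2 := by rw [← pow_add]
  have h4 : 10 ≤ R := le_trans (by norm_num) hr
  generalize R ^ 3000 = T at *
  have h5 : T * 4 ≤ T * R ^ 2 := mul_le_mul_of_nonneg_left (by nlinarith) (by linarith)
  constructor <;> linarith

theorem num2 {R N : ℝ} (hr : 10 ^ 50 ≤ R) (hN : 10 ≤ N) :
    2 ^ 60 / (R * N) ≤ 1 ∧ 2 ^ 60 / (R * N) + 3 * (1 / (4 * R * (N - 2))) ≤ 2 ^ 61 / (R * N) := by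
  have r0 : 0 < R := lt_of_lt_of_le (by norm_num) hr
  have N0 : 0 < N - 2 := by linarith
  constructor
  · rw [div_le_one (by positivity)]; nlinarith
  · have h1 : 1 / (4 * R * (N - 2)) ≤ 1 / (R * N) :=
      one_div_le_one_div_of_le (by positivity) (by nlinarith)
    have h2 : (2 : ℝ) ^ 61 / (R * N) = 2 ^ 61 * (1 / (R * N)) := by ring
    have h3 : (2 : ℝ) ^ 60 / (R * N) = 2 ^ 60 * (1 / (R * N)) := by ring
    have h4 : 0 < 1 / (R * N) := by positivity
    rw [h2, h3]; linarith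

theorem close {ι : Type} [Fintype ι] [DecidableEq ι] {s : ℝ} {U : Finset ι} {K : Matrix ι ι ℝ}
    (hr : 10 ^ 50 ≤ r) (hn : (Fintype.card ι : ℝ) ≤ (r : ℝ) ^ 12001) (hs : s = 1 ∨ s = -1)
    (hK : Ok U K) (k j : ι) : |rnd (r ^ 200000) s U K k j - K k j| ≤ 1 / (r : ℝ) ^ 180000 := by
  have r0 : 0 < r := lt_of_lt_of_le (by norm_num) hr
  have r1 : (1 : ℝ) ≤ r := by exact_mod_cast r0
  refine (rnd_close (pow_pos r0 _) hs hK k j).trans ?_
  rw [Nat.cast_pow, div_le_div_iff₀ (by positivity) (by positivity), one_mul]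
  refine (mul_le_mul_of_nonneg_right hn (by positivity)).trans ?_
  rw [← pow_add]
  exact pow_le_pow_right₀ r1 (by norm_num)

end CorrBX

theorem Inv.pot_le {q z : ℝ} {S : St} (hr : 10 ^ 50 ≤ r) (hn : n * d ≤ r ^ 12001)
    (H : Inv d n r q z S) : (Phi r (n * d) S : ℝ) ≤ 1 := by
  have hR : (10 : ℝ) ^ 50 ≤ r := by exact_mod_cast hr
  have r0 : (0 : ℝ) < r := lt_of_lt_of_le (by norm_num) hR
  have r1 : (1 : ℝ) ≤ r := le_trans (by norm_num) hR
  have l0 := Real.log_nonneg r1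
  have h1 : Real.log (n * d : ℕ) ≤ 12001 * Real.log r := by
    rcases Nat.eq_zero_or_pos (n * d) with h | h
    · rw [h]; simp only [Nat.cast_zero, Real.log_zero]; positivity
    · have h' : ((n * d : ℕ) : ℝ) ≤ (r : ℝ) ^ 12001 := by exact_mod_cast hn
      have := Real.log_le_log (by exact_mod_cast h) h'
      rwa [Real.log_pow] at this
  have h2 := Real.log_natCast_nonneg S.1.length
  have s0 : 0 < √(r : ℝ) := Real.sqrt_pos.2 r0
  have h3 : Real.log r ≤ 2 * √(r : ℝ) := by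
    have := Real.log_le_sub_one_of_pos s0
    rw [Real.log_sqrt r0.le] at this
    linarith
  have h4 : (10 : ℝ) ^ 25 ≤ √(r : ℝ) := Real.le_sqrt_of_sq_le (by norm_num at hR ⊢; exact hR)
  have h5 : √(r : ℝ) * √(r : ℝ) = r := Real.mul_self_sqrt r0.le
  have h6 : 2 ^ 61 / (r : ℝ) * (Real.log (n * d : ℕ) - Real.log S.1.length) ≤ 1 / 5 := by
    rw [div_mul_eq_mul_div, div_le_iff₀ r0]
    nlinarith
  linarith [H.hp]

theorem Inv.psd {q z : ℝ} {S : St} (q2 : q ^ 2 ≤ 1 / 2) (H : Inv d n r q z S) :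
    Psd (fU (n * d) S.1) q 1 (mr (n * d) S.2.2.1) ∧
      Psd (fU (n * d) S.1) q (-1) (mr (n * d) S.2.2.2) :=
  ⟨J_psd (by linarith) (CorrBX.J0 H).1, J_psd (by linarith) (CorrBX.J0 H).2⟩

theorem exists_good {q z : ℝ} {S : St} (hr : 10 ^ 50 ≤ r) (hd : 0 < d) (hdr : d ^ 2 + d ≤ r)
    (hn : n * d ≤ r ^ 12001) (he : Even (n * d)) (q0 : 0 ≤ q) (q2 : q ^ 2 ≤ 1 / 2)
    (H : Inv d n r q z S) (hN : r ^ 7799 < S.1.length ^ 2) :
    ∃ p ∈ S.1.product S.1, good d r (n * d) S p = true := by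
  have hR : (10 : ℝ) ^ 50 ≤ r := by exact_mod_cast hr
  have r0 : (0 : ℝ) < r := lt_of_lt_of_le (by norm_num) hR
  have nd := H.perm.nodup_iff.2 List.nodup_range
  have nd1 : S.1.Nodup := nd.of_append_left
  have nd2 : (flat S.2.1).Nodup := nd.of_append_right
  have hlt : ∀ k ∈ S.1, k < n * d := fun k hk =>
    List.mem_range.1 (H.perm.subset (List.mem_append_left _ hk))
  have hlen : S.1.length + 2 * S.2.1.length = n * d := by
    have := H.perm.length_eq
    rwa [List.length_append, CorrBX.flat_length, List.length_range] at this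
  have hcard := fU_card nd1 hlt
  have hN1 : (r : ℝ) ^ 7799 < (S.1.length : ℝ) ^ 2 := by exact_mod_cast hN
  have hn' : ((n * d : ℕ) : ℝ) ≤ (r : ℝ) ^ 12001 := by exact_mod_cast hn
  have hN2 : (S.1.length : ℝ) ≤ (r : ℝ) ^ 12001 :=
    le_trans (by exact_mod_cast (by omega : S.1.length ≤ n * d)) hn'
  have hc : (Fintype.card (Fin (n * d)) : ℝ) ≤ (r : ℝ) ^ 12001 := by rwa [Fintype.card_fin]
  obtain ⟨n1, n2⟩ := CorrBX.num hR hN1 (Nat.cast_nonneg _)
  have n3 : 10 ≤ S.1.length := by exact_mod_cast n2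
  have hp := H.pot_le hr hn
  rw [Phi_cast] at hp
  obtain ⟨h, hh, g, hg, hne, hok, lA, lB, bA, bB, hpot⟩ :=
    step_exists (fun h g : Fin (n * d) => ¬ okE d (((h : ℕ), (g : ℕ)) :: S.2.1) = true) hR hN1 hN2
      (by rw [hcard]) q0 q2 (piF_bd (n * d) S.1.length).1 (piF_bd (n * d) S.1.length).2 H.okA H.okB
      (H.psd q2).1 (H.psd q2).2 H.bA H.bB hp (fun h g hf => by rwa [okE_swap])
      (fun h _ T hT => by
        have := forb_card hd H.ok nd2 h (T.map Fin.valEmbedding) fun g hg => by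
          obtain ⟨g', hg', rfl⟩ := Finset.mem_map.1 hg
          exact hT g' hg'
        rw [Finset.card_map] at this
        exact_mod_cast this.trans hdr)
  have hh' : (h : ℕ) ∈ S.1 := (Finset.mem_filter.1 hh).2
  have hg' : (g : ℕ) ∈ S.1 := (Finset.mem_filter.1 hg).2
  have hne' : (h : ℕ) ≠ g := fun e => hne (Fin.ext e)
  refine ⟨(h, g), List.pair_mem_product.2 ⟨hh', hg'⟩, ?_⟩
  have hl : (rm S.1 ((h : ℕ), (g : ℕ))).length + 2 = S.1.length :=
    (rm_perm nd1 (p := (h, g)) hh' hg' hne').length_eq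
  have hlR : ((rm S.1 ((h : ℕ), (g : ℕ))).length : ℝ) = S.1.length - 2 := by
    rw [← hl]; push_cast; ring
  have hpi : (piF (n * d) (rm S.1 ((h : ℕ), (g : ℕ))).length : ℝ)
      = piF (n * d) S.1.length * (1 - 3 / (5 * (S.1.length : ℝ))) := by
    rw [piF_step (m := S.2.1.length) (by omega), hl]
  have π0 := (piF_bd (n * d) (rm S.1 ((h : ℕ), (g : ℕ))).length).1
  have π1 := (piF_bd (n * d) (rm S.1 ((h : ℕ), (g : ℕ))).length).2
  rw [hpi] at π0 π1
  have oA := H.okA.step hh hg hne lA.ne'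
  have oB := H.okB.step hh hg hne lB.ne'
  have c3 : 3 ≤ (fU (n * d) S.1).card := by omega
  have q2' : q ^ 2 < 1 := by linarith
  have q1 : q ≤ 1 := by nlinarith
  have jA := J_step q0 q2' (Or.inl rfl) H.okA hh hg hne c3 lA (CorrBX.J0 H).1
  have jB := J_step q0 q2' (Or.inr rfl) H.okB hh hg hne c3 lB (CorrBX.J0 H).2
  simp only [mul_zero, sub_zero] at jA jB
  have hU : (((fU (n * d) S.1).erase h).erase g).Nonempty := by
    rw [← Finset.card_pos]
    have a1 := Finset.pred_card_le_card_erase (s := fU (n * d) S.1) (a := h)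
    have a2 := Finset.pred_card_le_card_erase (s := (fU (n * d) S.1).erase h) (a := g)
    omega
  have N0 : (0 : ℝ) < S.1.length - 2 := by linarith
  obtain ⟨a1, a2, a3, a4, a5, a6, a7⟩ :=
    pieces_nonneg r0 N0 hU (Or.inl rfl) q0 q1 π0 π1 oA (J_psd q2' jA) bA
  obtain ⟨b1, b2, b3, b4, b5, b6, b7⟩ :=
    pieces_nonneg r0 N0 hU (Or.inr rfl) q0 q1 π0 π1 oB (J_psd q2' jB) bB
  have c0 := pC_nonneg r0 N0 (step (mr (n * d) S.2.2.1) h g) (step (mr (n * d) S.2.2.2) h g)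
  obtain ⟨m1, m2⟩ := CorrBX.num2 hR n2
  have tot := hpot.trans (add_le_add hp m1)
  simp only [pot, pot1] at tot
  have n4 : (S.1.length : ℝ) - 2 ≤ (r : ℝ) ^ 12001 := by linarith
  have dA := CorrBX.close hr hc (Or.inl rfl) oA
  have dB := CorrBX.close hr hc (Or.inr rfl) oB
  obtain ⟨l1, l2⟩ := lip1 hR n1 n4 hc (Or.inl rfl) π0 π1 bA (by linarith) (by linarith) dA
  obtain ⟨l3, l4⟩ := lip1 hR n1 n4 hc (Or.inr rfl) π0 π1 bB (by linarith) (by linarith) dB
  have l5 := lip2 hR n1 n4 hc bA.2 bB.2 dA dB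
  have eA : mr (n * d) (nxt r (n * d) S (h, g)).2.2.1
      = rnd (r ^ 200000) 1 (((fU (n * d) S.1).erase h).erase g) (step (mr (n * d) S.2.2.1) h g) := by
    simp only [nxt, mr_rndN, mr_stepN, fU_rm, Rat.cast_one]
  have eB : mr (n * d) (nxt r (n * d) S (h, g)).2.2.2
      = rnd (r ^ 200000) (-1) (((fU (n * d) S.1).erase h).erase g)
        (step (mr (n * d) S.2.2.2) h g) := by
    simp only [nxt, mr_rndN, mr_stepN, fU_rm, Rat.cast_one, Rat.cast_neg]
  simp only [good, Bool.and_eq_true, decide_eq_true_eq, barB_iff]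
  refine ⟨⟨⟨⟨⟨⟨hne', not_not.1 hok⟩, ?_⟩, ?_⟩, ?_⟩, ?_⟩, ?_⟩
  · rw [← lamN_cast] at lA; exact_mod_cast lA
  · rw [← lamN_cast] at lB; exact_mod_cast lB
  · rw [eA, hlR, Rat.cast_one]; exact l1
  · rw [eB, hlR, Rat.cast_neg, Rat.cast_one]; exact l3
  · rw [← Rat.cast_le (K := ℝ)]
    push_cast
    rw [Phi_cast, Phi_cast, eA, eB]
    have e : (nxt r (n * d) S (h, g)).1 = rm S.1 ((h : ℕ), (g : ℕ)) := rfl
    rw [e, hpi, hlR]
    have e2 : ∀ X Y, pot (r : ℝ) (S.1.length - 2)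
        (piF (n * d) S.1.length * (1 - 3 / (5 * (S.1.length : ℝ)))) X Y
        = pot1 (r : ℝ) (S.1.length - 2) (piF (n * d) S.1.length * (1 - 3 / (5 * (S.1.length : ℝ)))) 1 X
        + pot1 (r : ℝ) (S.1.length - 2) (piF (n * d) S.1.length * (1 - 3 / (5 * (S.1.length : ℝ))))
          (-1) Y + pC (ι := Fin (n * d)) (r : ℝ) (S.1.length - 2) X Y := fun _ _ => rfl
    rw [e2] at hpot ⊢
    linarith

end Vale.Agent.P049
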