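import Vale.Agent.P049.CorrA
import Vale.Agent.P049.CorrB

/-! P049: correctness of the edge list. -/

namespace Vale.Agent.P049
open Matrix Finset
variable {d n : ℕ}

theorem phase1_spec (he : Even (n * d))
    (H : Start n d (rOf n) (qOf d (rOf n)) (bOf d (rOf n))) :
    Inv d n (rOf n) (qOf d (rOf n))
      ((qOf d (rOf n) : ℝ) * d + (1 - (qOf d (rOf n) : ℝ) ^ 2) / bOf d (rOf n)) (phase1 d n) ∧
      (phase1 d n).1.length ^ 2 ≤ rOf n ^ 7799 := by
  obtain ⟨f1, f2, f3, -, -, -, f4, -⟩ := H.facts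
  have hd : 0 < d := by have := H.d3; omega
  have hr : 10 ^ 50 ≤ rOf n := by exact_mod_cast f1
  have key : ∀ k, ∀ S, S = (mstep d (rOf n) (n * d))^[k] (init d n (rOf n)) →
      Inv d n (rOf n) (qOf d (rOf n)) ((qOf d (rOf n) : ℝ) * d +
        (1 - (qOf d (rOf n) : ℝ) ^ 2) / bOf d (rOf n)) S ∧
      (S.1.length ^ 2 ≤ rOf n ^ 7799 ∨ S.1.length + k ≤ n * d) := by
    intro k
    induction k with
    | zero => rintro S rfl; exact ⟨inv_init H, Or.inr (by simp [init])⟩
    | succ k ih =>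
      intro S hS
      obtain ⟨h1, h2⟩ := ih _ rfl
      rw [Function.iterate_succ_apply'] at hS
      generalize (mstep d (rOf n) (n * d))^[k] (init d n (rOf n)) = T at *
      by_cases h3 : T.1.length ^ 2 ≤ rOf n ^ 7799
      · rw [hS, mstep, if_pos h3]
        exact ⟨h1, Or.inl h3⟩
      · obtain ⟨p, hp⟩ := Option.isSome_iff_exists.1 (List.find?_isSome.2 (exists_good hr hd
          (by exact_mod_cast f4) (by exact_mod_cast H.n2) he f2.le f3 h1 (not_le.1 h3)))
        have h4 := List.pair_mem_product.1 (List.mem_of_find?_eq_some hp)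
        obtain ⟨h5, h6⟩ := inv_nxt hr f2.le f3 h1 (not_le.1 h3) h4.1 h4.2 (List.find?_some hp)
        rw [hS, mstep, if_neg h3, hp, Option.elim_some]
        exact ⟨h5, Or.inr (by omega)⟩
  obtain ⟨h1, h2⟩ := key (n * d) _ rfl
  refine ⟨h1, h2.elim id fun h => ?_⟩
  rw [show (phase1 d n).1.length = 0 from Nat.le_zero.1 (Nat.le_of_add_le_add_right
    (h.trans_eq (zero_add _).symm))]
  simp

theorem fE_two_corr {ι : Type} [Fintype ι] [DecidableEq ι] {r N : ℝ} {K : Matrix ι ι ℝ} (hr : 0 < r)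
    (hN : 0 < N) (hb : fE K < N + 1) (h : pG r N K ≤ 1) (h2 : N ^ 2 ≤ r ^ 7799) : fE K ≤ 2 := by
  have h3 : N ^ 2 / (N + r ^ 7799) ≤ 1 := div_le_one_of_le₀ (by linarith) (by positivity)
  linarith [fE_le_of_pG hr hN hb h]

theorem sum_flat_corr (es : Edges) (f : ℕ → ℝ) :
    ((flat es).map f).sum = (es.map fun e => f e.1 + f e.2).sum := by
  induction es with
  | nil => rfl
  | cons e es ih => simp only [CombX.flat_cons, List.map_cons, List.sum_cons, ih, add_assoc]

theorem big_corr {d r N : ℕ} (hr : 10 ^ 50 ≤ r) (hd : d ^ 2 + d ≤ r) (h : r ^ 7799 < (N + 2) ^ 2) :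
    20 * d ^ 2 ≤ N ∧ 0 < N := by
  have h1 : (r ^ 2) ^ 2 ≤ r ^ 7799 := by
    rw [← pow_mul]
    exact Nat.pow_le_pow_right (by omega) (by norm_num)
  have h2 := lt_of_pow_lt_pow_left₀ 2 (Nat.zero_le _) (h1.trans_lt h)
  constructor <;> nlinarith

theorem edges_spec (he : Even (n * d))
    (H : Start n d (rOf n) (qOf d (rOf n)) (bOf d (rOf n))) :
    okE d (edges d n) = true ∧ (flat (edges d n)).Perm (List.range (n * d)) ∧
      ∀ φ : ℕ → ℝ, ∑ i ∈ range n, φ i = 0 →
        |esum d φ (edges d n)| ≤ 2 * √((d : ℝ) - 1) * ∑ i ∈ range n, φ i ^ 2 := by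
  obtain ⟨f1, f2, f3, -, -, -, f4, f5⟩ := H.facts
  have hd : 0 < d := by have := H.d3; omega
  have hr : 10 ^ 50 ≤ rOf n := by exact_mod_cast f1
  obtain ⟨h1, h2⟩ := phase1_spec he H
  rw [edges]
  generalize phase1 d n = S at *
  have hn := h1.perm.nodup_iff.2 List.nodup_range
  have hl := h1.perm.length_eq
  rw [List.length_append, CombX.flat_length, List.length_range] at hl
  obtain ⟨b1, b2⟩ := big_corr hr (by exact_mod_cast f4) h1.big
  obtain ⟨h3, h4⟩ := phase2_spec (m := n * d) hd hn h1.ok b1 (by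
    obtain ⟨a, ha⟩ := he
    exact ⟨a - S.2.1.length, by omega⟩) (by omega)
  generalize phase2 d (n * d) S.1 S.2.1 = es at *
  refine ⟨h4, by rw [CombX.flat_append]; exact (h3.append_right _).trans h1.perm, fun φ hφ => ?_⟩
  have hlt : ∀ k ∈ S.1, k < n * d := fun k hk =>
    List.mem_range.1 (h1.perm.subset (List.mem_append_left _ hk))
  have hc := fU_card hn.of_append_left hlt
  have hU : (fU (n * d) S.1).Nonempty := card_pos.1 (hc ▸ b2)
  have r0 : (0 : ℝ) < rOf n := lt_of_lt_of_le (by norm_num) f1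
  have N0 : (0 : ℝ) < S.1.length := by exact_mod_cast b2
  have q1 : (qOf d (rOf n) : ℝ) ≤ 1 := by nlinarith
  obtain ⟨π0, π1⟩ := piF_bd (n * d) S.1.length
  obtain ⟨a1, a2, a3, a4, a5, a6, a7⟩ := pieces_nonneg r0 N0 hU (Or.inl rfl) f2.le q1 π0 π1 h1.okA
    (h1.psd f3).1 h1.bA
  obtain ⟨c1, c2, c3, c4, c5, c6, c7⟩ := pieces_nonneg r0 N0 hU (Or.inr rfl) f2.le q1 π0 π1 h1.okB
    (h1.psd f3).2 h1.bB
  have c8 := pC_nonneg r0 N0 (mr (n * d) S.2.2.1) (mr (n * d) S.2.2.2)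
  have hp := h1.pot_le hr (by exact_mod_cast H.n2)
  rw [Phi_cast, pot, pot1, pot1] at hp
  have e1 : ∀ f : ℝ → ℝ, ∑ k ∈ fU (n * d) S.1, f (φ (k / d)) =
      ((es.map fun e => (φ (e.1 / d), φ (e.2 / d))).map fun p => f p.1 + f p.2).sum := fun f => by
    rw [fU_sum hn.of_append_left hlt fun k => f (φ (k / d)), ← (h3.map _).sum_eq, sum_flat_corr,
      List.map_map]
    rfl
  have e2 : (fU (n * d) S.1).card = 2 * (es.map fun e => (φ (e.1 / d), φ (e.2 / d))).length := by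
    rw [hc, List.length_map, ← h3.length_eq, CombX.flat_length]
  have j1 := J_final f2.le (by linarith) (Or.inl rfl) h1.okA hU (fE_two_corr r0 N0 h1.bA.2
    (by linarith) (by exact_mod_cast h2)) (h1.JA φ hφ) _ (e1 id) (e1 (· ^ 2)) e2
  have j2 := J_final f2.le (by linarith) (Or.inr rfl) h1.okB hU (fE_two_corr r0 N0 h1.bB.2
    (by linarith) (by exact_mod_cast h2)) (h1.JB φ hφ) _ (e1 id) (e1 (· ^ 2)) e2
  have e3 : ((es.map fun e => (φ (e.1 / d), φ (e.2 / d))).map fun p => 2 * p.1 * p.2).sum =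
      esum d φ es := by
    rw [List.map_map]
    rfl
  have e4 : esum d φ (es ++ S.2.1) = esum d φ es + esum d φ S.2.1 := by
    simp only [esum, List.map_append, List.sum_append]
  have e5 := mul_le_mul_of_nonneg_right f5
    (sum_nonneg fun i _ => sq_nonneg (φ i) : 0 ≤ ∑ i ∈ range n, φ i ^ 2)
  rw [e3] at j1 j2
  rw [e4, abs_le]
  constructor <;> linarith

end Vale.Agent.P049
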