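import Vale.Agent.P049.Tr
import Vale.Agent.P049.Spec
import Vale.Agent.P049.Avg

/-! P049: drift of the mixed functional: inner products with the old product. -/

namespace Vale.Agent.P049
open Matrix Finset
variable {ι : Type} [Fintype ι] [DecidableEq ι]

namespace DCaX

theorem ip_add (X Y Z : Matrix ι ι ℝ) : ip X (Y + Z) = ip X Y + ip X Z := by
  simp only [ip, Matrix.add_apply, mul_add, sum_add_distrib]

theorem ip_smul (X Y : Matrix ι ι ℝ) (t : ℝ) : ip X (t • Y) = t * ip X Y := by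
  simp only [ip, Matrix.smul_apply, smul_eq_mul, mul_sum, mul_left_comm]

theorem ip_col (X P Q : Matrix ι ι ℝ) (g h : ι) :
    ip X (vecMulVec (col P g) (col Q h)) = (Pᵀ * X * Q) g h := by
  simp only [ip, vecMulVec_apply, col, mul_apply, transpose_apply, sum_mul]
  rw [sum_comm]
  exact sum_congr rfl fun _ _ => sum_congr rfl fun _ _ => by ring

theorem mulVec_col (P Q : Matrix ι ι ℝ) (g : ι) : P *ᵥ col Q g = col (P * Q) g := rfl

theorem ip_tr (X Y : Matrix ι ι ℝ) : ip X Y = trace (Xᵀ * Y) := by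
  simp only [ip, trace, Matrix.diag, mul_apply, transpose_apply]
  exact sum_comm

theorem fE_ip (X : Matrix ι ι ℝ) : fE X = ip X X := by
  simp only [ip, fE, rS, sq]

theorem be_comm {K : Matrix ι ι ℝ} (hs : ∀ i j, K i j = K j i) (h g : ι) :
    be K g h = be K h g := by rw [be, be, lam_comm hs, hs]

theorem sumU_le (U : Finset ι) {f : ι → ℝ} (h : ∀ k, 0 ≤ f k) : ∑ k ∈ U, f k ≤ ∑ k, f k :=
  sum_le_sum_of_subset_of_nonneg (subset_univ _) fun k _ _ => h k

theorem tilt {A B : Matrix ι ι ℝ} (hA : Aᵀ = A) (hB : Bᵀ = B) :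
    0 ≤ ip (A + B) (B * A * (A * B * B)) + ip (A + B) (A * (A * B) * (B * A)) := by
  have h := fE_nonneg (A * A * B + B * B * A)
  rw [fE_ip] at h
  simp only [ip_tr, transpose_add, transpose_mul, hA, hB, Matrix.add_mul, Matrix.mul_add,
    trace_add] at h ⊢
  have e1 : trace (A * (B * A * (A * B * B))) = trace (A * (B * B) * (A * A * B)) := by
    rw [← trace_transpose]
    simp only [transpose_mul, hA, hB]
    rw [trace_mul_comm]
    simp only [Matrix.mul_assoc]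
  have e2 : trace (B * (B * A * (A * B * B))) = trace (A * (B * B) * (B * B * A)) := by
    rw [trace_mul_comm (A * (B * B))]
    simp only [Matrix.mul_assoc]
  have e3 : trace (A * (A * (A * B) * (B * A))) = trace (B * (A * A) * (A * A * B)) := by
    rw [← Matrix.mul_assoc, trace_mul_comm]
    simp only [Matrix.mul_assoc]
  have e4 : trace (B * (A * (A * B) * (B * A))) = trace (B * (A * A) * (B * B * A)) := by
    simp only [Matrix.mul_assoc]
  linarith

theorem tilt_U (c : Ctx ι) (Z : Matrix ι ι ℝ) :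
    ∑ h ∈ c.U, ∑ g ∈ c.U, (c.A h g + c.B h g) * Z h g = ip (c.A + c.B) Z := by
  rw [ip]
  refine (sum_congr rfl fun h _ => sum_subset (subset_univ _) fun g _ hg => ?_).trans
    (sum_subset (subset_univ _) fun h _ hh => sum_eq_zero fun g _ => ?_)
  · rw [c.sA.ok.symm, c.sB.ok.symm, c.sA.ok.supp _ _ hg, c.sB.ok.supp _ _ hg, add_zero, zero_mul]
  · rw [c.sA.ok.supp _ _ hh, c.sB.ok.supp _ _ hh, add_zero, zero_mul]

theorem zb (c : Ctx ι) {f : ι → ι → ℝ} (hf : c.Coef f) (X Y : Matrix ι ι ℝ) {p p' : ℝ}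
    (hp : 0 ≤ p) (hp' : 0 ≤ p') (hX : fE X ≤ p ^ 2) (hY : fE Y ≤ p' ^ 2) :
    c.S (fun h g => f h g * (X * Y) h g) ≤ ∑ h ∈ c.U, ∑ g ∈ c.U, (X * Y) h g
      - c.a * ip (c.A + c.B) (X * Y) + (c.r * c.sN + c.r * c.a ^ 2 * c.S0) * (p * p') := by
  have h0 : ∀ g, 0 ≤ ∑ k, Y k g ^ 2 := fun g => sum_nonneg fun _ _ => sq_nonneg _
  have h := c.lemZ hf (X * Y) (fun h => √(rS X h)) (fun g => √(∑ k, Y k g ^ 2)) (z := p * p')
    (fun _ => Real.sqrt_nonneg _) (fun _ => Real.sqrt_nonneg _) (fun h _ g _ => by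
      rw [← Real.sqrt_mul (rS_nonneg _ _)]
      exact Real.abs_le_sqrt (mul_apply_sq_le X Y h g)) (mul_nonneg hp hp') hp hp'
    (by
      refine (sum_le_sum fun h _ => sumU_le _ fun _ => sq_nonneg _).trans
        ((sumU_le _ fun h => rS_nonneg _ h).trans ((fE_mul_le X Y).trans ?_))
      rw [mul_pow]
      exact mul_le_mul hX hY (fE_nonneg _) (sq_nonneg _))
    (by
      simp only [Real.sq_sqrt (rS_nonneg _ _)]
      exact (sumU_le _ fun h => rS_nonneg _ h).trans hX)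
    (by
      simp only [Real.sq_sqrt (h0 _)]
      exact (sumU_le _ h0).trans ((fE_eq_col Y).symm.le.trans hY))
  rw [tilt_U] at h
  linarith [(abs_le.1 h).2]

end DCaX

open DCaX

namespace Ctx
variable (c : Ctx ι)

theorem dC_14 : c.S (fun h g => 2 * ip (c.A * c.B) (n14 c.A c.B h g))
      ≤ c.N * c.Cb / c.r ^ 2 := by
  have H := c.good
  have hA := c.sA.ok.symm
  have hB := c.sB.ok.symm
  have tA := TrBX.tr_eq hA
  have tB := TrBX.tr_eq hB
  have h0 := H.r_pos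
  have hN := H.N_pos
  have hsN := H.sN_pos
  have hL : 0 ≤ c.L := zero_le_one.trans H.L1
  have hC : 0 < c.Cb := lt_of_lt_of_le (by positivity) H.Cb_ge
  have hS : 0 ≤ c.S0 := zero_le_one.trans H.S1
  have e : c.S (fun h g => 2 * ip (c.A * c.B) (n14 c.A c.B h g))
      = 2 * (c.S (fun h g => be c.B g h * (c.B * c.A * (c.A * c.B * c.B)) g h)
        + c.S (fun h g => be c.B h g * (c.B * c.A * (c.A * c.B * c.B)) h g)
        + c.S (fun h g => be c.A h g * (c.A * (c.A * c.B) * (c.B * c.A)) h g)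
        + c.S (fun h g => be c.A g h * (c.A * (c.A * c.B) * (c.B * c.A)) g h)) := by
    simp only [← S_add, ← S_mul]
    refine c.S_congr fun h g _ => ?_
    simp only [n14, ip_add, ip_smul, mulVec_col, ip_col, transpose_mul, tA, tB, be_comm hA h g,
      be_comm hB h g, Matrix.mul_assoc]
    ring
  rw [e, c.S_comm fun h g => be c.B h g * (c.B * c.A * (c.A * c.B * c.B)) h g,
    c.S_comm fun h g => be c.A h g * (c.A * (c.A * c.B) * (c.B * c.A)) h g]
  have s1 : √c.Cb ^ 2 = c.Cb := Real.sq_sqrt hC.le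
  have z1 := zb c coef_beB (c.B * c.A) (c.A * c.B * c.B) (Real.sqrt_nonneg c.Cb)
    (mul_nonneg hL (Real.sqrt_nonneg c.Cb)) (by rw [s1]; exact c.hC')
    (by
      rw [mul_pow, s1]
      exact (c.sB.op.right hB _).trans (mul_le_mul_of_nonneg_left c.hC (sq_nonneg _)))
  have z2 := zb c coef_be (c.A * (c.A * c.B)) (c.B * c.A)
    (mul_nonneg hL (Real.sqrt_nonneg c.Cb)) (Real.sqrt_nonneg c.Cb)
    (by
      rw [mul_pow, s1]
      exact (c.sA.op.left _).trans (mul_le_mul_of_nonneg_left c.hC (sq_nonneg _)))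
    (by rw [s1]; exact c.hC')
  have m1 : ∑ h ∈ c.U, ∑ g ∈ c.U, (c.B * c.A * (c.A * c.B * c.B)) h g = c.N := by
    simp only [← Matrix.mul_assoc, c.sA.ok.sum_right, c.sB.ok.sum_right, c.sB.ok.sum_all, c.hN]
  have m2 : ∑ h ∈ c.U, ∑ g ∈ c.U, (c.A * (c.A * c.B) * (c.B * c.A)) h g = c.N := by
    simp only [← Matrix.mul_assoc, c.sA.ok.sum_right, c.sB.ok.sum_right, c.sA.ok.sum_all, c.hN]
  have t := mul_nonneg H.a_nonneg (tilt tA tB)
  rw [m1, show √c.Cb * (c.L * √c.Cb) = c.L * c.Cb by rw [mul_left_comm, ← sq, s1]] at z1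
  rw [m2, show c.L * √c.Cb * √c.Cb = c.L * c.Cb by rw [mul_assoc, ← sq, s1]] at z2
  have r1 : (1 : ℝ) ≤ c.r := le_trans (by norm_num) H.hr
  have n0 : 100 * (c.N * c.Cb / c.r ^ 3) ≤ c.N * c.Cb / c.r ^ 2 :=
    calc _ ≤ c.r * (c.N * c.Cb / c.r ^ 3) := by gcongr; exact le_trans (by norm_num) H.hr
      _ = _ := by field_simp
  have n1 : c.N ≤ c.N * c.Cb / c.r ^ 3 := by
    rw [le_div_iff₀ (by positivity)]
    gcongr
    calc c.r ^ 3 ≤ c.r ^ 20 * c.r ^ 60 := by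
          rw [← pow_add]; exact pow_le_pow_right₀ r1 (by norm_num)
      _ ≤ c.r ^ 20 * c.N := by gcongr; exact H.N_ge
      _ ≤ _ := H.Cb_ge
  have n2 : c.r * c.sN * (c.L * c.Cb) ≤ c.N * c.Cb / c.r ^ 3 := by
    rw [le_div_iff₀ (by positivity)]
    calc _ = c.sN * (c.r ^ 4 * c.L) * c.Cb := by ring
      _ ≤ c.sN * (c.r ^ 10 * c.L) * c.Cb := by gcongr; norm_num
      _ ≤ c.sN * c.sN * c.Cb := by gcongr; exact H.L_le
      _ = _ := by rw [← sq, H.sq]
  have n3 : c.r * c.a ^ 2 * c.S0 * (c.L * c.Cb) ≤ c.N * c.Cb / c.r ^ 3 := by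
    rw [le_div_iff₀ (by positivity)]
    calc _ = c.r ^ 4 * c.a ^ 2 * c.S0 * c.L * c.Cb := by ring
      _ ≤ c.r ^ 21 * c.a ^ 2 * c.S0 * c.L * c.Cb := by gcongr; norm_num
      _ ≤ _ := by gcongr; exact H.M2
  nlinarith

theorem dC_56 : c.S (fun h g => 2 * ip (c.A * c.B) (n56 c.A c.B h g))
      ≤ -2 * c.N * fC c.A c.B + c.N * c.Cb / c.r ^ 2 := by
  have H := c.good
  have hA := c.sA.ok.symm
  have hB := c.sB.ok.symm
  have tA := TrBX.tr_eq hA
  have tB := TrBX.tr_eq hB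
  have h0 := H.r_pos
  have hN := H.N_pos
  have hsN := H.sN_pos
  have hP := H.Pa0
  have hKP := H.KP_nonneg
  have hC : 0 < c.Cb := lt_of_lt_of_le (by positivity) H.Cb_ge
  have r1 : (1 : ℝ) ≤ c.r := le_trans (by norm_num) H.hr
  let u : ι → ℝ := fun h => (c.A * (c.A * c.B * c.B)) h h
  let v : ι → ℝ := fun h => (c.A * c.B) h h - 1
  have ht : ∀ h, col c.A h ⬝ᵥ col c.B h = (c.A * c.B) h h := fun h =>
    sum_congr rfl fun k _ => by rw [col, col, hA k h]
  have e : c.S (fun h g => 2 * ip (c.A * c.B) (n56 c.A c.B h g))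
      = 2 * (c.S (fun h g => be c.A h g * be c.B h g * (u h * v g))
        + c.S (fun h g => be c.A h g * be c.B h g * (v h * u g))) := by
    simp only [← S_add, ← S_mul]
    refine c.S_congr fun h g _ => ?_
    simp only [n56, ip_add, ip_smul, ip_col, tA, ht, u, v, Matrix.mul_assoc]
    ring
  have dg : ∀ X : Matrix ι ι ℝ, ∑ h ∈ c.U, (c.A * X) h h = trace (c.A * X) := fun X =>
    sum_subset (subset_univ _) fun h _ hh => sum_eq_zero fun k _ =>
      mul_eq_zero_of_left (c.sA.ok.supp _ _ hh) _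
  have su : ∑ h ∈ c.U, u h = fC c.A c.B := by
    rw [dg, fC, fE_ip, ip_tr, ← Matrix.mul_assoc, trace_mul_comm, transpose_mul, tA, tB,
      Matrix.mul_assoc]
  have sv : ∑ h ∈ c.U, v h = trace (c.A * c.B) - c.N := by
    rw [sum_sub_distrib, dg, AvgX.sum_one]
  have s1 : √c.Cb ^ 2 = c.Cb := Real.sq_sqrt hC.le
  have cB : ∀ h, ∑ k, c.B k h ^ 2 = rS c.B h := fun h => sum_congr rfl fun k _ => by rw [hB]
  have hSp : ∀ h, rS c.A h * rS c.B h ≤ c.Sp h ^ 2 / 4 := fun h => by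
    rw [Sp]
    nlinarith [sq_nonneg (rS c.A h - rS c.B h)]
  have hW : ∑ h ∈ c.U, rS c.A h * rS c.B h ≤ c.r ^ 2 * c.N := by
    refine (sum_le_sum fun h _ => hSp h).trans ?_
    rw [← sum_div]
    linarith [c.sum_Sp_sq, H.W2]
  have u2 : ∑ h ∈ c.U, u h ^ 2 ≤ (√c.Cb * (c.r * c.sN)) ^ 2 := by
    rw [mul_pow, mul_pow, s1, H.sq]
    refine le_trans ?_ (mul_le_mul_of_nonneg_left hW hC.le)
    rw [mul_sum]
    refine sum_le_sum fun h _ => (mul_apply_sq_le _ _ _ _).trans ?_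
    have := (op_of_fE (c.A * c.B) (c.hC.trans s1.ge)).col c.B h
    rw [s1, cB] at this
    rw [mul_left_comm]
    exact mul_le_mul_of_nonneg_left this (rS_nonneg _ _)
  have v2 : ∑ h ∈ c.U, v h ^ 2 ≤ (2 * (c.r * c.sN)) ^ 2 := by
    calc _ ≤ ∑ h ∈ c.U, 2 * (rS c.A h * rS c.B h + 1) := sum_le_sum fun h _ => by
          have := mul_apply_sq_le c.A c.B h h
          rw [cB] at this
          simp only [v]
          nlinarith [sq_nonneg ((c.A * c.B) h h + 1)]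
      _ ≤ 2 * (c.r ^ 2 * c.N + c.r ^ 2 * c.N) := by
          rw [← mul_sum, sum_add_distrib, AvgX.sum_one]
          gcongr
          exact le_mul_of_one_le_left hN.le (one_le_pow₀ r1)
      _ = _ := by rw [← H.sq]; ring
  have p1 := (abs_le.1 (c.P2 coef_be_beB u v (by positivity) (by positivity) u2 v2)).2
  have p2 := (abs_le.1 (c.P2 coef_be_beB v u (by positivity) (by positivity) v2 u2)).2
  rw [su, sv] at p1 p2
  have hC0 : 0 ≤ fC c.A c.B := fE_nonneg _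
  have m := mul_le_mul_of_nonneg_left c.trAB_le hC0
  have n0 : 100 * (c.N * c.Cb / c.r ^ 3) ≤ c.N * c.Cb / c.r ^ 2 :=
    calc _ ≤ c.r * (c.N * c.Cb / c.r ^ 3) := by gcongr; exact le_trans (by norm_num) H.hr
      _ = _ := by field_simp
  have n1 : fC c.A c.B ≤ c.N * c.Cb / c.r ^ 3 := by
    rw [le_div_iff₀ (by positivity), mul_comm]
    exact mul_le_mul ((pow_le_pow_right₀ r1 (by norm_num)).trans H.N_ge) c.hC hC0 hN.le
  have n2 : fC c.A c.B * c.Pa ≤ c.N * c.Cb / c.r ^ 3 := by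
    rw [le_div_iff₀ (by positivity), mul_assoc, mul_comm]
    refine mul_le_mul (le_trans ?_ H.M5') c.hC hC0 hN.le
    rw [mul_comm]
    gcongr
    norm_num
  have n3 : c.r ^ 5 * c.KP ≤ √c.Cb := by
    refine Real.le_sqrt_of_sq_le (le_trans ?_ H.MC1)
    have a1 : (c.r + c.a) ^ 2 ≤ 2 * (c.r ^ 2 * (1 + c.a ^ 2 + c.Vb)) := by
      have := le_mul_of_one_le_left (sq_nonneg c.a) (one_le_pow₀ r1 : 1 ≤ c.r ^ 2)
      have := mul_pos (pow_pos h0 2) H.V0
      nlinarith [sq_nonneg (c.r - c.a)]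
    have a2 : (8 : ℝ) ≤ c.r ^ 8 :=
      (le_trans (by norm_num) H.hr : (8 : ℝ) ≤ c.r).trans (le_self_pow₀ r1 (by norm_num))
    have hV := H.V0
    calc _ ≤ (c.r ^ 5 * (2 * c.sN * (c.r + c.a))) ^ 2 := by gcongr; exact H.KP_le
      _ = 4 * c.r ^ 10 * c.N * (c.r + c.a) ^ 2 := by rw [← H.sq]; ring
      _ ≤ 4 * c.r ^ 10 * c.N * (2 * (c.r ^ 2 * (1 + c.a ^ 2 + c.Vb))) := by gcongr
      _ = 8 * (c.r ^ 12 * (1 + c.a ^ 2 + c.Vb) * c.N) := by ring
      _ ≤ c.r ^ 8 * (c.r ^ 12 * (1 + c.a ^ 2 + c.Vb) * c.N) := by gcongr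
      _ = _ := by ring
  have n4 : c.KP * (√c.Cb * (c.r * c.sN) * (c.r * c.sN)) ≤ c.N * c.Cb / c.r ^ 3 := by
    rw [le_div_iff₀ (by positivity)]
    calc _ = c.sN ^ 2 * (c.r ^ 5 * c.KP * √c.Cb) := by ring
      _ ≤ c.sN ^ 2 * (√c.Cb * √c.Cb) := by gcongr
      _ = _ := by rw [← sq, s1, H.sq]
  rw [e]
  nlinarith

end Ctx
end Vale.Agent.P049
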