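import Vale.Agent.P049.Tr
import Vale.Agent.P049.Spec
import Vale.Agent.P049.Avg

/-! P049: helpers for the drift of the mixed functional. -/

namespace Vale.Agent.P049
open Matrix Finset
variable {ι : Type} [Fintype ι] [DecidableEq ι]

namespace DCZ

omit [DecidableEq ι] in
theorem dot (X Y : Matrix ι ι ℝ) (h g : ι) : col X h ⬝ᵥ col Y g = (Xᵀ * Y) h g := rfl

omit [DecidableEq ι] in
theorem mv (X Y : Matrix ι ι ℝ) (h : ι) : X *ᵥ col Y h = col (X * Y) h := rfl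

omit [DecidableEq ι] in
theorem dot_self (X : Matrix ι ι ℝ) (h : ι) : col X h ⬝ᵥ col X h = rS Xᵀ h := by
  simp only [col, dotProduct, rS, transpose_apply, sq]

omit [DecidableEq ι] in
theorem fE_r1 (t : ℝ) (u v : ι → ℝ) : fE (t • vecMulVec u v) = t ^ 2 * (u ⬝ᵥ u) * (v ⬝ᵥ v) := by
  simp only [fE, rS, dotProduct, Matrix.smul_apply, vecMulVec_apply, smul_eq_mul, mul_sum, sum_mul]
  rw [sum_comm]
  exact sum_congr rfl fun _ _ => sum_congr rfl fun _ _ => by ring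

omit [DecidableEq ι] in
theorem fE_add_le (X Y : Matrix ι ι ℝ) : fE (X + Y) ≤ 2 * fE X + 2 * fE Y := by
  simp only [fE, rS, mul_sum, ← sum_add_distrib, Matrix.add_apply]
  exact sum_le_sum fun k _ => sum_le_sum fun j _ => by nlinarith [sq_nonneg (X k j - Y k j)]

omit [DecidableEq ι] in
theorem ip_add (X Y Z : Matrix ι ι ℝ) : ip X (Y + Z) = ip X Y + ip X Z := by
  simp only [ip, Matrix.add_apply, mul_add, sum_add_distrib]

omit [DecidableEq ι] in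
theorem ip_r1 (X : Matrix ι ι ℝ) (t : ℝ) (u v : ι → ℝ) :
    ip X (t • vecMulVec u v) = t * (u ⬝ᵥ X *ᵥ v) := by
  simp only [ip, dotProduct, mulVec, Matrix.smul_apply, vecMulVec_apply, smul_eq_mul, mul_sum]
  exact sum_congr rfl fun _ _ => sum_congr rfl fun _ _ => by ring

omit [DecidableEq ι] in
theorem sum_fE (U : Finset ι) (X : Matrix ι ι ℝ) : ∑ h ∈ U, ∑ g ∈ U, X h g ^ 2 ≤ fE X :=
  (sum_le_sum fun _ _ => sum_le_sum_of_subset_of_nonneg (subset_univ _)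
    fun _ _ _ => sq_nonneg _).trans (sum_le_sum_of_subset_of_nonneg (subset_univ _)
      fun _ _ _ => sum_nonneg fun _ _ => sq_nonneg _)

omit [DecidableEq ι] in
theorem sum_fE' (U : Finset ι) (X : Matrix ι ι ℝ) : ∑ h ∈ U, ∑ g ∈ U, X g h ^ 2 ≤ fE X := by
  rw [sum_comm]
  exact sum_fE U X

theorem sum_rS (U : Finset ι) (X : Matrix ι ι ℝ) : ∑ h ∈ U, rS X h ≤ fE X :=
  sum_le_sum_of_subset_of_nonneg (subset_univ _) fun _ _ _ => rS_nonneg _ _

omit [Fintype ι] [DecidableEq ι] in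
theorem sum_pr (U : Finset ι) {u v : ι → ℝ} {p q : ℝ} (hu : ∀ h, 0 ≤ u h) (hv : ∀ h, 0 ≤ v h)
    (h1 : ∑ h ∈ U, u h ≤ p) (h2 : ∑ h ∈ U, v h ≤ q) : ∑ h ∈ U, ∑ g ∈ U, u h * v g ≤ p * q := by
  rw [← sum_mul_sum]
  exact mul_le_mul h1 h2 (sum_nonneg fun _ _ => hv _) ((sum_nonneg fun _ _ => hu _).trans h1)

omit [Fintype ι] [DecidableEq ι] in
theorem sum_pr' (U : Finset ι) {u v : ι → ℝ} {p q : ℝ} (hu : ∀ h, 0 ≤ u h) (hv : ∀ h, 0 ≤ v h)
    (h1 : ∑ h ∈ U, u h ≤ p) (h2 : ∑ h ∈ U, v h ≤ q) : ∑ h ∈ U, ∑ g ∈ U, u g * v h ≤ p * q := by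
  rw [sum_comm]
  exact sum_pr U hu hv h1 h2

theorem amgm {z p q l : ℝ} (hp : 0 ≤ p) (hq : 0 ≤ q) (hl : 0 < l) (h : z ^ 2 ≤ p * q) :
    z ≤ l * p + q / l := by
  refine le_sq_bb (h.trans ?_) (by positivity)
  have : l * p * (q / l) = p * q := by field_simp
  nlinarith [sq_nonneg (l * p), sq_nonneg (q / l), mul_nonneg hp hq]

theorem fin {p : Par} (H : p.Good) (k : ℕ) {K Q : ℝ} (h0 : 0 ≤ Q) (hQ : p.r ^ (k + 1) * Q ≤ p.N)
    (hK : K ≤ 10 ^ 50) : K * Q * p.Cb ≤ p.N * p.Cb / p.r ^ k := by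
  have r0 := H.r_pos
  have c0 : 0 ≤ p.Cb := le_trans (by have := H.N_pos; positivity) H.Cb_ge
  rw [le_div_iff₀ (by positivity)]
  calc _ = K * (p.r ^ k * Q) * p.Cb := by ring
    _ ≤ p.r * (p.r ^ k * Q) * p.Cb := by gcongr; exact hK.trans H.hr
    _ = p.r ^ (k + 1) * Q * p.Cb := by ring
    _ ≤ _ := by gcongr

theorem be_comm {K : Matrix ι ι ℝ} (hs : ∀ i j, K i j = K j i) (h g : ι) : be K g h = be K h g := by
  rw [be, be, lam_comm hs h g, hs g h]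

theorem ap_comm {K : Matrix ι ι ℝ} (hs : ∀ i j, K i j = K j i) (h g : ι) : ap K g h = al K h g := by
  rw [ap, al, lam_comm hs h g]

theorem al_comm {K : Matrix ι ι ℝ} (hs : ∀ i j, K i j = K j i) (h g : ι) : al K g h = ap K h g := by
  rw [ap, al, lam_comm hs h g]

/-- first coefficient -/
noncomputable def b1 (A B : Matrix ι ι ℝ) (h g : ι) : ℝ :=
  ap A h g * ap B h g * ((A * B) h h - 1) + ap A h g * be B h g * (A * B) h g
    + be A h g * ap B h g * (A * B) g h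

/-- second coefficient -/
noncomputable def b2 (A B : Matrix ι ι ℝ) (h g : ι) : ℝ :=
  ap A h g * al B h g * (A * B) h g + ap A h g * be B h g * ((A * B) h h - 1)
    + be A h g * al B h g * ((A * B) g g - 1) + be A h g * be B h g * (A * B) g h

/-- half of the small terms -/
noncomputable def zz (A B : Matrix ι ι ℝ) (h g : ι) : Matrix ι ι ℝ :=
  ap B h g • vecMulVec (col (A * B) h) (col B h) + ap A h g • vecMulVec (col A h) (col (B * A) h)
    + b1 A B h g • vecMulVec (col A h) (col B h) + b2 A B h g • vecMulVec (col A h) (col B g)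

theorem nS_eq {A B : Matrix ι ι ℝ} (hA : ∀ i j, A i j = A j i) (hB : ∀ i j, B i j = B j i)
    (h g : ι) : nS A B h g = zz A B h g + zz A B g h := by
  have e : ∀ a a' b b' : ℝ, ∀ i i' j j', (fun k => a * A k i + a' * A k i') ⬝ᵥ
      (fun k => b * B k j + b' * B k j') = a * b * (A * B) i j + a * b' * (A * B) i j'
        + a' * b * (A * B) i' j + a' * b' * (A * B) i' j' := fun a a' b b' i i' j j' => by
    simp only [dotProduct, mul_apply, mul_sum, ← sum_add_distrib, hA i, hA i']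
    exact sum_congr rfl fun _ _ => by ring
  ext k j
  unfold nS zz b1 b2 va vb
  rw [e, e, e, e, dot, dot, TrBX.tr_eq hA, mv, mv, mv, mv, be_comm hA h g, be_comm hB h g,
    ap_comm hA h g, ap_comm hB h g, al_comm hB h g]
  simp only [Matrix.add_apply, Matrix.sub_apply, Matrix.smul_apply, vecMulVec_apply, smul_eq_mul,
    col]
  ring

theorem b1_real {a a' e e' y u u' t s G : ℝ} (h1 : a ^ 2 ≤ 4 * y ^ 2) (h2 : a' ^ 2 ≤ 4 * y ^ 2)
    (h3 : e ^ 2 ≤ 4) (h4 : e' ^ 2 ≤ 4) (h5 : t ^ 2 ≤ 2 * s) (hs : 0 ≤ s)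
    (hG : u ^ 2 + u' ^ 2 + y ^ 2 * s ≤ G) :
    (a * a' * t + a * e' * u + e * a' * u') ^ 2 ≤ 128 * (y ^ 2 * G) := by
  have k1 : (a * a' * t) ^ 2 ≤ 4 * y ^ 2 * (4 * y ^ 2) * (2 * s) := by
    rw [mul_pow, mul_pow]; gcongr
  have k2 : (a * e' * u) ^ 2 ≤ 4 * y ^ 2 * 4 * u ^ 2 := by rw [mul_pow, mul_pow]; gcongr
  have k3 : (e * a' * u') ^ 2 ≤ 4 * (4 * y ^ 2) * u' ^ 2 := by rw [mul_pow, mul_pow]; gcongr
  have k4 := mul_le_mul_of_nonneg_left hG (sq_nonneg y)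
  have k5 : 0 ≤ y ^ 2 * (y ^ 2 * s) := by positivity
  have k6 : 0 ≤ y ^ 2 * u ^ 2 := by positivity
  have k7 : 0 ≤ y ^ 2 * u' ^ 2 := by positivity
  generalize a * a' * t = p at *
  generalize a * e' * u = q at *
  generalize e * a' * u' = w at *
  nlinarith [sq_nonneg (p - q), sq_nonneg (p - w), sq_nonneg (q - w)]

theorem b2_real {a a' e e' x y u u' t t' s s' : ℝ} (h1 : a ^ 2 ≤ 4 * y ^ 2)
    (h2 : a' ^ 2 ≤ 4 * x ^ 2) (h3 : e ^ 2 ≤ 4) (h4 : e' ^ 2 ≤ 4) (h5 : t ^ 2 ≤ 2 * s)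
    (h6 : t' ^ 2 ≤ 2 * s') (h7 : x ^ 2 * y ^ 2 ≤ 1) :
    (a * a' * u + a * e' * t + e * a' * t' + e * e' * u') ^ 2 ≤
      128 * (u ^ 2 + u' ^ 2 + y ^ 2 * s + x ^ 2 * s') := by
  have k1 : (a * a' * u) ^ 2 ≤ 4 * y ^ 2 * (4 * x ^ 2) * u ^ 2 := by rw [mul_pow, mul_pow]; gcongr
  have k2 : (a * e' * t) ^ 2 ≤ 4 * y ^ 2 * 4 * (2 * s) := by rw [mul_pow, mul_pow]; gcongr
  have k3 : (e * a' * t') ^ 2 ≤ 4 * (4 * x ^ 2) * (2 * s') := by rw [mul_pow, mul_pow]; gcongr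
  have k4 : (e * e' * u') ^ 2 ≤ 4 * 4 * u' ^ 2 := by rw [mul_pow, mul_pow]; gcongr
  have k5 := mul_le_mul_of_nonneg_right h7 (sq_nonneg u)
  generalize a * a' * u = p at *
  generalize a * e' * t = q at *
  generalize e * a' * t' = w at *
  generalize e * e' * u' = z at *
  nlinarith [sq_nonneg (p - q), sq_nonneg (p - w), sq_nonneg (q - w), sq_nonneg (p - z),
    sq_nonneg (q - z), sq_nonneg (w - z), sq_nonneg u, sq_nonneg u']

variable (c : Ctx ι)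

/-- the common majorant -/
noncomputable def G (h g : ι) : ℝ :=
  (c.A * c.B) h g ^ 2 + (c.A * c.B) g h ^ 2 + c.X g ^ 2 * (c.Sp h ^ 2 + 1)
    + c.X h ^ 2 * (c.Sp g ^ 2 + 1)

theorem G_nonneg (h g : ι) : 0 ≤ G c h g := by unfold G; positivity

theorem SA_le (h : ι) : rS c.A h ≤ c.Sp h := le_add_of_nonneg_right (rS_nonneg _ _)

theorem SB_le (h : ι) : rS c.B h ≤ c.Sp h := le_add_of_nonneg_left (rS_nonneg _ _)

theorem SS_le (h g : ι) : rS c.A h * rS c.B g ≤ c.Sp h * c.Sp g :=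
  mul_le_mul (SA_le c h) (SB_le c g) (rS_nonneg _ _) (c.Sp_nonneg _)

theorem t_sq (h : ι) : ((c.A * c.B) h h - 1) ^ 2 ≤ 2 * (c.Sp h ^ 2 + 1) := by
  have h1 := mul_apply_sq_le c.A c.B h h
  have e : ∑ k, c.B k h ^ 2 = rS c.B h := by simp only [rS, c.sB.ok.symm h]
  rw [e] at h1
  nlinarith [SS_le c h h, sq_nonneg ((c.A * c.B) h h + 1)]

theorem sum_Sp1 : ∑ h ∈ c.U, (c.Sp h ^ 2 + 1) ≤ 5 * c.r ^ 2 * c.N := by
  rw [sum_add_distrib, AvgX.sum_one]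
  have h1 : (1 : ℝ) ≤ c.r ^ 2 := one_le_pow₀ (le_trans (by norm_num) c.good.hr)
  nlinarith [c.sum_Sp_sq, c.good.W2, c.good.N_pos]

theorem VN_le : c.r ^ 20 * c.Vb * c.N ≤ c.Cb := by
  refine le_trans ?_ c.good.MC1
  have := c.good.r_pos
  have := c.good.N_pos
  gcongr
  nlinarith [sq_nonneg c.a]

theorem sum_G : ∑ h ∈ c.U, ∑ g ∈ c.U, G c h g ≤ 3 * c.Cb := by
  simp only [G, sum_add_distrib (f := fun g => _ + _ + _), sum_add_distrib (f := fun g => _ + _)]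
  have h1 := sum_pr' c.U (fun h => sq_nonneg (c.X h)) (fun h => by positivity) c.sum_X_sq
    (sum_Sp1 c)
  have h2 := sum_pr c.U (fun h => sq_nonneg (c.X h)) (fun h => by positivity) c.sum_X_sq
    (sum_Sp1 c)
  have h3 := (sum_fE c.U _).trans c.hC
  have h4 := (sum_fE' c.U _).trans c.hC
  have h5 : 40 * c.r ^ 2 * c.Vb * c.N ≤ c.r ^ 20 * c.Vb * c.N := by
    have := c.good.V0
    have := c.good.N_pos
    have h : (40 : ℝ) ≤ c.r := le_trans (by norm_num) c.good.hr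
    gcongr
    calc _ ≤ c.r * c.r ^ 2 := by gcongr
      _ = c.r ^ 3 := by ring
      _ ≤ _ := pow_le_pow_right₀ (by linarith) (by norm_num)
  simp only [sum_add_distrib] at *
  linarith [VN_le c]

variable {c} {h g : ι} (H : c.Allowed h g)
include H

theorem apA : ap c.A h g ^ 2 ≤ 4 * c.X g ^ 2 := by
  have h1 : |ap c.A h g| ≤ 2 * c.X g := by
    unfold Ctx.X
    linarith [H.ap_bd, abs_nonneg (c.A g g), abs_nonneg (c.B g g)]
  rw [← sq_abs]
  nlinarith [abs_nonneg (ap c.A h g)]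

theorem apB : ap c.B h g ^ 2 ≤ 4 * c.X g ^ 2 := by
  have := apA ((c.swap_allowed h g).2 H)
  rwa [c.swap_X] at this

theorem alB : al c.B h g ^ 2 ≤ 4 * c.X h ^ 2 := by
  rw [← ap_comm c.sB.ok.symm]
  exact apB H.symm

theorem beA : be c.A h g ^ 2 ≤ 4 := by nlinarith [H.be_bd.1, H.be_bd.2]

theorem beB : be c.B h g ^ 2 ≤ 4 := beA ((c.swap_allowed h g).2 H)

theorem b1_le : b1 c.A c.B h g ^ 2 ≤ 128 * (c.X g ^ 2 * G c h g) :=
  b1_real (apA H) (apB H) (beA H) (beB H) (t_sq c h) (by positivity)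
    (le_add_of_nonneg_right (by positivity))

theorem b2_le : b2 c.A c.B h g ^ 2 ≤ 128 * G c h g :=
  b2_real (apA H) (alB H) (beA H) (beB H) (t_sq c h) (t_sq c g) (by
    rw [← mul_pow]
    exact pow_le_one₀ (mul_nonneg (c.X_nonneg _) (c.X_nonneg _)) (by linarith [H.XX]))

end DCZ
end Vale.Agent.P049
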