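import Vale.Agent.P049.DPH

/-! P049: drift of the trace of the square. -/

namespace Vale.Agent.P049
open Matrix Finset DPX
variable {ι : Type} [Fintype ι] [DecidableEq ι]

namespace DEX
open Ctx
variable (c : Ctx ι)

theorem Eb0 : 0 ≤ c.Eb := zero_le_one.trans c.good.E1

theorem Cb0 : 0 ≤ c.Cb := (fE_nonneg _).trans c.hC

theorem tA : c.S (fun h g => be c.A h g * (c.A * c.A * c.A) h g) ≤
    c.N - c.a * fQ c.A / 2 + c.a * c.Cb / 2 + c.r * c.sN * c.L * √(fQ c.A)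
      + c.r * c.a ^ 2 * c.S0 * c.L * c.Eb := by
  have sy := c.sA.ok.symm
  have l : 0 ≤ c.L := zero_le_one.trans c.good.L1
  have z : ∑ h ∈ c.U, √(rS c.A h) ^ 2 ≤ √c.Eb ^ 2 := by
    simp only [Real.sq_sqrt (rS_nonneg _ _)]
    rw [Real.sq_sqrt (Eb0 c), c.sA.ok.sum_rS]
    exact c.sA.Eb
  have t := c.lemZ coef_be (fun h g => (c.A * c.A * c.A) h g) (fun h => √(rS c.A h))
    (fun h => c.L * √(rS c.A h)) (z := c.L * √(fQ c.A)) (p' := c.L * √c.Eb)
    (fun _ => Real.sqrt_nonneg _) (fun _ => by positivity)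
    (fun h _ g _ => abs_le_of_sq_le_sq (by
      rw [mul_pow, mul_pow, Real.sq_sqrt (rS_nonneg _ _), Real.sq_sqrt (rS_nonneg _ _)]
      exact k3_sq c h g) (by positivity))
    (by positivity) (Real.sqrt_nonneg _) (by positivity)
    (by
      rw [mul_pow, fQ, Real.sq_sqrt (fE_nonneg _)]
      exact (sq_U _ _).trans c.f6_bd.1) z
    (by
      simp only [mul_pow, ← mul_sum]
      exact mul_le_mul_of_nonneg_left z (sq_nonneg _))
  have s2 : ∑ h ∈ c.U, ∑ g ∈ c.U, (c.A * c.A * c.A) h g = c.N := by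
    simp only [c.sA.ok.sum_right, c.sA.ok.sum_all, c.hN]
  have s3 : ∑ h ∈ c.U, ∑ g ∈ c.U, (c.A h g + c.B h g) * (c.A * c.A * c.A) h g =
      fQ c.A + ip (c.A * c.B) (c.A * c.A) := by
    simp only [add_mul, sum_add_distrib]
    rw [ip_U c.sA.ok, ip_U c.sB.ok, mul_assoc, tr_BA sy c.sB.ok.symm, fQ,
      TrBX.fE_tr (TrBX.sym2 sy), mul_assoc]
  have s4 : -(fE (c.A * c.B) + fQ c.A) ≤ 2 * ip (c.A * c.B) (c.A * c.A) := by
    simp only [fQ, fE, rS, ip, ← sum_add_distrib, ← sum_neg_distrib, mul_sum]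
    exact sum_le_sum fun k _ => sum_le_sum fun j _ => by
      nlinarith [sq_nonneg ((c.A * c.B) k j + (c.A * c.A) k j)]
  have s5 := mul_le_mul_of_nonneg_left s4 c.good.a_nonneg
  have s6 := mul_le_mul_of_nonneg_left c.hC c.good.a_nonneg
  rw [s2, s3, mul_left_comm (√c.Eb), Real.mul_self_sqrt (Eb0 c)] at t
  unfold fC at s6
  linarith [(abs_le.1 t).2]

theorem sum_S : ∑ h ∈ c.U, rS c.A h ^ 2 ≤ (c.r * c.sN) ^ 2 := by
  rw [c.sA.ok.sum_rS_sq, mul_pow, c.good.sq]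
  exact c.sA.W2 c.good

theorem sum_absS : ∑ h ∈ c.U, |rS c.A h| ≤ c.Eb := by
  simp only [abs_of_nonneg (rS_nonneg _ _)]
  rw [c.sA.ok.sum_rS]
  exact c.sA.Eb

theorem e1_a : c.KP * (c.r * c.sN * c.sN) ≤ c.KP * c.r ^ 2 * c.N := by
  have r := AvgH.r_ge c
  have := c.good.KP_nonneg
  have := c.good.N_pos
  rw [mul_assoc c.r, ← sq, c.good.sq, mul_assoc]
  gcongr
  exact le_self_pow₀ (by linarith) two_ne_zero

theorem e1_b : c.N / c.r ^ 3 * ∑ h ∈ c.U, |rS c.A h| ≤ c.N * c.Eb / c.r ^ 2 := by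
  have r := AvgH.r_ge c
  have := c.good.N_pos
  rw [mul_div_right_comm]
  refine mul_le_mul ?_ (sum_absS c) (sum_nonneg fun _ _ => abs_nonneg _) (by positivity)
  gcongr <;> linarith

theorem tB : |c.S (fun h g => be c.A h g * rS c.A h) - c.N * fE c.A| ≤ c.e1 ∧
    |c.S (fun h g => be c.A h g * rS c.A g) - c.N * fE c.A| ≤ c.e1 := by
  have p := (mul_pos c.good.r_pos c.good.sN_pos).le
  have a1 := c.P2 coef_be (rS c.A) (fun _ => 1) p c.good.sN_pos.le (sum_S c) (AvgX.sum_one_sq c)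
  have a2 := c.P2 coef_be (fun _ => 1) (rS c.A) c.good.sN_pos.le p (AvgX.sum_one_sq c) (sum_S c)
  have a3 := (c.P0 coef_be (rS c.A)).trans (e1_b c)
  have a4 := (c.P0' coef_be (rS c.A)).trans (e1_b c)
  simp only [mul_one, one_mul, AvgX.sum_one, c.sA.ok.sum_rS] at a1 a2 a3 a4
  rw [mul_comm (fE c.A)] at a1
  rw [mul_comm c.sN] at a2
  exact ⟨le_min (a1.trans (e1_a c)) a3, le_min (a2.trans (e1_a c)) a4⟩

theorem tC : |c.S (fun h g => be c.A h g ^ 2 * (rS c.A h * rS c.A g)) - fE c.A ^ 2| ≤ c.e1 := by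
  have r := c.good.r_pos
  have p := (mul_pos r c.good.sN_pos).le
  have a1 := c.P2 coef_be_sq (rS c.A) (rS c.A) p p (sum_S c) (sum_S c)
  have a2 := c.P1 coef_be_sq (rS c.A) (rS c.A) p (sum_S c)
  rw [c.sA.ok.sum_rS, ← sq] at a1 a2
  refine le_min (a1.trans_eq (by rw [← c.good.sq]; ring)) (a2.trans ?_)
  have := c.good.sN_pos
  calc _ ≤ c.sN / c.r ^ 3 * (c.Eb * (c.r * c.sN)) := by gcongr; exact sum_absS c
    _ = _ := by rw [← c.good.sq]; field_simp

theorem tD : |c.S (fun h g => io c.A h g * ((c.A * c.A * c.A) h h * c.A g g)) - fT c.A * fP c.A|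
      ≤ c.KP * √c.Vb * c.L * √c.Wb ∧
    |c.S (fun h g => io c.A h g * (c.A h h * (c.A * c.A * c.A) g g)) - fT c.A * fP c.A|
      ≤ c.KP * √c.Vb * c.L * √c.Wb := by
  have l : 0 ≤ c.L := zero_le_one.trans c.good.L1
  have z : ∑ h ∈ c.U, (c.A * c.A * c.A) h h ^ 2 ≤ (c.L * √c.Wb) ^ 2 := by
    rw [mul_pow, Real.sq_sqrt c.good.W0]
    refine le_trans ?_ (mul_le_mul_of_nonneg_left c.sA.Wb (sq_nonneg _))
    rw [← c.sA.ok.sum_rS_sq, mul_sum]
    refine sum_le_sum fun h _ => ?_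
    rw [← mul_pow, ← sq_abs]
    exact pow_le_pow_left₀ (abs_nonneg _) (diag3_abs c.sA.ok.symm c.sA.op l h) 2
  have s : ∑ h ∈ c.U, (c.A * c.A * c.A) h h = fT c.A :=
    sum_subset (subset_univ _) fun k _ hk => by simp [mul_apply, c.sA.ok.supp k _ hk]
  have a1 := c.P2 coef_io (fun h => (c.A * c.A * c.A) h h) (fun g => c.A g g) (by positivity)
    (Real.sqrt_nonneg _) z (sum_x c)
  have a2 := c.P2 coef_io (fun g => c.A g g) (fun h => (c.A * c.A * c.A) h h) (Real.sqrt_nonneg _)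
    (by positivity) (sum_x c) z
  rw [s, c.sA.ok.sum_diag] at a1 a2
  rw [mul_comm (fP c.A)] at a2
  exact ⟨a1.trans_eq (by ring), a2.trans_eq (by ring)⟩

theorem tM : c.S (maj c.A) ≤ 101 / 100 * (28 * (c.N * c.Vb) + 25 * fQ c.A + 20 * (c.Vb * c.Wb)
    + 10 * c.Eb + 20 * √(c.N * c.Eb * c.Wb)) := by
  have s := rS_nonneg c.A
  refine (c.S_le (fun _ _ _ => le_rfl) fun h g => by
    have := s h; have := s g; unfold maj; positivity).trans ?_
  have n := c.good.N_pos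
  have g1 : ∑ h ∈ c.U, ∑ g ∈ c.U, |c.A h g| * rS c.A h ≤ √(c.N * c.Eb * c.Wb) := by
    have := AvgX.cs2 c.U (fun h g => |c.A h g|) (fun h _ => rS c.A h) (Real.sqrt_nonneg c.Eb)
      (Real.sqrt_nonneg (c.N * c.Wb))
      (by
        simp only [sq_abs]
        rw [Real.sq_sqrt (Eb0 c)]
        exact (sq_U _ _).trans c.sA.Eb)
      (by
        simp only [sum_const, nsmul_eq_mul, c.hN, ← mul_sum]
        rw [Real.sq_sqrt (mul_nonneg n.le c.good.W0), c.sA.ok.sum_rS_sq]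
        exact mul_le_mul_of_nonneg_left c.sA.Wb n.le)
    rwa [← Real.sqrt_mul (Eb0 c), mul_left_comm, ← mul_assoc] at this
  have g2 : ∑ h ∈ c.U, ∑ g ∈ c.U, |c.A h g| * rS c.A g =
      ∑ h ∈ c.U, ∑ g ∈ c.U, |c.A h g| * rS c.A h := by
    rw [sum_comm]
    exact sum_congr rfl fun h _ => sum_congr rfl fun g _ => by rw [c.sA.ok.symm]
  simp only [maj, sum_add_distrib, ← mul_sum c.U _ (10 : ℝ), ← mul_sum c.U _ (14 : ℝ),
    ← mul_sum c.U _ (25 : ℝ), g2]
  rw [← sum_mul_sum, sum_comm (f := fun h g => c.A g g ^ 2 * rS c.A h ^ 2), ← sum_mul_sum]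
  simp only [sum_const, nsmul_eq_mul, c.hN, ← mul_sum c.U _ c.N, c.sA.ok.sum_diag_sq,
    c.sA.ok.sum_rS_sq]
  have g3 := mul_le_mul_of_nonneg_left c.sA.Vb n.le
  have g4 := mul_le_mul c.sA.Vb c.sA.Wb (sum_nonneg fun _ _ => sq_nonneg _) c.good.V0.le
  have g5 := sq_U c.U (c.A * c.A)
  have g6 := (sq_U c.U c.A).trans c.sA.Eb
  unfold fQ
  linarith

theorem r2_pos : 0 ≤ c.Eb ∧ 0 ≤ c.a * c.Cb ∧ 0 ≤ c.r * c.a ^ 2 * c.S0 * c.L * c.Eb ∧
    0 ≤ c.Pa * c.Eb ∧ 0 ≤ c.e1 ∧ 0 ≤ c.KP * √c.Vb * c.L * √c.Wb ∧ 0 ≤ c.Vb * c.Wb ∧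
    0 ≤ c.N * c.Vb ∧ 0 ≤ √(c.N * c.Eb * c.Wb) := by
  have := Eb0 c
  have := Cb0 c
  have := c.good.a_nonneg
  have := c.good.r_pos
  have := c.good.S1
  have := c.good.L1
  have := c.good.Pa0
  have := c.good.KP_nonneg
  have := c.good.V0
  have := c.good.W0
  have := c.good.N_pos
  refine ⟨by positivity, by positivity, by positivity, by positivity,
    (abs_nonneg _).trans (DEX.tC c), by positivity, by positivity, by positivity, by positivity⟩

theorem r2_le : c.r2 ≤ 20 * c.N ^ 2 := by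
  have r := AvgH.r_ge c
  have r1 : 1 ≤ c.r := by linarith
  have n := c.good.N_pos
  have sn := c.good.sN_pos
  have s1 := AvgH.one_le_sN c
  have l := c.good.L1
  have e0 := Eb0 c
  have e2 := c.good.E2
  have v := c.good.V0
  have w := c.good.W0
  have sN : c.sN ≤ c.N := c.good.sq ▸ le_self_pow₀ s1 two_ne_zero
  have n2 : c.N ≤ c.N ^ 2 := le_self_pow₀ (s1.trans sN) two_ne_zero
  have rs : c.r * c.sN ≤ c.N := (AvgH.rs_le c).trans (AvgH.t_le c)
  have a1 : c.a * c.Cb ≤ c.N ^ 2 := by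
    have h := mul_nonneg c.good.a_nonneg (Cb0 c)
    have h2 := le_mul_of_one_le_left h (one_le_pow₀ (n := 10) r1)
    have h3 := mul_le_mul_of_nonneg_left sN n.le
    linarith [c.good.MC2]
  have a2 : c.r * c.a ^ 2 * c.S0 * c.L * c.Eb ≤ c.N * (2 * c.N) := by
    refine mul_le_mul (le_trans ?_ c.good.M2) e2 e0 n.le
    have := c.good.S1
    gcongr
    exact le_self_pow₀ r1 (by norm_num)
  have a3 : c.Pa * c.Eb ≤ c.N * (2 * c.N) := mul_le_mul
    ((le_mul_of_one_le_left c.good.Pa0.le (one_le_pow₀ r1)).trans c.good.M5') e2 e0 n.le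
  have a4 : c.e1 ≤ c.N * (2 * c.N) := (min_le_right _ _).trans
    ((div_le_self (by positivity) (one_le_pow₀ r1)).trans (mul_le_mul_of_nonneg_left e2 n.le))
  have a5 : c.KP * √c.Vb ≤ 4 * c.N := by
    refine le_sq_bb ?_ (by positivity)
    rw [mul_pow, Real.sq_sqrt v.le]
    have h : 1 ≤ c.r ^ 18 * (c.r * c.sN) :=
      one_le_mul_of_one_le_of_one_le (one_le_pow₀ r1) (one_le_mul_of_one_le_of_one_le r1 s1)
    have h2 := le_mul_of_one_le_left (show 0 ≤ c.KP ^ 2 * c.Vb by positivity) h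
    linarith [c.good.KP_sq_Vb]
  have a6 : √c.Wb ≤ c.r * c.sN := by
    rw [Real.sqrt_le_left (by positivity), mul_pow, c.good.sq]
    exact c.good.W2
  have a7 : c.L * √c.Wb ≤ c.N := by
    have h : c.r * c.L ≤ c.sN := (mul_le_mul_of_nonneg_right (le_self_pow₀ r1 (by norm_num))
      (by linarith)).trans c.good.L_le
    calc _ ≤ c.L * (c.r * c.sN) := by gcongr
      _ = c.r * c.L * c.sN := by ring
      _ ≤ c.sN * c.sN := by gcongr
      _ = _ := by rw [← c.good.sq, sq]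
  have a8 := mul_le_mul a5 a7 (by positivity) (by positivity)
  have a9 : c.r ^ 2 * c.Vb ≤ c.N := ((mul_le_mul_of_nonneg_right
    (pow_le_pow_right₀ r1 (by norm_num)) v.le).trans c.good.Vb_le).trans sN
  have a10 : c.Vb * c.Wb ≤ c.N ^ 2 := by
    linarith [mul_le_mul_of_nonneg_left c.good.W2 v.le, mul_le_mul_of_nonneg_right a9 n.le]
  have a11 : c.N * c.Vb ≤ c.N * c.N := mul_le_mul_of_nonneg_left
    ((le_mul_of_one_le_left v.le (one_le_pow₀ r1)).trans a9) n.le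
  have a12 : √(c.N * c.Eb * c.Wb) ≤ 2 * c.N ^ 2 := by
    rw [Real.sqrt_le_left (by positivity)]
    have h := pow_le_pow_left₀ (by positivity) rs 2
    rw [mul_pow, c.good.sq] at h
    calc _ ≤ c.N * (2 * c.N) * c.N ^ 2 := by gcongr; exact c.good.W2.trans h
      _ ≤ _ := by nlinarith [pow_pos n 4]
  unfold Par.r2
  linarith

end DEX

open DEX

namespace Ctx
variable (c : Ctx ι)

theorem dE1 : c.S (fun h g => fE (step c.A h g) - fE c.A)
      ≤ 2 * fE c.A ^ 2 - 4 * fE c.A * c.N + 4 * c.N - 2 * c.a * fQ c.A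
        + 4 * c.r * c.sN * c.L * √(fQ c.A) + 30 * fQ c.A + 4 * c.P * c.c3 + 30 * c.r2 := by
  have e := c.S_mono (f := fun h g => fE (step c.A h g) - fE c.A) fun h g H =>
    sub_le_iff_le_add'.1 (le_of_abs_le (dE_split H))
  simp only [S_add, S_sub, S_mul] at e
  rw [← S_sub] at e
  have t1 := tA c
  have t2 := abs_le.1 (tB c).1
  have t3 := abs_le.1 (tB c).2
  have t4 := abs_le.1 (DEX.tC c)
  have t5 := abs_le.1 (tD c).1
  have t6 := abs_le.1 (tD c).2
  have t7 := tM c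
  have t8 : fT c.A * fP c.A ≤ c.P * c.c3 + c.Pa * c.Eb := by
    have a1 := mul_le_mul_of_nonneg_right c.sA.P c.c3_bd.1
    have a2 := abs_le.1 c.sA.Pa
    have a3 := mul_le_mul_of_nonneg_left c.sA.Eb c.good.Pa0.le
    have a4 := mul_le_mul_of_nonneg_right a2.1 (fE_nonneg c.A)
    have a5 := mul_le_mul_of_nonneg_right a2.2 (fE_nonneg c.A)
    unfold c3 at a1 ⊢
    rcases c.hs with hs | hs <;> rw [hs] at a1 ⊢ <;> linarith
  obtain ⟨p1, p2, p3, p4, p5, p6, p7, p8, p9⟩ := r2_pos c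
  have q := fE_nonneg (c.A * c.A)
  unfold Par.r2
  unfold fQ at *
  linarith

/-- crude form used for the cubic potential -/
theorem dE1' : c.S (fun h g => fE (step c.A h g) - fE c.A) ≤ c.N * c.Tb / c.r := by
  have r := AvgH.r_ge c
  have n := c.good.N_pos
  have sn := c.good.sN_pos
  have l := c.good.L1
  have n1 : 1 ≤ c.N := (one_le_pow₀ (by linarith)).trans c.good.N_ge
  have r9 : 1 ≤ c.r ^ 9 := one_le_pow₀ (by linarith)
  have tb : c.r ^ 9 * c.N ≤ c.Tb := (mul_le_mul_of_nonneg_right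
    (pow_le_pow_right₀ (by linarith) (by norm_num)) n.le).trans c.good.MT2
  have tb0 : 0 < c.Tb := lt_of_lt_of_le (by positivity) tb
  obtain ⟨t, ht⟩ : ∃ t, t = c.N / c.r ^ 9 := ⟨_, rfl⟩
  have u1 : c.N ^ 2 ≤ t * c.Tb := by
    rw [ht, div_mul_eq_mul_div, le_div_iff₀ (by positivity)]
    nlinarith [mul_le_mul_of_nonneg_left tb n.le]
  have u2 : c.r * c.sN ≤ t := ht ▸ AvgH.rs_le c
  have u3 : c.L * √(fQ c.A) ≤ 2 * c.Tb := by
    refine le_sq_bb ?_ (by positivity)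
    rw [mul_pow, fQ, Real.sq_sqrt (fE_nonneg _), ← fQ]
    nlinarith [c.f6_bd.2, sq_nonneg c.Tb]
  have u4 : c.r * c.sN * (c.L * √(fQ c.A)) ≤ t * (2 * c.Tb) :=
    mul_le_mul u2 u3 (by positivity) (by rw [ht]; positivity)
  have u5 : c.L ≤ t := ((le_mul_of_one_le_left (by linarith) (one_le_pow₀ (by linarith))).trans
    c.good.L_le).trans ((le_mul_of_one_le_left sn.le (by linarith)).trans u2)
  have u6 : c.P ≤ t := by
    rw [ht, le_div_iff₀ (by positivity), mul_comm]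
    refine le_trans ?_ c.good.M5
    have := c.good.P0
    calc _ ≤ c.r ^ 20 * c.P := by gcongr <;> linarith
      _ ≤ _ := le_mul_of_one_le_right (by positivity) l
  have u7 := mul_le_mul u6 c.c3_bd.2 c.c3_bd.1 (c.good.P0.trans u6)
  have u8 := mul_le_mul_of_nonneg_right u5 tb0.le
  have u9 := mul_le_mul_of_nonneg_left (c.sA.E2 c.good) (fE_nonneg c.A)
  have u10 := mul_nonneg c.good.a_nonneg (fE_nonneg (c.A * c.A))
  have u11 : c.N ≤ c.N ^ 2 := le_self_pow₀ n1 two_ne_zero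
  have u12 : 1000 * (t * c.Tb) ≤ c.N * c.Tb / c.r := by
    have : 1000 ≤ c.r ^ 8 := le_trans (by linarith) (le_self_pow₀ (by linarith) (by norm_num))
    calc _ ≤ c.r ^ 8 * (t * c.Tb) := by gcongr; rw [ht]; positivity
      _ = _ := by rw [ht]; field_simp
  have u13 := c.dE1
  have u14 := c.fQ_bd.1
  have u15 := r2_le c
  unfold fQ at *
  linarith

end Ctx
end Vale.Agent.P049
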