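import Vale.Agent.P049.DPH

/-! P049: drift of the trace. -/

namespace Vale.Agent.P049
open Matrix Finset DPX
variable {ι : Type} [Fintype ι] [DecidableEq ι]

namespace Ctx
variable (c : Ctx ι)

theorem dP1 : |c.S (fun h g => c.s * (fP (step c.A h g) - fP c.A))
      + 2 * (c.N - fE c.A) * (c.s * fP c.A) + 2 * c.a * c.c3|
      ≤ 2 * c.r * c.sN * √(fQ c.A) + c.r1 := by
  have sy := c.sA.ok.symm
  have r := AvgH.r_ge c
  have n := c.good.N_pos
  have sn := c.good.sN_pos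
  have a0 := c.good.a_nonneg
  have e : c.S (fun h g => c.s * (fP (step c.A h g) - fP c.A)) =
      c.s * (c.S (fun h g => io c.A h g * ((rS c.A h - 1) * c.A g g))
        + c.S (fun h g => io c.A h g * (c.A h h * (rS c.A g - 1)))
        + 2 * c.S (fun h g => be c.A h g * (c.A * c.A) h g)) := by
    rw [← S_mul, ← S_add, ← S_add, ← S_mul]
    refine c.S_congr fun h g H => ?_
    rw [dP_eq sy H.ne (by linarith [H.lam_ge])]
    ring
  have s1 : ∑ h ∈ c.U, (rS c.A h - 1) = fE c.A - c.N := by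
    rw [sum_sub_distrib, c.sA.ok.sum_rS, AvgX.sum_one]
  have t1 := c.P2 coef_io (fun h => rS c.A h - 1) (fun g => c.A g g) (by positivity)
    (Real.sqrt_nonneg _) (sum_S1 c) (sum_x c)
  have t2 := c.P2 coef_io (fun g => c.A g g) (fun h => rS c.A h - 1) (Real.sqrt_nonneg _)
    (by positivity) (sum_x c) (sum_S1 c)
  have z : ∑ h ∈ c.U, √(rS c.A h) ^ 2 ≤ √(2 * c.N) ^ 2 := by
    simp only [Real.sq_sqrt (rS_nonneg _ _)]
    rw [Real.sq_sqrt (by positivity), c.sA.ok.sum_rS]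
    exact c.sA.E2 c.good
  have t3 := c.lemZ coef_be (fun h g => (c.A * c.A) h g) (fun h => √(rS c.A h))
    (fun h => √(rS c.A h)) (fun _ => Real.sqrt_nonneg _) (fun _ => Real.sqrt_nonneg _)
    (fun h _ g _ => by
      rw [← Real.sqrt_mul (rS_nonneg _ _)]; exact Real.abs_le_sqrt (k2_sq c h g))
    (Real.sqrt_nonneg (fQ c.A)) (Real.sqrt_nonneg _) (Real.sqrt_nonneg _)
    (by rw [fQ, Real.sq_sqrt (fE_nonneg _)]; exact sq_U _ _) z z
  have s2 : ∑ h ∈ c.U, ∑ g ∈ c.U, (c.A * c.A) h g = c.N := by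
    simp only [c.sA.ok.sum_right, c.sA.ok.sum_all, c.hN]
  have s3 : ∑ h ∈ c.U, ∑ g ∈ c.U, (c.A h g + c.B h g) * (c.A * c.A) h g =
      fT c.A + ip (c.A * c.B) c.A := by
    simp only [add_mul, sum_add_distrib]
    rw [ip_U c.sA.ok, ip_U c.sB.ok, tr_BA sy c.sB.ok.symm, fT, mul_assoc]
  have s4 : |ip (c.A * c.B) c.A| ≤ 3 / 2 * √(c.N * c.Cb) := by
    have cb : 0 ≤ c.Cb := (fE_nonneg _).trans c.hC
    refine abs_le_of_sq_le_sq ((ip_sq_le _ _).trans ?_) (by positivity)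
    rw [mul_pow, Real.sq_sqrt (by positivity)]
    have := mul_le_mul c.hC (c.sA.E2 c.good) (fE_nonneg _) cb
    have h2 := mul_nonneg n.le cb
    unfold fC at this
    linarith
  rw [s1, c.sA.ok.sum_diag] at t1 t2
  rw [s2, s3, Real.mul_self_sqrt (by positivity)] at t3
  have v := Real.sqrt_nonneg c.Vb
  have k1 : c.KP * (2 * c.r * c.sN * √c.Vb) ≤ c.r ^ 3 * c.N * ((1 + c.a) * √c.Vb) / 2 := by
    have h1 : 8 * c.r * (c.r + c.a) ≤ c.r ^ 3 * (1 + c.a) := by
      have h2 : 8 * c.r ≤ c.r ^ 2 := by nlinarith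
      have h3 : c.r + c.a ≤ c.r * (1 + c.a) := by nlinarith
      calc _ ≤ c.r ^ 2 * (c.r * (1 + c.a)) := by gcongr
        _ = _ := by ring
    calc _ ≤ 2 * c.sN * (c.r + c.a) * (2 * c.r * c.sN * √c.Vb) := by
          gcongr; exact c.good.KP_le
      _ = 8 * c.r * (c.r + c.a) * (c.N * √c.Vb) / 2 := by rw [← c.good.sq]; ring
      _ ≤ c.r ^ 3 * (1 + c.a) * (c.N * √c.Vb) / 2 := by gcongr
      _ = _ := by ring
  have k2 : c.a * fE c.A ≤ 2 * (c.a ^ 2 * c.S0 * c.N) := by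
    have h1 : c.a ≤ c.a ^ 2 * c.S0 := by
      rcases c.good.a0 with h | h
      · simp [h]
      · exact (le_self_pow₀ (by linarith) two_ne_zero).trans
          (le_mul_of_one_le_right (sq_nonneg _) c.good.S1)
    have := mul_le_mul h1 (c.sA.E2 c.good) (fE_nonneg _) (a0.trans h1)
    linarith
  have k3 : 8 * c.r ≤ c.r ^ 3 := by
    nlinarith [mul_le_mul_of_nonneg_right (show 8 ≤ c.r ^ 2 by nlinarith) c.good.r_pos.le]
  have s0 : 0 ≤ c.a ^ 2 * c.S0 * c.N := by have := c.good.S1; positivity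
  have k4 := mul_le_mul_of_nonneg_right k3 s0
  have k5 := mul_le_mul_of_nonneg_right k3 n.le
  have k6 := mul_le_mul_of_nonneg_right r s0
  have k7 := mul_le_mul_of_nonneg_right r n.le
  have k8 := mul_nonneg a0 (fE_nonneg c.A)
  rw [abs_le] at t1 t2 t3 s4
  have k9 := mul_le_mul_of_nonneg_left s4.1 a0
  have k10 := mul_le_mul_of_nonneg_left s4.2 a0
  rw [e, Par.r1, c3, abs_le]
  rcases c.hs with hs | hs <;> rw [hs] <;> constructor <;> linarith

theorem dP_sq {c : Ctx ι} {h g : ι} (H : c.Allowed h g) : (fP (step c.A h g) - fP c.A) ^ 2 ≤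
    4 * ((rS c.A h - 1) ^ 2 * c.A g g ^ 2) + 4 * (c.A h h ^ 2 * (rS c.A g - 1) ^ 2)
      + 14 * (c.A * c.A) h g ^ 2 := by
  rw [dP_eq c.sA.ok.symm H.ne (by linarith [H.lam_ge])]
  have i2 : io c.A h g ^ 2 ≤ 107 / 100 := by nlinarith [H.io_bd.1, H.io_bd.2]
  have b2 : be c.A h g ^ 2 ≤ 109 / 100 := by nlinarith [H.be_bd.1, H.be_bd.2]
  generalize io c.A h g = i at i2
  generalize be c.A h g = b at b2
  generalize (c.A * c.A) h g = k
  have d1 := mul_le_mul_of_nonneg_right i2 (sq_nonneg (c.A g g * (rS c.A h - 1)))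
  have d2 := mul_le_mul_of_nonneg_right i2 (sq_nonneg (c.A h h * (rS c.A g - 1)))
  have d3 := mul_le_mul_of_nonneg_right b2 (sq_nonneg k)
  generalize rS c.A h - 1 = u at d1 ⊢
  generalize rS c.A g - 1 = v at d2 ⊢
  linarith [sq_nonneg (i * (c.A g g * u) - i * (c.A h h * v)),
    sq_nonneg (i * (c.A g g * u) - 2 * b * k), sq_nonneg (i * (c.A h h * v) - 2 * b * k),
    sq_nonneg (c.A g g * u), sq_nonneg (c.A h h * v), sq_nonneg k]

theorem dP2 : c.S (fun h g => (fP (step c.A h g) - fP c.A) ^ 2)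
      ≤ c.r ^ 3 * c.N * c.Vb + 20 * fQ c.A := by
  refine (c.S_le (fun h g H => dP_sq H) fun h g => by positivity).trans ?_
  simp only [sum_add_distrib, ← mul_sum, ← sum_mul]
  have r := AvgH.r_ge c
  have n := c.good.N_pos
  have v := c.good.V0
  have h1 := sum_x c
  have h2 := sum_S1 c
  rw [Real.sq_sqrt v.le] at h1
  rw [mul_pow, mul_pow, c.good.sq] at h2
  have h3 := mul_le_mul h2 h1 (sum_nonneg fun _ _ => sq_nonneg _) (by positivity)
  have h4 := sq_U c.U (c.A * c.A)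
  have h5 := fE_nonneg (c.A * c.A)
  have h6 := mul_le_mul_of_nonneg_right r (show 0 ≤ c.r ^ 2 * c.N * c.Vb by positivity)
  have h7 : 0 ≤ c.r ^ 2 * c.N * c.Vb := by positivity
  unfold fQ
  linarith

theorem dP3 {h g : ι} (H : c.Allowed h g) :
    (fP (step c.A h g) - fP c.A) ^ 2 ≤ c.r ^ 11 * c.sN := by
  have r := AvgH.r_ge c
  have n := c.good.sN_pos
  have h1 : ∀ {h g}, c.Allowed h g → (rS c.A h - 1) ^ 2 * c.A g g ^ 2 ≤ 2 * c.sN := by
    intro h g H
    have a1 := xS H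
    have a2 := c.sA.diag_sq c.good g
    have a3 := mul_nonneg (rS_nonneg c.A h) (sq_nonneg (c.A g g))
    have a4 := (le_mul_of_one_le_left (AvgH.m2_pos c).le (one_le_pow₀ (by linarith))).trans
      c.good.m2_le
    have a5 := (le_mul_of_one_le_left c.good.V0.le (one_le_pow₀ (by linarith))).trans
      c.good.Vb_le
    linarith
  have h2 : c.sN ≤ c.r ^ 10 * c.sN := le_mul_of_one_le_left n.le (one_le_pow₀ (by linarith))
  have h3 := mul_le_mul_of_nonneg_right r (show 0 ≤ c.r ^ 10 * c.sN by positivity)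
  have h4 := H.l2_sq
  unfold Par.m1 at h4
  linarith [dP_sq H, h1 H, h1 H.symm]

end Ctx
end Vale.Agent.P049
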