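import Vale.Agent.P049.Tr
import Vale.Agent.P049.Spec
import Vale.Agent.P049.Avg

/-! P049: helpers for the drift of the trace and of the trace of the square. -/

namespace Vale.Agent.P049
open Matrix Finset
variable {ι : Type} [Fintype ι] [DecidableEq ι]

namespace DPX

theorem sq_U (U : Finset ι) (X : Matrix ι ι ℝ) : ∑ h ∈ U, ∑ g ∈ U, X h g ^ 2 ≤ fE X :=
  (sum_le_sum fun _ _ => sum_le_sum_of_subset_of_nonneg (subset_univ _)
    fun _ _ _ => sq_nonneg _).trans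
    (sum_le_sum_of_subset_of_nonneg (subset_univ _) fun _ _ _ => rS_nonneg _ _)

theorem ip_U {U : Finset ι} {K : Matrix ι ι ℝ} (hK : Ok U K) (X : Matrix ι ι ℝ) :
    ∑ h ∈ U, ∑ g ∈ U, K h g * X h g = trace (K * X) := by
  rw [sum_comm]
  simp only [trace, Matrix.diag, mul_apply]
  rw [← sum_subset (subset_univ U) fun k _ hk => by simp [hK.supp k _ hk]]
  refine sum_congr rfl fun k _ => ?_
  rw [← sum_subset (subset_univ U) fun j _ hj => by simp [hK.symm k j, hK.supp j _ hj]]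
  simp only [hK.symm k]

theorem ip_tr (X Y : Matrix ι ι ℝ) : trace (Xᵀ * Y) = ip X Y := sum_comm

theorem tr_BA {A B : Matrix ι ι ℝ} (hA : ∀ i j, A i j = A j i) (hB : ∀ i j, B i j = B j i)
    (X : Matrix ι ι ℝ) : trace (B * (A * X)) = ip (A * B) X := by
  rw [← ip_tr, transpose_mul, TrBX.tr_eq hA, TrBX.tr_eq hB, mul_assoc]

theorem tpq {t : ℝ} (ht : |t| ≤ 1) (p q : ℝ) :
    -(p ^ 2 + q ^ 2) ≤ 2 * t * p * q ∧ 2 * t * p * q ≤ p ^ 2 + q ^ 2 := by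
  have h := mul_le_of_le_one_left (sq_nonneg q) ((sq_le_one_iff_abs_le_one t).2 ht)
  constructor <;> nlinarith [sq_nonneg (p + t * q), sq_nonneg (p - t * q)]

theorem sq4 (a b c d : ℝ) : (a + b + c + d) ^ 2 ≤ 4 * (a ^ 2 + b ^ 2 + c ^ 2 + d ^ 2) := by
  nlinarith [sq_nonneg (a - b), sq_nonneg (a - c), sq_nonneg (a - d), sq_nonneg (b - c),
    sq_nonneg (b - d), sq_nonneg (c - d)]

theorem rest_abs {x y γ S T k a b e : ℝ} (ha : |a| ≤ 1031 / 1000 * |x|)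
    (hb : |b| ≤ 1031 / 1000 * |y|) (e0 : 0 < e) (e1 : e ≤ 1042 / 1000) (hγ : |γ| ≤ 1 / 100)
    (hxy : |x| * |y| ≤ 1 / 100) (hS : 0 ≤ S) (hT : 0 ≤ T) :
    |-2 * b * k - 2 * a * k + (b * (S - γ) + e * (k - y)) ^ 2 + (e * (k - x) + a * (T - γ)) ^ 2
      + 2 * (e * (S - γ) + a * (k - y)) * (b * (k - x) + e * (T - γ)) - 2 * e ^ 2 * (S * T)|
      ≤ 14 * (x ^ 2 + y ^ 2) + 25 * k ^ 2 + 10 * (y ^ 2 * S ^ 2 + x ^ 2 * T ^ 2) + 10 * γ ^ 2
        + 10 * (|γ| * S + |γ| * T) := by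
  have a2 : a ^ 2 ≤ 107 / 100 * x ^ 2 := by
    have := pow_le_pow_left₀ (abs_nonneg _) ha 2
    rw [mul_pow, sq_abs, sq_abs] at this
    nlinarith [sq_nonneg x]
  have b2 : b ^ 2 ≤ 107 / 100 * y ^ 2 := by
    have := pow_le_pow_left₀ (abs_nonneg _) hb 2
    rw [mul_pow, sq_abs, sq_abs] at this
    nlinarith [sq_nonneg y]
  have e2 : e ^ 2 ≤ 109 / 100 := by nlinarith
  have g2 : γ ^ 2 ≤ 1 / 100 := by nlinarith [sq_abs γ, abs_nonneg γ]
  have t1 : |e * γ| ≤ 1 := by rw [abs_mul, abs_of_pos e0]; nlinarith [abs_nonneg γ]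
  have t2 : |a * b| ≤ 1 := by
    rw [abs_mul]
    nlinarith [mul_le_mul ha hb (abs_nonneg _) (by positivity)]
  have t3 : |(1 : ℝ)| ≤ 1 := by simp
  have n1 := sq4 (b * S) (-(b * γ)) (e * k) (-(e * y))
  have n2 := sq4 (a * T) (-(a * γ)) (e * k) (-(e * x))
  have n3 := sq_nonneg (b * (S - γ) + e * (k - y))
  have n4 := sq_nonneg (e * (k - x) + a * (T - γ))
  have c1 := tpq t3 b k
  have c2 := tpq t3 a k
  have c3 := tpq t3 (b * S) (e * k)
  have c4 := tpq t3 (b * S) (e * x)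
  have c5 := tpq t3 (a * T) (e * k)
  have c6 := tpq t3 (a * T) (e * y)
  have c7 := tpq t1 b k
  have c8 := tpq t1 b x
  have c9 := tpq t1 a k
  have c10 := tpq t1 a y
  have c11 := tpq t2 (k - x) (k - y)
  have c12 := tpq t3 k x
  have c13 := tpq t3 k y
  have d1 := mul_le_mul_of_nonneg_right a2 (sq_nonneg T)
  have d2 := mul_le_mul_of_nonneg_right b2 (sq_nonneg S)
  have d3 := mul_le_mul_of_nonneg_right e2 (sq_nonneg k)
  have d4 := mul_le_mul_of_nonneg_right e2 (sq_nonneg x)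
  have d5 := mul_le_mul_of_nonneg_right e2 (sq_nonneg y)
  have d6 := mul_le_mul_of_nonneg_right e2 (sq_nonneg γ)
  have d7 := mul_le_mul_of_nonneg_right g2 (sq_nonneg a)
  have d8 := mul_le_mul_of_nonneg_right g2 (sq_nonneg b)
  have d9 := mul_le_mul_of_nonneg_right e2 (mul_nonneg (abs_nonneg γ) (add_nonneg hS hT))
  have f1 := mul_le_mul_of_nonneg_left (mul_le_mul_of_nonneg_right (le_abs_self γ)
    (add_nonneg hS hT)) (sq_nonneg e)
  have f2 := mul_le_mul_of_nonneg_left (mul_le_mul_of_nonneg_right (neg_le_abs γ)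
    (add_nonneg hS hT)) (sq_nonneg e)
  have p1 := mul_nonneg (abs_nonneg γ) (add_nonneg hS hT)
  have p2 := sq_nonneg (y * S)
  have p3 := sq_nonneg (x * T)
  have p4 := sq_nonneg (e * γ)
  rw [abs_le]
  constructor <;> linarith [sq_nonneg x, sq_nonneg y, sq_nonneg k, sq_nonneg γ]

variable {c : Ctx ι} {h g : ι}

/-- crude majorant of the small terms of the drift of `fE` -/
noncomputable def maj (K : Matrix ι ι ℝ) (h g : ι) : ℝ :=
  14 * (K h h ^ 2 + K g g ^ 2) + 25 * (K * K) h g ^ 2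
    + 10 * (K g g ^ 2 * rS K h ^ 2 + K h h ^ 2 * rS K g ^ 2) + 10 * K h g ^ 2
    + 10 * (|K h g| * rS K h + |K h g| * rS K g)

theorem dE_split (H : c.Allowed h g) : |fE (step c.A h g) - fE c.A -
    (4 * (be c.A h g * (c.A * c.A * c.A) h g) - 2 * (be c.A h g * rS c.A h)
      - 2 * (be c.A h g * rS c.A g) + 2 * (be c.A h g ^ 2 * (rS c.A h * rS c.A g))
      + 2 * (io c.A h g * ((c.A * c.A * c.A) h h * c.A g g))
      + 2 * (io c.A h g * (c.A h h * (c.A * c.A * c.A) g g)))| ≤ maj c.A h g := by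
  refine le_of_eq_of_le ?_ (rest_abs (k := (c.A * c.A) h g) H.al_bd H.ap_bd H.be_bd.1 H.be_bd.2
    H.g_le H.xx_le (rS_nonneg c.A h) (rS_nonneg c.A g))
  rw [dE_eq c.sA.ok.symm H.ne (by linarith [H.lam_ge])]
  unfold p11 p22 n11 n22 n12 n21 al ap io
  congr 1
  ring

theorem xS (H : c.Allowed h g) : c.A g g ^ 2 * rS c.A h ^ 2 ≤ c.m2 := by
  refine le_trans (mul_le_mul ?_ ?_ (sq_nonneg _) (sq_nonneg _)) H.XS
  · rw [← sq_abs]
    exact pow_le_pow_left₀ (abs_nonneg _) (le_add_of_nonneg_right (abs_nonneg _)) 2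
  · exact pow_le_pow_left₀ (rS_nonneg _ _) (le_add_of_nonneg_right (rS_nonneg _ _)) 2

theorem SS (H : c.Allowed h g) : rS c.A h * rS c.A g ≤ c.m1 :=
  le_trans (mul_le_mul (le_add_of_nonneg_right (rS_nonneg _ _))
    (le_add_of_nonneg_right (rS_nonneg _ _)) (rS_nonneg _ _) (c.Sp_nonneg h)) H.SS

theorem k2_sq (c : Ctx ι) (h g : ι) : (c.A * c.A) h g ^ 2 ≤ rS c.A h * rS c.A g := by
  simpa only [rS, c.sA.ok.symm g] using mul_apply_sq_le c.A c.A h g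

theorem k3_sq (c : Ctx ι) (h g : ι) :
    (c.A * c.A * c.A) h g ^ 2 ≤ rS c.A h * (c.L ^ 2 * rS c.A g) := by
  rw [mul_assoc]
  refine (mul_apply_sq_le _ _ h g).trans (mul_le_mul_of_nonneg_left ?_ (rS_nonneg _ _))
  simpa only [rS, c.sA.ok.symm g] using c.sA.op.col c.A g

theorem sum_S1 (c : Ctx ι) : ∑ h ∈ c.U, (rS c.A h - 1) ^ 2 ≤ (2 * c.r * c.sN) ^ 2 := by
  have h1 := sum_le_sum fun h (_ : h ∈ c.U) =>
    show (rS c.A h - 1) ^ 2 ≤ rS c.A h ^ 2 + 1 by nlinarith [rS_nonneg c.A h]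
  rw [sum_add_distrib, c.sA.ok.sum_rS_sq, AvgX.sum_one] at h1
  have h2 : c.N ≤ c.r ^ 2 * c.N :=
    le_mul_of_one_le_left c.good.N_pos.le (one_le_pow₀ (by linarith [AvgH.r_ge c]))
  have := c.sA.W2 c.good
  have := c.good.N_pos
  rw [mul_pow, mul_pow, c.good.sq]
  linarith

theorem sum_x (c : Ctx ι) : ∑ h ∈ c.U, c.A h h ^ 2 ≤ √c.Vb ^ 2 := by
  rw [Real.sq_sqrt c.good.V0.le, c.sA.ok.sum_diag_sq]
  exact c.sA.Vb

end DPX
end Vale.Agent.P049
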