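import Vale.Agent.P049.Tr
import Vale.Agent.P049.Spec
import Vale.Agent.P049.Avg

/-! P049: drift of the fourth power sum, pieces. -/

namespace Vale.Agent.P049
open Matrix Finset
variable {ι : Type} [Fintype ι] [DecidableEq ι]

namespace DRX

section num
variable {p : Par} (H : p.Good)
include H

theorem r1 : (1 : ℝ) ≤ p.r := le_trans (by norm_num) H.hr

theorem le_D {x : ℝ} (k : ℕ) (hk : 4 ≤ k) (hx : 0 ≤ x) (h : p.r ^ k * x ≤ p.N ^ 2) :
    x ≤ p.N ^ 2 / p.r ^ 4 := by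
  rw [le_div_iff₀ (pow_pos H.r_pos 4), mul_comm]
  exact (mul_le_mul_of_nonneg_right (pow_le_pow_right₀ (r1 H) hk) hx).trans h

theorem D_le : 10 ^ 20 * (p.N ^ 2 / p.r ^ 4) ≤ p.N ^ 2 / p.r ^ 3 := by
  have h0 := H.r_pos
  have h1 : (10 : ℝ) ^ 20 ≤ p.r := le_trans (by norm_num) H.hr
  calc _ ≤ p.r * (p.N ^ 2 / p.r ^ 4) := by gcongr
    _ = _ := by field_simp

theorem D_nonneg : 0 ≤ p.N ^ 2 / p.r ^ 4 := by
  have := H.r_pos
  positivity

theorem sN_le : p.r ^ 30 * p.sN ≤ p.N := by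
  rw [← H.sq, sq]
  exact mul_le_mul_of_nonneg_right H.big H.sN_pos.le

theorem MM : p.r ^ 20 * (1 + √p.Vb) ^ 2 ≤ p.sN := by
  have h0 := H.r_pos
  have h1 : (1 + √p.Vb) ^ 2 ≤ 2 * (1 + p.Vb) := by
    nlinarith [Real.sq_sqrt H.V0.le, sq_nonneg (1 - √p.Vb)]
  have h2 : (4 : ℝ) ≤ p.r ^ 2 := by nlinarith [H.hr]
  have h3 : p.r ^ 22 ≤ p.r ^ 30 := pow_le_pow_right₀ (r1 H) (by norm_num)
  have h4 : 4 * (p.r ^ 20 * (1 + p.Vb)) ≤ p.r ^ 2 * (p.r ^ 20 * (1 + p.Vb)) :=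
    mul_le_mul_of_nonneg_right h2 (by have := H.V0; positivity)
  have h5 := mul_le_mul_of_nonneg_left h1 (pow_pos h0 20).le
  nlinarith [H.Vb_le, H.big]

theorem M_le : 1 + √p.Vb ≤ p.sN := by
  have h1 : 1 ≤ 1 + √p.Vb := le_add_of_nonneg_right (Real.sqrt_nonneg _)
  calc _ ≤ (1 + √p.Vb) ^ 2 := by nlinarith
    _ ≤ p.r ^ 20 * (1 + √p.Vb) ^ 2 := le_mul_of_one_le_left (by positivity) (one_le_pow₀ (r1 H))
    _ ≤ _ := MM H

theorem KPM : p.r ^ 15 * (p.KP * (1 + √p.Vb)) ≤ p.N := by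
  have h0 := H.r_pos
  have hs := H.sN_pos
  have hN := H.N_pos
  refine le_sq_bb ?_ hN.le
  have h1 : p.KP ^ 2 ≤ 8 * (p.r ^ 2 * p.N + p.a ^ 2 * p.L ^ 2) := by
    rw [← H.sq, Par.KP]
    nlinarith [sq_nonneg (p.r * p.sN - p.a * p.L)]
  have h2 : p.r ^ 20 * (p.a ^ 2 * p.L ^ 2) ≤ p.sN * p.N := by
    rw [mul_left_comm]
    exact mul_le_mul H.a_sq_le H.M1 (by positivity) hs.le
  have h3 : p.r ^ 22 * p.N ≤ p.sN * p.N :=
    mul_le_mul_of_nonneg_right ((pow_le_pow_right₀ (r1 H) (by norm_num)).trans H.big) hN.le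
  have h4 : (16 : ℝ) ≤ p.r ^ 10 :=
    (le_trans (by norm_num) H.hr : (16 : ℝ) ≤ p.r).trans (le_self_pow₀ (r1 H) (by norm_num))
  have h5 : p.r ^ 20 * p.KP ^ 2 ≤ 16 * (p.sN * p.N) := by
    have := mul_le_mul_of_nonneg_left h1 (pow_pos h0 20).le
    nlinarith
  refine le_of_mul_le_mul_left ?_ (pow_pos h0 10)
  calc _ = (p.r ^ 20 * p.KP ^ 2) * (p.r ^ 20 * (1 + √p.Vb) ^ 2) := by ring
    _ ≤ 16 * (p.sN * p.N) * p.sN := by gcongr; exact MM H
    _ = 16 * p.N ^ 2 := by rw [← H.sq]; ring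
    _ ≤ _ := by gcongr

theorem PaMW : p.r ^ 10 * ((1 + √p.Vb) * p.Wb * p.Pa) ≤ p.N ^ 2 := by
  have h0 := H.r_pos
  have hs := H.sN_pos
  have hN := H.N_pos
  have hW := H.W0
  have hP := H.Pa0
  have hV := H.V0
  have h1 : p.r ^ 18 * (p.Wb * p.Pa) ≤ p.N ^ 2 :=
    calc _ ≤ p.r ^ 18 * (p.r ^ 2 * p.N * p.Pa) := by gcongr; exact H.W2
      _ = p.N * (p.r ^ 20 * p.Pa) := by ring
      _ ≤ p.N * p.N := by gcongr; exact H.M5'
      _ = _ := by ring
  have h2 : p.r ^ 26 * (√p.Vb * p.Wb * p.Pa) ≤ p.N ^ 2 := by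
    refine le_sq_bb ?_ (by positivity)
    calc _ = (p.r ^ 10 * p.Pa ^ 2 * p.Wb) * p.Wb * (p.r ^ 42 * √p.Vb ^ 2) := by ring
      _ ≤ (p.N ^ 2 * p.Vb) * (p.r ^ 2 * p.N) * (p.r ^ 42 * √p.Vb ^ 2) := by
        exact mul_le_mul_of_nonneg_right (mul_le_mul H.MV3 H.W2 hW (by positivity))
          (by positivity)
      _ = p.N ^ 3 * (p.r ^ 22 * p.Vb) ^ 2 := by rw [Real.sq_sqrt hV.le]; ring
      _ ≤ p.N ^ 3 * p.sN ^ 2 := by gcongr; exact H.Vb_le
      _ = _ := by rw [H.sq]; ring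
  have h3 : 2 * p.r ^ 10 ≤ p.r ^ 18 := by
    have : (2 : ℝ) ≤ p.r ^ 8 :=
      (le_trans (by norm_num) H.hr : (2 : ℝ) ≤ p.r).trans (le_self_pow₀ (r1 H) (by norm_num))
    nlinarith [pow_pos h0 10]
  have h4 : p.r ^ 18 ≤ p.r ^ 26 := pow_le_pow_right₀ (r1 H) (by norm_num)
  have h5 := mul_le_mul_of_nonneg_right h3 (by positivity : 0 ≤ p.Wb * p.Pa)
  have h6 := mul_le_mul_of_nonneg_right (h3.trans h4) (by positivity : 0 ≤ √p.Vb * p.Wb * p.Pa)
  nlinarith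

end num

theorem wsum (K : Matrix ι ι ℝ) (f : ι → ℝ) :
    ∑ k, ∑ j, K k j ^ 2 * f k = ∑ k, rS K k * f k := by
  simp only [rS, sum_mul]

theorem wsum' {K : Matrix ι ι ℝ} (hs : ∀ i j, K i j = K j i) (f : ι → ℝ) :
    ∑ k, ∑ j, K k j ^ 2 * f j = ∑ k, rS K k * f k := by
  rw [sum_comm, ← wsum]
  exact sum_congr rfl fun k _ => sum_congr rfl fun j _ => by rw [hs]

theorem wW {K : Matrix ι ι ℝ} (hs : ∀ i j, K i j = K j i) :
    ∑ k, ∑ j, K k j ^ 2 * (rS K k + rS K j) = 2 * fW K := by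
  simp only [mul_add, sum_add_distrib, wsum, wsum' hs, fW, ← sq]
  ring

theorem sumU_le (U : Finset ι) {f : ι → ℝ} (h : ∀ k, 0 ≤ f k) : ∑ k ∈ U, f k ≤ ∑ k, f k :=
  sum_le_sum_of_subset_of_nonneg (subset_univ _) fun k _ _ => h k

theorem sumU_sq (U : Finset ι) (K : Matrix ι ι ℝ) (k : ι) : ∑ h ∈ U, K k h ^ 2 ≤ rS K k :=
  sumU_le U fun _ => sq_nonneg _

theorem cube_le {x M : ℝ} (h : |x| ≤ M) : |x| ^ 3 ≤ M * x ^ 2 := by
  rw [← sq_abs x, pow_succ', mul_comm M]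
  rw [mul_comm]
  gcongr

theorem ent (c : Ctx ι) (k j : ι) : |c.A k j| ≤ 1 + √c.Vb := by
  have H := c.good
  have h1 := entry_le c.sA.ok c.sA.psd c.hs c.q0 k j
  have h2 : ∀ i, |c.A i i| ≤ √c.Vb := fun i => Real.abs_le_sqrt (c.sA.diag_sq H i)
  have h3 : c.q ≤ 3 / 4 := by nlinarith [c.q2, c.q0]
  have h4 : (8 : ℝ) ≤ c.N :=
    ((le_trans (by norm_num) H.hr : (8 : ℝ) ≤ c.r).trans
      (le_self_pow₀ (r1 H) (by norm_num))).trans H.N_ge
  have h5 : 2 / (c.U.card : ℝ) ≤ 1 / 4 := by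
    rw [c.hN, div_le_div_iff₀ (by linarith) (by norm_num)]
    linarith
  linarith [h2 k, h2 j]

theorem diagU (c : Ctx ι) : ∑ h ∈ c.U, c.A h h ^ 2 ≤ √c.Vb ^ 2 := by
  rw [c.sA.ok.sum_diag_sq, Real.sq_sqrt c.good.V0.le]
  exact c.sA.Vb

theorem delta (K : Matrix ι ι ℝ) (h g k j : ι) : full K h g k j - K k j
    = ap K h g * (K k h * K j h) + al K h g * (K k g * K j g)
      + be K h g * (K k h * K j g) + be K h g * (K j h * K k g) := by
  simp only [full, va, vb]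
  ring

theorem rowU (c : Ctx ι) (k : ι) : |∑ h ∈ c.U, c.A k h| ≤ 1 := by
  rw [sum_congr rfl fun h _ => c.sA.ok.symm k h, c.sA.ok.col_ba]
  split_ifs <;> simp

theorem T_le (c : Ctx ι) (k j : ι) : |c.S (fun h g => be c.A h g * (c.A k h * c.A j g))|
    ≤ 1 + c.KP * ((rS c.A k + rS c.A j) / 2) := by
  have h1 := c.P2 Ctx.coef_be (c.A k) (c.A j) (Real.sqrt_nonneg (rS c.A k))
    (Real.sqrt_nonneg (rS c.A j)) (by rw [Real.sq_sqrt (rS_nonneg _ _)]; exact sumU_sq _ _ _)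
    (by rw [Real.sq_sqrt (rS_nonneg _ _)]; exact sumU_sq _ _ _)
  have h2 : |(∑ h ∈ c.U, c.A k h) * ∑ g ∈ c.U, c.A j g| ≤ 1 := by
    rw [abs_mul]
    exact mul_le_one₀ (rowU c k) (abs_nonneg _) (rowU c j)
  have h3 : √(rS c.A k) * √(rS c.A j) ≤ (rS c.A k + rS c.A j) / 2 := by
    nlinarith [Real.sq_sqrt (rS_nonneg c.A k), Real.sq_sqrt (rS_nonneg c.A j),
      sq_nonneg (√(rS c.A k) - √(rS c.A j))]
  have h4 := mul_le_mul_of_nonneg_left h3 c.good.KP_nonneg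
  have h5 := abs_sub_abs_le_abs_sub (c.S (fun h g => be c.A h g * (c.A k h * c.A j g)))
    ((∑ h ∈ c.U, c.A k h) * ∑ g ∈ c.U, c.A j g)
  linarith

theorem sq4 (a b x y : ℝ) : (a + b + x + y) ^ 2 ≤ 4 * (a ^ 2 + b ^ 2 + x ^ 2 + y ^ 2) := by
  nlinarith [sq_nonneg (a - b), sq_nonneg (a - x), sq_nonneg (a - y), sq_nonneg (b - x),
    sq_nonneg (b - y), sq_nonneg (x - y)]

theorem coef2 {c : Ctx ι} {h g : ι} (hA : c.Allowed h g) :
    ap c.A h g ^ 2 ≤ 5 / 2 * c.A g g ^ 2 ∧ al c.A h g ^ 2 ≤ 5 / 2 * c.A h h ^ 2 ∧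
      be c.A h g ^ 2 ≤ 5 / 2 := by
  have a1 := pow_le_pow_left₀ (abs_nonneg _) hA.ap_bd 2
  have a2 := pow_le_pow_left₀ (abs_nonneg _) hA.al_bd 2
  have a3 := pow_le_pow_left₀ hA.be_bd.1.le hA.be_bd.2 2
  rw [mul_pow, sq_abs, sq_abs] at a1 a2
  exact ⟨by nlinarith [sq_nonneg (c.A g g)], by nlinarith [sq_nonneg (c.A h h)], by linarith⟩

end DRX

open DRX

namespace Ctx
variable (c : Ctx ι)

theorem dR_lin : c.S (fun h g => ∑ k, ∑ j, c.A k j ^ 3 * (full c.A h g k j - c.A k j))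
      ≤ c.N ^ 2 / c.r ^ 3 := by
  have H := c.good
  have hs := c.sA.ok.symm
  have h0 := H.r_pos
  have hN := H.N_pos
  have hsN := H.sN_pos
  have hKP := H.KP_nonneg
  have hW := H.W0
  have hP := H.Pa0
  let u : ι → ℝ := fun h => ∑ k, ∑ j, c.A k j ^ 3 * (c.A k h * c.A j h)
  have e : c.S (fun h g => ∑ k, ∑ j, c.A k j ^ 3 * (full c.A h g k j - c.A k j))
      = c.S (fun h g => io c.A h g * (u h * c.A g g))
        + c.S (fun h g => io c.A h g * (c.A h h * u g))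
        + ∑ k, ∑ j, c.A k j ^ 3 * (c.S (fun h g => be c.A h g * (c.A k h * c.A j g))
          + c.S (fun h g => be c.A h g * (c.A j h * c.A k g))) := by
    simp only [← S_add, ← S_mul, ← S_sum]
    refine c.S_congr fun h g _ => ?_
    simp only [u, mul_sum, sum_mul, ← sum_add_distrib, delta, ap, al, io]
    exact sum_congr rfl fun k _ => sum_congr rfl fun j _ => by ring
  have hu : ∑ h ∈ c.U, |u h| ≤ (1 + √c.Vb) * c.Wb := by
    calc _ ≤ ∑ h, |u h| := sumU_le _ fun _ => abs_nonneg _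
      _ ≤ ∑ h, ∑ k, ∑ j, (1 + √c.Vb) / 2 * (c.A k j ^ 2 * (c.A k h ^ 2 + c.A j h ^ 2)) := by
        refine sum_le_sum fun h _ => (abs_sum_le_sum_abs _ _).trans (sum_le_sum fun k _ =>
          (abs_sum_le_sum_abs _ _).trans (sum_le_sum fun j _ => ?_))
        rw [abs_mul, abs_pow]
        have a1 : |c.A k h * c.A j h| ≤ (c.A k h ^ 2 + c.A j h ^ 2) / 2 :=
          abs_le.2 ⟨by nlinarith [sq_nonneg (c.A k h + c.A j h)],
            by nlinarith [sq_nonneg (c.A k h - c.A j h)]⟩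
        exact (mul_le_mul (cube_le (ent c k j)) a1 (abs_nonneg _) (by positivity)).trans_eq
          (by ring)
      _ = (1 + √c.Vb) / 2 * ∑ k, ∑ j, c.A k j ^ 2 * (rS c.A k + rS c.A j) := by
        rw [sum_comm, mul_sum]
        refine sum_congr rfl fun k _ => ?_
        rw [sum_comm, mul_sum]
        refine sum_congr rfl fun j _ => ?_
        rw [← mul_sum, ← mul_sum, sum_add_distrib]
        rfl
      _ = (1 + √c.Vb) * fW c.A := by rw [wW hs]; ring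
      _ ≤ _ := by gcongr; exact c.sA.Wb
  have hm : |(∑ h ∈ c.U, u h) * ∑ g ∈ c.U, c.A g g| ≤ c.N ^ 2 / c.r ^ 4 := by
    rw [abs_mul, c.sA.ok.sum_diag]
    refine le_trans ?_ (le_D H 10 (by norm_num) (by positivity) (PaMW H))
    exact mul_le_mul ((abs_sum_le_sum_abs _ _).trans hu) c.sA.Pa (abs_nonneg _) (by positivity)
  have he : c.sN / c.r ^ 3 * ((∑ h ∈ c.U, |u h|) * √c.Vb) ≤ c.N ^ 2 / c.r ^ 4 := by
    refine le_D H 21 (by norm_num) (by positivity) ?_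
    calc _ ≤ c.r ^ 21 * (c.sN / c.r ^ 3 * ((1 + √c.Vb) * (c.r ^ 2 * c.N) * (1 + √c.Vb))) := by
          gcongr
          · exact hu.trans (by gcongr; exact H.W2)
          · linarith
      _ = c.sN * c.N * (c.r ^ 20 * (1 + √c.Vb) ^ 2) := by field_simp
      _ ≤ c.sN * c.N * c.sN := by gcongr; exact MM H
      _ = _ := by rw [← H.sq]; ring
  have t1 := abs_le.1 (c.P1 coef_io u (fun g => c.A g g) (Real.sqrt_nonneg _) (diagU c))
  have t2 := abs_le.1 (c.P1' coef_io u (fun g => c.A g g) (Real.sqrt_nonneg _) (diagU c))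
  have t3 : ∑ k, ∑ j, c.A k j ^ 3 * (c.S (fun h g => be c.A h g * (c.A k h * c.A j g))
      + c.S (fun h g => be c.A h g * (c.A j h * c.A k g)))
      ≤ 4 * ((1 + √c.Vb) * c.N) + 2 * (c.KP * (1 + √c.Vb) * c.Wb) := by
    calc _ ≤ ∑ k, ∑ j, (2 * (1 + √c.Vb) * c.A k j ^ 2
          + c.KP * (1 + √c.Vb) * (c.A k j ^ 2 * (rS c.A k + rS c.A j))) := by
          refine sum_le_sum fun k _ => sum_le_sum fun j _ => (le_abs_self _).trans ?_
          rw [abs_mul, abs_pow]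
          exact (mul_le_mul (cube_le (ent c k j)) ((abs_add_le _ _).trans
            (add_le_add (T_le c k j) (T_le c j k))) (abs_nonneg _) (by positivity)).trans_eq
            (by ring)
      _ = 2 * (1 + √c.Vb) * fE c.A + c.KP * (1 + √c.Vb) * (2 * fW c.A) := by
          simp only [sum_add_distrib, ← mul_sum, wW hs]
          rfl
      _ ≤ 2 * (1 + √c.Vb) * (2 * c.N) + c.KP * (1 + √c.Vb) * (2 * c.Wb) := by
          gcongr
          exacts [c.sA.E2 H, c.sA.Wb]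
      _ = _ := by ring
  have n1 : (1 + √c.Vb) * c.N ≤ c.N ^ 2 / c.r ^ 4 := by
    refine le_D H 30 (by norm_num) (by positivity) ?_
    calc _ ≤ c.r ^ 30 * (c.sN * c.N) := by gcongr; exact M_le H
      _ = c.r ^ 30 * c.sN * c.N := by ring
      _ ≤ c.N * c.N := by gcongr; exact sN_le H
      _ = _ := by ring
  have n2 : c.KP * (1 + √c.Vb) * c.Wb ≤ c.N ^ 2 / c.r ^ 4 := by
    refine le_D H 13 (by norm_num) (by positivity) ?_
    calc _ ≤ c.r ^ 13 * (c.KP * (1 + √c.Vb) * (c.r ^ 2 * c.N)) := by gcongr; exact H.W2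
      _ = c.r ^ 15 * (c.KP * (1 + √c.Vb)) * c.N := by ring
      _ ≤ c.N * c.N := by gcongr; exact KPM H
      _ = _ := by ring
  have hm' := abs_le.1 hm
  rw [e]
  rw [mul_comm (∑ h ∈ c.U, c.A h h)] at t2
  linarith [D_le H, D_nonneg H]

theorem dR_blk : c.S (fun h g => ∑ j, |c.A h j| ^ 3 * |full c.A h g h j - c.A h j|)
      ≤ 2 * c.N ^ 2 / c.r ^ 3 := by
  have H := c.good
  have hs := c.sA.ok.symm
  have h0 := H.r_pos
  have hN := H.N_pos
  have hsN := H.sN_pos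
  have hM : 0 ≤ 1 + √c.Vb := by positivity
  have h1 := c.S_le (f := fun h g => ∑ j, |c.A h j| ^ 3 * |full c.A h g h j - c.A h j|)
    (f' := fun h g => (1 + √c.Vb) ^ 2 * ∑ j, c.A h j ^ 2 * (c.sN * c.A j g ^ 2 + 1 / c.sN)
      + 32 / 10 * (c.dv h g * rR c.A h)) (fun h g hA => by
      rw [rR, mul_sum, mul_sum, mul_sum, ← sum_add_distrib]
      refine sum_le_sum fun j _ => ?_
      have a1 : full c.A h g h j - c.A h j
          = al c.A h g * c.A j g + (be c.A h g - 1) * c.A h j := by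
        rw [full_h hs (by linarith [hA.lam_ge]), vb, hs j h]
        ring
      have a2 : |c.A j g| ≤ (c.sN * c.A j g ^ 2 + 1 / c.sN) / 2 := by
        rw [le_div_iff₀ two_pos, ← sq_abs, ← sub_nonneg]
        have : c.sN * |c.A j g| ^ 2 + 1 / c.sN - |c.A j g| * 2
            = (c.sN * |c.A j g| - 1) ^ 2 / c.sN := by field_simp; ring
        rw [this]
        positivity
      have a3 : |al c.A h g| ≤ 2 * (1 + √c.Vb) := by
        linarith [hA.al_bd, ent c h h]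
      have a4 : |full c.A h g h j - c.A h j| ≤
          2 * (1 + √c.Vb) * ((c.sN * c.A j g ^ 2 + 1 / c.sN) / 2)
            + 32 / 10 * c.dv h g * |c.A h j| := by
        rw [a1]
        refine (abs_add_le _ _).trans ?_
        rw [abs_mul, abs_mul]
        gcongr
        exact hA.be_sub
      have a5 : c.A h j ^ 4 = |c.A h j| ^ 3 * |c.A h j| := by
        rw [← pow_succ, Even.pow_abs (by decide)]
      have a6 := mul_le_mul_of_nonneg_right (cube_le (ent c h j))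
        (by positivity : 0 ≤ (1 + √c.Vb) * (c.sN * c.A j g ^ 2 + 1 / c.sN))
      have a7 := mul_le_mul_of_nonneg_left a4 (by positivity : 0 ≤ |c.A h j| ^ 3)
      rw [a5]
      nlinarith)
    (fun h g => by have := c.dv_nonneg h g; have := rR_nonneg c.A h; positivity)
  have h2 : ∑ h ∈ c.U, ∑ g ∈ c.U, c.dv h g * rR c.A h ≤ c.N / c.r ^ 3 * (53 / 100 * c.N) := by
    calc _ ≤ ∑ h ∈ c.U, c.N / c.r ^ 3 * rR c.A h := sum_le_sum fun h _ => by
          rw [← sum_mul]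
          exact mul_le_mul_of_nonneg_right (c.row_dv1 h) (rR_nonneg _ _)
      _ = c.N / c.r ^ 3 * fR c.A := by rw [← mul_sum, c.sA.ok.sum_rR]
      _ ≤ _ := by gcongr; exact c.fR_le'
  have h3 : ∑ h ∈ c.U, ∑ g ∈ c.U, ∑ j, c.A h j ^ 2 * (c.sN * c.A j g ^ 2 + 1 / c.sN)
      ≤ c.sN * (3 * (c.r ^ 2 * c.N)) := by
    calc _ ≤ ∑ h ∈ c.U, ∑ j, c.sN * (c.A h j ^ 2 * rS c.A j + c.A h j ^ 2) := by
          refine sum_le_sum fun h _ => ?_
          rw [sum_comm]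
          refine sum_le_sum fun j _ => ?_
          rw [← mul_sum, sum_add_distrib, ← mul_sum, sum_const, nsmul_eq_mul, c.hN, ← H.sq]
          calc _ ≤ c.A h j ^ 2 * (c.sN * rS c.A j + c.sN ^ 2 * (1 / c.sN)) := by
                gcongr
                exact sumU_sq _ _ _
            _ = _ := by field_simp
      _ ≤ ∑ h, ∑ j, c.sN * (c.A h j ^ 2 * rS c.A j + c.A h j ^ 2) :=
          sumU_le _ fun h => sum_nonneg fun j _ => by have := rS_nonneg c.A j; positivity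
      _ = c.sN * (fW c.A + fE c.A) := by
          simp only [← mul_sum, sum_add_distrib, wsum' hs, ← sq]
          rfl
      _ ≤ _ := by
          gcongr
          have : c.N ≤ c.r ^ 2 * c.N := le_mul_of_one_le_left hN.le (one_le_pow₀ (r1 H))
          linarith [c.sA.E2 H, c.sA.W2 H]
  have n1 : (1 + √c.Vb) ^ 2 * (c.sN * (c.r ^ 2 * c.N)) ≤ c.N ^ 2 / c.r ^ 4 := by
    refine le_D H 18 (by norm_num) (by positivity) ?_
    calc _ = c.sN * c.N * (c.r ^ 20 * (1 + √c.Vb) ^ 2) := by ring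
      _ ≤ c.sN * c.N * c.sN := by gcongr; exact MM H
      _ = _ := by rw [← H.sq]; ring
  simp only [sum_add_distrib, ← mul_sum] at h1
  have h4 := mul_le_mul_of_nonneg_left h3 (sq_nonneg (1 + √c.Vb))
  have e1 : c.N / c.r ^ 3 * (53 / 100 * c.N) = 53 / 100 * (c.N ^ 2 / c.r ^ 3) := by ring
  have e2 : 2 * c.N ^ 2 / c.r ^ 3 = 2 * (c.N ^ 2 / c.r ^ 3) := by ring
  nlinarith [D_le H, D_nonneg H]

theorem cubeS : ∑ k, ∑ j, c.A k j ^ 2 * (rS c.A k * rS c.A j) ≤ c.r * c.sN * (c.r ^ 2 * c.N) := by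
  have H := c.good
  have h0 := H.r_pos
  have hsN := H.sN_pos
  calc _ ≤ ∑ k, ∑ j, c.A k j ^ 2 * (c.r * c.sN * rS c.A j) := by
        refine sum_le_sum fun k _ => sum_le_sum fun j _ => ?_
        gcongr
        exacts [rS_nonneg _ _, c.sA.rS_le H k]
    _ = c.r * c.sN * fW c.A := by
        rw [wsum' c.sA.ok.symm, fW, mul_sum]
        exact sum_congr rfl fun k _ => by ring
    _ ≤ _ := by gcongr; exact c.sA.W2 H

theorem dR_two : c.S (fun h g => ∑ k, ∑ j, c.A k j ^ 2 * (full c.A h g k j - c.A k j) ^ 2)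
      ≤ c.N ^ 2 / c.r ^ 3 := by
  have H := c.good
  have hs := c.sA.ok.symm
  have h0 := H.r_pos
  have hN := H.N_pos
  have hsN := H.sN_pos
  have hV := H.V0
  let F : ι → ι → ℝ := fun h g => ∑ k, ∑ j, c.A k j ^ 2 *
    (c.A k h ^ 2 * (c.A j h ^ 2 * c.A g g ^ 2 + c.A j g ^ 2))
  have hF0 : ∀ h g, 0 ≤ F h g := fun h g => sum_nonneg fun k _ => sum_nonneg fun j _ => by
    positivity
  have hF : ∑ h ∈ c.U, ∑ g ∈ c.U, F h g ≤ (c.Vb + 1) * (c.r * c.sN * (c.r ^ 2 * c.N)) := by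
    calc _ = ∑ k, ∑ j, c.A k j ^ 2 * ∑ h ∈ c.U, c.A k h ^ 2 *
          (c.A j h ^ 2 * ∑ g ∈ c.U, c.A g g ^ 2 + ∑ g ∈ c.U, c.A j g ^ 2) := by
          simp only [F, mul_sum, ← sum_add_distrib]
          simp only [sum_comm (s := c.U) (t := univ)]
      _ ≤ ∑ k, ∑ j, c.A k j ^ 2 * ∑ h ∈ c.U, c.A k h ^ 2 * (rS c.A j * c.Vb + rS c.A j) := by
          gcongr with k _ j _ h _
          · exact rS_nonneg _ _
          · exact sq_le_rS _ _ _
          · rw [c.sA.ok.sum_diag_sq]; exact c.sA.Vb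
          · exact sumU_sq _ _ _
      _ ≤ ∑ k, ∑ j, (c.Vb + 1) * (c.A k j ^ 2 * (rS c.A k * rS c.A j)) := by
          refine sum_le_sum fun k _ => sum_le_sum fun j _ => ?_
          rw [← sum_mul]
          have := rS_nonneg c.A j
          calc _ ≤ c.A k j ^ 2 * (rS c.A k * (rS c.A j * c.Vb + rS c.A j)) := by
                gcongr
                exact sumU_sq _ _ _
            _ = _ := by ring
      _ ≤ _ := by
          simp only [← mul_sum]
          gcongr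
          exact c.cubeS
  have h1 := c.S_le (f := fun h g => ∑ k, ∑ j, c.A k j ^ 2 * (full c.A h g k j - c.A k j) ^ 2)
    (f' := fun h g => 10 * (F h g + F g h)) (fun h g hA => by
      simp only [F, ← sum_add_distrib, mul_sum, ← mul_add]
      refine sum_le_sum fun k _ => sum_le_sum fun j _ => ?_
      rw [mul_left_comm, delta]
      refine mul_le_mul_of_nonneg_left ?_ (sq_nonneg _)
      obtain ⟨b1, b2, b3⟩ := coef2 hA
      have b4 := mul_le_mul_of_nonneg_right b1 (sq_nonneg (c.A k h * c.A j h))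
      have b5 := mul_le_mul_of_nonneg_right b2 (sq_nonneg (c.A k g * c.A j g))
      have b6 := mul_le_mul_of_nonneg_right b3 (sq_nonneg (c.A k h * c.A j g))
      have b7 := mul_le_mul_of_nonneg_right b3 (sq_nonneg (c.A j h * c.A k g))
      refine (sq4 _ _ _ _).trans ?_
      simp only [mul_pow] at b4 b5 b6 b7 ⊢
      linarith)
    (fun h g => by have := hF0 h g; have := hF0 g h; positivity)
  have n1 : (c.Vb + 1) * (c.r * c.sN * (c.r ^ 2 * c.N)) ≤ 2 * (c.N ^ 2 / c.r ^ 4) := by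
    have a1 : c.Vb * (c.r * c.sN * (c.r ^ 2 * c.N)) ≤ c.N ^ 2 / c.r ^ 4 := by
      refine le_D H 19 (by norm_num) (by positivity) ?_
      calc _ = c.r ^ 22 * c.Vb * (c.sN * c.N) := by ring
        _ ≤ c.sN * (c.sN * c.N) := by gcongr; exact H.Vb_le
        _ = _ := by rw [← H.sq]; ring
    have a2 : c.r * c.sN * (c.r ^ 2 * c.N) ≤ c.N ^ 2 / c.r ^ 4 := by
      refine le_D H 27 (by norm_num) (by positivity) ?_
      calc _ = c.r ^ 30 * c.sN * c.N := by ring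
        _ ≤ c.N * c.N := by gcongr; exact sN_le H
        _ = _ := by ring
    linarith
  simp only [sum_add_distrib, ← mul_sum] at h1
  rw [sum_comm (f := fun h g => F g h)] at h1
  linarith [D_le H, D_nonneg H]

end Ctx
end Vale.Agent.P049
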