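import Vale.Agent.P049.DTx

/-! P049: drift of the trace of the cube, linear part. -/

namespace Vale.Agent.P049
open Matrix Finset
variable {ι : Type} [Fintype ι] [DecidableEq ι]

namespace DTX
variable (c : Ctx ι)

theorem S_sm {f : ι → ι → ℝ} (H : ∀ h g, c.Allowed h g → f h g ^ 2 ≤
    20 * (rS c.A h ^ 2 * c.A g g ^ 2 + c.A g g ^ 2 + (c.A * c.A) h g ^ 2)) :
    c.S (fun h g => f h g ^ 2) ≤ (9 * (c.N / c.r ^ 10)) ^ 2 := by
  have h1 := S_three c (by norm_num) H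
  have h2 := three_le c
  nlinarith [sq_nonneg (c.N / c.r ^ 10)]

theorem sm_pos : 0 ≤ 9 * (c.N / c.r ^ 10) := by
  have := c.good.r_pos
  have := c.good.N_pos
  positivity

theorem sm_mul {f f' : ι → ι → ℝ} (H : ∀ h g, c.Allowed h g → f h g ^ 2 ≤
    20 * (rS c.A h ^ 2 * c.A g g ^ 2 + c.A g g ^ 2 + (c.A * c.A) h g ^ 2)) {k : ℝ} (hk : 0 ≤ k)
    (H' : c.S (fun h g => f' h g ^ 2) ≤ (k * c.r ^ 2 * c.Tb) ^ 2) :
    c.S (fun h g => |f h g| * |f' h g|) ≤ 9 * k * dl c := by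
  have h0 := c.good.r_pos
  have h1 := Tb_pos c
  have h2 := c.good.N_pos
  refine (c.S_cs f f' (sm_pos c) (by positivity) (S_sm c H) H').trans
    (small c 8 (by norm_num) (by positivity) (le_of_eq ?_))
  field_simp

theorem S_k3' : c.S (fun h g => (c.A * c.A * c.A) h g ^ 2) ≤ (2 * c.r ^ 2 * c.Tb) ^ 2 := by
  refine (S_k3 c).trans (pow_le_pow_left₀ (by linarith [Tb_pos c]) ?_ 2)
  have := one_le_pow₀ (n := 2) (r1 c)
  nlinarith [Tb_pos c]

theorem tA : -c.S (fun h g => be c.A h g * (c.s * (c.A * c.A * c.A) h h)) ≤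
    -(c.N * (c.s * fT c.A)) + 3 * dl c := by
  have h1 := (abs_le.1 (c.P0 c.coef_be fun h => c.s * (c.A * c.A * c.A) h h)).1
  simp only [abs_s, sum_d3] at h1
  have h0 := c.good.r_pos
  have h2 := c.good.N_pos
  have h3 : c.N / c.r ^ 3 * ∑ h ∈ c.U, |(c.A * c.A * c.A) h h| ≤ 3 * dl c := by
    refine (mul_le_mul_of_nonneg_left (sum_abs_d3 c) (by positivity)).trans
      (small c 3 (by norm_num) (by norm_num) (le_of_eq ?_))
    field_simp
  linarith

omit [DecidableEq ι] in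
theorem ip_tr (X Y : Matrix ι ι ℝ) : ip X Y = trace (X * Yᵀ) := rfl

theorem sumUU_ip {U : Finset ι} {K : Matrix ι ι ℝ} (hK : Ok U K) (Y : Matrix ι ι ℝ) :
    ∑ h ∈ U, ∑ g ∈ U, K h g * Y h g = ip K Y := by
  rw [sumU_eq fun h hh => by simp [hK.supp h _ hh]]
  exact sum_congr rfl fun h _ => sumU_eq fun g hg => by rw [hK.symm, hK.supp g _ hg, zero_mul]

theorem tilt : |c.a * ip c.B (c.A * c.A * c.A * c.A)| ≤ 2 * dl c := by
  have hs := c.sA.ok.symm
  have e : ip c.B (c.A * c.A * c.A * c.A) = ip (c.A * c.B) (c.A * c.A * c.A) := by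
    simp only [ip_tr, transpose_mul, TrBX.tr_eq hs, ← Matrix.mul_assoc]
    rw [trace_mul_comm]
    simp only [Matrix.mul_assoc]
  have h1 := ip_sq_le (c.A * c.B) (c.A * c.A * c.A)
  have h2 : fE (c.A * c.B) * fE (c.A * c.A * c.A) ≤ c.Cb * (3 * c.Tb ^ 2) :=
    mul_le_mul c.hC (f6_le c) (fE_nonneg _) ((fE_nonneg _).trans c.hC)
  have h3 := c.good.a_Cb
  have h0 := c.good.r_pos
  have h4 := mul_pos c.good.N_pos (Tb_pos c)
  refine small c 5 (by norm_num) (by norm_num) (le_sq_bb ?_ (by positivity))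
  rw [e, mul_pow, sq_abs, mul_pow]
  calc (c.r ^ 5) ^ 2 * (c.a ^ 2 * ip (c.A * c.B) (c.A * c.A * c.A) ^ 2)
      ≤ (c.r ^ 5) ^ 2 * (c.a ^ 2 * (c.Cb * (3 * c.Tb ^ 2))) := by
        gcongr
        exact h1.trans h2
    _ = c.r ^ 10 * c.a ^ 2 * c.Cb * (3 * c.Tb ^ 2) := by ring
    _ ≤ c.N ^ 2 * (3 * c.Tb ^ 2) := by gcongr
    _ ≤ _ := by nlinarith [sq_nonneg (c.N * c.Tb)]

theorem tB {θ : ℝ} (hθ : 0 ≤ θ) (hT : c.r ^ 2 * c.a * (θ ^ 3 + θ ^ 2 + 1) ≤ c.Tb) :
    c.S (fun h g => be c.A h g * (c.s * (c.A * c.A * c.A * c.A) h g)) ≤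
      -(c.a * θ ^ 2 * c.c3) + 10 * dl c := by
  have hs := c.sA.ok.symm
  have h0 := c.good.r_pos
  have hN := c.good.N_pos
  have hT0 := Tb_pos c
  have hL := c.good.L1
  have ha := c.good.a_nonneg
  have hq : ∑ h ∈ c.U, √(rS (c.A * c.A) h) ^ 2 ≤ √(fQ c.A) ^ 2 := by
    simp only [Real.sq_sqrt (rS_nonneg _ _), Real.sq_sqrt (Q0 c)]
    exact sumU_le _ fun h => rS_nonneg _ h
  have h1 := c.lemZ c.coef_be (fun h g => c.s * (c.A * c.A * c.A * c.A) h g)
    (fun h => √(rS (c.A * c.A) h)) (fun h => √(rS (c.A * c.A) h)) (z := 2 * c.L * c.Tb)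
    (fun _ => Real.sqrt_nonneg _) (fun _ => Real.sqrt_nonneg _)
    (fun h _ g _ => by
      rw [abs_s, ← Real.sqrt_mul (rS_nonneg _ _)]
      refine Real.abs_le_sqrt ?_
      rw [Matrix.mul_assoc (c.A * c.A)]
      refine (mul_apply_sq_le _ _ h g).trans (le_of_eq ?_)
      simp only [rS, TrBX.sym2 hs _ g])
    (by positivity) (Real.sqrt_nonneg _) (Real.sqrt_nonneg _)
    (by
      simp only [mul_pow, s_sq, one_mul]
      refine (sumUU_le _ _).trans ((c.sA.op.right hs _).trans ?_)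
      nlinarith [mul_le_mul_of_nonneg_left (f6_le c) (sq_nonneg c.L),
        mul_nonneg (sq_nonneg c.L) (sq_nonneg c.Tb)]) hq hq
  have e1 : ∑ h ∈ c.U, ∑ g ∈ c.U, c.s * (c.A * c.A * c.A * c.A) h g = c.s * c.N := by
    simp only [← mul_sum, c.sA.ok.sum_right, c.sA.ok.sum_all, c.hN]
  have e2 : ∑ h ∈ c.U, ∑ g ∈ c.U, (c.A h g + c.B h g) * (c.s * (c.A * c.A * c.A * c.A) h g) =
      c.s * trace (c.A * c.A * c.A * c.A * c.A) + c.s * ip c.B (c.A * c.A * c.A * c.A) := by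
    have e3 : trace (c.A * c.A * c.A * c.A * c.A) = ip c.A (c.A * c.A * c.A * c.A) := by
      simp only [ip_tr, transpose_mul, TrBX.tr_eq hs, Matrix.mul_assoc]
    rw [e3, ← sumUU_ip c.sA.ok, ← sumUU_ip c.sB.ok]
    simp only [mul_sum, ← sum_add_distrib]
    exact sum_congr rfl fun h _ => sum_congr rfl fun g _ => by ring
  rw [e1, e2, Real.mul_self_sqrt (Q0 c)] at h1
  have h2 := (abs_le.1 h1).2
  have h3 := mul_le_mul_of_nonneg_left (tr5_ge hs c.loA c.hs hθ) ha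
  have h4 : c.a * ((θ ^ 3 + θ ^ 2 + 1) * fE c.A) ≤ 2 * dl c := by
    refine small c 2 le_rfl (by norm_num) ?_
    have := mul_le_mul hT (c.sA.E2 c.good) (fE_nonneg _) hT0.le
    nlinarith
  have h5 : -(c.s * (c.a * ip c.B (c.A * c.A * c.A * c.A))) ≤ 2 * dl c :=
    (neg_le_abs _).trans ((abs_s c _).le.trans (tilt c))
  have h6 : c.s * c.N ≤ 1 * dl c := by
    refine (s_le c _).trans (small c 10 (by norm_num) (by norm_num) ?_)
    have h7 : 1 ≤ c.N := (one_le_pow₀ (r1 c)).trans c.good.N_ge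
    rw [abs_of_pos hN]
    nlinarith [c.good.MT2]
  have h7 : c.r * c.sN * (2 * c.L * c.Tb) ≤ 2 * dl c := by
    refine small c 9 (by norm_num) (by norm_num) ?_
    have := mul_le_mul_of_nonneg_left c.good.L_le (mul_pos c.good.sN_pos hT0).le
    rw [← c.good.sq]
    nlinarith
  have h8 : c.r * c.a ^ 2 * c.S0 * fQ c.A ≤ 3 * dl c := by
    refine small c 20 (by norm_num) (by norm_num) ?_
    have hS := c.good.S1
    calc c.r ^ 20 * (c.r * c.a ^ 2 * c.S0 * fQ c.A)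
        ≤ c.r ^ 20 * (c.r * c.a ^ 2 * c.S0 * (3 * c.L * c.Tb)) := by
          gcongr
          exact c.fQ_bd.1
      _ = c.r ^ 21 * c.a ^ 2 * c.S0 * c.L * (3 * c.Tb) := by ring
      _ ≤ c.N * (3 * c.Tb) := by
          gcongr
          exact c.good.M2
      _ = _ := by ring
  unfold Ctx.c3
  nlinarith

theorem tC : c.S (fun h g => io c.A h g * (rS (c.A * c.A) h * (c.s * c.A g g))) ≤ 10 * dl c := by
  have hs := c.sA.ok.symm
  have h0 := c.good.r_pos
  have hN := c.good.N_pos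
  have hT0 := Tb_pos c
  have hsN := c.good.sN_pos
  have hV := c.good.V0
  have hq : ∑ h ∈ c.U, rS (c.A * c.A) h ≤ fQ c.A := sumU_le _ fun h => rS_nonneg _ h
  have h1 := c.P2 c.coef_io (rS (c.A * c.A)) (fun g => c.s * c.A g g)
    (p := √(3 * (c.r * c.sN)) * c.Tb) (p' := √c.Vb) (by positivity) (by positivity)
    (by
      rw [mul_pow, Real.sq_sqrt (by positivity)]
      calc ∑ h ∈ c.U, rS (c.A * c.A) h ^ 2
          ≤ ∑ h ∈ c.U, c.L ^ 2 * (c.r * c.sN) * rS (c.A * c.A) h := by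
            refine sum_le_sum fun h _ => ?_
            rw [sq]
            exact mul_le_mul_of_nonneg_right ((c.sA.op.row hs _ h).trans
              (mul_le_mul_of_nonneg_left (c.sA.rS_le c.good h) (sq_nonneg _))) (rS_nonneg _ _)
        _ ≤ c.L ^ 2 * (c.r * c.sN) * fQ c.A := by
            rw [← mul_sum]
            exact mul_le_mul_of_nonneg_left hq (by positivity)
        _ ≤ _ := by nlinarith [mul_le_mul_of_nonneg_left c.f6_bd.2 (mul_pos h0 hsN).le])
    (by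
      simp only [mul_pow, s_sq, one_mul, c.sA.ok.sum_diag_sq, Real.sq_sqrt hV.le]
      exact c.sA.Vb)
  have h2 := (abs_le.1 h1).2
  rw [← mul_sum, c.sA.ok.sum_diag] at h2
  have h3 : (∑ h ∈ c.U, rS (c.A * c.A) h) * (c.s * fP c.A) ≤ 3 * dl c := by
    refine (mul_le_mul_of_nonneg_left c.sA.P (sum_nonneg fun h _ => rS_nonneg _ h)).trans
      ((mul_le_mul_of_nonneg_right (hq.trans c.fQ_bd.1) c.good.P0).trans
        (small c 20 (by norm_num) (by norm_num) ?_))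
    nlinarith [mul_le_mul_of_nonneg_right c.good.M5 hT0.le]
  have h4 : c.KP * (√(3 * (c.r * c.sN)) * c.Tb * √c.Vb) ≤ 7 * dl c := by
    refine small c 9 (by norm_num) (by norm_num) (le_sq_bb ?_ (by positivity))
    simp only [mul_pow]
    rw [Real.sq_sqrt (by positivity), Real.sq_sqrt hV.le]
    nlinarith [mul_le_mul_of_nonneg_right c.good.KP_sq_Vb (sq_nonneg c.Tb),
      mul_nonneg (sq_nonneg c.N) (sq_nonneg c.Tb)]
  linarith

theorem tD : c.S (fun h g => |ap c.A h g| * |(c.A * c.A * c.A) h g|) ≤ 9 * 2 * dl c :=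
  sm_mul c (fun h g H => by
    nlinarith [ap_sq H, sq_nonneg (c.A g g), sq_nonneg ((c.A * c.A) h g),
      mul_nonneg (sq_nonneg (rS c.A h)) (sq_nonneg (c.A g g))]) (by norm_num) (S_k3' c)

theorem nA : c.S (fun h g => be c.A h g ^ 2 * (rS c.A h * (c.s * (c.A * c.A * c.A) g g))) ≤
    fE c.A * (c.s * fT c.A) + 3 * dl c := by
  have h0 := c.good.r_pos
  have hsN := c.good.sN_pos
  have h1 := c.P1' c.coef_be_sq (fun g => c.s * (c.A * c.A * c.A) g g) (rS c.A)
    (p' := c.r * c.sN) (by positivity) (by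
      rw [c.sA.ok.sum_rS_sq, mul_pow, c.good.sq]
      exact c.sA.W2 c.good)
  have h2 := (abs_le.1 h1).2
  simp only [abs_s, sum_d3, c.sA.ok.sum_rS] at h2
  have h3 : c.sN / c.r ^ 3 * ((∑ h ∈ c.U, |(c.A * c.A * c.A) h h|) * (c.r * c.sN)) ≤
      3 * dl c := by
    refine (mul_le_mul_of_nonneg_left (mul_le_mul_of_nonneg_right (sum_abs_d3 c)
      (by positivity)) (by positivity)).trans (le_of_eq ?_)
    rw [dl, ← c.good.sq]
    field_simp
  linarith

theorem nB_pw {h g : ι} (H : c.Allowed h g) :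
    |be c.A h g * (-(be c.A h g * c.A h g) + al c.A h g * ((c.A * c.A) h g - c.A g g))| ≤
      2 * c.dv g h + (c.r ^ 6 * (c.m1 * c.A h h ^ 2) + 1 / c.r ^ 6) := by
  have h0 := c.good.r_pos
  have hb := H.be_bd
  have h1 : |c.A h g| + |c.A h h| * |c.A g g| ≤ c.dv g h := by
    rw [c.dv_comm, Ctx.dv]
    linarith [xx_bb c h g, abs_nonneg (c.B h g)]
  have h2 : 2 * (|c.A h h| * |(c.A * c.A) h g|) ≤
      c.r ^ 6 * (c.m1 * c.A h h ^ 2) + 1 / c.r ^ 6 := by
    have h3 := two_mul_le_add_sq (c.r ^ 3 * (|c.A h h| * |(c.A * c.A) h g|)) (1 / c.r ^ 3)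
    have e1 : 2 * (c.r ^ 3 * (|c.A h h| * |(c.A * c.A) h g|)) * (1 / c.r ^ 3) =
        2 * (|c.A h h| * |(c.A * c.A) h g|) := by field_simp
    have e2 : (1 / c.r ^ 3) ^ 2 = 1 / c.r ^ 6 := by field_simp
    rw [e1, e2, mul_pow, mul_pow, sq_abs, sq_abs, ← pow_mul, mul_comm (c.A h h ^ 2)] at h3
    refine h3.trans ?_
    gcongr
    exact H.l2_sq
  have h3 : |-(be c.A h g * c.A h g) + al c.A h g * ((c.A * c.A) h g - c.A g g)| ≤
      1042 / 1000 * |c.A h g| + 1031 / 1000 * |c.A h h| * (|(c.A * c.A) h g| + |c.A g g|) := by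
    refine (abs_add_le _ _).trans (add_le_add ?_ ?_)
    · rw [abs_neg, abs_mul, abs_of_pos hb.1]
      exact mul_le_mul_of_nonneg_right hb.2 (abs_nonneg _)
    · rw [abs_mul]
      exact mul_le_mul H.al_bd (abs_sub _ _) (abs_nonneg _) (by positivity)
  rw [abs_mul, abs_of_pos hb.1]
  refine (mul_le_mul hb.2 h3 (abs_nonneg _) (by norm_num)).trans ?_
  nlinarith [abs_nonneg (c.A h g), mul_nonneg (abs_nonneg (c.A h h)) (abs_nonneg (c.A g g)),
    mul_nonneg (abs_nonneg (c.A h h)) (abs_nonneg ((c.A * c.A) h g))]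

theorem nB : c.S (fun h g =>
    |be c.A h g * (-(be c.A h g * c.A h g) + al c.A h g * ((c.A * c.A) h g - c.A g g))| *
      |(c.A * c.A * c.A) g g|) ≤ 13 * dl c := by
  have h0 := c.good.r_pos
  have hN := c.good.N_pos
  have hm := m1_nonneg c
  refine (c.S_le (f' := fun h g => (2 * c.dv g h + (c.r ^ 6 * (c.m1 * c.A h h ^ 2) + 1 / c.r ^ 6)) *
    |(c.A * c.A * c.A) g g|) (fun h g H => mul_le_mul_of_nonneg_right (nB_pw c H) (abs_nonneg _))
    fun h g => by have := c.dv_nonneg g h; positivity).trans ?_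
  rw [sum_comm]
  have h1 : ∀ g, ∑ h ∈ c.U, (2 * c.dv g h + (c.r ^ 6 * (c.m1 * c.A h h ^ 2) + 1 / c.r ^ 6)) ≤
      4 * (c.N / c.r ^ 3) := fun g => by
    rw [sum_add_distrib, sum_add_distrib, ← mul_sum, ← mul_sum, ← mul_sum, c.sA.ok.sum_diag_sq,
      sum_const, nsmul_eq_mul, c.hN, mul_one_div]
    have h2 := c.row_dv1 g
    have h3 : c.r ^ 6 * (c.m1 * fV c.A) ≤ c.N / c.r ^ 3 := by
      refine div_le c (le_trans ?_ (m1V_le c))
      rw [← mul_assoc, ← pow_add]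
      exact mul_le_mul_of_nonneg_right (rpow c (by norm_num)) (mul_nonneg hm (V0 c))
    have h4 : c.N / c.r ^ 6 ≤ c.N / c.r ^ 3 :=
      div_le_div_of_nonneg_left hN.le (by positivity) (rpow c (by norm_num))
    linarith
  have h5 : ∑ g ∈ c.U, ∑ h ∈ c.U,
      (2 * c.dv g h + (c.r ^ 6 * (c.m1 * c.A h h ^ 2) + 1 / c.r ^ 6)) * |(c.A * c.A * c.A) g g| ≤
      4 * (c.N / c.r ^ 3) * (3 * c.Tb) := by
    refine le_trans (sum_le_sum fun g _ => ?_)
      ((mul_sum _ _ _).ge.trans (mul_le_mul_of_nonneg_left (sum_abs_d3 c) (by positivity)))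
    rw [← sum_mul]
    exact mul_le_mul_of_nonneg_right (h1 g) (abs_nonneg _)
  have h6 : 4 * (c.N / c.r ^ 3) * (3 * c.Tb) ≤ 12 * dl c := by
    refine small c 3 (by norm_num) (by norm_num) (le_of_eq ?_)
    field_simp
    ring
  linarith [dl_pos c]

theorem nC : c.S (fun h g => |n12 c.A h g * ap c.A h g| * |(c.A * c.A * c.A) h g|) ≤
    9 * 2 * dl c := by
  refine sm_mul c (fun h g H => ?_) (by norm_num) (S_k3' c)
  have e : n12 c.A h g * ap c.A h g = be c.A h g * ap c.A h g * rS c.A h +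
      -(be c.A h g * c.A h g * ap c.A h g) + al c.A h g * ap c.A h g * (c.A * c.A) h g +
      -(al c.A h g * ap c.A h g * c.A g g) := by
    unfold n12
    ring
  rw [e]
  refine (sq4 _ _ _ _).trans ?_
  simp only [neg_sq, mul_pow]
  have h1 := mul_le_mul_of_nonneg_right
    (mul_le_mul (be_sq H) (ap_sq H) (sq_nonneg _) (by norm_num)) (sq_nonneg (rS c.A h))
  have h2 := mul_le_mul (mul_le_mul (be_sq H) (g_sq H) (sq_nonneg _) (by norm_num)) (ap_sq H)
    (sq_nonneg _) (by norm_num)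
  have h3 : al c.A h g ^ 2 * ap c.A h g ^ 2 ≤ 1 := by
    nlinarith [mul_le_mul (al_sq H) (ap_sq H) (sq_nonneg _) (by positivity), xx_sq H]
  have h4 := mul_le_mul_of_nonneg_right h3 (sq_nonneg ((c.A * c.A) h g))
  have h5 := mul_le_mul_of_nonneg_right h3 (sq_nonneg (c.A g g))
  nlinarith [sq_nonneg ((c.A * c.A) h g), sq_nonneg (c.A g g),
    mul_nonneg (sq_nonneg (rS c.A h)) (sq_nonneg (c.A g g))]

theorem nD : c.S (fun h g =>
    |ap c.A h g * rS c.A h + be c.A h g * (c.A * c.A) h g| * |n12 c.A h g|) ≤ 9 * 3 * dl c := by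
  refine sm_mul c (fun h g H => ?_) (by norm_num) ?_
  · have h1 := mul_le_mul_of_nonneg_right (ap_sq H) (sq_nonneg (rS c.A h))
    have h2 := mul_le_mul_of_nonneg_right (be_sq H) (sq_nonneg ((c.A * c.A) h g))
    nlinarith [sq_nonneg ((c.A * c.A) h g), sq_nonneg (c.A g g),
      mul_nonneg (sq_nonneg (rS c.A h)) (sq_nonneg (c.A g g)),
      sq_nonneg (ap c.A h g * rS c.A h - be c.A h g * (c.A * c.A) h g)]
  · have hm := m1_nonneg c
    refine (c.S_mono fun h g H => n12_sq H).trans ((S_left c fun h => by positivity).trans ?_)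
    have h0 := c.good.r_pos
    have hN := c.good.N_pos
    have h1 := mul_le_mul_of_nonneg_left (sum_n12 c) hN.le
    have h2 : c.r * c.N ≤ c.r ^ 2 * c.Tb :=
      mul_le_mul (by nlinarith [r1 c]) (N_le c) hN.le (by positivity)
    have h3 := pow_le_pow_left₀ (by positivity) h2 2
    nlinarith [sq_nonneg (c.r * c.N)]

theorem S_sym (F : ι → ι → ℝ) : c.S (fun h g => 3 * (F h g + F g h)) = 6 * c.S F := by
  rw [c.S_mul, c.S_add, c.S_comm F]
  ring

end DTX

namespace Ctx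
variable (c : Ctx ι)
open DTX

theorem dT_t2 {θ : ℝ} (hθ : 0 ≤ θ) (hT : c.r ^ 2 * c.a * (θ ^ 3 + θ ^ 2 + 1) ≤ c.Tb) :
    c.S (fun h g => c.s * (3 * t2 c.A h g))
      ≤ -6 * c.N * (c.s * fT c.A) - 6 * c.a * θ ^ 2 * c.c3 + c.N * c.Tb / (4 * c.r) := by
  have hs := c.sA.ok.symm
  set F : ι → ι → ℝ := fun h g => io c.A h g * (rS (c.A * c.A) h * (c.s * c.A g g)) +
    |ap c.A h g| * |(c.A * c.A * c.A) h g| + be c.A h g * (c.s * (c.A * c.A * c.A * c.A) h g) -
    be c.A h g * (c.s * (c.A * c.A * c.A) h h) with hF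
  have h1 : c.S (fun h g => c.s * (3 * t2 c.A h g)) ≤ c.S fun h g => 3 * (F h g + F g h) := by
    refine c.S_mono fun h g _ => ?_
    have e1 := s_le c (-(ap c.A h g * (c.A * c.A * c.A) h g))
    have e2 := s_le c (-(al c.A h g * (c.A * c.A * c.A) h g))
    rw [abs_neg, abs_mul] at e1 e2
    simp only [hF]
    rw [io_comm hs h g, be_comm hs h g, ap_comm hs h g, TrBX.sym3 hs g h, TrBX.sym4 hs g h, t2]
    have e3 := ap_eq c.A h g
    have e4 := al_eq c.A h g
    linear_combination 3 * e1 + 3 * e2 + 3 * c.s * rS (c.A * c.A) h * e3 +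
      3 * c.s * rS (c.A * c.A) g * e4
  rw [S_sym, hF, c.S_sub, c.S_add, c.S_add] at h1
  linarith [tA c, tB c hθ hT, DTX.tC c, tD c, dl_le c, dl_pos c]

theorem dT_np : c.S (fun h g => c.s * (3 * (n12 c.A h g * p21 c.A h g + n21 c.A h g * p12 c.A h g)))
      ≤ 6 * fE c.A * (c.s * fT c.A) + c.N * c.Tb / (4 * c.r) := by
  have hs := c.sA.ok.symm
  have h1 : c.S (fun h g => c.s * (3 * (n12 c.A h g * p21 c.A h g + n21 c.A h g * p12 c.A h g))) =
      6 * c.S fun h g => c.s * (n12 c.A h g * p21 c.A h g) := by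
    rw [← S_sym]
    refine c.S_congr fun h g _ => ?_
    rw [n12_comm hs h g, p21_comm hs h g]
    ring
  have h2 : c.S (fun h g => c.s * (n12 c.A h g * p21 c.A h g)) ≤ c.S fun h g =>
      be c.A h g ^ 2 * (rS c.A h * (c.s * (c.A * c.A * c.A) g g)) +
      |be c.A h g * (-(be c.A h g * c.A h g) + al c.A h g * ((c.A * c.A) h g - c.A g g))| *
        |(c.A * c.A * c.A) g g| + |n12 c.A h g * ap c.A h g| * |(c.A * c.A * c.A) h g| +
      |ap c.A h g * rS c.A h + be c.A h g * (c.A * c.A) h g| * |n12 c.A h g| := by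
    refine c.S_mono fun h g _ => ?_
    have e1 := s_le c (be c.A h g * (-(be c.A h g * c.A h g) +
      al c.A h g * ((c.A * c.A) h g - c.A g g)) * (c.A * c.A * c.A) g g)
    have e2 := s_le c (n12 c.A h g * ap c.A h g * (c.A * c.A * c.A) h g)
    have e3 := s_le c (-((ap c.A h g * rS c.A h + be c.A h g * (c.A * c.A) h g) * n12 c.A h g))
    rw [abs_neg] at e3
    rw [abs_mul] at e1 e2 e3
    have e4 : n12 c.A h g = be c.A h g * (rS c.A h - c.A h g) +
      al c.A h g * ((c.A * c.A) h g - c.A g g) := rfl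
    rw [p21]
    linear_combination e1 + e2 + e3 + c.s * be c.A h g * (c.A * c.A * c.A) g g * e4
  rw [c.S_add, c.S_add, c.S_add] at h2
  linarith [nA c, nB c, nC c, nD c, dl_le c, dl_pos c]

end Ctx
end Vale.Agent.P049
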