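import Vale.Agent.P049.Tr
import Vale.Agent.P049.Spec
import Vale.Agent.P049.Avg

/-! P049: tools for the drift of the trace of the cube. -/

namespace Vale.Agent.P049
open Matrix Finset
variable {ι : Type} [Fintype ι] [DecidableEq ι]

namespace DTX

theorem sq4 (a b d e : ℝ) : (a + b + d + e) ^ 2 ≤ 4 * (a ^ 2 + b ^ 2 + d ^ 2 + e ^ 2) := by
  nlinarith [sq_nonneg (a - b), sq_nonneg (a - d), sq_nonneg (a - e), sq_nonneg (b - d),
    sq_nonneg (b - e), sq_nonneg (d - e)]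

theorem sq3 (a b d : ℝ) : (a + b + d) ^ 2 ≤ 3 * (a ^ 2 + b ^ 2 + d ^ 2) := by
  nlinarith [sq_nonneg (a - b), sq_nonneg (a - d), sq_nonneg (b - d)]

theorem sq_of_abs {a b : ℝ} (h : |a| ≤ 1031 / 1000 * |b|) : a ^ 2 ≤ 11 / 10 * b ^ 2 := by
  have h1 := pow_le_pow_left₀ (abs_nonneg a) h 2
  rw [mul_pow, sq_abs, sq_abs] at h1
  nlinarith [sq_nonneg b]

theorem ap_eq (K : Matrix ι ι ℝ) (h g : ι) : ap K h g = io K h g * K g g := by
  unfold ap io
  ring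

theorem al_eq (K : Matrix ι ι ℝ) (h g : ι) : al K h g = io K h g * K h h := by
  unfold al io
  ring

section symm
variable {K : Matrix ι ι ℝ} (hs : ∀ i j, K i j = K j i) (h g : ι)
include hs

theorem be_comm : be K g h = be K h g := by rw [be, be, lam_comm hs, hs]
theorem io_comm : io K g h = io K h g := by rw [io, io, lam_comm hs]
theorem ap_comm : ap K g h = al K h g := by rw [ap, al, lam_comm hs]
theorem al_comm : al K g h = ap K h g := by rw [ap, al, lam_comm hs]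

theorem n12_comm : n12 K g h = n21 K h g := by
  rw [n12, n21, be_comm hs, al_comm hs, hs g h, TrBX.sym2 hs g h, add_comm]
theorem n11_comm : n11 K g h = n22 K h g := by
  rw [n11, n22, be_comm hs, ap_comm hs, hs g h, TrBX.sym2 hs g h, add_comm]
theorem p21_comm : p21 K g h = p12 K h g := by
  rw [p21, p12, be_comm hs, ap_comm hs, TrBX.sym3 hs g h, TrBX.sym2 hs g h, add_comm]
theorem p11_comm : p11 K g h = p22 K h g := by
  rw [p11, p22, be_comm hs, ap_comm hs, TrBX.sym3 hs g h, TrBX.sym2 hs g h, add_comm]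

end symm

theorem sumU_le (U : Finset ι) {u : ι → ℝ} (hu : ∀ h, 0 ≤ u h) : ∑ h ∈ U, u h ≤ ∑ h, u h :=
  sum_le_sum_of_subset_of_nonneg (subset_univ U) fun h _ _ => hu h

theorem sumUU_le (U : Finset ι) (X : Matrix ι ι ℝ) : ∑ h ∈ U, ∑ g ∈ U, X h g ^ 2 ≤ fE X :=
  (sum_le_sum fun h _ => sumU_le U fun g => sq_nonneg (X h g)).trans
    (sumU_le U fun h => rS_nonneg X h)

theorem sumU_eq {U : Finset ι} {u : ι → ℝ} (hu : ∀ h ∉ U, u h = 0) : ∑ h ∈ U, u h = ∑ h, u h :=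
  sum_subset (subset_univ U) fun h _ hh => hu h hh

theorem supp_mul {U : Finset ι} {K : Matrix ι ι ℝ} (hK : Ok U K) (X : Matrix ι ι ℝ) {i : ι}
    (hi : i ∉ U) (j : ι) : (K * X) i j = 0 := by
  simp [Matrix.mul_apply, hK.supp i _ hi]

variable (c : Ctx ι)

theorem r_ge : (10 : ℝ) ^ 50 ≤ c.r := c.good.hr
theorem r1 : (1 : ℝ) ≤ c.r := le_trans (by norm_num) c.good.hr
theorem rpow {a b : ℕ} (h : a ≤ b) : c.r ^ a ≤ c.r ^ b := pow_le_pow_right₀ (r1 c) h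
theorem Tb_pos : 0 < c.Tb :=
  (mul_pos (pow_pos c.good.r_pos 10) c.good.N_pos).trans_le c.good.MT2
theorem sN_le : c.r ^ 30 * c.sN ≤ c.N := by
  rw [← c.good.sq, sq]
  exact mul_le_mul_of_nonneg_right c.good.big c.good.sN_pos.le
theorem sN_le' : c.sN ≤ c.N :=
  (le_mul_of_one_le_left c.good.sN_pos.le (one_le_pow₀ (r1 c))).trans (sN_le c)
theorem N_le : c.N ≤ c.Tb :=
  (le_mul_of_one_le_left c.good.N_pos.le (one_le_pow₀ (r1 c))).trans c.good.MT2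
theorem V0 : 0 ≤ fV c.A := sum_nonneg fun _ _ => sq_nonneg _
theorem W0 : 0 ≤ fW c.A := sum_nonneg fun _ _ => sq_nonneg _
theorem Q0 : 0 ≤ fQ c.A := fE_nonneg _
theorem V_le : c.r ^ 22 * fV c.A ≤ c.sN :=
  (mul_le_mul_of_nonneg_left c.sA.Vb (pow_pos c.good.r_pos 22).le).trans c.good.Vb_le
theorem WV_le : c.r ^ 20 * (fW c.A * fV c.A) ≤ c.N * c.sN := by
  have h1 := c.sA.W2 c.good
  have h2 := V_le c
  have h3 := c.good.r_pos
  calc c.r ^ 20 * (fW c.A * fV c.A) ≤ c.r ^ 20 * (c.r ^ 2 * c.N * fV c.A) := by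
        have := V0 c
        gcongr
    _ = c.N * (c.r ^ 22 * fV c.A) := by ring
    _ ≤ _ := mul_le_mul_of_nonneg_left h2 c.good.N_pos.le
theorem Q_le : c.r ^ 20 * fQ c.A ≤ 2 * c.N ^ 2 := by
  have h1 : fQ c.A ≤ 2 * c.L ^ 2 * c.N := c.fQ_bd.2.trans (min_le_left _ _)
  have h3 := c.good.r_pos
  calc c.r ^ 20 * fQ c.A ≤ c.r ^ 20 * (2 * c.L ^ 2 * c.N) := by gcongr
    _ = 2 * c.N * (c.r ^ 20 * c.L ^ 2) := by ring
    _ ≤ 2 * c.N * c.N := mul_le_mul_of_nonneg_left c.good.M1 (by linarith [c.good.N_pos])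
    _ = _ := by ring
theorem m1V_le : c.r ^ 12 * (c.m1 * fV c.A) ≤ c.N := by
  calc c.r ^ 12 * (c.m1 * fV c.A) = c.sN * (c.r ^ 22 * fV c.A) := by
        unfold Par.m1
        ring
    _ ≤ c.sN * c.sN := mul_le_mul_of_nonneg_left (V_le c) c.good.sN_pos.le
    _ = c.N := by rw [← sq, c.good.sq]
theorem m1_nonneg : 0 ≤ c.m1 := by
  have := c.good.r_pos
  have := c.good.sN_pos
  unfold Par.m1
  positivity
theorem f6_le : fE (c.A * c.A * c.A) ≤ 3 * c.Tb ^ 2 := c.f6_bd.1.trans c.f6_bd.2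
theorem s_sq : c.s ^ 2 = 1 := by rcases c.hs with h | h <;> simp [h]
theorem abs_s (x : ℝ) : |c.s * x| = |x| := by rcases c.hs with h | h <;> simp [h]
theorem s_le (x : ℝ) : c.s * x ≤ |x| := (le_abs_self _).trans (abs_s c x).le

/-- the unit of error -/
noncomputable def dl : ℝ := c.N * c.Tb / c.r ^ 2

theorem dl_pos : 0 < dl c := by
  have := c.good.r_pos
  have := c.good.N_pos
  have := Tb_pos c
  unfold dl
  positivity

theorem small {x k : ℝ} (n : ℕ) (hn : 2 ≤ n) (hk : 0 ≤ k) (h : c.r ^ n * x ≤ k * (c.N * c.Tb)) :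
    x ≤ k * dl c := by
  have h0 := c.good.r_pos
  rcases le_or_gt x 0 with hx | hx
  · exact hx.trans (mul_nonneg hk (dl_pos c).le)
  · rw [dl, ← mul_div_assoc, le_div_iff₀ (by positivity), mul_comm]
    exact (mul_le_mul_of_nonneg_right (rpow c hn) hx.le).trans h

theorem dl_le : 1000 * dl c ≤ c.N * c.Tb / (4 * c.r) := by
  have h0 := c.good.r_pos
  have h1 := mul_pos c.good.N_pos (Tb_pos c)
  have h2 : (4000 : ℝ) ≤ c.r := le_trans (by norm_num) c.good.hr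
  rw [dl, ← mul_div_assoc, div_le_div_iff₀ (by positivity) (by positivity)]
  nlinarith [mul_pos h1 h0]

theorem div_le {x y : ℝ} {n : ℕ} (h : c.r ^ n * x ≤ y) : x ≤ y / c.r ^ n := by
  rwa [le_div_iff₀ (pow_pos c.good.r_pos n), mul_comm]

theorem sum_d3 : ∑ h ∈ c.U, c.s * (c.A * c.A * c.A) h h = c.s * fT c.A := by
  rw [← mul_sum, sumU_eq fun h hh => by rw [Matrix.mul_assoc, supp_mul c.sA.ok _ hh]]
  rfl

theorem sum_abs_d3 : ∑ h ∈ c.U, |(c.A * c.A * c.A) h h| ≤ 3 * c.Tb := by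
  have h1 := sum_abs_diag3 c.sA.ok.symm c.loA c.hs
  have h2 := c.sA.Tb
  have h3 := c.sA.E2 c.good
  have h4 := N_le c
  exact (sumU_le _ fun _ => abs_nonneg _).trans (by linarith)

theorem S_prod {u v : ι → ℝ} (hu : ∀ h, 0 ≤ u h) (hv : ∀ h, 0 ≤ v h) :
    c.S (fun h g => u h * v g) ≤ 101 / 100 * ((∑ h ∈ c.U, u h) * ∑ g ∈ c.U, v g) := by
  rw [sum_mul_sum]
  exact c.S_le (fun _ _ _ => le_rfl) fun h g => mul_nonneg (hu h) (hv g)

theorem S_mat (X : Matrix ι ι ℝ) : c.S (fun h g => X h g ^ 2) ≤ 101 / 100 * fE X :=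
  (c.S_le (fun _ _ _ => le_rfl) fun _ _ => sq_nonneg _).trans
    (mul_le_mul_of_nonneg_left (sumUU_le _ X) (by norm_num))

theorem S_right {v : ι → ℝ} (hv : ∀ h, 0 ≤ v h) :
    c.S (fun _ g => v g) ≤ 101 / 100 * (c.N * ∑ g ∈ c.U, v g) := by
  have := S_prod c (u := fun _ => 1) (fun _ => zero_le_one) hv
  simpa only [one_mul, AvgX.sum_one] using this

theorem S_left {v : ι → ℝ} (hv : ∀ h, 0 ≤ v h) :
    c.S (fun h _ => v h) ≤ 101 / 100 * (c.N * ∑ g ∈ c.U, v g) := by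
  rw [← c.S_comm]
  exact S_right c hv

theorem S_x' : c.S (fun _ g => c.A g g ^ 2) ≤ 101 / 100 * (c.N * fV c.A) :=
  c.sA.ok.sum_diag_sq ▸ S_right c fun _ => sq_nonneg _

theorem S_S : c.S (fun h _ => rS c.A h ^ 2) ≤ 101 / 100 * (c.N * fW c.A) :=
  c.sA.ok.sum_rS_sq ▸ S_left c fun _ => sq_nonneg _

theorem S_S' : c.S (fun _ g => rS c.A g ^ 2) ≤ 101 / 100 * (c.N * fW c.A) :=
  c.sA.ok.sum_rS_sq ▸ S_right c fun _ => sq_nonneg _

theorem S_Sx : c.S (fun h g => rS c.A h ^ 2 * c.A g g ^ 2) ≤ 101 / 100 * (fW c.A * fV c.A) :=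
  c.sA.ok.sum_rS_sq ▸ c.sA.ok.sum_diag_sq ▸ S_prod c (fun _ => sq_nonneg _) fun _ => sq_nonneg _

theorem S_k2 : c.S (fun h g => (c.A * c.A) h g ^ 2) ≤ 101 / 100 * fQ c.A := S_mat c _

theorem S_k3 : c.S (fun h g => (c.A * c.A * c.A) h g ^ 2) ≤ (2 * c.Tb) ^ 2 := by
  have := S_mat c (c.A * c.A * c.A)
  have := f6_le c
  nlinarith [sq_nonneg c.Tb]

/-- the combination of the three small squares -/
theorem S_three {k : ℝ} (hk : 0 ≤ k) {f : ι → ι → ℝ} (H : ∀ h g, c.Allowed h g → f h g ≤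
    k * (rS c.A h ^ 2 * c.A g g ^ 2 + c.A g g ^ 2 + (c.A * c.A) h g ^ 2)) :
    c.S f ≤ 101 / 100 * k * (2 * (c.N * c.sN / c.r ^ 20) + fQ c.A) := by
  refine (c.S_mono H).trans ?_
  rw [c.S_mul, c.S_add, c.S_add, mul_comm (101 / 100 : ℝ) k, mul_assoc]
  refine mul_le_mul_of_nonneg_left ?_ hk
  have h1 := div_le c (WV_le c)
  have h2 : c.N * fV c.A ≤ c.N * c.sN / c.r ^ 20 := by
    refine div_le c ?_
    rw [mul_left_comm]
    exact mul_le_mul_of_nonneg_left ((mul_le_mul_of_nonneg_right (rpow c (by norm_num))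
      (V0 c)).trans (V_le c)) c.good.N_pos.le
  linarith [S_Sx c, S_x' c, S_k2 c]

theorem three_le : 2 * (c.N * c.sN / c.r ^ 20) + fQ c.A ≤ 4 * (c.N / c.r ^ 10) ^ 2 := by
  have h1 := div_le c (Q_le c)
  have h2 : c.N * c.sN / c.r ^ 20 ≤ c.N * c.N / c.r ^ 20 := by
    have := c.good.r_pos
    have := c.good.N_pos
    have := sN_le' c
    gcongr
  have e : (c.N / c.r ^ 10) ^ 2 = c.N * c.N / c.r ^ 20 := by ring
  have e2 : 2 * c.N ^ 2 / c.r ^ 20 = 2 * (c.N * c.N / c.r ^ 20) := by ring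
  linarith

section allowed
variable {c} {h g : ι} (H : c.Allowed h g)
include H

theorem be_sq : be c.A h g ^ 2 ≤ 11 / 10 := by
  have := H.be_bd
  nlinarith
theorem al_sq : al c.A h g ^ 2 ≤ 11 / 10 * c.A h h ^ 2 := sq_of_abs H.al_bd
theorem ap_sq : ap c.A h g ^ 2 ≤ 11 / 10 * c.A g g ^ 2 := sq_of_abs H.ap_bd
theorem g_sq : c.A h g ^ 2 ≤ 1 / 10000 := by
  have h1 := pow_le_pow_left₀ (abs_nonneg _) H.g_le 2
  rw [sq_abs] at h1
  linarith
theorem xx_sq : c.A h h ^ 2 * c.A g g ^ 2 ≤ 1 / 10000 := by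
  have h1 := pow_le_pow_left₀ (by positivity) H.xx_le 2
  rw [mul_pow, sq_abs, sq_abs] at h1
  linarith

theorem n12_sq : n12 c.A h g ^ 2 ≤ 5 * (rS c.A h ^ 2 + 1 + c.m1 * c.A h h ^ 2) := by
  have e : n12 c.A h g = be c.A h g * rS c.A h + -(be c.A h g * c.A h g) +
      al c.A h g * (c.A * c.A) h g + -(al c.A h g * c.A g g) := by
    unfold n12
    ring
  rw [e]
  refine (sq4 _ _ _ _).trans ?_
  simp only [neg_sq, mul_pow]
  have h1 := mul_le_mul_of_nonneg_right (be_sq H) (sq_nonneg (rS c.A h))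
  have h2 := mul_le_mul (be_sq H) (g_sq H) (sq_nonneg _) (by norm_num)
  have h3 := mul_le_mul (al_sq H) H.l2_sq (sq_nonneg _) (by positivity)
  have h4 := mul_le_mul_of_nonneg_right (al_sq H) (sq_nonneg (c.A g g))
  have h5 := xx_sq H
  have h6 := mul_nonneg (m1_nonneg c) (sq_nonneg (c.A h h))
  nlinarith [sq_nonneg (rS c.A h)]

theorem n11_sq : n11 c.A h g ^ 2 ≤
    5 * (rS c.A h ^ 2 * c.A g g ^ 2 + c.A g g ^ 2 + (c.A * c.A) h g ^ 2) := by
  have e : n11 c.A h g = ap c.A h g * rS c.A h + -(ap c.A h g * c.A h g) +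
      be c.A h g * (c.A * c.A) h g + -(be c.A h g * c.A g g) := by
    unfold n11
    ring
  rw [e]
  refine (sq4 _ _ _ _).trans ?_
  simp only [neg_sq, mul_pow]
  have h1 := mul_le_mul_of_nonneg_right (ap_sq H) (sq_nonneg (rS c.A h))
  have h2 := mul_le_mul (ap_sq H) (g_sq H) (sq_nonneg _) (by positivity)
  have h3 := mul_le_mul_of_nonneg_right (be_sq H) (sq_nonneg ((c.A * c.A) h g))
  have h4 := mul_le_mul_of_nonneg_right (be_sq H) (sq_nonneg (c.A g g))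
  nlinarith [sq_nonneg ((c.A * c.A) h g), sq_nonneg (c.A g g),
    mul_nonneg (sq_nonneg (rS c.A h)) (sq_nonneg (c.A g g))]

end allowed

theorem sum_n12 : ∑ h ∈ c.U, 5 * (rS c.A h ^ 2 + 1 + c.m1 * c.A h h ^ 2) ≤ 6 * c.r ^ 2 * c.N := by
  rw [← mul_sum, sum_add_distrib, sum_add_distrib, ← mul_sum, c.sA.ok.sum_rS_sq,
    c.sA.ok.sum_diag_sq, AvgX.sum_one]
  have h1 := c.sA.W2 c.good
  have h2 : c.m1 * fV c.A ≤ c.N := (le_mul_of_one_le_left
    (mul_nonneg (m1_nonneg c) (V0 c)) (one_le_pow₀ (r1 c))).trans (m1V_le c)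
  have h3 : (10 : ℝ) ≤ c.r ^ 2 := by nlinarith [r_ge c]
  nlinarith [c.good.N_pos]

end DTX
end Vale.Agent.P049
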