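import Vale.Agent.P049.DX

/-! P049: drift of the row sums, quadratic part. -/

namespace Vale.Agent.P049
open Matrix Finset
variable {ι : Type} [Fintype ι] [DecidableEq ι]

namespace DWY
open DX

theorem six (a b c d e f : ℝ) :
    (a + b + c + d + e + f) ^ 2 ≤ 6 * (a ^ 2 + b ^ 2 + c ^ 2 + d ^ 2 + e ^ 2 + f ^ 2) := by
  nlinarith [sq_nonneg (a - b), sq_nonneg (a - c), sq_nonneg (a - d), sq_nonneg (a - e),
    sq_nonneg (a - f), sq_nonneg (b - c), sq_nonneg (b - d), sq_nonneg (b - e), sq_nonneg (b - f),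
    sq_nonneg (c - d), sq_nonneg (c - e), sq_nonneg (c - f), sq_nonneg (d - e), sq_nonneg (d - f),
    sq_nonneg (e - f)]

theorem four (a b c d : ℝ) :
    (a + c + (b + d)) ^ 2 ≤ (3 * a ^ 2 + 6 * c ^ 2) + (3 * b ^ 2 + 6 * d ^ 2) := by
  nlinarith [sq_nonneg (a - b), sq_nonneg (a - (c + d)), sq_nonneg (b - (c + d)), sq_nonneg (c - d)]

variable (c : Ctx ι)

theorem Fr_sq {c : Ctx ι} {h g : ι} (H : c.Allowed h g) (k : ι) : Fr c.A h g k ^ 2 ≤
    30 * (c.A k h ^ 2 * (c.A * c.A) k g ^ 2)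
      + 30 * (c.A k h ^ 2 * (c.A * c.A) k h ^ 2 * c.A g g ^ 2)
      + 30 * (c.m1 + c.m2) * (c.A k h ^ 4 * c.A g g ^ 2)
      + 80 * (c.m1 + c.m2) * (c.A k h ^ 2 * c.A k g ^ 2) := by
  refine (six _ _ _ _ _ _).trans ?_
  have b1 := be_sq H
  have b2 := ap_sq H
  have b3 := xS H
  have b4 := H.l2_sq
  have m1 := m1_nonneg c.good
  have m2 := m2_nonneg c.good
  have x0 := sq_nonneg (c.A g g)
  have b5 : ap c.A h g ^ 2 * be c.A h g ^ 2 ≤ 12 / 10 * c.A g g ^ 2 := by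
    have := mul_le_mul b2 b1 (sq_nonneg _) (by positivity)
    linarith
  have b6 : (ap c.A h g * al c.A h g + be c.A h g ^ 2) ^ 2 ≤ 2 := by
    have b1 := abs_le.1 (apal H)
    have b3 := sq_nonneg (be c.A h g)
    nlinarith
  have b7 : ap c.A h g ^ 2 * (rS c.A h - 1) ^ 2 ≤ 3 * c.m2 := by
    have := mul_le_mul_of_nonneg_right b2 (sq_nonneg (rS c.A h - 1))
    linarith
  have p1 : 0 ≤ c.A k h ^ 2 * (c.A * c.A) k g ^ 2 := by positivity
  have p2 : 0 ≤ c.A k h ^ 2 * (c.A * c.A) k h ^ 2 := by positivity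
  have p3 : 0 ≤ c.A k h ^ 4 := by positivity
  have p4 : 0 ≤ c.A k h ^ 2 * c.A k g ^ 2 := by positivity
  have a1 := mul_le_mul_of_nonneg_right b1 p1
  have a2 := mul_le_mul_of_nonneg_right b2 p2
  have a3 := mul_le_mul_of_nonneg_right (mul_le_mul b2 b7 (by positivity) (by positivity)) p3
  have a4 := mul_le_mul_of_nonneg_right (mul_le_mul b5 b4 (by positivity) (by positivity)) p3
  have a5 := mul_le_mul_of_nonneg_right (mul_le_mul b6 b4 (by positivity) (by positivity)) p4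
  have a6 := mul_le_mul_of_nonneg_right (mul_le_mul b7 b1 (by positivity) (by positivity)) p4
  have q1 := mul_nonneg p2 x0
  have q2 := mul_nonneg m1 (mul_nonneg p3 x0)
  have q3 := mul_nonneg m2 (mul_nonneg p3 x0)
  have q4 := mul_nonneg m1 p4
  have q5 := mul_nonneg m2 p4
  linarith

theorem m12 : c.m1 + c.m2 ≤ 2 * (c.r ^ 10 * c.sN) := by
  have h1 := wk (k := 0) (r1 c.good) (m2_nonneg c.good) c.good.m2_le (by norm_num)
  have h2 := le_mul_of_one_le_left c.good.sN_pos.le (one_le_pow₀ (n := 10) (r1 c.good))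
  unfold Par.m1
  linarith

theorem ta : c.S (fun h g => ∑ k, Fa c.A h g k ^ 2) ≤ 4 / 3 * (fR c.A * (fW c.A + c.N)) := by
  have h1 := S_prod c (f := fun h g => ∑ k, Fa c.A h g k ^ 2) (C := 118 / 100) (rR c.A)
    (fun g => (rS c.A g - 1) ^ 2) (rR_nonneg _) (fun _ => sq_nonneg _) (by norm_num)
    (fun h g H => by
      rw [← col4, sum_mul, mul_sum]
      refine sum_le_sum fun k _ => ?_
      have a1 : (be c.A h g ^ 2) ^ 2 ≤ 118 / 100 := by nlinarith [be_sq H, sq_nonneg (be c.A h g)]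
      have a2 := mul_le_mul_of_nonneg_right a1
        (show 0 ≤ c.A k h ^ 4 * (rS c.A g - 1) ^ 2 by positivity)
      unfold Fa
      linarith) c.sA.ok.sum_rR.le (sum_S1 c)
  have h2 := mul_nonneg (fR_nonneg c.A) (add_nonneg (fW_nonneg c.A) c.good.N_pos.le)
  linarith

theorem tr : c.S (fun h g => ∑ k, Fr c.A h g k ^ 2) ≤ 300 * c.N ^ 2 := by
  have h0 := c.good.r_pos
  have h0' := c.good.sN_pos
  have hN := c.good.N_pos
  have hV := c.good.V0
  have m0 := add_nonneg (m1_nonneg c.good) (m2_nonneg c.good)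
  have h1 : c.S (fun h g => ∑ k, Fr c.A h g k ^ 2) ≤ c.S (fun h g =>
      30 * ∑ k, c.A k h ^ 2 * (c.A * c.A) k g ^ 2
      + 30 * ((∑ k, c.A k h ^ 2 * (c.A * c.A) k h ^ 2) * c.A g g ^ 2)
      + 30 * (c.m1 + c.m2) * (rR c.A h * c.A g g ^ 2)
      + 80 * (c.m1 + c.m2) * ∑ k, c.A k h ^ 2 * c.A k g ^ 2) := c.S_mono fun h g H => by
    rw [← col4, sum_mul, sum_mul, mul_sum, mul_sum, mul_sum, mul_sum, ← sum_add_distrib,
      ← sum_add_distrib, ← sum_add_distrib]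
    exact sum_le_sum fun k _ => Fr_sq H k
  rw [c.S_add, c.S_add, c.S_add] at h1
  have h2 := S_all c (C := 30) (a := c.L ^ 2 * (c.r ^ 2 * c.N))
    (fun h g => ∑ k, c.A k h ^ 2 * (c.A * c.A) k g ^ 2)
    (fun _ _ => sum_nonneg fun _ _ => by positivity) (by norm_num) (fun _ _ _ => le_rfl) (by
      rw [sum_congr rfl fun h _ => sum_comm, sum_comm]
      refine le_trans ?_ (mul_le_mul_of_nonneg_left (W2 c) (sq_nonneg _))
      rw [fW, mul_sum]
      refine sum_le_sum fun k _ => ?_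
      rw [← sum_mul_sum]
      have a1 := mul_le_mul (sumU c.U (fun h => c.A k h ^ 2) fun _ => sq_nonneg _) (row_M c k)
        (sum_nonneg fun _ _ => sq_nonneg _) (sum_nonneg fun _ _ => sq_nonneg _)
      refine a1.trans (le_of_eq ?_)
      unfold rS
      ring)
  have h3 := S_prod c (C := 30) (a := c.r * c.sN * (c.r ^ 2 * c.N))
    (fun h => ∑ k, c.A k h ^ 2 * (c.A * c.A) k h ^ 2) (fun g => c.A g g ^ 2)
    (fun _ => sum_nonneg fun _ _ => by positivity) (fun _ => sq_nonneg _) (by norm_num)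
    (fun _ _ _ => le_rfl) (by
      rw [sum_comm]
      refine le_trans ?_ (mul_le_mul_of_nonneg_left (W2 c) (mul_pos h0 h0').le)
      rw [fW, mul_sum]
      refine sum_le_sum fun k _ => ?_
      calc _ ≤ ∑ h ∈ c.U, c.A k h ^ 2 * (rS c.A k * (c.r * c.sN)) := sum_le_sum fun h _ =>
            mul_le_mul_of_nonneg_left ((M_sq c k h).trans
              (mul_le_mul_of_nonneg_left (Sm c h) (rS_nonneg _ _))) (sq_nonneg _)
        _ = (∑ h ∈ c.U, c.A k h ^ 2) * (rS c.A k * (c.r * c.sN)) := by rw [sum_mul]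
        _ ≤ rS c.A k * (rS c.A k * (c.r * c.sN)) := mul_le_mul_of_nonneg_right
            (sumU c.U (fun h => c.A k h ^ 2) fun _ => sq_nonneg _)
            (mul_nonneg (rS_nonneg _ _) (mul_pos h0 h0').le)
        _ = _ := by ring) (sum_x c)
  have h4 := S_prod c (C := 30 * (c.m1 + c.m2)) (rR c.A) (fun g => c.A g g ^ 2) (rR_nonneg _)
    (fun _ => sq_nonneg _) (by positivity) (fun _ _ _ => le_rfl) (sum_R c) (sum_x c)
  have h5 := S_all c (C := 80 * (c.m1 + c.m2)) (fun h g => ∑ k, c.A k h ^ 2 * c.A k g ^ 2)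
    (fun _ _ => sum_nonneg fun _ _ => by positivity) (by positivity) (fun _ _ _ => le_rfl)
    ((sum_kk c).trans (W2 c))
  have n2 : c.L ^ 2 * (c.r ^ 2 * c.N) ≤ c.N ^ 2 := by
    calc _ = c.N * (c.r ^ 2 * c.L ^ 2) := by ring
      _ ≤ c.N * c.N := by gcongr; exact rL c.good (by norm_num)
      _ = _ := (sq _).symm
  have n3 : c.r * c.sN * (c.r ^ 2 * c.N) * c.Vb ≤ c.N ^ 2 := by
    calc _ = c.sN * c.N * (c.r ^ 3 * c.Vb) := by ring
      _ ≤ c.sN * c.N * c.sN := by gcongr; exact rV c.good (by norm_num)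
      _ = _ := by rw [← c.good.sq]; ring
  have n4 : (c.m1 + c.m2) * (c.N * c.Vb) ≤ 2 * c.N ^ 2 := by
    calc _ ≤ 2 * (c.r ^ 10 * c.sN) * (c.N * c.Vb) := by gcongr; exact m12 c
      _ = 2 * (c.sN * c.N) * (c.r ^ 10 * c.Vb) := by ring
      _ ≤ 2 * (c.sN * c.N) * c.sN := by gcongr; exact rV c.good (by norm_num)
      _ = _ := by rw [← c.good.sq]; ring
  have n5 : (c.m1 + c.m2) * (c.r ^ 2 * c.N) ≤ 2 * c.N ^ 2 := by
    calc _ ≤ 2 * (c.r ^ 10 * c.sN) * (c.r ^ 2 * c.N) := by gcongr; exact m12 c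
      _ = 2 * (c.sN * c.N) * c.r ^ 12 := by ring
      _ ≤ 2 * (c.sN * c.N) * c.sN := by gcongr; exact rs c.good (by norm_num)
      _ = _ := by rw [← c.good.sq]; ring
  linarith [sq_nonneg c.N]

end DWY

open DX DWY

namespace Ctx
variable (c : Ctx ι)

theorem dW_sq : c.S (fun h g => ∑ k, dS c.A h g k ^ 2)
      ≤ 8 * fR c.A * (fW c.A + c.N) + c.r * c.N ^ 2 / 4 := by
  have h1 : c.S (fun h g => ∑ k, dS c.A h g k ^ 2) ≤ c.S (fun h g =>
      (3 * ∑ k, Fa c.A h g k ^ 2 + 6 * ∑ k, Fr c.A h g k ^ 2)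
        + (3 * ∑ k, Fa c.A g h k ^ 2 + 6 * ∑ k, Fr c.A g h k ^ 2)) := c.S_mono fun h g _ => by
    simp only [mul_sum, ← sum_add_distrib]
    exact sum_le_sum fun k _ => by rw [dS_split c.sA.ok.symm]; exact four _ _ _ _
  rw [c.S_add, c.S_comm fun h g => 3 * ∑ k, Fa c.A h g k ^ 2 + 6 * ∑ k, Fr c.A h g k ^ 2,
    c.S_add, c.S_mul, c.S_mul] at h1
  have h2 := mul_le_mul_of_nonneg_right c.good.hr (sq_nonneg c.N)
  linarith [ta c, DWY.tr c, sq_nonneg c.N]

end Ctx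
end Vale.Agent.P049
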