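import Vale.Agent.P049.DWa
import Vale.Agent.P049.DWb

/-! P049: drift of the row sums. -/

namespace Vale.Agent.P049
open Matrix Finset
variable {ι : Type} [Fintype ι] [DecidableEq ι]

namespace DWZ
open DX

theorem dS_h {K : Matrix ι ι ℝ} (hs : ∀ i j, K i j = K j i) {h g : ι} (hl : lam K h g ≠ 0) :
    dS K h g h = al K h g ^ 2 * rS K g + 2 * al K h g * be K h g * (K * K) h g
      + (be K h g ^ 2 - 1) * rS K h - (ap K h g * K h h + be K h g * K h g) ^ 2
      - al K h g ^ 2 := by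
  have e := dS_eq hs h g h
  have e1 : rS (full K h g) h = al K h g ^ 2 * rS K g
      + 2 * al K h g * be K h g * (K * K) h g + be K h g ^ 2 * rS K h := by
    simp only [mul_apply, rS, mul_sum, ← sum_add_distrib, full_h hs hl]
    exact sum_congr rfl fun l _ => by unfold vb; rw [hs h l, hs g l]; ring
  have e2 : vb K h g h = al K h g := by unfold vb al be; field_simp; ring
  rw [e1, e2, show va K h g h = ap K h g * K h h + be K h g * K h g from rfl] at e
  linarith

theorem blk_le {c : Ctx ι} {h g : ι} (H : c.Allowed h g) : rS c.A h * |dS c.A h g h| ≤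
    2 * (c.A h h ^ 2 * rS c.A h * rS c.A g) + 2 * c.sN * (c.A h h ^ 2 * 1)
      + 1 / c.sN * (rS c.A h ^ 2 * (c.A * c.A) h g ^ 2) + 20 * (rS c.A h ^ 2 * c.dv h g)
      + 1 * (rS c.A h * c.dv h g) + 2 * (c.A h h ^ 2 * rS c.A h * 1) := by
  have s0 := rS_nonneg c.A h
  have s1 := rS_nonneg c.A g
  have hs := c.good.sN_pos
  have d0 := c.dv_nonneg h g
  have x0 := sq_nonneg (c.A h h)
  have a1 := al_sq H
  have a2 := abs_le.1 (Ctx.coef_be_sq h g H)
  have a3 : (ap c.A h g * c.A h h + be c.A h g * c.A h g) ^ 2 ≤ c.dv h g := by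
    have b1 : |ap c.A h g * c.A h h + be c.A h g * c.A h g| ≤ 2 * c.dv h g := by
      refine (abs_add_le _ _).trans ?_
      rw [abs_mul, abs_mul, abs_of_pos H.be_bd.1]
      have c1 := mul_le_mul_of_nonneg_right H.ap_bd (abs_nonneg (c.A h h))
      have c2 := mul_le_mul_of_nonneg_right H.be_bd.2 (abs_nonneg (c.A h g))
      have c3 := xx_bb c h g
      have c4 := abs_nonneg (c.B h g)
      have c5 := abs_nonneg (c.A h g)
      have c6 : 0 ≤ |c.A h h| * |c.A g g| := by positivity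
      unfold Ctx.dv
      linarith
    have b2 := pow_le_pow_left₀ (abs_nonneg _) b1 2
    rw [sq_abs] at b2
    nlinarith [H.dv_le]
  have a4 : (al c.A h g * be c.A h g) ^ 2 ≤ 2 * c.A h h ^ 2 := by
    have := mul_le_mul a1 (be_sq H) (sq_nonneg _) (by positivity)
    rw [mul_pow]
    linarith
  have a5 := DWX.amgm (x := al c.A h g * be c.A h g) (y := rS c.A h * (c.A * c.A) h g) hs
  have a6 := DWX.amgm (x := -(al c.A h g * be c.A h g)) (y := rS c.A h * (c.A * c.A) h g) hs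
  have a7 := mul_le_mul_of_nonneg_left a4 hs.le
  have p1 := mul_le_mul_of_nonneg_right a1 (mul_nonneg s0 s1)
  have p2 := mul_le_mul_of_nonneg_right a1 s0
  have p3 := mul_le_mul_of_nonneg_right a2.1 (mul_nonneg s0 s0)
  have p4 := mul_le_mul_of_nonneg_right a2.2 (mul_nonneg s0 s0)
  have p5 := mul_le_mul_of_nonneg_right a3 s0
  have q1 := mul_nonneg x0 (mul_nonneg s0 s1)
  have q2 := mul_nonneg x0 s0
  have q3 := mul_nonneg (sq_nonneg (al c.A h g)) (mul_nonneg s0 s1)
  have q4 := mul_nonneg (sq_nonneg (al c.A h g)) s0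
  have q5 := mul_nonneg (sq_nonneg (ap c.A h g * c.A h h + be c.A h g * c.A h g)) s0
  have q6 := mul_nonneg d0 s0
  rw [← abs_of_nonneg s0, ← abs_mul, abs_of_nonneg s0, dS_h c.sA.ok.symm (lam_ne H), abs_le]
  constructor <;> linarith

end DWZ

open DX DWZ

namespace Ctx
variable (c : Ctx ι)

theorem dW_blk : c.S (fun h g => rS c.A h * |dS c.A h g h|) ≤ c.N ^ 2 := by
  have h0 := c.good.r_pos
  have h0' := c.good.sN_pos
  have hN := c.good.N_pos
  have hV := c.good.V0
  have h1 := c.S_mono fun h g H => blk_le (c := c) (h := h) (g := g) H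
  rw [c.S_add, c.S_add, c.S_add, c.S_add, c.S_add] at h1
  have sx : ∑ h ∈ c.U, c.A h h ^ 2 * rS c.A h ≤ c.Vb * (c.r * c.sN) := by
    refine le_trans (sum_le_sum fun h _ => mul_le_mul_of_nonneg_left (Sm c h) (sq_nonneg _)) ?_
    rw [← sum_mul]
    exact mul_le_mul_of_nonneg_right (sum_x c) (mul_pos h0 h0').le
  have h2 := S_prod c (C := 2) (fun h => c.A h h ^ 2 * rS c.A h) (rS c.A)
    (fun _ => mul_nonneg (sq_nonneg _) (rS_nonneg _ _)) (rS_nonneg _) (by norm_num)
    (fun _ _ _ => le_rfl) sx (sum_S c)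
  have h3 := S_prod c (C := 2 * c.sN) (fun h => c.A h h ^ 2) (fun _ => 1)
    (fun _ => sq_nonneg _) (fun _ => zero_le_one) (by positivity)
    (fun _ _ _ => le_rfl) (sum_x c) (sum_one_le c)
  have h4 := S_all c (C := 1 / c.sN) (a := c.r ^ 2 * c.N * (c.L ^ 2 * (c.r * c.sN)))
    (fun h g => rS c.A h ^ 2 * (c.A * c.A) h g ^ 2)
    (fun _ _ => by positivity) (by positivity) (fun _ _ _ => le_rfl) (by
      refine le_trans (sum_le_sum fun h _ => ?_) ((sum_mul _ _ _).symm.trans_le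
        (mul_le_mul_of_nonneg_right (sum_S2 c) (by positivity)))
      rw [← mul_sum]
      exact mul_le_mul_of_nonneg_left ((row_M c h).trans
        (mul_le_mul_of_nonneg_left (Sm c h) (sq_nonneg _))) (sq_nonneg _))
  have h5 := S_all c (C := 20) (a := c.r ^ 2 * c.N * (c.N / c.r ^ 3))
    (fun h g => rS c.A h ^ 2 * c.dv h g)
    (fun _ _ => mul_nonneg (sq_nonneg _) (c.dv_nonneg _ _)) (by positivity) (fun _ _ _ => le_rfl) (by
      refine le_trans (sum_le_sum fun h _ => ?_) ((sum_mul _ _ _).symm.trans_le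
        (mul_le_mul_of_nonneg_right (sum_S2 c) (by positivity)))
      rw [← mul_sum]
      exact mul_le_mul_of_nonneg_left (c.row_dv1 h) (sq_nonneg _))
  have h6 := S_all c (C := 1) (a := 2 * c.N * (c.N / c.r ^ 3))
    (fun h g => rS c.A h * c.dv h g)
    (fun _ _ => mul_nonneg (rS_nonneg _ _) (c.dv_nonneg _ _)) (by positivity)
    (fun _ _ _ => le_rfl) (by
      refine le_trans (sum_le_sum fun h _ => ?_) ((sum_mul _ _ _).symm.trans_le
        (mul_le_mul_of_nonneg_right (sum_S c) (by positivity)))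
      rw [← mul_sum]
      exact mul_le_mul_of_nonneg_left (c.row_dv1 h) (rS_nonneg _ _))
  have h7 := S_prod c (C := 2) (fun h => c.A h h ^ 2 * rS c.A h) (fun _ => 1)
    (fun _ => mul_nonneg (sq_nonneg _) (rS_nonneg _ _)) (fun _ => zero_le_one) (by norm_num)
    (fun _ _ _ => le_rfl) sx (sum_one_le c)
  have n1 : c.Vb * (c.r * c.sN) * c.N ≤ c.N ^ 2 / c.r := le_div c.good <| by
    calc _ = c.sN * c.N * (c.r ^ 2 * c.Vb) := by ring
      _ ≤ c.sN * c.N * c.sN := by gcongr; exact rV c.good (by norm_num)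
      _ = _ := by rw [← c.good.sq]; ring
  have n2 : c.sN * (c.Vb * c.N) ≤ c.N ^ 2 / c.r := le_div c.good <| by
    calc _ = c.sN * c.N * (c.r ^ 1 * c.Vb) := by ring
      _ ≤ c.sN * c.N * c.sN := by gcongr; exact rV c.good (by norm_num)
      _ = _ := by rw [← c.good.sq]; ring
  have n3 : 1 / c.sN * (c.r ^ 2 * c.N * (c.L ^ 2 * (c.r * c.sN))) ≤ c.N ^ 2 / c.r :=
    le_div c.good <| by
    calc _ = c.N * (c.r ^ 4 * c.L ^ 2) := by field_simp
      _ ≤ c.N * c.N := by gcongr; exact rL c.good (by norm_num)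
      _ = _ := (sq _).symm
  have n4 : c.r ^ 2 * c.N * (c.N / c.r ^ 3) = c.N ^ 2 / c.r := by field_simp
  have n5 : c.N * (c.N / c.r ^ 3) ≤ c.N ^ 2 / c.r := by
    calc _ = c.N ^ 2 / c.r ^ 3 := by ring
      _ ≤ c.N ^ 2 / c.r ^ 1 := by gcongr; exacts [r1 c.good, by norm_num]
      _ = _ := by rw [pow_one]
  have n6 : c.N ^ 2 / c.r ≤ c.N ^ 2 / 10 ^ 50 := by gcongr; exact c.good.hr
  linarith [sq_nonneg c.N]

theorem dW : c.S (fun h g => fW (step c.A h g) - fW c.A)
      ≤ -2 * c.N * fW c.A + 8 * fR c.A * (fW c.A + c.N) + c.r * c.N ^ 2 := by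
  have h0 := c.good.r_pos
  have hN := c.good.N_pos
  have h1 : c.S (fun h g => fW (step c.A h g) - fW c.A) ≤ c.S (fun h g =>
      2 * ∑ k, rS c.A k * dS c.A h g k + ∑ k, dS c.A h g k ^ 2
        + (2 * (rS c.A h * |dS c.A h g h|) - 1 * rS c.A h ^ 2)
        + (2 * (rS c.A g * |dS c.A g h g|) - 1 * rS c.A g ^ 2)) := c.S_mono fun h g H => by
    have e : ∀ k, rS (step c.A h g) k ^ 2 =
        if k = h ∨ k = g then 0 else (rS c.A k + dS c.A h g k) ^ 2 := fun k => by
      rw [rS_step c.sA.ok.symm H.ne (lam_ne H)]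
      split_ifs <;> simp
    have e2 : ∑ k, (rS c.A k + dS c.A h g k) ^ 2 = ∑ k, rS c.A k ^ 2 +
        (2 * ∑ k, rS c.A k * dS c.A h g k + ∑ k, dS c.A h g k ^ 2) := by
      simp only [mul_sum, ← sum_add_distrib]
      exact sum_congr rfl fun k _ => by ring
    simp only [fW, e]
    rw [sum_del_ta H.ne, e2, dS_comm c.sA.ok.symm h g g]
    have a1 := mul_le_mul_of_nonneg_left (neg_abs_le (dS c.A h g h)) (rS_nonneg c.A h)
    have a2 := mul_le_mul_of_nonneg_left (neg_abs_le (dS c.A h g g)) (rS_nonneg c.A g)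
    linarith [sq_nonneg (dS c.A h g h), sq_nonneg (dS c.A h g g)]
  rw [c.S_add, c.S_add, c.S_add,
    c.S_comm fun h g => 2 * (rS c.A h * |dS c.A h g h|) - 1 * rS c.A h ^ 2,
    c.S_sub (fun h g => 2 * (rS c.A h * |dS c.A h g h|)),
    c.S_mul 2 fun h g => rS c.A h * |dS c.A h g h|] at h1
  have h2 := (abs_le.1 (c.P0 coef_one fun h => rS c.A h ^ 2)).1
  simp only [abs_pow, sq_abs] at h2
  rw [c.sA.ok.sum_rS_sq] at h2
  have h3 : c.N / c.r ^ 3 * fW c.A ≤ c.N ^ 2 := by
    calc _ ≤ c.N / c.r ^ 3 * (c.r ^ 2 * c.N) := by gcongr; exact W2 c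
      _ = c.N ^ 2 / c.r := by field_simp
      _ ≤ c.N ^ 2 / 1 := by gcongr; exact r1 c.good
      _ = _ := div_one _
  have h4 := mul_le_mul_of_nonneg_right c.good.hr (sq_nonneg c.N)
  linarith [c.dW_lin, c.dW_sq, c.dW_blk, sq_nonneg c.N]

end Ctx
end Vale.Agent.P049
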