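import Vale.Agent.P049.DX

/-! P049: drift of the row sums, linear part. -/

namespace Vale.Agent.P049
open Matrix Finset
variable {ι : Type} [Fintype ι] [DecidableEq ι]

namespace DWX
open DX

noncomputable def St (K : Matrix ι ι ℝ) (h : ι) : ℝ := ∑ k, rS K k * K k h ^ 2
noncomputable def ff (K : Matrix ι ι ℝ) (h : ι) : ℝ := ∑ k, rS K k * (K k h * (K * K) k h)
noncomputable def G (K : Matrix ι ι ℝ) (h g : ι) : ℝ := ∑ k, rS K k * (K k h * K k g)

theorem lin_eq (K : Matrix ι ι ℝ) (h g : ι) : ∑ k, rS K k * (Fa K h g k + Fr K h g k) =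
    be K h g ^ 2 * (St K h * (rS K g - 1))
      + 2 * ∑ k, rS K k * (be K h g * (K k h * (K * K) k g))
      + 2 * (io K h g * (ff K h * K g g))
      + ap K h g ^ 2 * (rS K h - 1) * St K h
      + 2 * ap K h g * be K h g * (K * K) h g * St K h
      + (ap K h g * al K h g + be K h g ^ 2) * (K * K) h g * G K h g
      + 2 * ap K h g * be K h g * (rS K h - 1) * G K h g := by
  simp only [St, ff, G, mul_sum, sum_mul, ← sum_add_distrib]
  refine sum_congr rfl fun k _ => ?_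
  unfold Fa Fr ap io
  ring

omit [DecidableEq ι] in
theorem St_nonneg (K : Matrix ι ι ℝ) (h : ι) : 0 ≤ St K h :=
  sum_nonneg fun k _ => mul_nonneg (sum_nonneg fun _ _ => sq_nonneg _) (sq_nonneg _)

omit [DecidableEq ι] in
theorem sum_St' (K : Matrix ι ι ℝ) : ∑ h, St K h = fW K := by
  unfold St
  rw [sum_comm]
  exact sum_congr rfl fun k _ => by rw [← mul_sum, sq (rS K k)]; rfl

omit [DecidableEq ι] in
theorem sum_G (K : Matrix ι ι ℝ) : ∑ h, ∑ g, G K h g ^ 2 =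
    ∑ k, ∑ j, rS K k * rS K j * (∑ h, K k h * K j h) ^ 2 := by
  calc ∑ h, ∑ g, G K h g ^ 2 = ∑ p : ι × ι, ∑ q : ι × ι,
        rS K q.1 * rS K q.2 * (K q.1 p.1 * K q.2 p.1 * (K q.1 p.2 * K q.2 p.2)) := by
        simp only [Fintype.sum_prod_type, G, sq, sum_mul_sum]
        exact sum_congr rfl fun h _ => sum_congr rfl fun g _ => sum_congr rfl fun k _ =>
          sum_congr rfl fun j _ => by ring
    _ = _ := by
        rw [sum_comm]
        simp only [Fintype.sum_prod_type]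
        refine sum_congr rfl fun k _ => sum_congr rfl fun j _ => ?_
        rw [sq (∑ h, _), sum_mul_sum]
        simp only [mul_sum]

variable (c : Ctx ι)

theorem sum_St : ∑ h ∈ c.U, St c.A h ≤ c.r ^ 2 * c.N :=
  (sumU _ _ (St_nonneg c.A)).trans ((sum_St' c.A).trans_le (W2 c))

theorem sum_G2 : ∑ h ∈ c.U, ∑ g ∈ c.U, G c.A h g ^ 2 ≤ (c.r ^ 2 * c.N) ^ 2 := by
  refine (sumU2 _ _ fun _ _ => sq_nonneg _).trans ?_
  rw [sum_G]
  refine le_trans ?_ (pow_le_pow_left₀ (fW_nonneg _) (W2 c) 2)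
  rw [sq (fW c.A), fW, sum_mul_sum]
  refine sum_le_sum fun k _ => sum_le_sum fun j _ => ?_
  have h1 := mul_le_mul_of_nonneg_left (sum_mul_sq_le_sq_mul_sq univ (c.A k) (c.A j))
    (mul_nonneg (rS_nonneg c.A k) (rS_nonneg c.A j))
  refine h1.trans (le_of_eq ?_)
  unfold rS
  ring

theorem sum_ff : ∑ h ∈ c.U, ff c.A h ^ 2 ≤ (√(c.r * c.sN) * (c.r ^ 2 * c.N)) ^ 2 := by
  have h0 : 0 ≤ c.r * c.sN := (mul_pos c.good.r_pos c.good.sN_pos).le
  have h1 : ∀ h, ff c.A h ^ 2 ≤ St c.A h * (c.r * c.sN * (c.r ^ 2 * c.N)) := fun h => by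
    have h2 := sum_mul_sq_le_sq_mul_sq univ (fun k => √(rS c.A k) * c.A k h)
      fun k => √(rS c.A k) * (c.A * c.A) k h
    have e : ∀ k (x y : ℝ), √(rS c.A k) * x * (√(rS c.A k) * y) = rS c.A k * (x * y) :=
      fun k x y => by rw [mul_mul_mul_comm, Real.mul_self_sqrt (rS_nonneg _ _)]
    simp only [e, mul_pow, Real.sq_sqrt (rS_nonneg _ _)] at h2
    refine h2.trans (mul_le_mul_of_nonneg_left ?_ (St_nonneg _ _))
    refine le_trans ?_ (mul_le_mul_of_nonneg_left (W2 c) h0)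
    rw [fW, mul_sum]
    refine sum_le_sum fun k _ => ?_
    have h3 := (M_sq c k h).trans (mul_le_mul_of_nonneg_left (Sm c h) (rS_nonneg _ k))
    have h4 := mul_le_mul_of_nonneg_left h3 (rS_nonneg c.A k)
    linarith
  refine (sum_le_sum fun h _ => h1 h).trans ?_
  rw [← sum_mul, mul_pow, Real.sq_sqrt h0]
  have h5 : 0 ≤ c.r ^ 2 * c.N := mul_nonneg (sq_nonneg _) c.good.N_pos.le
  have h6 := mul_le_mul_of_nonneg_right (sum_St c) (mul_nonneg h0 h5)
  linarith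

theorem rN2 : c.r ^ 2 * c.N ≤ c.N ^ 2 := by
  rw [sq c.N]
  exact mul_le_mul_of_nonneg_right (rN c.good (by norm_num)) c.good.N_pos.le

theorem ta : c.S (fun h g => be c.A h g ^ 2 * (St c.A h * (rS c.A g - 1))) ≤ 3 * c.N ^ 2 := by
  have h0 := c.good.r_pos
  have h0' := c.good.sN_pos
  have hN := c.good.N_pos
  have h1 := (abs_le.1 (c.P1 Ctx.coef_be_sq (St c.A) (fun g => rS c.A g - 1)
    (p' := 2 * c.r * c.sN) (by positivity) ((sum_S1' c).trans (by
      rw [mul_pow, mul_pow, c.good.sq]; nlinarith [mul_pos (pow_pos h0 2) hN])))).2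
  simp only [abs_of_nonneg (St_nonneg c.A _)] at h1
  have h2 : ∑ g ∈ c.U, (rS c.A g - 1) ≤ 1 := by
    rw [sum_sub_distrib, c.sA.ok.sum_rS, AvgX.sum_one]
    linarith [c.sA.E1]
  have h3 := mul_le_mul_of_nonneg_left h2 (sum_nonneg fun h (_ : h ∈ c.U) => St_nonneg c.A h)
  have h4 : c.sN / c.r ^ 3 * ((∑ h ∈ c.U, St c.A h) * (2 * c.r * c.sN)) ≤ 2 * c.N ^ 2 := by
    calc _ ≤ c.sN / c.r ^ 3 * ((c.r ^ 2 * c.N) * (2 * c.r * c.sN)) := by
          gcongr; exact sum_St c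
      _ = 2 * (c.N * c.sN ^ 2) := by field_simp
      _ = _ := by rw [c.good.sq]; ring
  linarith [sum_St c, rN2 c]

theorem tilt (k : ι) : -(rS (c.A * c.B) k / 4) ≤
    ∑ h ∈ c.U, ∑ g ∈ c.U, (c.A h g + c.B h g) * (c.A k h * (c.A * c.A) k g) := by
  have e1 : ∀ g, ∑ h ∈ c.U, (c.A h g + c.B h g) * (c.A k h * (c.A * c.A) k g) =
      ((c.A * c.A) k g + (c.A * c.B) k g) * (c.A * c.A) k g := fun g => by
    rw [sum_subset (subset_univ c.U) fun h _ hh => by
      rw [c.sA.ok.symm k h, c.sA.ok.supp h k hh]; simp]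
    conv_rhs => rw [add_mul, mul_apply, mul_apply (M := c.A) (N := c.B), sum_mul, sum_mul,
      ← sum_add_distrib]
    exact sum_congr rfl fun h _ => by rw [mul_apply]; ring
  rw [sum_comm]
  simp only [e1]
  have h1 : ∑ g ∈ c.U, (c.A * c.B) k g ^ 2 ≤ rS (c.A * c.B) k := sumU _ _ fun _ => sq_nonneg _
  have h2 : ∑ g ∈ c.U, -((c.A * c.B) k g ^ 2 / 4) ≤ ∑ g ∈ c.U,
      ((c.A * c.A) k g + (c.A * c.B) k g) * (c.A * c.A) k g :=
    sum_le_sum fun g _ => by nlinarith [sq_nonneg ((c.A * c.A) k g + (c.A * c.B) k g / 2)]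
  rw [sum_neg_distrib, ← sum_div] at h2
  linarith

theorem tc1 : ∑ k, rS c.A k * c.S (fun h g => be c.A h g * (c.A k h * (c.A * c.A) k g))
    ≤ 5 * c.N ^ 2 := by
  have h0 := c.good.r_pos
  have h0' := c.good.sN_pos
  have hN := c.good.N_pos
  have ha := c.good.a_nonneg
  have hL := L0 c.good
  have h1 : ∀ k, rS c.A k * c.S (fun h g => be c.A h g * (c.A k h * (c.A * c.A) k g))
      ≤ rS c.A k + c.a * (c.r * c.sN) / 4 * rS (c.A * c.B) k
        + 2 * c.r * c.sN * c.L * rS c.A k ^ 2 := fun k => by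
    have h2 : ∑ h ∈ c.U, c.A k h ^ 2 ≤ √(rS c.A k) ^ 2 := by
      rw [Real.sq_sqrt (rS_nonneg _ _)]
      exact sumU _ _ fun _ => sq_nonneg _
    have h3 : ∑ h ∈ c.U, (c.A * c.A) k h ^ 2 ≤ (c.L * √(rS c.A k)) ^ 2 := by
      rw [mul_pow, Real.sq_sqrt (rS_nonneg _ _)]
      exact row_M c k
    have h4 := (abs_le.1 (c.lemR Ctx.coef_be (c.A k) ((c.A * c.A) k) (Real.sqrt_nonneg _)
      (by positivity) h2 h3)).2
    rw [c.sA.ok.sum_right, row_sum, mul_left_comm (√(rS c.A k)),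
      Real.mul_self_sqrt (rS_nonneg _ _)] at h4
    have h5 : (if k ∈ c.U then (1 : ℝ) else 0) * (if k ∈ c.U then 1 else 0) ≤ 1 := by
      split_ifs <;> norm_num
    have h6 := mul_le_mul_of_nonneg_left (tilt c k) ha
    have h7 : c.S (fun h g => be c.A h g * (c.A k h * (c.A * c.A) k g)) ≤
        1 + c.a / 4 * rS (c.A * c.B) k + 2 * c.r * c.sN * c.L * rS c.A k := by linarith
    have h8 := mul_le_mul_of_nonneg_left h7 (rS_nonneg c.A k)
    have h9 := mul_le_mul_of_nonneg_right (Sm c k)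
      (mul_nonneg ha (rS_nonneg (c.A * c.B) k))
    linarith
  refine (sum_le_sum fun k _ => h1 k).trans ?_
  rw [sum_add_distrib, sum_add_distrib, ← mul_sum, ← mul_sum]
  have h2 : ∑ k, rS c.A k ≤ 2 * c.N ^ 2 := by
    have : fE c.A ≤ 2 * c.N := c.sA.E2 c.good
    nlinarith [N1 c.good, show ∑ k, rS c.A k = fE c.A from rfl]
  have h3 : c.a * (c.r * c.sN) / 4 * ∑ k, rS (c.A * c.B) k ≤ c.N ^ 2 := by
    have h4 : c.r ^ 1 * (c.a * c.Cb) ≤ c.N * c.sN :=
      wk (m := 10) (r1 c.good) (mul_nonneg ha ((fE_nonneg _).trans c.hC))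
        (by linarith [c.good.MC2]) (by norm_num)
    have h5 := mul_le_mul_of_nonneg_left h4 h0'.le
    have h6 : c.sN * (c.N * c.sN) = c.N ^ 2 := by rw [← c.good.sq]; ring
    have h7 : c.a * (c.r * c.sN) / 4 * ∑ k, rS (c.A * c.B) k ≤ c.a * (c.r * c.sN) / 4 * c.Cb := by
      gcongr; exact c.hC
    nlinarith [sq_nonneg c.N]
  have h4 : 2 * c.r * c.sN * c.L * ∑ k, rS c.A k ^ 2 ≤ 2 * c.N ^ 2 := by
    calc _ ≤ 2 * c.r * c.sN * c.L * (c.r ^ 2 * c.N) := by gcongr; exact W2 c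
      _ = 2 * (c.sN * c.N) * (c.r ^ 3 * c.L) := by ring
      _ ≤ 2 * (c.sN * c.N) * c.sN := by
          gcongr; exact wk (r1 c.good) hL c.good.L_le (by norm_num)
      _ = _ := by rw [← c.good.sq]; ring
  linarith

theorem sum_ff_eq : ∑ h ∈ c.U, ff c.A h = ∑ k, rS c.A k * (c.A * c.A * c.A) k k := by
  rw [sum_subset (subset_univ c.U) fun h _ hh => by
    simp [ff, c.sA.ok.symm _ h, c.sA.ok.supp h _ hh]]
  unfold ff
  rw [sum_comm]
  refine sum_congr rfl fun k _ => ?_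
  rw [← mul_sum, mul_apply]
  congr 1
  exact sum_congr rfl fun h _ => by rw [c.sA.ok.symm h k, mul_comm]

theorem tc2 : c.S (fun h g => io c.A h g * (ff c.A h * c.A g g)) ≤ 5 * c.N ^ 2 := by
  have h0 := c.good.r_pos
  have h0' := c.good.sN_pos
  have hN := c.good.N_pos
  have hL := L0 c.good
  have hV := c.good.V0
  have hK := c.good.KP_nonneg
  have h1 := (abs_le.1 (c.P2 Ctx.coef_io (ff c.A) (fun g => c.A g g) (by positivity)
    (Real.sqrt_nonneg c.Vb) (sum_ff c)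
    (by rw [Real.sq_sqrt c.good.V0.le]; exact sum_x c))).2
  rw [c.sA.ok.sum_diag, sum_ff_eq] at h1
  have h2 : c.KP * (√(c.r * c.sN) * (c.r ^ 2 * c.N) * √c.Vb) ≤ 4 * c.N ^ 2 := by
    have h3 : c.r ^ 2 * (c.KP * (√(c.r * c.sN) * √c.Vb)) ≤ 4 * c.N := by
      refine le_sq_bb ?_ (by positivity)
      simp only [mul_pow, Real.sq_sqrt hV.le, Real.sq_sqrt (mul_pos h0 h0').le]
      have := wk (k := 4) (m := 18) (X := c.KP ^ 2 * c.Vb * (c.r * c.sN)) (r1 c.good)
        (by positivity) (le_trans (le_of_eq (by ring)) c.good.KP_sq_Vb) (by norm_num)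
      linarith
    have h4 := mul_le_mul_of_nonneg_left h3 hN.le
    linarith
  have hW := W2 c
  have hW0 := fW_nonneg c.A
  have h3 : -fW c.A ≤ c.s * ∑ k, rS c.A k * (c.A * c.A * c.A) k k := by
    rw [fW, ← sum_neg_distrib, mul_sum]
    refine sum_le_sum fun k _ => ?_
    have := mul_le_mul_of_nonneg_left (diag3_ge c.sA.ok.symm c.loA k) (rS_nonneg c.A k)
    linarith
  have hs : |c.s| = 1 := by rcases c.hs with h | h <;> simp [h]
  have h4 : c.s * ∑ k, rS c.A k * (c.A * c.A * c.A) k k ≤ c.L * fW c.A := by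
    refine (le_abs_self _).trans ?_
    rw [abs_mul, hs, one_mul, fW, mul_sum]
    refine (abs_sum_le_sum_abs _ _).trans (sum_le_sum fun k _ => ?_)
    have := mul_le_mul_of_nonneg_left (diag3_abs c.sA.ok.symm c.sA.op hL k) (rS_nonneg c.A k)
    rw [abs_mul, abs_of_nonneg (rS_nonneg _ _)]
    linarith
  have h5 : (∑ k, rS c.A k * (c.A * c.A * c.A) k k) * fP c.A ≤ c.N ^ 2 := by
    have e : (∑ k, rS c.A k * (c.A * c.A * c.A) k k) * fP c.A =
        (c.s * ∑ k, rS c.A k * (c.A * c.A * c.A) k k) * (c.s * fP c.A) := by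
      rcases c.hs with h | h <;> rw [h] <;> ring
    rw [e]
    rcases le_total 0 (c.s * fP c.A) with h6 | h6
    · have h7 : c.r ^ 2 * (c.P * c.L) ≤ c.N := wk (m := 20) (r1 c.good) (mul_nonneg c.good.P0 hL)
        (by linarith [c.good.M5]) (by norm_num)
      calc _ ≤ c.L * fW c.A * (c.s * fP c.A) := mul_le_mul_of_nonneg_right h4 h6
        _ ≤ c.L * (c.r ^ 2 * c.N) * c.P := by gcongr; exact c.sA.P
        _ = c.N * (c.r ^ 2 * (c.P * c.L)) := by ring
        _ ≤ c.N * c.N := by gcongr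
        _ = _ := (sq _).symm
    · have h7 : c.r ^ 2 * c.Pa ≤ c.N := wk (r1 c.good) c.good.Pa0.le c.good.M5' (by norm_num)
      have h8 : -(c.s * fP c.A) ≤ c.Pa := by
        refine (neg_le_abs _).trans ?_
        rw [abs_mul, hs, one_mul]
        exact c.sA.Pa
      calc _ ≤ -fW c.A * (c.s * fP c.A) := mul_le_mul_of_nonpos_right h3 h6
        _ = fW c.A * -(c.s * fP c.A) := by ring
        _ ≤ (c.r ^ 2 * c.N) * c.Pa := mul_le_mul hW h8 (by linarith) (by positivity)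
        _ = c.N * (c.r ^ 2 * c.Pa) := by ring
        _ ≤ c.N * c.N := by gcongr
        _ = _ := (sq _).symm
  linarith

theorem tc3 : c.S (fun h g => ap c.A h g ^ 2 * (rS c.A h - 1) * St c.A h) ≤ 2 * c.N ^ 2 := by
  have h0 := c.good.r_pos
  have h0' := c.good.sN_pos
  have hN := c.good.N_pos
  have h1 := S_prod c (f := fun h g => ap c.A h g ^ 2 * (rS c.A h - 1) * St c.A h)
    (C := 1063 / 1000 * (c.r * c.sN)) (St c.A) (fun g => c.A g g ^ 2) (St_nonneg _)
    (fun _ => sq_nonneg _) (by positivity) (fun h g H => by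
      have a1 : ap c.A h g ^ 2 * (rS c.A h - 1) ≤ 1063 / 1000 * c.A g g ^ 2 * (c.r * c.sN) :=
        (mul_le_mul_of_nonneg_left (by linarith [Sm c h]) (sq_nonneg _)).trans
          (mul_le_mul_of_nonneg_right (ap_sq H) (mul_pos h0 h0').le)
      have a2 := mul_le_mul_of_nonneg_right a1 (St_nonneg c.A h)
      linarith) (sum_St c) (sum_x c)
  have h2 : c.r * c.sN * (c.r ^ 2 * c.N * c.Vb) ≤ c.N ^ 2 := by
    calc _ = c.sN * c.N * (c.r ^ 3 * c.Vb) := by ring
      _ ≤ c.sN * c.N * c.sN := by gcongr; exact rV c.good (by norm_num)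
      _ = _ := by rw [← c.good.sq]; ring
  nlinarith [sq_nonneg c.N]

theorem amgm {x y t : ℝ} (ht : 0 < t) : 2 * x * y ≤ t * x ^ 2 + 1 / t * y ^ 2 := by
  have : t * x ^ 2 + 1 / t * y ^ 2 - 2 * x * y = (t * x - y) ^ 2 / t := by field_simp; ring
  have h2 : 0 ≤ (t * x - y) ^ 2 / t := by positivity
  linarith

theorem apbe {c : Ctx ι} {h g : ι} (H : c.Allowed h g) :
    (ap c.A h g * be c.A h g) ^ 2 ≤ 12 / 10 * c.A g g ^ 2 := by
  have := mul_le_mul (ap_sq H) (be_sq H) (sq_nonneg _) (by positivity)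
  rw [mul_pow]
  nlinarith [sq_nonneg (c.A g g)]

theorem tc4 : c.S (fun h g => 2 * ap c.A h g * be c.A h g * (c.A * c.A) h g * St c.A h)
    ≤ 3 * c.N ^ 2 := by
  have h0 := c.good.r_pos
  have h0' := c.good.sN_pos
  have hN := c.good.N_pos
  have h1 : c.S (fun h g => 2 * ap c.A h g * be c.A h g * (c.A * c.A) h g * St c.A h) ≤
      c.S (fun h g => 12 / 10 * c.sN * (St c.A h * c.A g g ^ 2)
        + 1 / c.sN * (St c.A h * (c.A * c.A) h g ^ 2)) := c.S_mono fun h g H => by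
    have a1 := amgm (x := ap c.A h g * be c.A h g) (y := (c.A * c.A) h g) h0'
    have a2 := mul_le_mul_of_nonneg_left (apbe H) h0'.le
    have a3 := mul_le_mul_of_nonneg_right (a1.trans (add_le_add_left a2 _)) (St_nonneg c.A h)
    linarith
  rw [c.S_add] at h1
  have h2 := S_prod c (C := 12 / 10 * c.sN) (St c.A) (fun g => c.A g g ^ 2) (St_nonneg _)
    (fun _ => sq_nonneg _) (by positivity) (fun _ _ _ => le_rfl) (sum_St c) (sum_x c)
  have h3 := S_all c (C := 1 / c.sN) (a := c.r ^ 2 * c.N * (c.L ^ 2 * (c.r * c.sN)))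
    (fun h g => St c.A h * (c.A * c.A) h g ^ 2)
    (fun _ _ => mul_nonneg (St_nonneg _ _) (sq_nonneg _)) (by positivity) (fun _ _ _ => le_rfl) (by
      refine le_trans (sum_le_sum fun h _ => ?_) ((sum_mul _ _ _).symm.trans_le
        (mul_le_mul_of_nonneg_right (sum_St c) (by positivity)))
      rw [← mul_sum]
      exact mul_le_mul_of_nonneg_left ((row_M c h).trans
        (mul_le_mul_of_nonneg_left (Sm c h) (sq_nonneg _))) (St_nonneg _ _))
  have h4 : c.sN * (c.r ^ 2 * c.N * c.Vb) ≤ c.N ^ 2 := by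
    calc _ = c.sN * c.N * (c.r ^ 2 * c.Vb) := by ring
      _ ≤ c.sN * c.N * c.sN := by gcongr; exact rV c.good (by norm_num)
      _ = _ := by rw [← c.good.sq]; ring
  have h5 : 1 / c.sN * (c.r ^ 2 * c.N * (c.L ^ 2 * (c.r * c.sN))) ≤ c.N ^ 2 := by
    calc _ = c.N * (c.r ^ 3 * c.L ^ 2) := by field_simp
      _ ≤ c.N * c.N := by gcongr; exact rL c.good (by norm_num)
      _ = _ := (sq _).symm
  nlinarith [sq_nonneg c.N]

theorem tG : c.S (fun h g => 1 / c.r ^ 4 * G c.A h g ^ 2) ≤ 101 / 100 * c.N ^ 2 := by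
  have h0 := c.good.r_pos
  have h3 := S_all c (C := 1 / c.r ^ 4) (fun h g => G c.A h g ^ 2) (fun _ _ => sq_nonneg _)
    (by positivity) (fun _ _ _ => le_rfl) (sum_G2 c)
  refine h3.trans (le_of_eq ?_)
  field_simp

theorem tc5 : c.S (fun h g => (ap c.A h g * al c.A h g + be c.A h g ^ 2) * (c.A * c.A) h g
    * G c.A h g) ≤ 3 * c.N ^ 2 := by
  have h0 := c.good.r_pos
  have hN := c.good.N_pos
  have h1 : c.S (fun h g => (ap c.A h g * al c.A h g + be c.A h g ^ 2) * (c.A * c.A) h g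
      * G c.A h g) ≤ c.S (fun h g => c.r ^ 4 / 2 * (c.A * c.A) h g ^ 2
        + 1 / c.r ^ 4 * G c.A h g ^ 2) := c.S_mono fun h g H => by
    have a1 := amgm (x := (ap c.A h g * al c.A h g + be c.A h g ^ 2) / 2 * (c.A * c.A) h g)
      (y := G c.A h g) (pow_pos h0 4)
    have a2 : ((ap c.A h g * al c.A h g + be c.A h g ^ 2) / 2) ^ 2 ≤ 1 / 2 := by
      have b1 := abs_le.1 (apal H)
      have b2 := be_sq H
      have b3 := sq_nonneg (be c.A h g)
      nlinarith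
    have a3 := mul_le_mul_of_nonneg_right a2
      (show 0 ≤ c.r ^ 4 * (c.A * c.A) h g ^ 2 by positivity)
    linarith
  rw [c.S_add] at h1
  have h2 := S_all c (C := c.r ^ 4 / 2) (fun h g => (c.A * c.A) h g ^ 2) (fun _ _ => sq_nonneg _)
    (by positivity) (fun _ _ _ => le_rfl) (sum_M c)
  have h4 : c.r ^ 4 / 2 * (c.L ^ 2 * (2 * c.N)) ≤ c.N ^ 2 := by
    calc _ = c.N * (c.r ^ 4 * c.L ^ 2) := by ring
      _ ≤ c.N * c.N := by gcongr; exact rL c.good (by norm_num)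
      _ = _ := (sq _).symm
  nlinarith [sq_nonneg c.N, tG c]

theorem tc6 : c.S (fun h g => 2 * ap c.A h g * be c.A h g * (rS c.A h - 1) * G c.A h g)
    ≤ 4 * c.N ^ 2 := by
  have h0 := c.good.r_pos
  have h0' := c.good.sN_pos
  have hN := c.good.N_pos
  have h1 : c.S (fun h g => 2 * ap c.A h g * be c.A h g * (rS c.A h - 1) * G c.A h g) ≤
      c.S (fun h g => 12 / 10 * c.r ^ 4 * ((rS c.A h - 1) ^ 2 * c.A g g ^ 2)
        + 1 / c.r ^ 4 * G c.A h g ^ 2) := c.S_mono fun h g H => by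
    have a1 := amgm (x := ap c.A h g * be c.A h g * (rS c.A h - 1)) (y := G c.A h g) (pow_pos h0 4)
    have a2 := mul_le_mul_of_nonneg_right (apbe H)
      (show 0 ≤ c.r ^ 4 * (rS c.A h - 1) ^ 2 by positivity)
    linarith
  rw [c.S_add] at h1
  have h2 := S_prod c (C := 12 / 10 * c.r ^ 4) (fun h => (rS c.A h - 1) ^ 2)
    (fun g => c.A g g ^ 2) (fun _ => sq_nonneg _)
    (fun _ => sq_nonneg _) (by positivity) (fun _ _ _ => le_rfl) (sum_S1' c) (sum_x c)
  have h4 : c.r ^ 4 * (c.r ^ 2 * c.N * c.Vb) ≤ c.N ^ 2 := by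
    have h5 : c.sN ≤ c.N := by
      rw [← ss c.good]
      exact le_mul_of_one_le_left h0'.le (by simpa using rs c.good (Nat.zero_le 30))
    calc _ = c.N * (c.r ^ 6 * c.Vb) := by ring
      _ ≤ c.N * c.N := by gcongr; exact (rV c.good (by norm_num)).trans h5
      _ = _ := (sq _).symm
  nlinarith [sq_nonneg c.N, tG c]

end DWX

open DX DWX

namespace Ctx
variable (c : Ctx ι)

theorem dW_lin : c.S (fun h g => 2 * ∑ k, rS c.A k * dS c.A h g k) ≤ c.r * c.N ^ 2 / 4 := by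
  have e : ∀ h g, ∑ k, rS c.A k * dS c.A h g k = ∑ k, rS c.A k * (Fa c.A h g k + Fr c.A h g k)
      + ∑ k, rS c.A k * (Fa c.A g h k + Fr c.A g h k) := fun h g => by
    rw [← sum_add_distrib]
    exact sum_congr rfl fun k _ => by rw [dS_split c.sA.ok.symm, mul_add]
  rw [c.S_mul, c.S_congr fun h g _ => e h g, c.S_add,
    c.S_comm fun h g => ∑ k, rS c.A k * (Fa c.A h g k + Fr c.A h g k),
    c.S_congr fun h g _ => lin_eq c.A h g, c.S_add, c.S_add, c.S_add, c.S_add, c.S_add, c.S_add,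
    c.S_mul, c.S_mul, c.S_sum]
  simp only [c.S_mul]
  have h1 := mul_le_mul_of_nonneg_right c.good.hr (sq_nonneg c.N)
  nlinarith [ta c, tc1 c, tc2 c, tc3 c, tc4 c, tc5 c, tc6 c, sq_nonneg c.N]

end Ctx
end Vale.Agent.P049
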