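import Vale.Agent.P049.Tr
import Vale.Agent.P049.Spec
import Vale.Agent.P049.Avg

/-! P049: common tools for the drift of `fV` and `fW`. -/

namespace Vale.Agent.P049
open Matrix Finset
variable {ι : Type} [Fintype ι] [DecidableEq ι]

namespace DX

theorem wk {r X Y : ℝ} (hr : 1 ≤ r) (hX : 0 ≤ X) {k m : ℕ} (h : r ^ m * X ≤ Y) (hk : k ≤ m) :
    r ^ k * X ≤ Y :=
  (mul_le_mul_of_nonneg_right (pow_le_pow_right₀ hr hk) hX).trans h

omit [DecidableEq ι] in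
theorem sumU (U : Finset ι) (f : ι → ℝ) (hf : ∀ k, 0 ≤ f k) : ∑ k ∈ U, f k ≤ ∑ k, f k :=
  sum_le_sum_of_subset_of_nonneg (subset_univ _) fun k _ _ => hf k

omit [DecidableEq ι] in
theorem sumU2 (U : Finset ι) (f : ι → ι → ℝ) (hf : ∀ h g, 0 ≤ f h g) :
    ∑ h ∈ U, ∑ g ∈ U, f h g ≤ ∑ h, ∑ g, f h g :=
  (sum_le_sum fun h _ => sumU U _ (hf h)).trans
    (sumU U _ fun h => sum_nonneg fun g _ => hf h g)

section num
variable {p : Par} (H : p.Good)
include H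

theorem r1 : 1 ≤ p.r := le_trans (by norm_num) H.hr
theorem L0 : 0 ≤ p.L := zero_le_one.trans H.L1
theorem m1_nonneg : 0 ≤ p.m1 := mul_nonneg (pow_pos H.r_pos _).le H.sN_pos.le
theorem m2_nonneg : 0 ≤ p.m2 := mul_nonneg (pow_pos H.r_pos _).le (by linarith [H.V0])
theorem Vb_m2 : p.Vb ≤ p.m2 :=
  (le_add_of_nonneg_right zero_le_one).trans
    (le_mul_of_one_le_left (by linarith [H.V0]) (one_le_pow₀ (r1 H)))
theorem rV {k : ℕ} (hk : k ≤ 22) : p.r ^ k * p.Vb ≤ p.sN := wk (r1 H) H.V0.le H.Vb_le hk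
theorem rL {k : ℕ} (hk : k ≤ 20) : p.r ^ k * p.L ^ 2 ≤ p.N := wk (r1 H) (sq_nonneg _) H.M1 hk
theorem rs {k : ℕ} (hk : k ≤ 30) : p.r ^ k ≤ p.sN := (pow_le_pow_right₀ (r1 H) hk).trans H.big
theorem rN {k : ℕ} (hk : k ≤ 60) : p.r ^ k ≤ p.N := (pow_le_pow_right₀ (r1 H) hk).trans H.N_ge
theorem N1 : 1 ≤ p.N := by simpa using rN H (Nat.zero_le 60)
theorem ss : p.sN * p.sN = p.N := by rw [← H.sq, sq]

/-- `X ≤ Y / r` from `r * X ≤ Y` -/
theorem le_div {X Y : ℝ} (h : p.r * X ≤ Y) : X ≤ Y / p.r := by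
  rw [le_div_iff₀ H.r_pos, mul_comm]
  exact h

end num

variable (c : Ctx ι)

theorem S_prod {f : ι → ι → ℝ} {C a b : ℝ} (u v : ι → ℝ) (hu : ∀ h, 0 ≤ u h) (hv : ∀ h, 0 ≤ v h)
    (hC : 0 ≤ C) (H : ∀ h g, c.Allowed h g → f h g ≤ C * (u h * v g))
    (ha : ∑ h ∈ c.U, u h ≤ a) (hb : ∑ h ∈ c.U, v h ≤ b) : c.S f ≤ 101 / 100 * (C * (a * b)) := by
  refine (c.S_le H fun h g => mul_nonneg hC (mul_nonneg (hu h) (hv g))).trans ?_
  simp only [← mul_sum, ← sum_mul]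
  have h0 : 0 ≤ ∑ h ∈ c.U, v h := sum_nonneg fun h _ => hv h
  have h1 : 0 ≤ a := (sum_nonneg fun h _ => hu h).trans ha
  gcongr

theorem S_all {f : ι → ι → ℝ} {C a : ℝ} (F : ι → ι → ℝ) (hF : ∀ h g, 0 ≤ F h g) (hC : 0 ≤ C)
    (H : ∀ h g, c.Allowed h g → f h g ≤ C * F h g) (ha : ∑ h ∈ c.U, ∑ g ∈ c.U, F h g ≤ a) :
    c.S f ≤ 101 / 100 * (C * a) := by
  refine (c.S_le H fun h g => mul_nonneg hC (hF h g)).trans ?_
  simp only [← mul_sum]
  gcongr

theorem fW_nonneg (K : Matrix ι ι ℝ) : 0 ≤ fW K := sum_nonneg fun _ _ => sq_nonneg _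
theorem fV_nonneg (K : Matrix ι ι ℝ) : 0 ≤ fV K := sum_nonneg fun _ _ => sq_nonneg _
theorem fR_nonneg (K : Matrix ι ι ℝ) : 0 ≤ fR K := sum_nonneg fun _ _ => rR_nonneg _ _

theorem sum_x : ∑ h ∈ c.U, c.A h h ^ 2 ≤ c.Vb := c.sA.ok.sum_diag_sq.trans_le c.sA.Vb
theorem sum_S : ∑ h ∈ c.U, rS c.A h ≤ 2 * c.N := c.sA.ok.sum_rS.trans_le (c.sA.E2 c.good)
theorem W2 : fW c.A ≤ c.r ^ 2 * c.N := c.sA.W2 c.good
theorem sum_S2 : ∑ h ∈ c.U, rS c.A h ^ 2 ≤ c.r ^ 2 * c.N := c.sA.ok.sum_rS_sq.trans_le (W2 c)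
theorem Sm (h : ι) : rS c.A h ≤ c.r * c.sN := c.sA.rS_le c.good h
theorem sum_R : ∑ h ∈ c.U, rR c.A h ≤ c.N := by
  rw [c.sA.ok.sum_rR]
  linarith [c.fR_le', c.good.N_pos]

theorem col2 (h : ι) : ∑ k, c.A k h ^ 2 = rS c.A h := by simp only [rS, c.sA.ok.symm h]
theorem col4 (h : ι) : ∑ k, c.A k h ^ 4 = rR c.A h := by simp only [rR, c.sA.ok.symm h]

theorem sum_one_le : ∑ _h ∈ c.U, (1 : ℝ) ≤ c.N := (AvgX.sum_one c).le

theorem sum_S1 : ∑ h ∈ c.U, (rS c.A h - 1) ^ 2 ≤ fW c.A + c.N := by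
  rw [← c.sA.ok.sum_rS_sq, ← AvgX.sum_one c, ← sum_add_distrib]
  exact sum_le_sum fun h _ => by nlinarith [rS_nonneg c.A h]

theorem sum_S1' : ∑ h ∈ c.U, (rS c.A h - 1) ^ 2 ≤ 2 * (c.r ^ 2 * c.N) := by
  have h1 := le_mul_of_one_le_left c.good.N_pos.le (one_le_pow₀ (n := 2) (r1 c.good))
  linarith [sum_S1 c, W2 c]

/-- the triple sum of `K k h ^ 2 * K k g ^ 2` -/
theorem sum_kk : ∑ h ∈ c.U, ∑ g ∈ c.U, ∑ k, c.A k h ^ 2 * c.A k g ^ 2 ≤ fW c.A := by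
  refine (sumU2 c.U _ fun h g => sum_nonneg fun k _ => by positivity).trans (le_of_eq ?_)
  rw [sum_congr rfl fun h _ => sum_comm, sum_comm]
  exact sum_congr rfl fun k _ => by rw [sq (rS c.A k), rS, sum_mul_sum]

theorem M_sq (h g : ι) : (c.A * c.A) h g ^ 2 ≤ rS c.A h * rS c.A g := by
  have := mul_apply_sq_le c.A c.A h g
  rwa [col2] at this

theorem row_M (h : ι) : ∑ g ∈ c.U, (c.A * c.A) h g ^ 2 ≤ c.L ^ 2 * rS c.A h :=
  (sumU c.U _ fun _ => sq_nonneg _).trans (c.sA.op.row c.sA.ok.symm c.A h)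

theorem sum_M : ∑ h ∈ c.U, ∑ g ∈ c.U, (c.A * c.A) h g ^ 2 ≤ c.L ^ 2 * (2 * c.N) := by
  refine (sum_le_sum fun h _ => row_M c h).trans ?_
  rw [← mul_sum]
  exact mul_le_mul_of_nonneg_left (sum_S c) (sq_nonneg _)

theorem row_sum (k : ι) : ∑ h ∈ c.U, c.A k h = if k ∈ c.U then 1 else 0 := by
  simp only [c.sA.ok.symm k, c.sA.ok.col_ba]

variable {c} {h g : ι}

theorem lam_ne (H : c.Allowed h g) : lam c.A h g ≠ 0 := ne_of_gt (by linarith [H.lam_ge])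

theorem ap_sq (H : c.Allowed h g) : ap c.A h g ^ 2 ≤ 1063 / 1000 * c.A g g ^ 2 := by
  have h1 := pow_le_pow_left₀ (abs_nonneg _) H.ap_bd 2
  rw [sq_abs, mul_pow, sq_abs] at h1
  nlinarith [sq_nonneg (c.A g g)]

theorem al_sq (H : c.Allowed h g) : al c.A h g ^ 2 ≤ 1063 / 1000 * c.A h h ^ 2 := by
  have h1 := pow_le_pow_left₀ (abs_nonneg _) H.al_bd 2
  rw [sq_abs, mul_pow, sq_abs] at h1
  nlinarith [sq_nonneg (c.A h h)]

theorem be_sq (H : c.Allowed h g) : be c.A h g ^ 2 ≤ 1086 / 1000 := by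
  nlinarith [H.be_bd.1, H.be_bd.2]

theorem apal (H : c.Allowed h g) : |ap c.A h g * al c.A h g| ≤ 11 / 1000 := by
  rw [abs_mul]
  have h1 := mul_le_mul H.ap_bd H.al_bd (abs_nonneg _) (by positivity)
  nlinarith [H.xx_le]

theorem xS (H : c.Allowed h g) : c.A g g ^ 2 * (rS c.A h - 1) ^ 2 ≤ 2 * c.m2 := by
  have h1 : c.A g g ^ 2 ≤ c.X g ^ 2 := by
    rw [← sq_abs (c.A g g)]
    exact pow_le_pow_left₀ (abs_nonneg _) (le_add_of_nonneg_right (abs_nonneg _)) 2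
  have h2 : rS c.A h ^ 2 ≤ c.Sp h ^ 2 :=
    pow_le_pow_left₀ (rS_nonneg _ _) (le_add_of_nonneg_right (rS_nonneg _ _)) 2
  have h3 := (mul_le_mul h1 h2 (sq_nonneg _) (sq_nonneg _)).trans H.XS
  have h4 := (c.sA.diag_sq c.good g).trans (Vb_m2 c.good)
  have h5 : (rS c.A h - 1) ^ 2 ≤ rS c.A h ^ 2 + 1 := by nlinarith [rS_nonneg c.A h]
  nlinarith [mul_le_mul_of_nonneg_left h5 (sq_nonneg (c.A g g))]

theorem coef_io_sq : c.Coef fun h g => io c.A h g ^ 2 := fun h g H => by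
  have h1 : |io c.A h g - 1| ≤ 32 / 10 * c.dv h g := by linarith [H.io_sub, c.dv_nonneg h g]
  simp only [sq]
  exact Ctx.prod_bc h1 h1 H.io_bd.1 (by linarith [H.io_bd.2]) (c.dv_nonneg h g)

section alg
variable {K : Matrix ι ι ℝ}

/-- the leading part of one half of `dS` -/
noncomputable def Fa (K : Matrix ι ι ℝ) (h g k : ι) : ℝ := be K h g ^ 2 * K k h ^ 2 * (rS K g - 1)

/-- the remaining part of one half of `dS` -/
noncomputable def Fr (K : Matrix ι ι ℝ) (h g k : ι) : ℝ :=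
  2 * be K h g * K k h * (K * K) k g + 2 * ap K h g * K k h * (K * K) k h
    + ap K h g ^ 2 * K k h ^ 2 * (rS K h - 1) + 2 * ap K h g * be K h g * (K * K) h g * K k h ^ 2
    + (ap K h g * al K h g + be K h g ^ 2) * (K * K) h g * (K k h * K k g)
    + 2 * ap K h g * be K h g * (rS K h - 1) * (K k h * K k g)

theorem dS_split (hs : ∀ i j, K i j = K j i) (h g k : ι) :
    dS K h g k = (Fa K h g k + Fr K h g k) + (Fa K g h k + Fr K g h k) := by
  have e1 : be K g h = be K h g := by unfold be; rw [lam_comm hs h g, hs g h]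
  have e2 : ap K g h = al K h g := by unfold ap al; rw [lam_comm hs h g]
  have e3 : al K g h = ap K h g := by unfold ap al; rw [lam_comm hs h g]
  have e4 : (K * K) g h = (K * K) h g := by simp only [mul_apply, hs g, hs h, mul_comm]
  have a1 : (K *ᵥ va K h g) k = ap K h g * (K * K) k h + be K h g * (K * K) k g := by
    simp only [mulVec, dotProduct, mul_apply, mul_sum, ← sum_add_distrib]
    exact sum_congr rfl fun l _ => by unfold va; ring
  have a2 : (K *ᵥ vb K h g) k = al K h g * (K * K) k g + be K h g * (K * K) k h := by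
    simp only [mulVec, dotProduct, mul_apply, mul_sum, ← sum_add_distrib]
    exact sum_congr rfl fun l _ => by unfold vb; ring
  have a3 : va K h g ⬝ᵥ va K h g = ap K h g ^ 2 * rS K h
      + 2 * ap K h g * be K h g * (K * K) h g + be K h g ^ 2 * rS K g := by
    simp only [dotProduct, mul_apply, rS, mul_sum, ← sum_add_distrib]
    exact sum_congr rfl fun l _ => by unfold va; rw [hs h l, hs g l]; ring
  have a4 : vb K h g ⬝ᵥ vb K h g = al K h g ^ 2 * rS K g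
      + 2 * al K h g * be K h g * (K * K) h g + be K h g ^ 2 * rS K h := by
    simp only [dotProduct, mul_apply, rS, mul_sum, ← sum_add_distrib]
    exact sum_congr rfl fun l _ => by unfold vb; rw [hs h l, hs g l]; ring
  have a5 : va K h g ⬝ᵥ vb K h g = (ap K h g * al K h g + be K h g ^ 2) * (K * K) h g
      + ap K h g * be K h g * rS K h + al K h g * be K h g * rS K g := by
    simp only [dotProduct, mul_apply, rS, mul_sum, ← sum_add_distrib]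
    exact sum_congr rfl fun l _ => by unfold va vb; rw [hs h l, hs g l]; ring
  unfold dS Fa Fr
  rw [a1, a2, a3, a4, a5, e1, e2, e3, e4]
  unfold va vb
  ring

theorem dS_comm (hs : ∀ i j, K i j = K j i) (h g k : ι) : dS K g h k = dS K h g k := by
  rw [dS_split hs, dS_split hs, add_comm]

end alg

end DX
end Vale.Agent.P049
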