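import Mathlib.Analysis.SpecialFunctions.Pow.Real
import Mathlib.Analysis.Matrix.Spectrum
import Mathlib.LinearAlgebra.Matrix.Trace
import Mathlib.Algebra.Order.Floor.Ring
import Mathlib.Tactic

/-! P049: cavity matrices, functionals, potentials, averaging context. -/

namespace Vale.Agent.P049
open Matrix Finset

section alg
variable {ι : Type} [Fintype ι] [DecidableEq ι] {F : Type} [Field F]

def lam (K : Matrix ι ι F) (h g : ι) : F := (1 - K h g) ^ 2 - K h h * K g g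
def io (K : Matrix ι ι F) (h g : ι) : F := 1 / lam K h g
def al (K : Matrix ι ι F) (h g : ι) : F := K h h / lam K h g
def ap (K : Matrix ι ι F) (h g : ι) : F := K g g / lam K h g
def be (K : Matrix ι ι F) (h g : ι) : F := (1 - K h g) / lam K h g
def va (K : Matrix ι ι F) (h g : ι) : ι → F := fun k => ap K h g * K k h + be K h g * K k g
def vb (K : Matrix ι ι F) (h g : ι) : ι → F := fun k => al K h g * K k g + be K h g * K k h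
def col (K : Matrix ι ι F) (h : ι) : ι → F := fun k => K k h
/-- the updated matrix before deleting rows and columns `h`, `g` -/
def full (K : Matrix ι ι F) (h g : ι) : Matrix ι ι F :=
  fun k j => K k j + K k h * va K h g j + K k g * vb K h g j
/-- the Schur complement step: match `h` with `g` -/
def step (K : Matrix ι ι F) (h g : ι) : Matrix ι ι F :=
  fun k j => if k = h ∨ k = g ∨ j = h ∨ j = g then 0 else full K h g k j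

def fP (K : Matrix ι ι F) : F := ∑ k, K k k
def rS (K : Matrix ι ι F) (k : ι) : F := ∑ j, K k j ^ 2
def fE (K : Matrix ι ι F) : F := ∑ k, rS K k
def fT (K : Matrix ι ι F) : F := trace (K * K * K)
def fQ (K : Matrix ι ι F) : F := fE (K * K)
def fV (K : Matrix ι ι F) : F := ∑ k, K k k ^ 2
def fW (K : Matrix ι ι F) : F := ∑ k, rS K k ^ 2
def rR (K : Matrix ι ι F) (k : ι) : F := ∑ j, K k j ^ 4
def fR (K : Matrix ι ι F) : F := ∑ k, rR K k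
def fC (A B : Matrix ι ι F) : F := fE (A * B)
def ip (X Y : Matrix ι ι F) : F := ∑ k, ∑ j, X k j * Y k j

/-- change of the row square sum -/
def dS (K : Matrix ι ι F) (h g k : ι) : F :=
  2 * (K k h * (K *ᵥ va K h g) k + K k g * (K *ᵥ vb K h g) k)
    + K k h ^ 2 * (va K h g ⬝ᵥ va K h g) + K k g ^ 2 * (vb K h g ⬝ᵥ vb K h g)
    + 2 * K k h * K k g * (va K h g ⬝ᵥ vb K h g) - va K h g k ^ 2 - vb K h g k ^ 2

def mM (A B : Matrix ι ι F) (h g : ι) : Matrix ι ι F :=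
  fun k j => ∑ l, if l = h ∨ l = g then 0 else full A h g k l * full B h g l j
/-- four leading rank one terms -/
def n14 (A B : Matrix ι ι F) (h g : ι) : Matrix ι ι F :=
  be B h g • (vecMulVec (A *ᵥ col B g) (col B h) + vecMulVec (A *ᵥ col B h) (col B g))
    + be A h g • (vecMulVec (col A h) (B *ᵥ col A g) + vecMulVec (col A g) (B *ᵥ col A h))
def n56 (A B : Matrix ι ι F) (h g : ι) : Matrix ι ι F :=
  (be A h g * be B h g) • ((col A g ⬝ᵥ col B g - 1) • vecMulVec (col A h) (col B h)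
    + (col A h ⬝ᵥ col B h - 1) • vecMulVec (col A g) (col B g))
/-- the small terms -/
def nS (A B : Matrix ι ι F) (h g : ι) : Matrix ι ι F :=
  ap B h g • vecMulVec (A *ᵥ col B h) (col B h) + al B h g • vecMulVec (A *ᵥ col B g) (col B g)
    + ap A h g • vecMulVec (col A h) (B *ᵥ col A h) + al A h g • vecMulVec (col A g) (B *ᵥ col A g)
    + (va A h g ⬝ᵥ va B h g - be A h g * be B h g * (col A g ⬝ᵥ col B g)) •
        vecMulVec (col A h) (col B h)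
    + (va A h g ⬝ᵥ vb B h g) • vecMulVec (col A h) (col B g)
    + (vb A h g ⬝ᵥ va B h g) • vecMulVec (col A g) (col B h)
    + (vb A h g ⬝ᵥ vb B h g - be A h g * be B h g * (col A h ⬝ᵥ col B h)) •
        vecMulVec (col A g) (col B g)
    - (vecMulVec (vb A h g) (vb B h g) - (be A h g * be B h g) • vecMulVec (col A h) (col B h))
    - (vecMulVec (va A h g) (va B h g) - (be A h g * be B h g) • vecMulVec (col A g) (col B g))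

structure Ok (U : Finset ι) (K : Matrix ι ι F) : Prop where
  symm : ∀ i j, K i j = K j i
  supp : ∀ i j, i ∉ U → K i j = 0
  row : ∀ i ∈ U, ∑ j, K i j = 1

variable [LinearOrder F]

def tH (r N : F) : F := r ^ 4790 * N / (N + r ^ 7799)
def tT (r N : F) : F := min (r ^ 3751 * N) (r ^ 12021)
def tV (r N : F) : F := r ^ 1900 * N / (N + r ^ 6500)
def tW (r N π : F) : F := r ^ 2 / 2 ^ 55 * N * (2 - π) ^ 54
def tR (r N π : F) : F := N * (2 * π + 1 / r)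
def tC (r N : F) : F := r ^ 1950 * N
def pF (r s : F) (K : Matrix ι ι F) : F := (1 / r) / (2 - s * fP K / r ^ 3750)
def pH (r N : F) (K : Matrix ι ι F) : F := fP K ^ 2 / tH r N ^ 2
def pG (r N : F) (K : Matrix ι ι F) : F := r ^ 7799 * (1 / (N + 1 - fE K) - 1 / N)
def pT (r N s : F) (K : Matrix ι ι F) : F := (s * fT K + fE K) / tT r N
def pV (r N : F) (K : Matrix ι ι F) : F := fV K / tV r N
def pW (r N π : F) (K : Matrix ι ι F) : F := fW K / tW r N π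
def pR (r N π : F) (K : Matrix ι ι F) : F := fR K / tR r N π
def pC (r N : F) (A B : Matrix ι ι F) : F := fC A B / tC r N
def pot1 (r N π s : F) (K : Matrix ι ι F) : F :=
  pF r s K + pH r N K + pG r N K + pT r N s K + pV r N K + pW r N π K + pR r N π K
/-- the potential -/
def pot (r N π : F) (A B : Matrix ι ι F) : F :=
  pot1 r N π 1 A + pot1 r N π (-1) B + pC r N A B
/-- the two barriers are not crossed -/
def Bar (r N s : F) (K : Matrix ι ι F) : Prop := s * fP K < 2 * r ^ 3750 ∧ fE K < N + 1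

end alg

section real
variable {ι : Type} [Fintype ι] [DecidableEq ι]

def Psd (U : Finset ι) (q s : ℝ) (K : Matrix ι ι ℝ) : Prop :=
  ∀ ψ : ι → ℝ, ∑ k ∈ U, ψ k = 0 → -q * ∑ k ∈ U, ψ k ^ 2 ≤ s * (ψ ⬝ᵥ K *ᵥ ψ)

def Op (K : Matrix ι ι ℝ) (L : ℝ) : Prop :=
  ∀ φ : ι → ℝ, (K *ᵥ φ) ⬝ᵥ (K *ᵥ φ) ≤ L ^ 2 * (φ ⬝ᵥ φ)

/-- dual form of: the cavity matrix dominates the Green function -/
def Jv (U : Finset ι) (q s : ℝ) (K : Matrix ι ι ℝ) (y : ι → ℝ) (M : ℝ) : Prop :=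
  ∀ ψ : ι → ℝ, ∑ k ∈ U, ψ k = 0 →
    2 * ∑ k ∈ U, ψ k * y k ≤ M - s * (∑ k ∈ U, y k) ^ 2 / U.card
      - q * (∑ k ∈ U, y k ^ 2 - (∑ k ∈ U, y k) ^ 2 / U.card)
      + (q * ∑ k ∈ U, ψ k ^ 2 + s * (ψ ⬝ᵥ K *ᵥ ψ)) / (1 - q ^ 2)

structure Par where
  r : ℝ
  N : ℝ
  sN : ℝ
  a : ℝ
  S0 : ℝ
  L : ℝ
  Vb : ℝ
  Eb : ℝ
  Wb : ℝ
  Cb : ℝ
  Tb : ℝ
  P : ℝ
  Pa : ℝ

structure Par.Good (p : Par) : Prop where
  hr : 10 ^ 50 ≤ p.r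
  big : p.r ^ 30 ≤ p.sN
  sq : p.sN ^ 2 = p.N
  a0 : p.a = 0 ∨ p.r ≤ p.a
  S1 : 1 ≤ p.S0
  aS : p.a ^ 2 * p.r ^ 2 ≤ p.S0
  L1 : 1 ≤ p.L
  V0 : 0 < p.Vb
  E1 : 1 ≤ p.Eb
  E2 : p.Eb ≤ 2 * p.N
  W0 : 0 ≤ p.Wb
  W2 : p.Wb ≤ p.r ^ 2 * p.N
  P0 : 0 ≤ p.P
  Pa0 : 0 < p.Pa
  M1 : p.r ^ 20 * p.L ^ 2 ≤ p.N
  M2 : p.r ^ 21 * p.a ^ 2 * p.S0 * p.L ≤ p.N
  M2' : p.a ^ 2 * p.S0 ≤ p.sN
  M3 : p.r ^ 22 * (1 + p.a ^ 2) * p.Vb ≤ p.sN
  M5 : p.r ^ 20 * p.P * p.L ≤ p.N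
  M5' : p.r ^ 20 * p.Pa ≤ p.N
  MC1 : p.r ^ 20 * (1 + p.a ^ 2 + p.Vb) * p.N ≤ p.Cb
  MC2 : p.r ^ 10 * p.a * p.Cb ≤ p.N * p.sN
  MT1 : p.L ^ 3 ≤ p.Tb
  MT2 : p.r ^ 10 * p.N ≤ p.Tb
  MV1 : p.r ^ 10 * p.Wb ≤ p.N * p.Vb
  MV2 : p.r ^ 10 * p.a ^ 2 * p.L ^ 2 * p.Wb ≤ p.N ^ 2 * p.Vb
  MV3 : p.r ^ 10 * p.Pa ^ 2 * p.Wb ≤ p.N ^ 2 * p.Vb
  MV4 : p.r ^ 10 * (1 + p.Pa) ≤ p.N * p.Vb

noncomputable section

def Par.m1 (p : Par) : ℝ := p.r ^ 10 * p.sN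
def Par.m2 (p : Par) : ℝ := p.r ^ 12 * (p.Vb + 1)
def Par.KP (p : Par) : ℝ := 2 * p.r * p.sN + 2 * p.a * p.L
def Par.r1 (p : Par) : ℝ :=
  p.r ^ 3 * p.N * (1 + p.a ^ 2 * p.S0 + (1 + p.a) * √p.Vb) + 3 * p.a * √(p.N * p.Cb)
def Par.Qb (p : Par) : ℝ := min (2 * p.L ^ 2 * p.N) (p.Eb ^ 2)
def Par.yb (p : Par) : ℝ := p.r ^ 7799 * p.N / (p.N + p.r ^ 7799)
def Par.ee (p : Par) : ℝ := p.r ^ 7799 * p.N ^ 3 / (p.r * (p.N + p.r ^ 7799) ^ 2)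
def Par.e1 (p : Par) : ℝ := min (p.KP * p.r ^ 2 * p.N) (p.N * p.Eb / p.r ^ 2)
/-- error terms of the drift of `fE` that do not involve `fQ`, `fT` -/
def Par.r2 (p : Par) : ℝ :=
  p.Eb + p.a * p.Cb + p.r * p.a ^ 2 * p.S0 * p.L * p.Eb + p.Pa * p.Eb + p.e1
    + p.KP * √p.Vb * p.L * √p.Wb + p.Vb * p.Wb + p.N * p.Vb + √(p.N * p.Eb * p.Wb)
def Par.r3 (p : Par) : ℝ :=
  p.Wb ^ 2 + p.N * p.Wb + (p.L ^ 2 + p.m2) * p.Vb * p.Wb + p.N * p.Vb * (1 + p.Vb) + p.Eb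

/-- values of the parameters and numeric facts used by the potential estimates -/
structure Par.Extra (p : Par) : Prop where
  hN1 : p.r ^ 7799 < p.N ^ 2
  hN2 : p.N ≤ p.r ^ 12001
  eV : p.Vb = tV p.r p.N
  eE : p.Eb = 1 + p.N ^ 2 / (p.N + p.r ^ 7799)
  eW : p.Wb = min (p.r ^ 2 * p.N) (p.Eb ^ 2)
  eC : p.Cb = tC p.r p.N
  eT : p.Tb = tT p.r p.N
  eP : p.P = 2 * p.r ^ 3750
  ePa : p.Pa = tH p.r p.N
  eL : p.Tb ≤ p.L ^ 3 ∨ p.Eb ≤ p.L ^ 2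
  F1 : p.r ^ 3 * p.r1 ≤ p.r ^ 3750 * p.N
  F2 : p.r ^ 15 * p.sN ≤ p.r ^ 7500
  F3 : p.r ^ 6 * p.L ≤ p.a * p.r ^ 3750 ∨
    (p.r ^ 4 * p.Eb ≤ p.r ^ 3750 * p.sN ∧ p.r ^ 5 * p.Eb ^ 2 ≤ p.r ^ 7500 * p.N)
  H1 : p.r * (2 * p.a * p.Tb + 2 * p.r * p.sN * √p.Qb + p.r1) ≤ p.N * p.Pa
  H2 : p.r * (p.r ^ 3 * p.N * p.Vb + 20 * p.Qb) ≤ p.N * p.Pa ^ 2
  G1 : 8 * (p.r ^ 11 * p.sN + p.r ^ 6 * p.L * √p.sN) ≤ p.yb
  G2 : 100 * (p.r2 + p.P * min p.Tb (2 * p.L * p.Eb)) ≤ p.ee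
  G3 : 10 ^ 7 * p.r3 ≤ p.ee * p.yb
  G4 : (p.r ^ 3 * p.N * p.L ^ 2 ≤ p.a * p.ee ∧ p.r * p.L ^ 2 ≤ p.a * p.yb ∧ p.r ≤ p.a) ∨
    (1000 * (p.r * p.sN * p.L * p.Eb + p.Eb ^ 2) ≤ p.ee ∧
      10 ^ 7 * p.L ^ 2 * p.Eb ^ 2 ≤ p.ee * p.yb)
  T0 : p.r ^ 2 * p.a ≤ p.Tb
  T1 : p.r ^ 8270 ≤ p.N - 2 ∨ p.Eb ≤ p.N / 2 ∨
    ∃ θ : ℝ, 0 ≤ θ ∧ p.a * θ ^ 2 = p.N ∧ p.r ^ 2 * p.a * (θ ^ 3 + θ ^ 2 + 1) ≤ p.Tb

structure Side (p : Par) (U : Finset ι) (q s : ℝ) (K : Matrix ι ι ℝ) : Prop where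
  ok : Ok U K
  psd : Psd U q s K
  op : Op K p.L
  E1 : fE K ≤ p.N + 1
  Eb : fE K ≤ p.Eb
  Wb : fW K ≤ p.Wb
  Vb : fV K ≤ p.Vb
  Tb : s * fT K + fE K ≤ p.Tb
  P : s * fP K ≤ p.P
  Pa : |fP K| ≤ p.Pa

structure Ctx (ι : Type) [Fintype ι] [DecidableEq ι] extends Par where
  U : Finset ι
  A : Matrix ι ι ℝ
  B : Matrix ι ι ℝ
  s : ℝ
  q : ℝ
  forb : ι → ι → Prop
  good : toPar.Good
  hN : (U.card : ℝ) = N
  hs : s = 1 ∨ s = -1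
  q0 : 0 ≤ q
  q2 : q ^ 2 ≤ 1 / 2
  sA : Side toPar U q s A
  sB : Side toPar U q (-s) B
  hC : fC A B ≤ Cb
  hC' : fC B A ≤ Cb
  forb_symm : ∀ h g, forb h g → forb g h
  forb_card : ∀ h ∈ U, ∀ T : Finset ι, (∀ g ∈ T, forb h g) → (T.card : ℝ) ≤ r

namespace Ctx
variable (c : Ctx ι)

def swap : Ctx ι :=
  { c with
    A := c.B, B := c.A, s := -c.s
    hs := by rcases c.hs with h | h <;> simp [h]
    sA := c.sB
    sB := by simpa using c.sA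
    hC := c.hC'
    hC' := c.hC }

def X (h : ι) : ℝ := |c.A h h| + |c.B h h|
def Sp (h : ι) : ℝ := rS c.A h + rS c.B h
def dv (h g : ι) : ℝ := |c.A h g| + |c.B h g| + c.X h * c.X g
open Classical in
def k0 (h g : ι) : ℝ := if c.Sp h ≤ c.S0 ∧ c.Sp g ≤ c.S0 then c.A h g + c.B h g else 0

structure Allowed (h g : ι) : Prop where
  hU : h ∈ c.U
  gU : g ∈ c.U
  ne : h ≠ g
  nf : ¬ c.forb h g
  G : |c.A h g| + |c.B h g| ≤ 1 / 100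
  XX : c.X h * c.X g ≤ 1 / 100
  SS : c.Sp h * c.Sp g ≤ c.m1
  XS : c.X g ^ 2 * c.Sp h ^ 2 ≤ c.m2
  SX : c.X h ^ 2 * c.Sp g ^ 2 ≤ c.m2
  ak : c.a * |c.k0 h g| ≤ 1 / 100

open Classical in
/-- the tilted weight -/
def om (h g : ι) : ℝ := if c.Allowed h g then 1 - c.a * c.k0 h g else 0

/-- weighted sum over pairs -/
def S (f : ι → ι → ℝ) : ℝ := ∑ h ∈ c.U, ∑ g ∈ c.U, c.om h g * f h g

/-- coefficient functions close to one -/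
def Coef (f : ι → ι → ℝ) : Prop := ∀ h g, c.Allowed h g → |f h g - 1| ≤ 20 * c.dv h g

def c3 : ℝ := c.s * fT c.A + fE c.A

end Ctx
end
end real
end Vale.Agent.P049
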