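import Vale.Agent.P049.Comb
import Mathlib.Combinatorics.SimpleGraph.AdjMatrix

/-! P049: the graph of a perfect matching of the half-edges. -/

namespace Vale.Agent.P049
open Matrix Finset

theorem adjB_iff {d : ℕ} {es : Edges} {i j : ℕ} : adjB d es i j = true ↔
    ∃ e ∈ es, (e.1 / d = i ∧ e.2 / d = j) ∨ (e.1 / d = j ∧ e.2 / d = i) := by
  simp only [adjB, List.any_eq_true, decide_eq_true_eq]

def graphOf (d n : ℕ) (es : Edges) (hes : okE d es = true) : SimpleGraph (Fin n) where
  Adj i j := adjB d es i j = true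
  symm := ⟨fun i j h => by simpa only [adjB_iff, or_comm] using h⟩
  loopless := ⟨fun i h => by
    obtain ⟨e, he, h⟩ := adjB_iff.1 h
    exact (okE_iff.1 hes).1 e he (by omega)⟩

instance (d n : ℕ) (es : Edges) (hes : okE d es = true) : DecidableRel (graphOf d n es hes).Adj :=
  fun i j => inferInstanceAs (Decidable (adjB d es i j = true))

namespace GraphX

theorem sum_adj {d n : ℕ} {es : Edges} (hes : okE d es = true)
    (hlt : ∀ e ∈ es, e.1 / d < n ∧ e.2 / d < n) (f : ℕ → ℕ → ℝ) :
    ∑ i ∈ range n, ∑ j ∈ range n, (if adjB d es i j = true then f i j else 0) =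
      (es.map fun e => f (e.1 / d) (e.2 / d) + f (e.2 / d) (e.1 / d)).sum := by
  induction es with
  | nil => simp [adjB]
  | cons e es ih =>
    have h1 := okE_iff.1 hes
    rw [List.forall_mem_cons, List.map_cons, List.nodup_cons] at h1
    rw [List.forall_mem_cons] at hlt
    rw [List.map_cons, List.sum_cons, ← ih (okE_iff.2 ⟨h1.1.2, h1.2.2⟩) hlt.2]
    have e1 : ∀ a b, a < n → b < n →
        ∑ i ∈ range n, ∑ j ∈ range n, (if a = i then if b = j then f i j else 0 else 0) = f a b :=
      fun a b ha hb => by simp [ha, hb]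
    rw [← e1 _ _ hlt.1.1 hlt.1.2, ← e1 _ _ hlt.1.2 hlt.1.1, ← sum_add_distrib, ← sum_add_distrib]
    refine sum_congr rfl fun i _ => ?_
    rw [← sum_add_distrib, ← sum_add_distrib]
    refine sum_congr rfl fun j _ => ?_
    have h2 := h1.1.1
    have h3 : adjB d es i j = true → ¬((e.1 / d = i ∧ e.2 / d = j) ∨ (e.1 / d = j ∧ e.2 / d = i)) :=
      fun h h' => by
        obtain ⟨e', he', h⟩ := adjB_iff.1 h
        refine h1.2.1 (List.mem_map.2 ⟨e', he', ?_⟩)
        simp only [ekey, Prod.mk.injEq]
        omega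
    have h4 : adjB d (e :: es) i j = true ↔
        ((e.1 / d = i ∧ e.2 / d = j) ∨ (e.1 / d = j ∧ e.2 / d = i)) ∨ adjB d es i j = true := by
      simp only [adjB_iff, List.exists_mem_cons_iff]
    simp only [h4, ← ite_and]
    by_cases c1 : e.1 / d = i ∧ e.2 / d = j
    · have c2 : ¬(e.2 / d = i ∧ e.1 / d = j) := by omega
      rw [if_pos (Or.inl (Or.inl c1)), if_pos c1, if_neg c2, if_neg fun h => h3 h (Or.inl c1)]
      ring
    · by_cases c2 : e.2 / d = i ∧ e.1 / d = j
      · rw [if_pos (Or.inl (Or.inr c2.symm)), if_neg c1, if_pos c2,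
          if_neg fun h => h3 h (Or.inr c2.symm)]
        ring
      · rw [if_neg c1, if_neg c2, zero_add, zero_add]
        exact if_congr (or_iff_right (not_or.2 ⟨c1, fun h => c2 h.symm⟩)) rfl rfl

theorem sum_flat (es : Edges) (f : ℕ → ℝ) :
    ((flat es).map f).sum = (es.map fun e => f e.1 + f e.2).sum := by
  induction es with
  | nil => rfl
  | cons e es ih => simp only [CombX.flat_cons, List.map_cons, List.sum_cons, ih, add_assoc]

theorem lt_of_perm {d n : ℕ} (hd : 0 < d) {es : Edges}
    (hp : (flat es).Perm (List.range (n * d))) : ∀ e ∈ es, e.1 / d < n ∧ e.2 / d < n :=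
  fun _ he => ⟨(Nat.div_lt_iff_lt_mul hd).2 (List.mem_range.1 (hp.subset (CombX.mem_flat he).1)),
    (Nat.div_lt_iff_lt_mul hd).2 (List.mem_range.1 (hp.subset (CombX.mem_flat he).2))⟩

theorem sum_graph {d n : ℕ} (hd : 0 < d) {es : Edges} (hes : okE d es = true)
    (hp : (flat es).Perm (List.range (n * d))) (f : ℕ → ℕ → ℝ) :
    ∑ i : Fin n, ∑ j : Fin n, (if (graphOf d n es hes).Adj i j then f i j else 0) =
      (es.map fun e => f (e.1 / d) (e.2 / d) + f (e.2 / d) (e.1 / d)).sum := by
  rw [← sum_adj hes (lt_of_perm hd hp), ← Fin.sum_univ_eq_sum_range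
    fun i => ∑ j ∈ range n, if adjB d es i j = true then f i j else 0]
  exact sum_congr rfl fun i _ =>
    Fin.sum_univ_eq_sum_range (fun j => if adjB d es i j = true then f i j else 0) n

end GraphX

theorem graphOf_regular {d n : ℕ} (hd : 0 < d) {es : Edges} (hes : okE d es = true)
    (hp : (flat es).Perm (List.range (n * d))) : (graphOf d n es hes).IsRegularOfDegree d := by
  intro v
  have h1 := GraphX.sum_graph hd hes hp fun i _ => if i = v then 1 else 0
  have h2 := sum_fin_div n d fun i => if i = v then 1 else 0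
  rw [Fin.sum_univ_eq_sum_range fun k => if k / d = v then (1 : ℝ) else 0, sum_ite_eq',
    if_pos (mem_range.2 v.2), mul_one] at h2
  rw [← GraphX.sum_flat es fun k => if k / d = v then 1 else 0, (hp.map _).sum_eq,
    sum_eq_single v (fun i _ hi => by simp [Fin.val_inj, hi]) (by simp)] at h1
  have h3 := h1.trans h2
  simp only [if_true, sum_boole, Nat.cast_inj] at h3
  rw [← SimpleGraph.card_neighborFinset_eq_degree, SimpleGraph.neighborFinset_eq_filter, h3]

theorem graphOf_form {d n : ℕ} (hd : 0 < d) {es : Edges} (hes : okE d es = true)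
    (hp : (flat es).Perm (List.range (n * d))) (φ : ℕ → ℝ) :
    (fun i : Fin n => φ i) ⬝ᵥ (graphOf d n es hes).adjMatrix ℝ *ᵥ (fun i : Fin n => φ i)
      = esum d φ es := by
  have h1 := GraphX.sum_graph hd hes hp fun i j => φ i * φ j
  rw [esum, List.map_congr_left (g := fun e => φ (e.1 / d) * φ (e.2 / d) + φ (e.2 / d) * φ (e.1 / d))
    fun e _ => by ring, ← h1]
  simp only [dotProduct, mulVec, SimpleGraph.adjMatrix_apply, mul_sum, ite_mul, one_mul, zero_mul,
    mul_ite, mul_zero]

end Vale.Agent.P049
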