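import Vale.Agent.P049.Init0

/-! P049: functionals of the initial matrices. -/

namespace Vale.Agent.P049
open Matrix Finset
variable {n d : ℕ} {r q b s : ℝ}

namespace InitAAux

theorem entry (k j : Fin (n * d)) : K0 n d q b s k j =
    s * (b * (if (k : ℕ) / d = (j : ℕ) / d then 1 else 0) - q * (if k = j then 1 else 0))
      + (1 - s * (b * d - q)) / (n * d : ℕ) := by
  simp only [K0, k0e, Fin.val_inj]
  ring

theorem num (H : Start n d r q b) : (3 : ℝ) ≤ d ∧ 1000 * (d : ℝ) ^ 2 ≤ r ∧ r ≤ r ^ 4200 ∧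
    (r ^ 4200) ^ 2 ≤ (n * d : ℕ) ∧ ((n * d : ℕ) : ℝ) ≤ r ^ 3601 * (r ^ 4200) ^ 2 ∧
    r ^ 3601 * r ≤ (r ^ 4200) ^ 2 := by
  have hd : (3 : ℝ) ≤ d := by exact_mod_cast H.d3
  have hr := H.facts.1
  have h1 : (1 : ℝ) ≤ r := le_trans (by norm_num) hr
  refine ⟨hd, le_trans ?_ H.hr, le_self_pow₀ h1 (by norm_num), le_trans ?_ H.n1,
    H.n2.trans (le_of_eq ?_), ?_⟩
  · exact mul_le_mul (by norm_num) (pow_le_pow_right₀ (by linarith) (by norm_num))
      (by positivity) (by positivity)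
  · rw [← pow_mul]
    exact pow_le_pow_right₀ h1 (by norm_num)
  · rw [← pow_mul, ← pow_add]
  · rw [← pow_mul, ← pow_succ]
    exact pow_le_pow_right₀ h1 (by norm_num)

theorem bq (H : Start n d r q b) : b - q ≤ 16 * d / (r ^ 4200) ^ 2 := by
  obtain ⟨-, q0, -, qb, b1, -⟩ := H.facts
  have : b - q = q * (16 * d / (r ^ 4200) ^ 2) := by rw [H.hb]; ring
  rw [this]
  exact mul_le_of_le_one_left (by positivity) (qb.trans b1)

theorem zabs (H : Start n d r q b) (hs : s = 1 ∨ s = -1) : |1 - s * (b * d - q)| ≤ d + 1 := by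
  obtain ⟨-, q0, -, qb, b1, -⟩ := H.facts
  have hd := (num H).1
  have h1 : b * d ≤ d := mul_le_of_le_one_left (by linarith) b1
  have h2 : b ≤ b * d := le_mul_of_one_le_right (by linarith) (by linarith)
  rw [abs_le]
  rcases hs with rfl | rfl <;> constructor <;> linarith

theorem abs_entry (H : Start n d r q b) (hs : s = 1 ∨ s = -1) (k j : Fin (n * d)) :
    |K0 n d q b s k j| ≤ b * (if (k : ℕ) / d = (j : ℕ) / d then 1 else 0)
      + (d + 1) / (n * d : ℕ) := by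
  obtain ⟨-, q0, -, qb, b1, -⟩ := H.facts
  rw [entry]
  refine (abs_add_le _ _).trans (add_le_add ?_ ?_)
  · have : |s| = 1 := by rcases hs with rfl | rfl <;> simp
    rw [abs_mul, this, one_mul, abs_le]
    by_cases hkj : k = j
    · subst hkj
      simp only [if_true]
      constructor <;> linarith
    · simp only [hkj, if_false]
      split_ifs <;> constructor <;> linarith
  · rw [abs_div, Nat.abs_cast]
    exact div_le_div_of_nonneg_right (zabs H hs) (by positivity)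

theorem schur {ι : Type} [Fintype ι] [DecidableEq ι] (K : Matrix ι ι ℝ) (L : ℝ) (hL : 0 ≤ L)
    (hs : ∀ i j, K i j = K j i) (hr : ∀ i, ∑ j, |K i j| ≤ L) : Op K L := by
  intro φ
  have h1 : ∀ k, (K *ᵥ φ) k * (K *ᵥ φ) k ≤ L * ∑ j, |K k j| * φ j ^ 2 := fun k => by
    have := sum_sq_le_sum_mul_sum_of_sq_le_mul (univ : Finset ι) (r := fun j => K k j * φ j)
      (f := fun j => |K k j|) (g := fun j => |K k j| * φ j ^ 2) (fun _ _ => abs_nonneg _)
      (fun _ _ => by positivity) (fun j _ => by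
        rw [← mul_assoc, ← sq, sq_abs, mul_pow])
    rw [← sq]
    exact this.trans (mul_le_mul_of_nonneg_right (hr k) (sum_nonneg fun _ _ => by positivity))
  refine (sum_le_sum fun k _ => h1 k).trans ?_
  rw [← mul_sum, sum_comm, sq, mul_assoc]
  refine mul_le_mul_of_nonneg_left ?_ hL
  rw [dotProduct, mul_sum]
  refine sum_le_sum fun j _ => ?_
  rw [← sum_mul, ← sq, sum_congr rfl fun i _ => by rw [hs i j]]
  exact mul_le_mul_of_nonneg_right (hr j) (sq_nonneg _)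

theorem real1 {d R q b : ℝ} (hd : 3 ≤ d) (hdR : 1000 * d ≤ R) (qb : q ≤ b) (b1 : b ≤ 1)
    (q0 : 0 < q) (hb : b = q * (1 + 16 * d / R ^ 2)) (hbq : b - q ≤ 16 * d / R ^ 2)
    (hq : (d - 1) * q ^ 2 ≤ 1 - 1 / R) :
    (d - 1) * b ^ 2 + (b - q) ^ 2 + 1 / R ^ 2 ≤ 1 - 1 / (2 * R) := by
  have R0 : 0 < R := by linarith
  set t := 1 / R with ht
  have t0 : 0 < t := by positivity
  have tR : t * R = 1 := by rw [ht]; field_simp
  have e3 : 16 * d / R ^ 2 = 16 * d * t ^ 2 := by rw [ht]; field_simp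
  have e4 : 1 / R ^ 2 = t ^ 2 := by rw [ht]; field_simp
  have e5 : 1 / (2 * R) = t / 2 := by rw [ht]; field_simp
  rw [e3] at hb hbq
  rw [e4, e5]
  clear_value t
  clear e3 e4 e5
  have hdt : 1000 * d * t ≤ 1 := by nlinarith
  have ε1 : 16 * d * t ^ 2 ≤ t / 50 := by nlinarith
  have t1 : t ≤ 1 / 1000 := by nlinarith
  have ε0 : 0 ≤ 16 * d * t ^ 2 := by positivity
  generalize 16 * d * t ^ 2 = ε at *
  have h2 : (b - q) ^ 2 ≤ ε := by nlinarith
  have h3 : (d - 1) * b ^ 2 ≤ (1 - t) * (1 + ε) ^ 2 := by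
    rw [hb, mul_pow, ← mul_assoc]
    exact mul_le_mul_of_nonneg_right hq (sq_nonneg _)
  have h5 : ε ^ 2 ≤ ε := by nlinarith
  have h4 : (1 - t) * (1 + ε) ^ 2 ≤ 1 - t + 3 * ε := by
    nlinarith [mul_nonneg t0.le ε0, mul_nonneg t0.le (sq_nonneg ε)]
  have h6 : t ^ 2 ≤ t / 1000 := by nlinarith
  linarith

end InitAAux

theorem Start.fP_bd (H : Start n d r q b) (hs : s = 1 ∨ s = -1) :
    |fP (K0 n d q b s)| ≤ r ^ 3602 := by
  obtain ⟨hd, hr, hR, hN, hN', -⟩ := InitAAux.num H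
  obtain ⟨-, q0, -, qb, b1, -⟩ := H.facts
  have hbq := InitAAux.bq H
  have hz := InitAAux.zabs H hs
  have r1 : 1 ≤ r := by nlinarith
  have hX : 1 ≤ r ^ 3601 := one_le_pow₀ r1
  have hR0 : 0 < (r ^ 4200) ^ 2 := by positivity
  have hN0 : (0 : ℝ) < (n * d : ℕ) := hR0.trans_le hN
  have e : fP (K0 n d q b s) = (n * d : ℕ) * (s * (b - q)) + (1 - s * (b * d - q)) := by
    simp only [fP, InitAAux.entry, if_true, sum_const, card_univ, Fintype.card_fin, nsmul_eq_mul]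
    field_simp
  have hs1 : |s| = 1 := by rcases hs with rfl | rfl <;> simp
  rw [e, pow_succ r 3601]
  refine (abs_add_le _ _).trans ?_
  rw [abs_mul, abs_mul, hs1, one_mul, Nat.abs_cast, abs_of_nonneg (sub_nonneg.2 qb)]
  have h1 : ((n * d : ℕ) : ℝ) * (b - q) ≤ r ^ 3601 * (16 * d) := by
    refine (mul_le_mul hN' hbq (sub_nonneg.2 qb) (by positivity)).trans (le_of_eq ?_)
    generalize (r ^ 4200) ^ 2 = Y at hR0
    field_simp
  generalize r ^ 3601 = X at *
  have h2 : 18 * (d : ℝ) ≤ r := by nlinarith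
  have h3 := mul_le_mul_of_nonneg_left h2 (zero_le_one.trans hX)
  have h4 := mul_le_mul_of_nonneg_right hX (show (0 : ℝ) ≤ d by positivity)
  linarith

theorem Start.rS_bd (H : Start n d r q b) (hs : s = 1 ∨ s = -1) (k : Fin (n * d)) :
    rS (K0 n d q b s) k ≤ 1 - 1 / (2 * r ^ 4200) := by
  obtain ⟨hd, hr, hR, hN, -, -⟩ := InitAAux.num H
  obtain ⟨-, q0, -, qb, b1, hq, -⟩ := H.facts
  have hbq := InitAAux.bq H
  have hb := H.hb
  have r1 : 1 ≤ r := by nlinarith
  have hR0 : 0 < (r ^ 4200) ^ 2 := by positivity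
  have hN0 : (0 : ℝ) < (n * d : ℕ) := hR0.trans_le hN
  have hs2 : s ^ 2 = 1 := by rcases hs with rfl | rfl <;> simp
  set c := (1 - s * (b * d - q)) / (n * d : ℕ) with hc
  have e1 : ∀ j : Fin (n * d), K0 n d q b s k j ^ 2 =
      (b ^ 2 + 2 * s * c * b) * (if (k : ℕ) / d = (j : ℕ) / d then 1 else 0)
        + (q ^ 2 - 2 * b * q - 2 * s * c * q) * (if k = j then 1 else 0) + c ^ 2 := fun j => by
    rw [InitAAux.entry, ← hc]
    by_cases hkj : k = j
    · subst hkj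
      simp only [if_true]
      linear_combination (b - q) ^ 2 * hs2
    · simp only [hkj, if_false]
      split_ifs
      · linear_combination b ^ 2 * hs2
      · ring
  have e2 : rS (K0 n d q b s) k = (d - 1) * b ^ 2 + (b - q) ^ 2
      + (1 - (b * d - q) ^ 2) / (n * d : ℕ) := by
    simp only [rS, e1, sum_add_distrib, ← mul_sum, sum_same, sum_ite_eq, mem_univ, if_true,
      sum_const, card_univ, Fintype.card_fin, nsmul_eq_mul]
    rw [hc]
    field_simp
    linear_combination (-(b * d - q) ^ 2) * hs2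
  rw [e2]
  have h1 : (1 - (b * d - q) ^ 2) / (n * d : ℕ) ≤ 1 / (r ^ 4200) ^ 2 :=
    div_le_div₀ zero_le_one (by nlinarith [sq_nonneg (b * d - q)]) hR0 hN
  have hdR : 1000 * (d : ℝ) ≤ r ^ 4200 := by
    refine le_trans ?_ (hr.trans hR)
    nlinarith
  linarith [InitAAux.real1 hd hdR qb b1 q0 hb hbq hq]

theorem Start.fE_bd (H : Start n d r q b) (hs : s = 1 ∨ s = -1) :
    fE (K0 n d q b s) ≤ (n * d : ℕ) * (1 - 1 / (2 * r ^ 4200)) := by
  refine (sum_le_sum fun k _ => H.rS_bd hs k).trans (le_of_eq ?_)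
  simp only [sum_const, card_univ, Fintype.card_fin, nsmul_eq_mul]

theorem Start.fV_bd (H : Start n d r q b) (hs : s = 1 ∨ s = -1) :
    fV (K0 n d q b s) ≤ 1 := by
  obtain ⟨hd, hr, hR, hN, hN', hX⟩ := InitAAux.num H
  obtain ⟨-, q0, -, qb, b1, -⟩ := H.facts
  have hbq := InitAAux.bq H
  have hz := InitAAux.zabs H hs
  have r1 : 1 ≤ r := by nlinarith
  have hX1 : 1 ≤ r ^ 3601 := one_le_pow₀ r1
  have hR0 : 0 < (r ^ 4200) ^ 2 := by positivity
  have hN0 : (0 : ℝ) < (n * d : ℕ) := hR0.trans_le hN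
  have hs2 : s ^ 2 = 1 := by rcases hs with rfl | rfl <;> simp
  have e : fV (K0 n d q b s) = (n * d : ℕ) * (s * (b - q) + (1 - s * (b * d - q)) / (n * d : ℕ)) ^ 2 := by
    simp only [fV, InitAAux.entry, if_true, sum_const, card_univ, Fintype.card_fin, nsmul_eq_mul,
      mul_one]
  rw [e]
  have hz2 : (1 - s * (b * d - q)) ^ 2 ≤ (d + 1) ^ 2 := by
    rw [← sq_abs]
    exact pow_le_pow_left₀ (abs_nonneg _) hz 2
  generalize 1 - s * (b * d - q) = z at *
  generalize ((n * d : ℕ) : ℝ) = N at *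
  generalize r ^ 3601 = X at *
  generalize (r ^ 4200) ^ 2 = Y at *
  have h1 : N * (s * (b - q) + z / N) ^ 2 ≤ 2 * (N * (b - q) ^ 2) + 2 * (z ^ 2 / N) := by
    have : N * (s * (b - q) + z / N) ^ 2 + N * (s * (b - q) - z / N) ^ 2
        = 2 * (N * (b - q) ^ 2) * s ^ 2 + 2 * (z ^ 2 / N) := by
      field_simp
      ring
    rw [hs2] at this
    nlinarith [mul_nonneg hN0.le (sq_nonneg (s * (b - q) - z / N))]
  have h2 : z ^ 2 / N ≤ 1 / 10 := by
    rw [div_le_iff₀ hN0]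
    nlinarith
  have h3 : N * (b - q) ^ 2 ≤ 3 / 10 := by
    refine (mul_le_mul hN' (pow_le_pow_left₀ (sub_nonneg.2 qb) hbq 2) (sq_nonneg _)
      (by positivity)).trans ?_
    rw [show X * Y * (16 * (d : ℝ) / Y) ^ 2 = X * (256 * d ^ 2) / Y by field_simp; norm_num,
      div_le_iff₀ hR0]
    nlinarith
  linarith

theorem Start.fR_bd (H : Start n d r q b) (hs : s = 1 ∨ s = -1) :
    fR (K0 n d q b s) ≤ 51 / 100 * (n * d : ℕ) := by
  obtain ⟨hd, hr, hR, hN, -, -⟩ := InitAAux.num H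
  obtain ⟨-, q0, q2, qb, b1, -⟩ := H.facts
  have hbq := InitAAux.bq H
  have r1 : 1 ≤ r := by nlinarith
  have hR0 : 0 < (r ^ 4200) ^ 2 := by positivity
  have hN0 : (0 : ℝ) < (n * d : ℕ) := hR0.trans_le hN
  have hY : 10000 * (d : ℝ) ≤ (r ^ 4200) ^ 2 := by
    have h1 : 1000 * (d : ℝ) ≤ r ^ 4200 := by
      refine le_trans ?_ (hr.trans hR)
      nlinarith
    generalize r ^ 4200 = R at *
    nlinarith
  have h1 : 16 * (d : ℝ) / (r ^ 4200) ^ 2 ≤ 1 / 500 := by
    rw [div_le_iff₀ hR0]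
    linarith
  have h2 : ((d : ℝ) + 1) / (n * d : ℕ) ≤ 1 / 1000 := by
    rw [div_le_iff₀ hN0]
    linarith
  have q1 : q ≤ 708 / 1000 := by nlinarith
  have h3 : ∀ k j, K0 n d q b s k j ^ 2 ≤ 51 / 100 := fun k j => by
    have h := InitAAux.abs_entry H hs k j
    have : b * (if (k : ℕ) / d = (j : ℕ) / d then (1 : ℝ) else 0) ≤ b := by
      split_ifs <;> linarith
    rw [← sq_abs]
    have h0 := abs_nonneg (K0 n d q b s k j)
    have : |K0 n d q b s k j| ≤ 711 / 1000 := by linarith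
    nlinarith
  have h4 : ∀ k, rR (K0 n d q b s) k ≤ 51 / 100 := fun k => by
    have h5 := H.rS_bd hs k
    have h6 : 0 ≤ 1 / (2 * r ^ 4200) := by positivity
    have : rR (K0 n d q b s) k ≤ 51 / 100 * rS (K0 n d q b s) k := by
      rw [rR, rS, mul_sum]
      refine sum_le_sum fun j _ => ?_
      rw [show K0 n d q b s k j ^ 4 = K0 n d q b s k j ^ 2 * K0 n d q b s k j ^ 2 by ring]
      exact mul_le_mul_of_nonneg_right (h3 k j) (sq_nonneg _)
    linarith
  refine (sum_le_sum fun k _ => h4 k).trans (le_of_eq ?_)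
  simp only [sum_const, card_univ, Fintype.card_fin, nsmul_eq_mul]
  ring

theorem Start.op_bd (H : Start n d r q b) (hs : s = 1 ∨ s = -1) :
    Op (K0 n d q b s) (4 * d) := by
  obtain ⟨hd, hr, hR, hN, -, -⟩ := InitAAux.num H
  obtain ⟨-, q0, q2, qb, b1, -⟩ := H.facts
  have r1 : 1 ≤ r := by nlinarith
  have hR0 : 0 < (r ^ 4200) ^ 2 := by positivity
  have hN0 : (0 : ℝ) < (n * d : ℕ) := hR0.trans_le hN
  refine InitAAux.schur _ _ (by positivity) (K0_ok q b s).symm fun i => ?_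
  refine (sum_le_sum fun j _ => InitAAux.abs_entry H hs i j).trans ?_
  simp only [sum_add_distrib, ← mul_sum, sum_same, sum_const, card_univ, Fintype.card_fin,
    nsmul_eq_mul]
  rw [mul_div_cancel₀ _ hN0.ne']
  nlinarith

end Vale.Agent.P049
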