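import Vale.Agent.P049.LipA
import Vale.Agent.P049.BasA

/-! P049: rounding and its effect on the potential. -/

namespace Vale.Agent.P049
open Matrix Finset
variable {ι : Type} [Fintype ι] [DecidableEq ι]

section
variable {F : Type} [Field F] [LinearOrder F] [FloorRing F]
/-- one-sided rounding to the grid of mesh `1 / G` -/
def fl (G : ℕ) (s x : F) : F := s * (⌊s * G * x⌋ : F) / G
/-- round the off-diagonal entries, keep the row sums -/
def rnd (G : ℕ) (s : F) (U : Finset ι) (K : Matrix ι ι F) : Matrix ι ι F := fun k j =>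
  if k ∈ U ∧ j ∈ U then
    if k = j then 1 - ∑ l ∈ U.erase k, fl G s (K k l) else fl G s (K k j)
  else 0
end

namespace LipY

theorem fl_bd {G : ℕ} {s : ℝ} (hG : 0 < G) (hs : s = 1 ∨ s = -1) (x : ℝ) :
    s * fl G s x ≤ s * x ∧ |fl G s x - x| ≤ 1 / G := by
  have G0 : (0 : ℝ) < G := by exact_mod_cast hG
  have h1 := Int.floor_le (s * G * x)
  have h2 := Int.lt_floor_add_one (s * G * x)
  have e : fl G s x - x = (s * (⌊s * G * x⌋ : ℝ) - G * x) / G := by unfold fl; field_simp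
  constructor
  · rw [← sub_nonpos, ← mul_sub, e, ← mul_div_assoc]
    refine div_nonpos_of_nonpos_of_nonneg ?_ G0.le
    rcases hs with h | h <;> rw [h] at h1 ⊢ <;> linarith
  · rw [e, abs_div, abs_of_pos G0]
    refine div_le_div_of_nonneg_right (abs_le.2 ?_) G0.le
    rcases hs with h | h <;> rw [h] at h1 h2 ⊢ <;> constructor <;> linarith

theorem pw {r c : ℝ} (hr : 10 ^ 50 ≤ r) (hc : c ≤ 10 ^ 50) {a b : ℕ} (h : a + 1 ≤ b) :
    c * r ^ a ≤ r ^ b := by
  have r1 : 1 ≤ r := le_trans (by norm_num) hr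
  calc c * r ^ a ≤ r * r ^ a := mul_le_mul_of_nonneg_right (hc.trans hr) (by positivity)
    _ = r ^ (a + 1) := (pow_succ' r a).symm
    _ ≤ r ^ b := pow_le_pow_right₀ r1 h

theorem eps {r : ℝ} (hr : 10 ^ 50 ≤ r) :
    100 * (r ^ 12001) ^ 7 * (1 / r ^ 180000) ≤ 1 / r ^ 95000 := by
  have r0 : 0 < r := lt_of_lt_of_le (by norm_num) hr
  rw [mul_one_div, div_le_div_iff₀ (by positivity) (by positivity), one_mul, ← pow_mul, mul_assoc,
    ← pow_add]
  exact pw hr (by norm_num) (by norm_num)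

theorem dv {r t x x' : ℝ} (hr : 10 ^ 50 ≤ r) (ht : 1 / r ^ 30000 ≤ t)
    (h : x' - x ≤ 2 * (1 / r ^ 95000)) : x' / t ≤ x / t + 1 / r ^ 60000 := by
  have r0 : 0 < r := lt_of_lt_of_le (by norm_num) hr
  have t0 : 0 < t := lt_of_lt_of_le (by positivity) ht
  rw [← sub_le_iff_le_add', ← sub_div, div_le_iff₀ t0]
  refine h.trans (le_trans ?_ (mul_le_mul_of_nonneg_left ht (by positivity)))
  rw [mul_one_div, div_mul_div_comm, one_mul, ← pow_add,
    div_le_div_iff₀ (by positivity) (by positivity), one_mul]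
  exact pw hr (by norm_num) (by norm_num)

theorem small {r : ℝ} (hr : 10 ^ 50 ≤ r) {a b : ℕ} (h : a + 1 ≤ b) :
    1 / r ^ b ≤ 1 / (100 * r ^ a) := by
  have r0 : 0 < r := lt_of_lt_of_le (by norm_num) hr
  exact one_div_le_one_div_of_le (by positivity) (pw hr (by norm_num) h)

theorem tot {r N : ℝ} (hr : 10 ^ 50 ≤ r) (hN1 : r ^ 3000 ≤ N) (hN2 : N ≤ r ^ 12001) :
    7 * (1 / r ^ 60000) ≤ 1 / (4 * r * N) := by
  have r0 : 0 < r := lt_of_lt_of_le (by norm_num) hr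
  have N0 : 0 < N := lt_of_lt_of_le (by positivity) hN1
  rw [mul_one_div, div_le_div_iff₀ (by positivity) (by positivity), one_mul]
  calc 7 * (4 * r * N) ≤ 7 * (4 * r * r ^ 12001) := by gcongr
    _ = 28 * r ^ 12002 := by ring
    _ ≤ _ := pw hr (by norm_num) (by norm_num)

theorem frac {r N : ℝ} (hr : 10 ^ 50 ≤ r) (hN1 : r ^ 3000 ≤ N) (hN2 : N ≤ r ^ 12001) (a : ℕ)
    {b : ℕ} (hb : b ≤ 12001) : 1 / r ^ 15000 ≤ r ^ a * N / (N + r ^ b) := by
  have r1 : 1 ≤ r := le_trans (by norm_num) hr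
  have N1 : 1 ≤ N := (one_le_pow₀ r1).trans hN1
  have h1 := pow_le_pow_right₀ r1 hb
  have h2 := pw hr (c := 2) (by norm_num) (show 12001 + 1 ≤ 15000 by norm_num)
  exact div_le_div₀ (by positivity) (one_le_mul_of_one_le_of_one_le (one_le_pow₀ r1) N1)
    (by positivity) (by linarith)

omit [DecidableEq ι] in
theorem entry {r N : ℝ} {K : Matrix ι ι ℝ} (hr : 10 ^ 50 ≤ r) (hN2 : N ≤ r ^ 12001)
    (h : fE K < N + 1) (k j : ι) : |K k j| ≤ r ^ 12001 := by
  have h1 : K k j ^ 2 ≤ fE K := le_trans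
    (single_le_sum (f := fun j => K k j ^ 2) (fun _ _ => sq_nonneg _) (mem_univ j))
    (single_le_sum (f := fun k => rS K k) (fun _ _ => sum_nonneg fun _ _ => sq_nonneg _)
      (mem_univ k))
  have h2 := pw hr (c := 2) (by norm_num) (show 0 + 1 ≤ 12001 by norm_num)
  rw [pow_zero] at h2
  generalize r ^ 12001 = M at *
  exact abs_le_of_sq_le_sq' (by nlinarith) (by linarith) |> abs_le.2

theorem inv {r u u' : ℝ} (hr : 10 ^ 50 ≤ r) (hu : 1 / (2 * r) ≤ u)
    (h : u - u' ≤ 1 / r ^ 95000) : 0 < u' ∧ 1 / u' ≤ 1 / u + 1 / r ^ 80000 := by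
  have r0 : 0 < r := lt_of_lt_of_le (by norm_num) hr
  have h1 := small hr (show 1 + 1 ≤ 95000 by norm_num)
  rw [pow_one] at h1
  have e1 : 1 / (2 * r) = 50 * (1 / (100 * r)) := by field_simp; norm_num
  have p1 : 0 < 1 / (100 * r) := by positivity
  have h2 : 1 / (100 * r) ≤ u' := by linarith
  have h3 : 1 / (100 * r) ≤ u := by linarith
  have u0 : 0 < u := p1.trans_le h3
  have u0' : 0 < u' := p1.trans_le h2
  refine ⟨u0', ?_⟩
  rw [← sub_le_iff_le_add', div_sub_div _ _ u0'.ne' u0.ne', one_mul, mul_one,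
    div_le_iff₀ (by positivity)]
  refine h.trans (le_trans ?_ (mul_le_mul_of_nonneg_left
    (mul_le_mul h2 h3 p1.le u0'.le) (by positivity)))
  rw [div_mul_div_comm, div_mul_div_comm, one_mul, one_mul]
  refine one_div_le_one_div_of_le (by positivity) ?_
  rw [show r ^ 80000 * (100 * r * (100 * r)) = 10000 * r ^ 80002 by ring]
  exact pw hr (by norm_num) (by norm_num)

theorem one {r t : ℝ} (hr : 10 ^ 50 ≤ r) (ht : 1 ≤ t) : 1 / r ^ 30000 ≤ t :=
  ((div_le_one (pow_pos (lt_of_lt_of_le (by norm_num) hr) _)).2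
    (one_le_pow₀ (le_trans (by norm_num) hr))).trans ht

theorem eta {r : ℝ} (hr : 10 ^ 50 ≤ r) : r ^ 7799 * (1 / r ^ 80000) ≤ 1 / r ^ 60000 := by
  have r1 : 1 ≤ r := le_trans (by norm_num) hr
  rw [mul_one_div, div_le_div_iff₀ (by positivity) (by positivity), one_mul, ← pow_add]
  exact pow_le_pow_right₀ r1 (by norm_num)

theorem pcF {r x x' : ℝ} (hr : 10 ^ 50 ≤ r) (hb : x < 2 * r ^ 3750)
    (hF : 1 / r / (2 - x / r ^ 3750) ≤ 2) (h : x' - x ≤ 1 / r ^ 95000) :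
    x' < 2 * r ^ 3750 ∧
      1 / r / (2 - x' / r ^ 3750) ≤ 1 / r / (2 - x / r ^ 3750) + 1 / r ^ 60000 := by
  have r1 : 1 ≤ r := le_trans (by norm_num) hr
  have r0 : 0 < r := by linarith
  have B1 : 1 ≤ r ^ 3750 := one_le_pow₀ r1
  have u0 : 0 < 2 - x / r ^ 3750 := by
    rw [sub_pos, div_lt_iff₀ (by positivity)]; exact hb
  obtain ⟨f1, f2⟩ := inv (u := 2 - x / r ^ 3750) (u' := 2 - x' / r ^ 3750) hr (by
      rw [div_le_iff₀' u0] at hF
      rw [show 1 / (2 * r) = 1 / r / 2 by field_simp, div_le_iff₀ two_pos]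
      exact hF) (by
      rw [sub_sub_sub_cancel_left, ← sub_div]
      exact le_trans (div_le_div_of_nonneg_right h (by positivity)) (div_le_self (by positivity) B1))
  refine ⟨by rwa [sub_pos, div_lt_iff₀ (by positivity)] at f1, ?_⟩
  rw [div_eq_mul_one_div (1 / r), div_eq_mul_one_div (1 / r)]
  refine (mul_le_mul_of_nonneg_left f2 (by positivity)).trans ?_
  rw [mul_add]
  refine add_le_add le_rfl (le_trans (mul_le_mul_of_nonneg_right ?_ (by positivity)) (eta hr))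
  exact ((div_le_one r0).2 r1).trans (one_le_pow₀ r1)

theorem yb {r Z N y : ℝ} (r2 : 2 ≤ r) (Z1 : 1 ≤ Z) (N1 : 1 ≤ N) (y0 : 0 < y)
    (h : Z * (1 / y - 1 / N) ≤ 2) : 1 / (2 * r) ≤ y := by
  have h1 : 1 / N ≤ 1 := (div_le_one (by linarith)).2 N1
  have h2 : 1 / y ≤ 3 := by
    by_contra hc
    nlinarith
  rw [div_le_iff₀ y0] at h2
  rw [div_le_iff₀ (by positivity)]
  nlinarith

theorem pcG {r N x x' : ℝ} (hr : 10 ^ 50 ≤ r) (N1 : 1 ≤ N) (hb : x < N + 1)
    (hG : r ^ 7799 * (1 / (N + 1 - x) - 1 / N) ≤ 2) (h : x' - x ≤ 1 / r ^ 95000) :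
    x' < N + 1 ∧ r ^ 7799 * (1 / (N + 1 - x') - 1 / N) ≤
      r ^ 7799 * (1 / (N + 1 - x) - 1 / N) + 1 / r ^ 60000 := by
  have r2 : 2 ≤ r := le_trans (by norm_num) hr
  obtain ⟨g1, g2⟩ := inv (u := N + 1 - x) (u' := N + 1 - x') hr
    (yb r2 (one_le_pow₀ (by linarith)) N1 (sub_pos.2 hb) hG) (by rwa [sub_sub_sub_cancel_left])
  refine ⟨sub_pos.1 g1, le_trans ?_ (add_le_add le_rfl (eta hr))⟩
  rw [← mul_add, sub_add_eq_add_sub]
  exact mul_le_mul_of_nonneg_left (sub_le_sub_right g2 _) (by positivity)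

theorem lbH {r N : ℝ} (hr : 10 ^ 50 ≤ r) (hN1 : r ^ 3000 ≤ N) (hN2 : N ≤ r ^ 12001) :
    1 / r ^ 30000 ≤ tH r N ^ 2 := by
  have r0 : 0 < r := lt_of_lt_of_le (by norm_num) hr
  have := pow_le_pow_left₀ (by positivity) (frac hr hN1 hN2 4790 (b := 7799) (by norm_num)) 2
  rw [div_pow, one_pow, ← pow_mul] at this
  exact this

theorem lbV {r N : ℝ} (hr : 10 ^ 50 ≤ r) (hN1 : r ^ 3000 ≤ N) (hN2 : N ≤ r ^ 12001) :
    1 / r ^ 30000 ≤ tV r N := by
  have r1 : 1 ≤ r := le_trans (by norm_num) hr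
  exact le_trans (one_div_le_one_div_of_le (by positivity) (pow_le_pow_right₀ r1 (by norm_num)))
    (frac hr hN1 hN2 1900 (b := 6500) (by norm_num))

theorem lbW {r N π : ℝ} (hr : 10 ^ 50 ≤ r) (N1 : 1 ≤ N) (π1 : π ≤ 1) : 1 ≤ tW r N π :=
  one_le_mul_of_one_le_of_one_le (one_le_mul_of_one_le_of_one_le (by
    rw [one_le_div (by positivity)]
    have := pw hr (c := 2 ^ 55) (by norm_num) (show 0 + 1 ≤ 2 by norm_num)
    rwa [pow_zero, mul_one] at this) N1) (one_le_pow₀ (by linarith))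

theorem lbR {r N π : ℝ} (hr : 10 ^ 50 ≤ r) (N1 : 1 ≤ N) (π0 : 0 < π) :
    1 / r ^ 30000 ≤ tR r N π := by
  have r1 : 1 ≤ r := le_trans (by norm_num) hr
  have r0 : 0 < r := by linarith
  refine (one_div_le_one_div_of_le r0 (le_self_pow₀ r1 (by norm_num))).trans ?_
  have h2 : 0 < 1 / r := by positivity
  unfold tR
  nlinarith

theorem sg {s x x' e : ℝ} (hs : s = 1 ∨ s = -1) (h : |x' - x| ≤ e) : s * x' - s * x ≤ e := by
  have := abs_le.1 h
  rcases hs with h | h <;> rw [h] <;> linarith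

theorem tw {x e : ℝ} (h : |x| ≤ e) : x ≤ 2 * e := by
  have := abs_le.1 h
  linarith

end LipY
open LipY

theorem rnd_ok {G : ℕ} {s : ℝ} {U : Finset ι} {K : Matrix ι ι ℝ} (hK : Ok U K) :
    Ok U (rnd G s U K) := by
  refine ⟨fun i j => ?_, fun i j hi => if_neg fun h => hi h.1, fun i hi => ?_⟩
  · by_cases h : i = j
    · rw [h]
    · unfold rnd
      rw [if_neg h, if_neg (Ne.symm h), hK.symm i j]
      exact if_congr and_comm rfl rfl
  · unfold rnd
    rw [← sum_subset (subset_univ U) fun j _ hj => if_neg fun h : i ∈ U ∧ j ∈ U => hj h.2,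
      ← add_sum_erase U _ hi, if_pos ⟨hi, hi⟩, if_pos rfl, sub_add, sub_eq_self, sub_eq_zero]
    exact sum_congr rfl fun j hj => by
      rw [if_pos ⟨hi, mem_of_mem_erase hj⟩, if_neg (ne_of_mem_erase hj).symm]

theorem rnd_le {G : ℕ} {s : ℝ} {U : Finset ι} {K : Matrix ι ι ℝ} (hG : 0 < G)
    (hs : s = 1 ∨ s = -1) (hK : Ok U K) {k j : ι} (hkj : k ≠ j) :
    s * rnd G s U K k j ≤ s * K k j := by
  unfold rnd
  split_ifs with h
  · exact (fl_bd hG hs _).1
  · rcases not_and_or.1 h with h | h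
    · rw [hK.supp k j h]
    · rw [hK.symm, hK.supp j k h]

theorem rnd_close {G : ℕ} {s : ℝ} {U : Finset ι} {K : Matrix ι ι ℝ} (hG : 0 < G)
    (hs : s = 1 ∨ s = -1) (hK : Ok U K) (k j : ι) :
    |rnd G s U K k j - K k j| ≤ (Fintype.card ι : ℝ) / G := by
  have G0 : (0 : ℝ) < G := by exact_mod_cast hG
  unfold rnd
  split_ifs with h h'
  · subst h'
    have h1 := hK.row k h.1
    rw [← sum_subset (subset_univ U) fun j _ hj => by rw [hK.symm, hK.supp j k hj],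
      ← add_sum_erase U _ h.1] at h1
    rw [show K k k = 1 - ∑ l ∈ U.erase k, K k l by linarith, sub_sub_sub_cancel_left,
      ← sum_sub_distrib]
    refine (abs_sum_le_sum_abs _ _).trans ((sum_le_card_nsmul _ _ (1 / (G : ℝ)) fun l _ => by
      rw [abs_sub_comm]; exact (fl_bd hG hs _).2).trans ?_)
    rw [nsmul_eq_mul, mul_one_div]
    exact div_le_div_of_nonneg_right (by exact_mod_cast card_le_univ _) G0.le
  · refine (fl_bd hG hs _).2.trans (div_le_div_of_nonneg_right ?_ G0.le)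
    exact_mod_cast Fintype.card_pos_iff.2 ⟨k⟩
  · have : K k j = 0 := by
      rcases not_and_or.1 h with h | h
      · exact hK.supp k j h
      · rw [hK.symm, hK.supp j k h]
    rw [this, sub_zero, abs_zero]
    positivity

theorem lip1 {r N π s : ℝ} {K K' : Matrix ι ι ℝ} (hr : 10 ^ 50 ≤ r) (hN1 : r ^ 3000 ≤ N)
    (hN2 : N ≤ r ^ 12001) (hn : (Fintype.card ι : ℝ) ≤ r ^ 12001) (hs : s = 1 ∨ s = -1)
    (π0 : 0 < π) (π1 : π ≤ 1) (hb : Bar r N s K) (hF : pF r s K ≤ 2) (hG : pG r N K ≤ 2)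
    (hd : ∀ k j, |K' k j - K k j| ≤ 1 / r ^ 180000) :
    Bar r N s K' ∧ pot1 r N π s K' ≤ pot1 r N π s K + 1 / (4 * r * N) := by
  have r1 : 1 ≤ r := le_trans (by norm_num) hr
  have r0 : 0 < r := by linarith
  have N1 : 1 ≤ N := (one_le_pow₀ r1).trans hN1
  obtain ⟨a1, a2, a3, a4, a5, a6, a7⟩ := lip_one (one_le_pow₀ r1) hn (by positivity)
    ((div_le_one (by positivity)).2 (one_le_pow₀ r1)) (entry hr hN2 hb.2) hd
  have a3' := (abs_le.1 (a3.trans (eps hr))).2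
  obtain ⟨f1, b1⟩ := pcF hr hb.1 hF (sg hs (a1.trans (eps hr)))
  obtain ⟨g1, b3⟩ := pcG hr N1 hb.2 hG a3'
  refine ⟨⟨f1, g1⟩, le_trans ?_ (add_le_add le_rfl (tot hr hN1 hN2))⟩
  have b2 := dv hr (lbH hr hN1 hN2) (tw (a2.trans (eps hr)))
  have b4 := dv (t := tT r N) (x := s * fT K + fE K) (x' := s * fT K' + fE K') hr (one hr (le_min
    (one_le_mul_of_one_le_of_one_le (one_le_pow₀ r1) N1) (one_le_pow₀ r1))) (by
      rw [add_sub_add_comm, two_mul]
      exact add_le_add (sg hs (a4.trans (eps hr))) a3')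
  have b5 := dv hr (lbV hr hN1 hN2) (tw (a5.trans (eps hr)))
  have b6 := dv hr (one hr (lbW hr N1 π1)) (tw (a6.trans (eps hr)))
  have b7 := dv hr (lbR hr N1 π0) (tw (a7.trans (eps hr)))
  refine (add_le_add (add_le_add (add_le_add (add_le_add (add_le_add (add_le_add b1 b2) b3) b4)
    b5) b6) b7).trans (le_of_eq ?_)
  unfold pot1 pF pH pG pT pV pW pR
  generalize 1 / r ^ 60000 = η
  abel_nf
  ring

theorem lip2 {r N : ℝ} {A A' B B' : Matrix ι ι ℝ} (hr : 10 ^ 50 ≤ r) (hN1 : r ^ 3000 ≤ N)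
    (hN2 : N ≤ r ^ 12001) (hn : (Fintype.card ι : ℝ) ≤ r ^ 12001) (hA : fE A < N + 1)
    (hB : fE B < N + 1) (dA : ∀ k j, |A' k j - A k j| ≤ 1 / r ^ 180000)
    (dB : ∀ k j, |B' k j - B k j| ≤ 1 / r ^ 180000) :
    pC r N A' B' ≤ pC r N A B + 1 / (4 * r * N) := by
  have r1 : 1 ≤ r := le_trans (by norm_num) hr
  have N1 : 1 ≤ N := (one_le_pow₀ r1).trans hN1
  have a := abs_le.1 ((lip_C (one_le_pow₀ r1) hn (by positivity)
    ((div_le_one (by positivity)).2 (one_le_pow₀ r1)) (entry hr hN2 hA) dA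
    (entry hr hN2 hB) dB).trans (eps hr))
  have e0 : 0 < 1 / r ^ 95000 := by positivity
  have e1 : 0 < 1 / r ^ 60000 := by positivity
  have b : pC r N A' B' ≤ pC r N A B + 1 / r ^ 60000 := dv hr
    (((div_le_one (by positivity)).2 (one_le_pow₀ r1)).trans
      (one_le_mul_of_one_le_of_one_le (one_le_pow₀ r1) N1)) (by linarith)
  linarith [tot hr hN1 hN2]

end Vale.Agent.P049
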