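import Vale.Agent.P049.Defs

/-! P049: the functionals are Lipschitz in the entries. -/

namespace Vale.Agent.P049
open Matrix Finset
variable {ι : Type} [Fintype ι] [DecidableEq ι] {M δ : ℝ} {A A' B B' : Matrix ι ι ℝ}

namespace LipX

/-- two close numbers with bounds -/
structure Cl (b b' e x x' : ℝ) : Prop where
  h1 : |x| ≤ b
  h2 : |x'| ≤ b'
  h3 : |x' - x| ≤ e

theorem Cl.mul {b b' e x x' c c' f y y' : ℝ} (h : Cl b b' e x x') (h' : Cl c c' f y y') :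
    Cl (b * c) (b' * c') (e * c' + b * f) (x * y) (x' * y') := by
  refine ⟨?_, ?_, ?_⟩
  · rw [abs_mul]; exact mul_le_mul h.h1 h'.h1 (abs_nonneg _) ((abs_nonneg _).trans h.h1)
  · rw [abs_mul]; exact mul_le_mul h.h2 h'.h2 (abs_nonneg _) ((abs_nonneg _).trans h.h2)
  · rw [show x' * y' - x * y = (x' - x) * y' + x * (y' - y) by ring]
    refine (abs_add_le _ _).trans ?_
    rw [abs_mul, abs_mul]
    exact add_le_add (mul_le_mul h.h3 h'.h2 (abs_nonneg _) ((abs_nonneg _).trans h.h3))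
      (mul_le_mul h.h1 h'.h3 (abs_nonneg _) ((abs_nonneg _).trans h.h1))

theorem Cl.sq {b b' e x x' : ℝ} (h : Cl b b' e x x') :
    Cl (b * b) (b' * b') (e * b' + b * e) (x ^ 2) (x' ^ 2) := by
  rw [_root_.sq, _root_.sq]; exact h.mul h

omit [DecidableEq ι] in
theorem abs_sum (hM : 1 ≤ M) (hn : (Fintype.card ι : ℝ) ≤ M) {b : ℝ} {x : ι → ℝ} (hb : 0 ≤ b)
    (h : ∀ k, |x k| ≤ b) : |∑ k, x k| ≤ M * b := by
  refine (abs_sum_le_sum_abs _ _).trans ((sum_le_card_nsmul _ _ b fun k _ => h k).trans ?_)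
  rw [nsmul_eq_mul, card_univ]
  exact mul_le_mul_of_nonneg_right hn hb

omit [DecidableEq ι] in
theorem Cl.sum (hM : 1 ≤ M) (hn : (Fintype.card ι : ℝ) ≤ M) {b b' e : ℝ} {x x' : ι → ℝ}
    [Nonempty ι] (h : ∀ k, Cl b b' e (x k) (x' k)) :
    Cl (M * b) (M * b') (M * e) (∑ k, x k) (∑ k, x' k) :=
  have h0 := h (Classical.arbitrary ι)
  have hb : 0 ≤ b := (abs_nonneg _).trans h0.h1
  have hb' : 0 ≤ b' := (abs_nonneg _).trans h0.h2
  have he : 0 ≤ e := (abs_nonneg _).trans h0.h3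
  ⟨abs_sum hM hn hb fun k => (h k).h1, abs_sum hM hn hb' fun k => (h k).h2, by
    rw [← sum_sub_distrib]; exact abs_sum hM hn he fun k => (h k).h3⟩

theorem fin (hM : 1 ≤ M) (δ0 : 0 ≤ δ) {b b' e x x' : ℝ} (h : Cl b b' e x x') (c : ℝ) (k : ℕ)
    (he : e = c * M ^ k * δ) (hc : c ≤ 100) (hk : k ≤ 7) :
    |x' - x| ≤ 100 * M ^ 7 * δ := by
  refine h.h3.trans (he.trans_le (mul_le_mul_of_nonneg_right ?_ δ0))
  exact mul_le_mul hc (pow_le_pow_right₀ hM hk) (by positivity) (by norm_num)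

omit [Fintype ι] [DecidableEq ι] in
theorem ent (hM : 1 ≤ M) (δ1 : δ ≤ 1) (hA : ∀ k j, |A k j| ≤ M)
    (dA : ∀ k j, |A' k j - A k j| ≤ δ) (k j : ι) : Cl M (2 * M) δ (A k j) (A' k j) :=
  ⟨hA k j, by
    have := abs_add_le (A' k j - A k j) (A k j)
    rw [sub_add_cancel] at this
    linarith [hA k j, dA k j], dA k j⟩

end LipX
open LipX

theorem lip_one (hM : 1 ≤ M) (hn : (Fintype.card ι : ℝ) ≤ M) (δ0 : 0 ≤ δ) (δ1 : δ ≤ 1)
    (hA : ∀ k j, |A k j| ≤ M) (dA : ∀ k j, |A' k j - A k j| ≤ δ) :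
    |fP A' - fP A| ≤ 100 * M ^ 7 * δ ∧ |fP A' ^ 2 - fP A ^ 2| ≤ 100 * M ^ 7 * δ ∧
      |fE A' - fE A| ≤ 100 * M ^ 7 * δ ∧ |fT A' - fT A| ≤ 100 * M ^ 7 * δ ∧
      |fV A' - fV A| ≤ 100 * M ^ 7 * δ ∧ |fW A' - fW A| ≤ 100 * M ^ 7 * δ ∧
      |fR A' - fR A| ≤ 100 * M ^ 7 * δ := by
  have M0 : 0 < M := by linarith
  have p0 : 0 ≤ 100 * M ^ 7 * δ := by positivity
  rcases isEmpty_or_nonempty ι with hι | hι
  · simp [fP, fE, fT, fV, fW, fR, trace, p0]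
  have e := ent hM δ1 hA dA
  have hP := Cl.sum hM hn fun k => e k k
  have hS := fun k => Cl.sum hM hn fun j => (e k j).sq
  refine ⟨fin hM δ0 hP 1 1 (by ring) (by norm_num) (by norm_num), fin hM δ0 hP.sq 3 3 (by ring) (by norm_num) (by norm_num),
    fin hM δ0 (Cl.sum hM hn hS) 3 3 (by ring) (by norm_num) (by norm_num), ?_,
    fin hM δ0 (Cl.sum hM hn fun k => (e k k).sq) 3 2 (by ring) (by norm_num) (by norm_num),
    fin hM δ0 (Cl.sum hM hn fun k => (hS k).sq) 15 6 (by ring) (by norm_num) (by norm_num), ?_⟩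
  · exact fin hM δ0 (Cl.sum hM hn fun k => Cl.sum hM hn fun j =>
      (Cl.sum hM hn fun l => (e k l).mul (e l j)).mul (e j k)) 7 5 (by ring) (by norm_num) (by norm_num)
  · have := fin hM δ0 (Cl.sum hM hn fun k => Cl.sum hM hn fun j => (e k j).sq.sq) 15 5 (by ring) (by norm_num) (by norm_num)
    simp only [← pow_mul] at this
    exact this

theorem lip_C (hM : 1 ≤ M) (hn : (Fintype.card ι : ℝ) ≤ M) (δ0 : 0 ≤ δ) (δ1 : δ ≤ 1)
    (hA : ∀ k j, |A k j| ≤ M) (dA : ∀ k j, |A' k j - A k j| ≤ δ)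
    (hB : ∀ k j, |B k j| ≤ M) (dB : ∀ k j, |B' k j - B k j| ≤ δ) :
    |fC A' B' - fC A B| ≤ 100 * M ^ 7 * δ := by
  have M0 : 0 < M := by linarith
  have p0 : 0 ≤ 100 * M ^ 7 * δ := by positivity
  rcases isEmpty_or_nonempty ι with hι | hι
  · simp [fC, fE, p0]
  have e := ent hM δ1 hA dA
  have e' := ent hM δ1 hB dB
  exact fin hM δ0 (Cl.sum hM hn fun k => Cl.sum hM hn fun j =>
    (Cl.sum hM hn fun l => (e k l).mul (e' l j)).sq) 15 7 (by ring) (by norm_num) (by norm_num)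

end Vale.Agent.P049
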