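import Vale.Agent.P049.PT2

/-! P049: the algorithm runs in polynomial time. -/

namespace Vale.Agent.P049
open Matrix Finset Vale.Agent.PT

namespace PTX

variable {α : Type} [TEnc α]

theorem pt_cands {C : α → CSt} (hC : PTime C) : PTime fun a => cands (C a) := by
  unfold cands
  refine PTime.flatMap (hC.fst.product hC.fst) ?_
  have hp : PTime fun q : α × ℕ × ℕ => q.2 := PTime.snd_id
  have h1 : PTime fun q : α × ℕ × ℕ => rm (C q.1).1 q.2 := pt_rm (ptf hC.fst) hp
  have h2 : PTime fun q : α × ℕ × ℕ => (C q.1).2 := ptf hC.snd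
  refine PTime.ite (hp.fst.decide_eq hp.snd) (PTime.const []) ((h1.prodMk (hp.cons h2)).cons ?_)
  refine PTime.map h2 ?_
  have he : PTime fun q : (α × ℕ × ℕ) × ℕ × ℕ => q.2 := PTime.snd_id
  have h3 : PTime fun q : (α × ℕ × ℕ) × ℕ × ℕ => (C q.1.1).2.filter fun e' => decide (e' ≠ q.2) :=
    PTime.filter (ptf h2) (PTime.snd_id.decide_ne (ptf he))
  exact (ptf h1).prodMk ((((ptf hp).fst).prodMk he.fst).cons
    ((((ptf hp).snd).prodMk he.snd).cons h3))

theorem pt_cstep (d : ℕ) {es : α → Edges} {C : α → CSt} (hes : PTime es) (hC : PTime C) :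
    PTime fun a => cstep d (es a) (C a) := by
  unfold cstep
  exact PTime.getD (PTime.find? (pt_cands hC) (pt_okE d (PTime.snd_id.snd.append (ptf hes)))) hC

structure CI (U : List ℕ) (k : ℕ) (C : CSt) : Prop where
  sub : C.1.Sublist U
  mem : ∀ e ∈ C.2, e.1 ∈ U ∧ e.2 ∈ U
  len : C.2.length ≤ 2 * k

theorem CI.step {d k : ℕ} {U : List ℕ} {es : Edges} {C : CSt} (h : CI U k C) :
    CI U (k + 1) (cstep d es C) := by
  unfold cstep
  cases hf : (cands C).find? fun C' => okE d (C'.2 ++ es) with
  | none => exact ⟨h.sub, h.mem, h.len.trans (by omega)⟩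
  | some C' =>
    have hm := List.mem_of_find?_eq_some hf
    change CI U (k + 1) C'
    obtain ⟨p, hp, hm⟩ := List.mem_flatMap.1 hm
    have hp' : p.1 ∈ C.1 ∧ p.2 ∈ C.1 := List.mem_product.1 hp
    have p1 := h.sub.subset hp'.1
    have p2 := h.sub.subset hp'.2
    have s1 : (rm C.1 p).Sublist U := List.filter_sublist.trans h.sub
    have hl := h.len
    split_ifs at hm
    · simp at hm
    · rcases List.mem_cons.1 hm with rfl | hm
      · refine ⟨s1, fun e he => ?_, by simp only [List.length_cons]; omega⟩
        rcases List.mem_cons.1 he with rfl | he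
        exacts [⟨p1, p2⟩, h.mem e he]
      · obtain ⟨e, he, rfl⟩ := List.mem_map.1 hm
        refine ⟨s1, fun e' he' => ?_, ?_⟩
        · rcases List.mem_cons.1 he' with rfl | he'
          · exact ⟨p1, (h.mem e he).1⟩
          rcases List.mem_cons.1 he' with rfl | he'
          · exact ⟨p2, (h.mem e he).2⟩
          · exact h.mem e' (List.mem_of_mem_filter he')
        · have := List.length_filter_le (fun e' => decide (e' ≠ e)) C.2
          simp only [List.length_cons]
          omega

end PTX
open PTX

theorem pt_phase2 {α : Type} [TEnc α] (d : ℕ) {m : α → ℕ} {U : α → List ℕ} {es : α → Edges}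
    (hm : PTime m) (hB : PB m) (hU : PTime U) (hes : PTime es) :
    PTime fun a => phase2 d (m a) (U a) (es a) := by
  unfold phase2
  refine PTime.snd (PTime.iterate (f := fun a => cstep d (es a)) hm hB
    (hU.prodMk (PTime.const [])) (pt_cstep d (ptf hes) PTime.snd_id)
    (fun a => sz (U a) + 2 * m a * (2 * sz (U a) + 2) + 2)
    ((hU.sz_PB.add (((PB.const 2).mul hB).mul (((PB.const 2).mul hU.sz_PB).add
      (PB.const 2)))).add (PB.const 2)) fun a k hk => ?_)
  have key : ∀ k, CI (U a) k ((cstep d (es a))^[k] (U a, [])) := by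
    intro k
    induction k with
    | zero => exact ⟨List.Sublist.refl _, by simp, by simp⟩
    | succ k ih => rw [Function.iterate_succ_apply']; exact ih.step
  have h := key k
  generalize (cstep d (es a))^[k] (U a, []) = C at h
  have e1 : sz C = sz C.1 + sz C.2 + 1 := sz_prod C.1 C.2
  have a1 := sz_sublist h.sub
  have a2 := sz_list_le C.2 (B := 2 * sz (U a) + 1) fun e he => by
    have q1 := sz_le_of_mem (h.mem e he).1
    have q2 := sz_le_of_mem (h.mem e he).2
    have q3 : sz e = sz e.1 + sz e.2 + 1 := sz_prod e.1 e.2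
    omega
  have a3 : C.2.length * (2 * sz (U a) + 1 + 1) ≤ 2 * m a * (2 * sz (U a) + 2) :=
    Nat.mul_le_mul (h.len.trans (by omega)) le_rfl
  omega

theorem pt_alg (d : ℕ) : PolyTimeTM (alg d) := by
  refine PTime.toTM ?_
  have hn : PTime fun u : List Unit => u.length := PTime.id.length
  have hB : PB fun u : List Unit => u.length := PB.length PTime.id
  have h1 := pt_phase1 d
  have he : PTime fun u : List Unit => edges d u.length :=
    (pt_phase2 d (hn.mul (PTime.const d)) (hB.mul (PB.const d)) h1.fst h1.snd.fst).append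
      h1.snd.fst
  have hR := hn.range hB
  have key : PTime fun u : List Unit => adjL d u.length (edges d u.length) := by
    unfold adjL
    refine PTime.map hR ?_
    refine PTime.map (l := fun p : List Unit × ℕ => List.range p.1.length)
      (f := fun p j => adjB d (edges d p.1.length) p.2 j) (ptf hR) ?_
    unfold adjB
    refine PTime.any (l := fun q : (List Unit × ℕ) × ℕ => edges d q.1.1.length) (ptf (ptf he)) ?_
    have a : PTime fun q : ((List Unit × ℕ) × ℕ) × ℕ × ℕ => q.2.1 / d :=
      PTime.snd_id.fst.div (PTime.const d)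
    have b : PTime fun q : ((List Unit × ℕ) × ℕ) × ℕ × ℕ => q.2.2 / d :=
      PTime.snd_id.snd.div (PTime.const d)
    have i : PTime fun q : ((List Unit × ℕ) × ℕ) × ℕ × ℕ => q.1.1.2 := PTime.fst_id.fst.snd
    have j : PTime fun q : ((List Unit × ℕ) × ℕ) × ℕ × ℕ => q.1.2 := PTime.fst_id.snd
    exact PTime.decide_or (PTime.decide_and (a.decide_eq i) (b.decide_eq j))
      (PTime.decide_and (a.decide_eq j) (b.decide_eq i))
  exact key

end Vale.Agent.P049
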