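import Vale.Agent.P049.CorrC
import Vale.Agent.P049.Graph
import Vale.Agent.P049.PT3

/-! P049: the main theorem. -/

namespace Vale.Agent.P049
open Matrix Finset Vale.Agent.PT

theorem map_range_eq_ofFn {β : Type} (n : ℕ) (f : ℕ → β) :
    (List.range n).map f = List.ofFn fun i : Fin n => f i := by
  apply List.ext_getElem <;> simp

theorem main (d : ℕ) (hd : 3 ≤ d) :
    ∃ f : List Unit → List (List Bool), PolyTimeTM f ∧ ∃ n0 : ℕ, ∀ n ≥ n0, Even (d * n) →
      ∃ (G : SimpleGraph (Fin n)) (_ : DecidableRel G.Adj),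
        f (List.replicate n ()) = List.ofFn (fun i => List.ofFn fun j => decide (G.Adj i j)) ∧
        G.IsRegularOfDegree d ∧
        ∀ (μ : ℝ) (x : Fin n → ℝ), x ≠ 0 → ∑ i, x i = 0 → G.adjMatrix ℝ *ᵥ x = μ • x →
          |μ| ≤ 2 * √((d : ℝ) - 1) := by
  obtain ⟨n0, h0⟩ := start_of hd
  refine ⟨alg d, pt_alg d, n0, fun n hn he => ?_⟩
  obtain ⟨hok, hp, hs⟩ := edges_spec (by rwa [mul_comm]) (h0 n hn)
  have d0 : 0 < d := by omega
  refine ⟨graphOf d n (edges d n) hok, inferInstance, ?_, graphOf_regular d0 hok hp, ?_⟩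
  · simp only [alg, List.length_replicate, adjL, map_range_eq_ofFn]
    congr 1
    funext i
    congr 1
    funext j
    exact (Bool.decide_eq_true).symm
  · intro μ x hx h1 h2
    let φ : ℕ → ℝ := fun i => if h : i < n then x ⟨i, h⟩ else 0
    have hφ : (fun i : Fin n => φ i) = x := by
      funext i; simp [φ]
    have s1 : ∑ i ∈ range n, φ i = 0 := by
      rw [← Fin.sum_univ_eq_sum_range, ← h1]
      exact sum_congr rfl fun i _ => congrFun hφ i
    have s2 : ∑ i ∈ range n, φ i ^ 2 = x ⬝ᵥ x := by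
      rw [← Fin.sum_univ_eq_sum_range (fun i => φ i ^ 2), dotProduct]
      exact sum_congr rfl fun i _ => by rw [congrFun hφ i, sq]
    have h3 := graphOf_form d0 hok hp φ
    rw [hφ, h2, dotProduct_smul, smul_eq_mul] at h3
    have h4 := hs φ s1
    have h5 : 0 < x ⬝ᵥ x := by
      rcases (show 0 ≤ x ⬝ᵥ x from sum_nonneg fun i _ => mul_self_nonneg _).lt_or_eq with h | h
      · exact h
      · exact absurd (dotProduct_self_eq_zero.1 h.symm) hx
    rw [← h3, s2, abs_mul, abs_of_pos h5] at h4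
    exact le_of_mul_le_mul_right h4 h5

end Vale.Agent.P049
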