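import Vale.Agent.P049.Defs

/-! P049: the choice of the parameters. -/

namespace Vale.Agent.P049

/-- parameters with tilt `a` and operator bound `L` -/
noncomputable def mkPar (r N a L : ℝ) : Par where
  r := r
  N := N
  sN := √N
  a := a
  S0 := r ^ 1850
  L := L
  Vb := tV r N
  Eb := 1 + N ^ 2 / (N + r ^ 7799)
  Wb := min (r ^ 2 * N) ((1 + N ^ 2 / (N + r ^ 7799)) ^ 2)
  Cb := tC r N
  Tb := tT r N
  P := 2 * r ^ 3750
  Pa := tH r N

/-- early regime `r ^ 7650 ≤ N` -/
noncomputable def parA (r N : ℝ) : Par := mkPar r N (r ^ 870) (tT r N ^ (1 / 3 : ℝ))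
/-- late regime `N < r ^ 7650` -/
noncomputable def parB (r N : ℝ) : Par := mkPar r N 0 (√(1 + N ^ 2 / (N + r ^ 7799)))

end Vale.Agent.P049
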