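import Vale.Agent.P049.Num0
import Mathlib.Analysis.SpecialFunctions.Log.Base

/-! P049: bookkeeping of exponents. -/

namespace Vale.Agent.P049

/-- upper bound by a power of `r` -/
def Ub (r x e : ℝ) : Prop := 0 ≤ x ∧ x ≤ r ^ e
/-- lower bound by a power of `r` -/
def Lb (r x e : ℝ) : Prop := r ^ e ≤ x

variable {r x y e f : ℝ}

theorem r_one_lt (hr : 10 ^ 50 ≤ r) : 1 < r := lt_of_lt_of_le (by norm_num) hr
theorem r_pos' (hr : 10 ^ 50 ≤ r) : 0 < r := lt_of_lt_of_le (by norm_num) hr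

theorem pw_mono (hr : 10 ^ 50 ≤ r) (h : e ≤ f) : r ^ e ≤ r ^ f :=
  Real.rpow_le_rpow_of_exponent_le (r_one_lt hr).le h

theorem ten_le (hr : 10 ^ 50 ≤ r) : 10 ≤ r ^ (1 / 50 : ℝ) := by
  have h : ((10 : ℝ) ^ 50) ^ (1 / 50 : ℝ) = 10 := by
    rw [← Real.rpow_natCast, ← Real.rpow_mul (by norm_num)]; norm_num
  rw [← h]
  exact Real.rpow_le_rpow (by norm_num) hr (by norm_num)

theorem two_le (hr : 10 ^ 50 ≤ r) : 2 ≤ r ^ (1 / 100 : ℝ) := by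
  have h := ten_le hr
  have h2 : r ^ (1 / 50 : ℝ) = r ^ (1 / 100 : ℝ) * r ^ (1 / 100 : ℝ) := by
    rw [← Real.rpow_add (r_pos' hr)]; norm_num
  have h3 : 0 < r ^ (1 / 100 : ℝ) := Real.rpow_pos_of_pos (r_pos' hr) _
  nlinarith

theorem fin_le (hr : 10 ^ 50 ≤ r) (hx : Ub r x e) (hy : Lb r y f) (h : e ≤ f) : x ≤ y :=
  hx.2.trans ((pw_mono hr h).trans hy)

theorem Ub.mono (hr : 10 ^ 50 ≤ r) (hx : Ub r x e) (h : e ≤ f) : Ub r x f :=
  ⟨hx.1, hx.2.trans (pw_mono hr h)⟩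
theorem Lb.mono (hr : 10 ^ 50 ≤ r) (hx : Lb r x e) (h : f ≤ e) : Lb r x f :=
  (pw_mono hr h).trans hx
theorem Ub.of_le (hy : Ub r y e) (h0 : 0 ≤ x) (h : x ≤ y) : Ub r x e := ⟨h0, h.trans hy.2⟩
theorem Lb.of_le (hy : Lb r y e) (h : y ≤ x) : Lb r x e := le_trans hy h
theorem Lb.pos (hr : 10 ^ 50 ≤ r) (hx : Lb r x e) : 0 < x :=
  lt_of_lt_of_le (Real.rpow_pos_of_pos (r_pos' hr) _) hx

theorem Ub.mul (hr : 10 ^ 50 ≤ r) (hx : Ub r x e) (hy : Ub r y f) : Ub r (x * y) (e + f) :=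
  ⟨mul_nonneg hx.1 hy.1, by
    rw [Real.rpow_add (r_pos' hr)]
    exact mul_le_mul hx.2 hy.2 hy.1 (hx.1.trans hx.2)⟩
theorem Lb.mul (hr : 10 ^ 50 ≤ r) (hx : Lb r x e) (hy : Lb r y f) : Lb r (x * y) (e + f) := by
  unfold Lb
  rw [Real.rpow_add (r_pos' hr)]
  exact mul_le_mul hx hy (Real.rpow_pos_of_pos (r_pos' hr) _).le (hx.pos hr).le
theorem Ub.add (hr : 10 ^ 50 ≤ r) (hx : Ub r x e) (hy : Ub r y f) :
    Ub r (x + y) (max e f + 1 / 100) :=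
  ⟨add_nonneg hx.1 hy.1, by
    rw [Real.rpow_add (r_pos' hr)]
    have h1 := hx.2.trans (pw_mono hr (le_max_left e f))
    have h2 := hy.2.trans (pw_mono hr (le_max_right e f))
    have h3 := two_le hr
    have h4 : 0 < r ^ max e f := Real.rpow_pos_of_pos (r_pos' hr) _
    nlinarith⟩
theorem Ub.pow (hr : 10 ^ 50 ≤ r) (n : ℕ) (hx : Ub r x e) : Ub r (x ^ n) (n * e) :=
  ⟨pow_nonneg hx.1 n, by
    rw [mul_comm, Real.rpow_mul (r_pos' hr).le, Real.rpow_natCast]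
    exact pow_le_pow_left₀ hx.1 hx.2 n⟩
theorem Lb.pow (hr : 10 ^ 50 ≤ r) (n : ℕ) (hx : Lb r x e) : Lb r (x ^ n) (n * e) := by
  unfold Lb
  rw [mul_comm, Real.rpow_mul (r_pos' hr).le, Real.rpow_natCast]
  exact pow_le_pow_left₀ (Real.rpow_pos_of_pos (r_pos' hr) _).le hx n
theorem Ub.sqrt (hr : 10 ^ 50 ≤ r) (hx : Ub r x e) : Ub r (√x) (1 / 2 * e) :=
  ⟨Real.sqrt_nonneg _, by
    rw [mul_comm, Real.rpow_mul (r_pos' hr).le, ← Real.sqrt_eq_rpow]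
    exact Real.sqrt_le_sqrt hx.2⟩
theorem Lb.sqrt (hr : 10 ^ 50 ≤ r) (hx : Lb r x e) : Lb r (√x) (1 / 2 * e) := by
  unfold Lb
  rw [mul_comm, Real.rpow_mul (r_pos' hr).le, ← Real.sqrt_eq_rpow]
  exact Real.sqrt_le_sqrt hx
theorem Ub.div (hr : 10 ^ 50 ≤ r) (hx : Ub r x e) (hy : Lb r y f) : Ub r (x / y) (e - f) :=
  ⟨div_nonneg hx.1 (hy.pos hr).le, by
    rw [Real.rpow_sub (r_pos' hr)]
    exact div_le_div₀ (hx.1.trans hx.2) hx.2 (Real.rpow_pos_of_pos (r_pos' hr) _) hy⟩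
theorem Lb.div (hr : 10 ^ 50 ≤ r) (hx : Lb r x e) (hy : Ub r y f) (h0 : 0 < y) :
    Lb r (x / y) (e - f) := by
  unfold Lb
  rw [Real.rpow_sub (r_pos' hr)]
  exact div_le_div₀ (hx.pos hr).le hx h0 hy.2
theorem Ub.self (hr : 10 ^ 50 ≤ r) : Ub r r 1 := ⟨(r_pos' hr).le, by simp⟩
theorem Lb.self : Lb r r 1 := by simp [Lb]
theorem Ub.one : Ub r 1 0 := ⟨zero_le_one, by simp⟩
theorem Lb.one : Lb r 1 0 := by simp [Lb]
theorem Ub.zero (hr : 10 ^ 50 ≤ r) : Ub r 0 e := ⟨le_rfl, (Real.rpow_pos_of_pos (r_pos' hr) _).le⟩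
theorem Ub.rpow (hr : 10 ^ 50 ≤ r) : Ub r (r ^ e) e := ⟨(Real.rpow_pos_of_pos (r_pos' hr) _).le, le_rfl⟩
theorem Lb.rpow : Lb r (r ^ e) e := le_rfl
theorem Ub.num (hr : 10 ^ 50 ≤ r) (k : ℕ) (h0 : 0 ≤ x) (h : x ≤ 10 ^ k) : Ub r x (k / 50) :=
  ⟨h0, h.trans (by
    have h2 : (10 : ℝ) ^ k ≤ (r ^ (1 / 50 : ℝ)) ^ k := pow_le_pow_left₀ (by norm_num) (ten_le hr) k
    rw [← Real.rpow_natCast (r ^ (1 / 50 : ℝ)), ← Real.rpow_mul (r_pos' hr).le] at h2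
    rwa [show (1 / 50 : ℝ) * k = k / 50 by ring] at h2)⟩
theorem Ub.min_l (hx : Ub r x e) (hy : 0 ≤ y) : Ub r (min x y) e :=
  ⟨le_min hx.1 hy, (min_le_left _ _).trans hx.2⟩
theorem Ub.min_r (hx : 0 ≤ x) (hy : Ub r y e) : Ub r (min x y) e :=
  ⟨le_min hx hy.1, (min_le_right _ _).trans hy.2⟩
theorem Ub.min (hx : Ub r x e) (hy : Ub r y f) : Ub r (min x y) (min e f) := by
  refine ⟨le_min hx.1 hy.1, ?_⟩
  rcases le_total e f with h | h
  · rw [min_eq_left h]; exact (min_le_left _ _).trans hx.2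
  · rw [min_eq_right h]; exact (min_le_right _ _).trans hy.2
theorem Lb.min (hr : 10 ^ 50 ≤ r) (hx : Lb r x e) (hy : Lb r y f) : Lb r (min x y) (min e f) :=
  le_min (hx.mono hr (min_le_left _ _)) (hy.mono hr (min_le_right _ _))
theorem Lb.add (hr : 10 ^ 50 ≤ r) (hx : Lb r x e) (hy : Lb r y f) : Lb r (x + y) (max e f) := by
  have h1 := hx.pos hr
  have h2 := hy.pos hr
  unfold Lb at *
  rcases le_total e f with h | h
  · rw [max_eq_right h]; linarith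
  · rw [max_eq_left h]; linarith

theorem exists_exp (hr : 10 ^ 50 ≤ r) (hx : 0 < x) : ∃ ν : ℝ, x = r ^ ν :=
  ⟨Real.logb r x, (Real.rpow_logb (r_pos' hr) (r_one_lt hr).ne' hx).symm⟩

theorem exp_le (hr : 10 ^ 50 ≤ r) {n : ℕ} (h : r ^ e ≤ r ^ n) : e ≤ n := by
  rw [← Real.rpow_natCast] at h
  exact (Real.rpow_le_rpow_left_iff (r_one_lt hr)).1 h
theorem le_exp (hr : 10 ^ 50 ≤ r) {n : ℕ} (h : r ^ n ≤ r ^ e) : (n : ℝ) ≤ e := by
  rw [← Real.rpow_natCast] at h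
  exact (Real.rpow_le_rpow_left_iff (r_one_lt hr)).1 h

/-- exponent data common to both regimes; `z = max ν 7799`, `m = max ν 6500` -/
structure Ex (p : Par) (ν z m τ α l : ℝ) : Prop where
  hr : 10 ^ 50 ≤ p.r
  uN : Ub p.r p.N ν
  lN : Lb p.r p.N ν
  usN : Ub p.r p.sN (1 / 2 * ν)
  lsN : Lb p.r p.sN (1 / 2 * ν)
  ua : Ub p.r p.a α
  uS : Ub p.r p.S0 1850
  lS : Lb p.r p.S0 1850
  uL : Ub p.r p.L l
  uV : Ub p.r p.Vb (1900 + ν - m)
  lV : Lb p.r p.Vb (1900 + ν - m - 1 / 100)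
  uE : Ub p.r p.Eb (2 * ν - z + 1 / 100)
  uW : Ub p.r p.Wb (min (2 + ν) (4 * ν - 2 * z + 2 / 100))
  uC : Ub p.r p.Cb (1950 + ν)
  lC : Lb p.r p.Cb (1950 + ν)
  uT : Ub p.r p.Tb τ
  lT : Lb p.r p.Tb τ
  uP : Ub p.r p.P (3750 + 1 / 50)
  uPa : Ub p.r p.Pa (4790 + ν - z)
  lPa : Lb p.r p.Pa (4790 + ν - z - 1 / 100)
  ly : Lb p.r p.yb (7799 + ν - z - 1 / 100)
  le : Lb p.r p.ee (7798 + 3 * ν - 2 * z - 2 / 100)

theorem ex_mk (hr : 10 ^ 50 ≤ r) {ν a L α l : ℝ} (h1 : 7799 ≤ 2 * ν) (ha : Ub r a α)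
    (hL : Ub r L l) :
    Ex (mkPar r (r ^ ν) a L) ν (max ν 7799) (max ν 6500) (min (3751 + ν) 12021) α l := by
  have uN : Ub r (r ^ ν) ν := Ub.rpow hr
  have lN : Lb r (r ^ ν) ν := Lb.rpow
  have up : ∀ n : ℕ, Ub r (r ^ n) n := fun n => by simpa using (Ub.self hr).pow hr n
  have lp : ∀ n : ℕ, Lb r (r ^ n) n := fun n => by simpa using (Lb.self (r := r)).pow hr n
  have uZ : Ub r (r ^ ν + r ^ 7799) (max ν 7799 + 1 / 100) := by simpa using uN.add hr (up 7799)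
  have lZ : Lb r (r ^ ν + r ^ 7799) (max ν 7799) := by simpa using lN.add hr (lp 7799)
  have uM : Ub r (r ^ ν + r ^ 6500) (max ν 6500 + 1 / 100) := by simpa using uN.add hr (up 6500)
  have lM : Lb r (r ^ ν + r ^ 6500) (max ν 6500) := by simpa using lN.add hr (lp 6500)
  have hz : max ν 7799 ≤ 2 * ν := max_le (by linarith) h1
  have uE : Ub r (1 + (r ^ ν) ^ 2 / (r ^ ν + r ^ 7799)) (2 * ν - max ν 7799 + 1 / 100) :=
    (Ub.one.add hr ((uN.pow hr 2).div hr lZ)).mono hr (by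
      rw [max_eq_right (by push_cast; linarith)]; push_cast; linarith)
  refine ⟨hr, uN, lN, uN.sqrt hr, lN.sqrt hr, ha, by simpa [mkPar] using up 1850,
    by simpa [mkPar] using lp 1850, hL, ?_, ?_, uE, ?_, ?_, ?_, ?_, ?_, ?_, ?_, ?_, ?_, ?_⟩
  · exact (((up 1900).mul hr uN).div hr lM).mono hr (by push_cast; linarith)
  · exact (((lp 1900).mul hr lN).div hr uM (lM.pos hr)).mono hr (by push_cast; linarith)
  · exact (((up 2).mul hr uN).min (uE.pow hr 2)).mono hr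
      (min_le_min (by push_cast; linarith) (by push_cast; linarith))
  · exact ((up 1950).mul hr uN).mono hr (by push_cast; linarith)
  · exact ((lp 1950).mul hr lN).mono hr (by push_cast; linarith)
  · exact (((up 3751).mul hr uN).min (up 12021)).mono hr (by push_cast; exact le_rfl)
  · exact (((lp 3751).mul hr lN).min hr (lp 12021)).mono hr (by push_cast; exact le_rfl)
  · exact ((Ub.num hr 1 (x := 2) (by norm_num) (by norm_num)).mul hr (up 3750)).mono hr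
      (by push_cast; linarith)
  · exact (((up 4790).mul hr uN).div hr lZ).mono hr (by push_cast; linarith)
  · exact (((lp 4790).mul hr lN).div hr uZ (lZ.pos hr)).mono hr (by push_cast; linarith)
  · exact (((lp 7799).mul hr lN).div hr uZ (lZ.pos hr)).mono hr (by push_cast; linarith)
  · exact (((lp 7799).mul hr (lN.pow hr 3)).div hr ((Ub.self hr).mul hr (uZ.pow hr 2))
      (mul_pos (r_pos' hr) (pow_pos (lZ.pos hr) 2))).mono hr (by push_cast; linarith)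

end Vale.Agent.P049
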