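import Vale.Agent.P049.NumU

/-! P049: numeric inequalities from exponent data, first group. -/

namespace Vale.Agent.P049

/-- the five ranges of the exponent of `N` -/
def Reg (ν z m τ α l : ℝ) : Prop :=
  (7799 ≤ 2 * ν ∧ ν ≤ 6500 ∧ z = 7799 ∧ m = 6500 ∧ τ = 3751 + ν ∧ α = -20000 ∧
      l = 1 / 2 * (2 * ν - 7799 + 1 / 100)) ∨
    (6500 ≤ ν ∧ ν ≤ 7650 ∧ z = 7799 ∧ m = ν ∧ τ = 3751 + ν ∧ α = -20000 ∧
      l = 1 / 2 * (2 * ν - 7799 + 1 / 100)) ∨
    (7650 ≤ ν ∧ ν ≤ 7799 ∧ z = 7799 ∧ m = ν ∧ τ = 3751 + ν ∧ α = 870 ∧ l = (3751 + ν) / 3) ∨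
    (7799 ≤ ν ∧ ν ≤ 8270 ∧ z = ν ∧ m = ν ∧ τ = 3751 + ν ∧ α = 870 ∧ l = (3751 + ν) / 3) ∨
    (8270 ≤ ν ∧ ν ≤ 12001 ∧ z = ν ∧ m = ν ∧ τ = 12021 ∧ α = 870 ∧ l = 4007)

namespace Ex
variable {p : Par} {ν z m τ α l : ℝ} (E : Ex p ν z m τ α l) (R : Reg ν z m τ α l)
include E R

theorem big : p.r ^ 30 ≤ p.sN := by
  obtain ⟨hr, uN, lN, usN, lsN, ua, uS, lS, uL, uV, lV, uE, uW, uC, lC, uT, lT, uP, uPa, lPa,
    ly, le⟩ := id E
  have w1 := min_le_left (2 + ν) (4 * ν - 2 * z + 2 / 100)
  have w2 := min_le_right (2 + ν) (4 * ν - 2 * z + 2 / 100)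
  generalize min (2 + ν) (4 * ν - 2 * z + 2 / 100) = w at w1 w2 uW
  apply fin_le hr
  · repeat' first
      | with_reducible assumption | with_reducible exact Ub.self hr | with_reducible exact Ub.one
      | (apply Ub.num hr 1 <;> (norm_num; done)) | (apply Ub.num hr 7 <;> (norm_num; done))
      | with_reducible apply Ub.mul hr | with_reducible apply Ub.add hr
      | with_reducible apply Ub.pow hr | with_reducible apply Ub.sqrt hr
  · repeat' first
      | with_reducible assumption | with_reducible exact Lb.self | with_reducible exact Lb.one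
      | with_reducible apply Lb.mul hr | with_reducible apply Lb.pow hr
  · push_cast
    rcases R with ⟨h1, h2, rfl, rfl, rfl, rfl, rfl⟩ | ⟨h1, h2, rfl, rfl, rfl, rfl, rfl⟩ |
      ⟨h1, h2, rfl, rfl, rfl, rfl, rfl⟩ | ⟨h1, h2, rfl, rfl, rfl, rfl, rfl⟩ |
      ⟨h1, h2, rfl, rfl, rfl, rfl, rfl⟩ <;> (repeat' apply And.intro) <;> linarith

theorem aS : p.a ^ 2 * p.r ^ 2 ≤ p.S0 := by
  obtain ⟨hr, uN, lN, usN, lsN, ua, uS, lS, uL, uV, lV, uE, uW, uC, lC, uT, lT, uP, uPa, lPa,
    ly, le⟩ := id E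
  have w1 := min_le_left (2 + ν) (4 * ν - 2 * z + 2 / 100)
  have w2 := min_le_right (2 + ν) (4 * ν - 2 * z + 2 / 100)
  generalize min (2 + ν) (4 * ν - 2 * z + 2 / 100) = w at w1 w2 uW
  apply fin_le hr
  · repeat' first
      | with_reducible assumption | with_reducible exact Ub.self hr | with_reducible exact Ub.one
      | (apply Ub.num hr 1 <;> (norm_num; done)) | (apply Ub.num hr 7 <;> (norm_num; done))
      | with_reducible apply Ub.mul hr | with_reducible apply Ub.add hr
      | with_reducible apply Ub.pow hr | with_reducible apply Ub.sqrt hr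
  · repeat' first
      | with_reducible assumption | with_reducible exact Lb.self | with_reducible exact Lb.one
      | with_reducible apply Lb.mul hr | with_reducible apply Lb.pow hr
  · push_cast
    rcases R with ⟨h1, h2, rfl, rfl, rfl, rfl, rfl⟩ | ⟨h1, h2, rfl, rfl, rfl, rfl, rfl⟩ |
      ⟨h1, h2, rfl, rfl, rfl, rfl, rfl⟩ | ⟨h1, h2, rfl, rfl, rfl, rfl, rfl⟩ |
      ⟨h1, h2, rfl, rfl, rfl, rfl, rfl⟩ <;> (repeat' apply And.intro) <;> linarith

theorem W2 : p.Wb ≤ p.r ^ 2 * p.N := by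
  obtain ⟨hr, uN, lN, usN, lsN, ua, uS, lS, uL, uV, lV, uE, uW, uC, lC, uT, lT, uP, uPa, lPa,
    ly, le⟩ := id E
  have w1 := min_le_left (2 + ν) (4 * ν - 2 * z + 2 / 100)
  have w2 := min_le_right (2 + ν) (4 * ν - 2 * z + 2 / 100)
  generalize min (2 + ν) (4 * ν - 2 * z + 2 / 100) = w at w1 w2 uW
  apply fin_le hr
  · repeat' first
      | with_reducible assumption | with_reducible exact Ub.self hr | with_reducible exact Ub.one
      | (apply Ub.num hr 1 <;> (norm_num; done)) | (apply Ub.num hr 7 <;> (norm_num; done))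
      | with_reducible apply Ub.mul hr | with_reducible apply Ub.add hr
      | with_reducible apply Ub.pow hr | with_reducible apply Ub.sqrt hr
  · repeat' first
      | with_reducible assumption | with_reducible exact Lb.self | with_reducible exact Lb.one
      | with_reducible apply Lb.mul hr | with_reducible apply Lb.pow hr
  · push_cast
    rcases R with ⟨h1, h2, rfl, rfl, rfl, rfl, rfl⟩ | ⟨h1, h2, rfl, rfl, rfl, rfl, rfl⟩ |
      ⟨h1, h2, rfl, rfl, rfl, rfl, rfl⟩ | ⟨h1, h2, rfl, rfl, rfl, rfl, rfl⟩ |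
      ⟨h1, h2, rfl, rfl, rfl, rfl, rfl⟩ <;> (repeat' apply And.intro) <;> linarith

theorem M1 : p.r ^ 20 * p.L ^ 2 ≤ p.N := by
  obtain ⟨hr, uN, lN, usN, lsN, ua, uS, lS, uL, uV, lV, uE, uW, uC, lC, uT, lT, uP, uPa, lPa,
    ly, le⟩ := id E
  have w1 := min_le_left (2 + ν) (4 * ν - 2 * z + 2 / 100)
  have w2 := min_le_right (2 + ν) (4 * ν - 2 * z + 2 / 100)
  generalize min (2 + ν) (4 * ν - 2 * z + 2 / 100) = w at w1 w2 uW
  apply fin_le hr
  · repeat' first
      | with_reducible assumption | with_reducible exact Ub.self hr | with_reducible exact Ub.one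
      | (apply Ub.num hr 1 <;> (norm_num; done)) | (apply Ub.num hr 7 <;> (norm_num; done))
      | with_reducible apply Ub.mul hr | with_reducible apply Ub.add hr
      | with_reducible apply Ub.pow hr | with_reducible apply Ub.sqrt hr
  · repeat' first
      | with_reducible assumption | with_reducible exact Lb.self | with_reducible exact Lb.one
      | with_reducible apply Lb.mul hr | with_reducible apply Lb.pow hr
  · push_cast
    rcases R with ⟨h1, h2, rfl, rfl, rfl, rfl, rfl⟩ | ⟨h1, h2, rfl, rfl, rfl, rfl, rfl⟩ |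
      ⟨h1, h2, rfl, rfl, rfl, rfl, rfl⟩ | ⟨h1, h2, rfl, rfl, rfl, rfl, rfl⟩ |
      ⟨h1, h2, rfl, rfl, rfl, rfl, rfl⟩ <;> (repeat' apply And.intro) <;> linarith

theorem M2 : p.r ^ 21 * p.a ^ 2 * p.S0 * p.L ≤ p.N := by
  obtain ⟨hr, uN, lN, usN, lsN, ua, uS, lS, uL, uV, lV, uE, uW, uC, lC, uT, lT, uP, uPa, lPa,
    ly, le⟩ := id E
  have w1 := min_le_left (2 + ν) (4 * ν - 2 * z + 2 / 100)
  have w2 := min_le_right (2 + ν) (4 * ν - 2 * z + 2 / 100)
  generalize min (2 + ν) (4 * ν - 2 * z + 2 / 100) = w at w1 w2 uW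
  apply fin_le hr
  · repeat' first
      | with_reducible assumption | with_reducible exact Ub.self hr | with_reducible exact Ub.one
      | (apply Ub.num hr 1 <;> (norm_num; done)) | (apply Ub.num hr 7 <;> (norm_num; done))
      | with_reducible apply Ub.mul hr | with_reducible apply Ub.add hr
      | with_reducible apply Ub.pow hr | with_reducible apply Ub.sqrt hr
  · repeat' first
      | with_reducible assumption | with_reducible exact Lb.self | with_reducible exact Lb.one
      | with_reducible apply Lb.mul hr | with_reducible apply Lb.pow hr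
  · push_cast
    rcases R with ⟨h1, h2, rfl, rfl, rfl, rfl, rfl⟩ | ⟨h1, h2, rfl, rfl, rfl, rfl, rfl⟩ |
      ⟨h1, h2, rfl, rfl, rfl, rfl, rfl⟩ | ⟨h1, h2, rfl, rfl, rfl, rfl, rfl⟩ |
      ⟨h1, h2, rfl, rfl, rfl, rfl, rfl⟩ <;> (repeat' apply And.intro) <;> linarith

theorem M2' : p.a ^ 2 * p.S0 ≤ p.sN := by
  obtain ⟨hr, uN, lN, usN, lsN, ua, uS, lS, uL, uV, lV, uE, uW, uC, lC, uT, lT, uP, uPa, lPa,
    ly, le⟩ := id E
  have w1 := min_le_left (2 + ν) (4 * ν - 2 * z + 2 / 100)
  have w2 := min_le_right (2 + ν) (4 * ν - 2 * z + 2 / 100)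
  generalize min (2 + ν) (4 * ν - 2 * z + 2 / 100) = w at w1 w2 uW
  apply fin_le hr
  · repeat' first
      | with_reducible assumption | with_reducible exact Ub.self hr | with_reducible exact Ub.one
      | (apply Ub.num hr 1 <;> (norm_num; done)) | (apply Ub.num hr 7 <;> (norm_num; done))
      | with_reducible apply Ub.mul hr | with_reducible apply Ub.add hr
      | with_reducible apply Ub.pow hr | with_reducible apply Ub.sqrt hr
  · repeat' first
      | with_reducible assumption | with_reducible exact Lb.self | with_reducible exact Lb.one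
      | with_reducible apply Lb.mul hr | with_reducible apply Lb.pow hr
  · push_cast
    rcases R with ⟨h1, h2, rfl, rfl, rfl, rfl, rfl⟩ | ⟨h1, h2, rfl, rfl, rfl, rfl, rfl⟩ |
      ⟨h1, h2, rfl, rfl, rfl, rfl, rfl⟩ | ⟨h1, h2, rfl, rfl, rfl, rfl, rfl⟩ |
      ⟨h1, h2, rfl, rfl, rfl, rfl, rfl⟩ <;> (repeat' apply And.intro) <;> linarith

theorem M3 : p.r ^ 22 * (1 + p.a ^ 2) * p.Vb ≤ p.sN := by
  obtain ⟨hr, uN, lN, usN, lsN, ua, uS, lS, uL, uV, lV, uE, uW, uC, lC, uT, lT, uP, uPa, lPa,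
    ly, le⟩ := id E
  have w1 := min_le_left (2 + ν) (4 * ν - 2 * z + 2 / 100)
  have w2 := min_le_right (2 + ν) (4 * ν - 2 * z + 2 / 100)
  generalize min (2 + ν) (4 * ν - 2 * z + 2 / 100) = w at w1 w2 uW
  apply fin_le hr
  · repeat' first
      | with_reducible assumption | with_reducible exact Ub.self hr | with_reducible exact Ub.one
      | (apply Ub.num hr 1 <;> (norm_num; done)) | (apply Ub.num hr 7 <;> (norm_num; done))
      | with_reducible apply Ub.mul hr | with_reducible apply Ub.add hr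
      | with_reducible apply Ub.pow hr | with_reducible apply Ub.sqrt hr
  · repeat' first
      | with_reducible assumption | with_reducible exact Lb.self | with_reducible exact Lb.one
      | with_reducible apply Lb.mul hr | with_reducible apply Lb.pow hr
  · simp (disch := positivity) only [max_add, add_max, mul_max_of_nonneg, max_le_iff]
    push_cast
    rcases R with ⟨h1, h2, rfl, rfl, rfl, rfl, rfl⟩ | ⟨h1, h2, rfl, rfl, rfl, rfl, rfl⟩ |
      ⟨h1, h2, rfl, rfl, rfl, rfl, rfl⟩ | ⟨h1, h2, rfl, rfl, rfl, rfl, rfl⟩ |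
      ⟨h1, h2, rfl, rfl, rfl, rfl, rfl⟩ <;> (repeat' apply And.intro) <;> linarith

theorem M5 : p.r ^ 20 * p.P * p.L ≤ p.N := by
  obtain ⟨hr, uN, lN, usN, lsN, ua, uS, lS, uL, uV, lV, uE, uW, uC, lC, uT, lT, uP, uPa, lPa,
    ly, le⟩ := id E
  have w1 := min_le_left (2 + ν) (4 * ν - 2 * z + 2 / 100)
  have w2 := min_le_right (2 + ν) (4 * ν - 2 * z + 2 / 100)
  generalize min (2 + ν) (4 * ν - 2 * z + 2 / 100) = w at w1 w2 uW
  apply fin_le hr
  · repeat' first
      | with_reducible assumption | with_reducible exact Ub.self hr | with_reducible exact Ub.one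
      | (apply Ub.num hr 1 <;> (norm_num; done)) | (apply Ub.num hr 7 <;> (norm_num; done))
      | with_reducible apply Ub.mul hr | with_reducible apply Ub.add hr
      | with_reducible apply Ub.pow hr | with_reducible apply Ub.sqrt hr
  · repeat' first
      | with_reducible assumption | with_reducible exact Lb.self | with_reducible exact Lb.one
      | with_reducible apply Lb.mul hr | with_reducible apply Lb.pow hr
  · push_cast
    rcases R with ⟨h1, h2, rfl, rfl, rfl, rfl, rfl⟩ | ⟨h1, h2, rfl, rfl, rfl, rfl, rfl⟩ |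
      ⟨h1, h2, rfl, rfl, rfl, rfl, rfl⟩ | ⟨h1, h2, rfl, rfl, rfl, rfl, rfl⟩ |
      ⟨h1, h2, rfl, rfl, rfl, rfl, rfl⟩ <;> (repeat' apply And.intro) <;> linarith

theorem M5' : p.r ^ 20 * p.Pa ≤ p.N := by
  obtain ⟨hr, uN, lN, usN, lsN, ua, uS, lS, uL, uV, lV, uE, uW, uC, lC, uT, lT, uP, uPa, lPa,
    ly, le⟩ := id E
  have w1 := min_le_left (2 + ν) (4 * ν - 2 * z + 2 / 100)
  have w2 := min_le_right (2 + ν) (4 * ν - 2 * z + 2 / 100)
  generalize min (2 + ν) (4 * ν - 2 * z + 2 / 100) = w at w1 w2 uW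
  apply fin_le hr
  · repeat' first
      | with_reducible assumption | with_reducible exact Ub.self hr | with_reducible exact Ub.one
      | (apply Ub.num hr 1 <;> (norm_num; done)) | (apply Ub.num hr 7 <;> (norm_num; done))
      | with_reducible apply Ub.mul hr | with_reducible apply Ub.add hr
      | with_reducible apply Ub.pow hr | with_reducible apply Ub.sqrt hr
  · repeat' first
      | with_reducible assumption | with_reducible exact Lb.self | with_reducible exact Lb.one
      | with_reducible apply Lb.mul hr | with_reducible apply Lb.pow hr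
  · push_cast
    rcases R with ⟨h1, h2, rfl, rfl, rfl, rfl, rfl⟩ | ⟨h1, h2, rfl, rfl, rfl, rfl, rfl⟩ |
      ⟨h1, h2, rfl, rfl, rfl, rfl, rfl⟩ | ⟨h1, h2, rfl, rfl, rfl, rfl, rfl⟩ |
      ⟨h1, h2, rfl, rfl, rfl, rfl, rfl⟩ <;> (repeat' apply And.intro) <;> linarith

theorem MC1 : p.r ^ 20 * (1 + p.a ^ 2 + p.Vb) * p.N ≤ p.Cb := by
  obtain ⟨hr, uN, lN, usN, lsN, ua, uS, lS, uL, uV, lV, uE, uW, uC, lC, uT, lT, uP, uPa, lPa,
    ly, le⟩ := id E
  have w1 := min_le_left (2 + ν) (4 * ν - 2 * z + 2 / 100)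
  have w2 := min_le_right (2 + ν) (4 * ν - 2 * z + 2 / 100)
  generalize min (2 + ν) (4 * ν - 2 * z + 2 / 100) = w at w1 w2 uW
  apply fin_le hr
  · repeat' first
      | with_reducible assumption | with_reducible exact Ub.self hr | with_reducible exact Ub.one
      | (apply Ub.num hr 1 <;> (norm_num; done)) | (apply Ub.num hr 7 <;> (norm_num; done))
      | with_reducible apply Ub.mul hr | with_reducible apply Ub.add hr
      | with_reducible apply Ub.pow hr | with_reducible apply Ub.sqrt hr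
  · repeat' first
      | with_reducible assumption | with_reducible exact Lb.self | with_reducible exact Lb.one
      | with_reducible apply Lb.mul hr | with_reducible apply Lb.pow hr
  · simp (disch := positivity) only [max_add, add_max, mul_max_of_nonneg, max_le_iff]
    push_cast
    rcases R with ⟨h1, h2, rfl, rfl, rfl, rfl, rfl⟩ | ⟨h1, h2, rfl, rfl, rfl, rfl, rfl⟩ |
      ⟨h1, h2, rfl, rfl, rfl, rfl, rfl⟩ | ⟨h1, h2, rfl, rfl, rfl, rfl, rfl⟩ |
      ⟨h1, h2, rfl, rfl, rfl, rfl, rfl⟩ <;> (repeat' apply And.intro) <;> linarith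

theorem MC2 : p.r ^ 10 * p.a * p.Cb ≤ p.N * p.sN := by
  obtain ⟨hr, uN, lN, usN, lsN, ua, uS, lS, uL, uV, lV, uE, uW, uC, lC, uT, lT, uP, uPa, lPa,
    ly, le⟩ := id E
  have w1 := min_le_left (2 + ν) (4 * ν - 2 * z + 2 / 100)
  have w2 := min_le_right (2 + ν) (4 * ν - 2 * z + 2 / 100)
  generalize min (2 + ν) (4 * ν - 2 * z + 2 / 100) = w at w1 w2 uW
  apply fin_le hr
  · repeat' first
      | with_reducible assumption | with_reducible exact Ub.self hr | with_reducible exact Ub.one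
      | (apply Ub.num hr 1 <;> (norm_num; done)) | (apply Ub.num hr 7 <;> (norm_num; done))
      | with_reducible apply Ub.mul hr | with_reducible apply Ub.add hr
      | with_reducible apply Ub.pow hr | with_reducible apply Ub.sqrt hr
  · repeat' first
      | with_reducible assumption | with_reducible exact Lb.self | with_reducible exact Lb.one
      | with_reducible apply Lb.mul hr | with_reducible apply Lb.pow hr
  · push_cast
    rcases R with ⟨h1, h2, rfl, rfl, rfl, rfl, rfl⟩ | ⟨h1, h2, rfl, rfl, rfl, rfl, rfl⟩ |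
      ⟨h1, h2, rfl, rfl, rfl, rfl, rfl⟩ | ⟨h1, h2, rfl, rfl, rfl, rfl, rfl⟩ |
      ⟨h1, h2, rfl, rfl, rfl, rfl, rfl⟩ <;> (repeat' apply And.intro) <;> linarith

theorem MT1 : α < 0 → p.L ^ 3 ≤ p.Tb := by
  obtain ⟨hr, uN, lN, usN, lsN, ua, uS, lS, uL, uV, lV, uE, uW, uC, lC, uT, lT, uP, uPa, lPa,
    ly, le⟩ := id E
  have w1 := min_le_left (2 + ν) (4 * ν - 2 * z + 2 / 100)
  have w2 := min_le_right (2 + ν) (4 * ν - 2 * z + 2 / 100)
  generalize min (2 + ν) (4 * ν - 2 * z + 2 / 100) = w at w1 w2 uW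
  intro hα
  apply fin_le hr
  · repeat' first
      | with_reducible assumption | with_reducible exact Ub.self hr | with_reducible exact Ub.one
      | (apply Ub.num hr 1 <;> (norm_num; done)) | (apply Ub.num hr 7 <;> (norm_num; done))
      | with_reducible apply Ub.mul hr | with_reducible apply Ub.add hr
      | with_reducible apply Ub.pow hr | with_reducible apply Ub.sqrt hr
  · repeat' first
      | with_reducible assumption | with_reducible exact Lb.self | with_reducible exact Lb.one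
      | with_reducible apply Lb.mul hr | with_reducible apply Lb.pow hr
  · push_cast
    rcases R with ⟨h1, h2, rfl, rfl, rfl, rfl, rfl⟩ | ⟨h1, h2, rfl, rfl, rfl, rfl, rfl⟩ |
      ⟨h1, h2, rfl, rfl, rfl, rfl, rfl⟩ | ⟨h1, h2, rfl, rfl, rfl, rfl, rfl⟩ |
      ⟨h1, h2, rfl, rfl, rfl, rfl, rfl⟩ <;> (repeat' apply And.intro) <;> linarith

theorem MT2 : p.r ^ 10 * p.N ≤ p.Tb := by
  obtain ⟨hr, uN, lN, usN, lsN, ua, uS, lS, uL, uV, lV, uE, uW, uC, lC, uT, lT, uP, uPa, lPa,
    ly, le⟩ := id E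
  have w1 := min_le_left (2 + ν) (4 * ν - 2 * z + 2 / 100)
  have w2 := min_le_right (2 + ν) (4 * ν - 2 * z + 2 / 100)
  generalize min (2 + ν) (4 * ν - 2 * z + 2 / 100) = w at w1 w2 uW
  apply fin_le hr
  · repeat' first
      | with_reducible assumption | with_reducible exact Ub.self hr | with_reducible exact Ub.one
      | (apply Ub.num hr 1 <;> (norm_num; done)) | (apply Ub.num hr 7 <;> (norm_num; done))
      | with_reducible apply Ub.mul hr | with_reducible apply Ub.add hr
      | with_reducible apply Ub.pow hr | with_reducible apply Ub.sqrt hr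
  · repeat' first
      | with_reducible assumption | with_reducible exact Lb.self | with_reducible exact Lb.one
      | with_reducible apply Lb.mul hr | with_reducible apply Lb.pow hr
  · push_cast
    rcases R with ⟨h1, h2, rfl, rfl, rfl, rfl, rfl⟩ | ⟨h1, h2, rfl, rfl, rfl, rfl, rfl⟩ |
      ⟨h1, h2, rfl, rfl, rfl, rfl, rfl⟩ | ⟨h1, h2, rfl, rfl, rfl, rfl, rfl⟩ |
      ⟨h1, h2, rfl, rfl, rfl, rfl, rfl⟩ <;> (repeat' apply And.intro) <;> linarith

theorem MV1 : p.r ^ 10 * p.Wb ≤ p.N * p.Vb := by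
  obtain ⟨hr, uN, lN, usN, lsN, ua, uS, lS, uL, uV, lV, uE, uW, uC, lC, uT, lT, uP, uPa, lPa,
    ly, le⟩ := id E
  have w1 := min_le_left (2 + ν) (4 * ν - 2 * z + 2 / 100)
  have w2 := min_le_right (2 + ν) (4 * ν - 2 * z + 2 / 100)
  generalize min (2 + ν) (4 * ν - 2 * z + 2 / 100) = w at w1 w2 uW
  apply fin_le hr
  · repeat' first
      | with_reducible assumption | with_reducible exact Ub.self hr | with_reducible exact Ub.one
      | (apply Ub.num hr 1 <;> (norm_num; done)) | (apply Ub.num hr 7 <;> (norm_num; done))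
      | with_reducible apply Ub.mul hr | with_reducible apply Ub.add hr
      | with_reducible apply Ub.pow hr | with_reducible apply Ub.sqrt hr
  · repeat' first
      | with_reducible assumption | with_reducible exact Lb.self | with_reducible exact Lb.one
      | with_reducible apply Lb.mul hr | with_reducible apply Lb.pow hr
  · push_cast
    rcases R with ⟨h1, h2, rfl, rfl, rfl, rfl, rfl⟩ | ⟨h1, h2, rfl, rfl, rfl, rfl, rfl⟩ |
      ⟨h1, h2, rfl, rfl, rfl, rfl, rfl⟩ | ⟨h1, h2, rfl, rfl, rfl, rfl, rfl⟩ |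
      ⟨h1, h2, rfl, rfl, rfl, rfl, rfl⟩ <;> (repeat' apply And.intro) <;> linarith

theorem MV2 : p.r ^ 10 * p.a ^ 2 * p.L ^ 2 * p.Wb ≤ p.N ^ 2 * p.Vb := by
  obtain ⟨hr, uN, lN, usN, lsN, ua, uS, lS, uL, uV, lV, uE, uW, uC, lC, uT, lT, uP, uPa, lPa,
    ly, le⟩ := id E
  have w1 := min_le_left (2 + ν) (4 * ν - 2 * z + 2 / 100)
  have w2 := min_le_right (2 + ν) (4 * ν - 2 * z + 2 / 100)
  generalize min (2 + ν) (4 * ν - 2 * z + 2 / 100) = w at w1 w2 uW
  apply fin_le hr
  · repeat' first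
      | with_reducible assumption | with_reducible exact Ub.self hr | with_reducible exact Ub.one
      | (apply Ub.num hr 1 <;> (norm_num; done)) | (apply Ub.num hr 7 <;> (norm_num; done))
      | with_reducible apply Ub.mul hr | with_reducible apply Ub.add hr
      | with_reducible apply Ub.pow hr | with_reducible apply Ub.sqrt hr
  · repeat' first
      | with_reducible assumption | with_reducible exact Lb.self | with_reducible exact Lb.one
      | with_reducible apply Lb.mul hr | with_reducible apply Lb.pow hr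
  · push_cast
    rcases R with ⟨h1, h2, rfl, rfl, rfl, rfl, rfl⟩ | ⟨h1, h2, rfl, rfl, rfl, rfl, rfl⟩ |
      ⟨h1, h2, rfl, rfl, rfl, rfl, rfl⟩ | ⟨h1, h2, rfl, rfl, rfl, rfl, rfl⟩ |
      ⟨h1, h2, rfl, rfl, rfl, rfl, rfl⟩ <;> (repeat' apply And.intro) <;> linarith

theorem MV3 : p.r ^ 10 * p.Pa ^ 2 * p.Wb ≤ p.N ^ 2 * p.Vb := by
  obtain ⟨hr, uN, lN, usN, lsN, ua, uS, lS, uL, uV, lV, uE, uW, uC, lC, uT, lT, uP, uPa, lPa,
    ly, le⟩ := id E
  have w1 := min_le_left (2 + ν) (4 * ν - 2 * z + 2 / 100)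
  have w2 := min_le_right (2 + ν) (4 * ν - 2 * z + 2 / 100)
  generalize min (2 + ν) (4 * ν - 2 * z + 2 / 100) = w at w1 w2 uW
  apply fin_le hr
  · repeat' first
      | with_reducible assumption | with_reducible exact Ub.self hr | with_reducible exact Ub.one
      | (apply Ub.num hr 1 <;> (norm_num; done)) | (apply Ub.num hr 7 <;> (norm_num; done))
      | with_reducible apply Ub.mul hr | with_reducible apply Ub.add hr
      | with_reducible apply Ub.pow hr | with_reducible apply Ub.sqrt hr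
  · repeat' first
      | with_reducible assumption | with_reducible exact Lb.self | with_reducible exact Lb.one
      | with_reducible apply Lb.mul hr | with_reducible apply Lb.pow hr
  · push_cast
    rcases R with ⟨h1, h2, rfl, rfl, rfl, rfl, rfl⟩ | ⟨h1, h2, rfl, rfl, rfl, rfl, rfl⟩ |
      ⟨h1, h2, rfl, rfl, rfl, rfl, rfl⟩ | ⟨h1, h2, rfl, rfl, rfl, rfl, rfl⟩ |
      ⟨h1, h2, rfl, rfl, rfl, rfl, rfl⟩ <;> (repeat' apply And.intro) <;> linarith

theorem MV4 : p.r ^ 10 * (1 + p.Pa) ≤ p.N * p.Vb := by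
  obtain ⟨hr, uN, lN, usN, lsN, ua, uS, lS, uL, uV, lV, uE, uW, uC, lC, uT, lT, uP, uPa, lPa,
    ly, le⟩ := id E
  have w1 := min_le_left (2 + ν) (4 * ν - 2 * z + 2 / 100)
  have w2 := min_le_right (2 + ν) (4 * ν - 2 * z + 2 / 100)
  generalize min (2 + ν) (4 * ν - 2 * z + 2 / 100) = w at w1 w2 uW
  apply fin_le hr
  · repeat' first
      | with_reducible assumption | with_reducible exact Ub.self hr | with_reducible exact Ub.one
      | (apply Ub.num hr 1 <;> (norm_num; done)) | (apply Ub.num hr 7 <;> (norm_num; done))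
      | with_reducible apply Ub.mul hr | with_reducible apply Ub.add hr
      | with_reducible apply Ub.pow hr | with_reducible apply Ub.sqrt hr
  · repeat' first
      | with_reducible assumption | with_reducible exact Lb.self | with_reducible exact Lb.one
      | with_reducible apply Lb.mul hr | with_reducible apply Lb.pow hr
  · simp (disch := positivity) only [max_add, add_max, mul_max_of_nonneg, max_le_iff]
    push_cast
    rcases R with ⟨h1, h2, rfl, rfl, rfl, rfl, rfl⟩ | ⟨h1, h2, rfl, rfl, rfl, rfl, rfl⟩ |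
      ⟨h1, h2, rfl, rfl, rfl, rfl, rfl⟩ | ⟨h1, h2, rfl, rfl, rfl, rfl, rfl⟩ |
      ⟨h1, h2, rfl, rfl, rfl, rfl, rfl⟩ <;> (repeat' apply And.intro) <;> linarith

end Ex
end Vale.Agent.P049
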