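import Vale.Agent.P049.NumV

/-! P049: numeric inequalities from exponent data, second group. -/

namespace Vale.Agent.P049

namespace Ex
variable {p : Par} {ν z m τ α l : ℝ} (E : Ex p ν z m τ α l)
include E

theorem uQ : ∃ x, Ub p.r p.Qb x ∧ x ≤ 2 * l + ν + 1 / 50 ∧ x ≤ 4 * ν - 2 * z + 1 / 50 := by
  have hr := E.hr
  refine ⟨_, (((Ub.num hr 1 (x := 2) (by norm_num) (by norm_num)).mul hr (E.uL.pow hr 2)).mul hr
    E.uN).min (E.uE.pow hr 2), (min_le_left _ _).trans ?_, (min_le_right _ _).trans ?_⟩ <;>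
    push_cast <;> linarith

theorem uK : ∃ x, Ub p.r p.KP x ∧ (x ≤ 1 + 1 / 2 * ν + 3 / 100 ∨ x ≤ α + l + 3 / 100) := by
  have hr := E.hr
  have h2 := Ub.num hr 1 (x := 2) (by norm_num) (by norm_num)
  refine ⟨_, ((h2.mul hr (Ub.self hr)).mul hr E.usN).add hr ((h2.mul hr E.ua).mul hr E.uL), ?_⟩
  rcases max_choice (((1 : ℕ) : ℝ) / 50 + 1 + 1 / 2 * ν) (((1 : ℕ) : ℝ) / 50 + α + l) with h | h <;>
    rw [h] <;> push_cast
  · left; linarith
  · right; linarith

theorem ue {k : ℝ} (hk : Ub p.r p.KP k) :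
    ∃ x, Ub p.r p.e1 x ∧ x ≤ k + 2 + ν ∧ x ≤ 3 * ν - z - 2 + 1 / 100 := by
  have hr := E.hr
  refine ⟨_, ((hk.mul hr ((Ub.self hr).pow hr 2)).mul hr E.uN).min
    ((E.uN.mul hr E.uE).div hr (Lb.self.pow hr 2)), (min_le_left _ _).trans ?_,
    (min_le_right _ _).trans ?_⟩ <;> push_cast <;> linarith

theorem uM : ∃ x, Ub p.r (min p.Tb (2 * p.L * p.Eb)) x ∧ x ≤ τ ∧ x ≤ l + 2 * ν - z + 3 / 100 := by
  have hr := E.hr
  refine ⟨_, E.uT.min (((Ub.num hr 1 (x := 2) (by norm_num) (by norm_num)).mul hr E.uL).mul hr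
    E.uE), (min_le_left _ _).trans ?_, (min_le_right _ _).trans ?_⟩ <;> push_cast <;> linarith

variable (R : Reg ν z m τ α l)
include R

theorem F1 : p.r ^ 3 * p.r1 ≤ p.r ^ 3750 * p.N := by
  obtain ⟨hr, uN, lN, usN, lsN, ua, uS, lS, uL, uV, lV, uE, uW, uC, lC, uT, lT, uP, uPa, lPa,
    ly, le⟩ := id E
  have w1 := min_le_left (2 + ν) (4 * ν - 2 * z + 2 / 100)
  have w2 := min_le_right (2 + ν) (4 * ν - 2 * z + 2 / 100)
  generalize min (2 + ν) (4 * ν - 2 * z + 2 / 100) = w at w1 w2 uW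
  unfold Par.r1
  apply fin_le hr
  · repeat' first
      | with_reducible assumption | with_reducible exact Ub.self hr | with_reducible exact Ub.one
      | (apply Ub.num hr 1 <;> (norm_num; done)) | (apply Ub.num hr 7 <;> (norm_num; done))
      | with_reducible apply Ub.mul hr | with_reducible apply Ub.add hr
      | with_reducible apply Ub.pow hr | with_reducible apply Ub.sqrt hr
  · repeat' first
      | with_reducible assumption | with_reducible exact Lb.self | with_reducible exact Lb.one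
      | with_reducible apply Lb.mul hr | with_reducible apply Lb.pow hr
  · simp (disch := positivity) only [max_add, add_max, mul_max_of_nonneg, max_le_iff]
    push_cast
    rcases R with ⟨h1, h2, rfl, rfl, rfl, rfl, rfl⟩ | ⟨h1, h2, rfl, rfl, rfl, rfl, rfl⟩ |
      ⟨h1, h2, rfl, rfl, rfl, rfl, rfl⟩ | ⟨h1, h2, rfl, rfl, rfl, rfl, rfl⟩ |
      ⟨h1, h2, rfl, rfl, rfl, rfl, rfl⟩ <;> (repeat' apply And.intro) <;> linarith

theorem F2 : p.r ^ 15 * p.sN ≤ p.r ^ 7500 := by
  obtain ⟨hr, uN, lN, usN, lsN, ua, uS, lS, uL, uV, lV, uE, uW, uC, lC, uT, lT, uP, uPa, lPa,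
    ly, le⟩ := id E
  have w1 := min_le_left (2 + ν) (4 * ν - 2 * z + 2 / 100)
  have w2 := min_le_right (2 + ν) (4 * ν - 2 * z + 2 / 100)
  generalize min (2 + ν) (4 * ν - 2 * z + 2 / 100) = w at w1 w2 uW
  apply fin_le hr
  · repeat' first
      | with_reducible assumption | with_reducible exact Ub.self hr | with_reducible exact Ub.one
      | (apply Ub.num hr 1 <;> (norm_num; done)) | (apply Ub.num hr 7 <;> (norm_num; done))
      | with_reducible apply Ub.mul hr | with_reducible apply Ub.add hr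
      | with_reducible apply Ub.pow hr | with_reducible apply Ub.sqrt hr
  · repeat' first
      | with_reducible assumption | with_reducible exact Lb.self | with_reducible exact Lb.one
      | with_reducible apply Lb.mul hr | with_reducible apply Lb.pow hr
  · push_cast
    rcases R with ⟨h1, h2, rfl, rfl, rfl, rfl, rfl⟩ | ⟨h1, h2, rfl, rfl, rfl, rfl, rfl⟩ |
      ⟨h1, h2, rfl, rfl, rfl, rfl, rfl⟩ | ⟨h1, h2, rfl, rfl, rfl, rfl, rfl⟩ |
      ⟨h1, h2, rfl, rfl, rfl, rfl, rfl⟩ <;> (repeat' apply And.intro) <;> linarith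

theorem F3a : Lb p.r p.a α → 0 < α → p.r ^ 6 * p.L ≤ p.a * p.r ^ 3750 := by
  obtain ⟨hr, uN, lN, usN, lsN, ua, uS, lS, uL, uV, lV, uE, uW, uC, lC, uT, lT, uP, uPa, lPa,
    ly, le⟩ := id E
  have w1 := min_le_left (2 + ν) (4 * ν - 2 * z + 2 / 100)
  have w2 := min_le_right (2 + ν) (4 * ν - 2 * z + 2 / 100)
  generalize min (2 + ν) (4 * ν - 2 * z + 2 / 100) = w at w1 w2 uW
  intro la hα
  apply fin_le hr
  · repeat' first
      | with_reducible assumption | with_reducible exact Ub.self hr | with_reducible exact Ub.one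
      | (apply Ub.num hr 1 <;> (norm_num; done)) | (apply Ub.num hr 7 <;> (norm_num; done))
      | with_reducible apply Ub.mul hr | with_reducible apply Ub.add hr
      | with_reducible apply Ub.pow hr | with_reducible apply Ub.sqrt hr
  · repeat' first
      | with_reducible assumption | with_reducible exact Lb.self | with_reducible exact Lb.one
      | with_reducible apply Lb.mul hr | with_reducible apply Lb.pow hr
  · push_cast
    rcases R with ⟨h1, h2, rfl, rfl, rfl, rfl, rfl⟩ | ⟨h1, h2, rfl, rfl, rfl, rfl, rfl⟩ |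
      ⟨h1, h2, rfl, rfl, rfl, rfl, rfl⟩ | ⟨h1, h2, rfl, rfl, rfl, rfl, rfl⟩ |
      ⟨h1, h2, rfl, rfl, rfl, rfl, rfl⟩ <;> (repeat' apply And.intro) <;> linarith

theorem F3b : α < 0 → p.r ^ 4 * p.Eb ≤ p.r ^ 3750 * p.sN := by
  obtain ⟨hr, uN, lN, usN, lsN, ua, uS, lS, uL, uV, lV, uE, uW, uC, lC, uT, lT, uP, uPa, lPa,
    ly, le⟩ := id E
  have w1 := min_le_left (2 + ν) (4 * ν - 2 * z + 2 / 100)
  have w2 := min_le_right (2 + ν) (4 * ν - 2 * z + 2 / 100)
  generalize min (2 + ν) (4 * ν - 2 * z + 2 / 100) = w at w1 w2 uW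
  intro hα
  apply fin_le hr
  · repeat' first
      | with_reducible assumption | with_reducible exact Ub.self hr | with_reducible exact Ub.one
      | (apply Ub.num hr 1 <;> (norm_num; done)) | (apply Ub.num hr 7 <;> (norm_num; done))
      | with_reducible apply Ub.mul hr | with_reducible apply Ub.add hr
      | with_reducible apply Ub.pow hr | with_reducible apply Ub.sqrt hr
  · repeat' first
      | with_reducible assumption | with_reducible exact Lb.self | with_reducible exact Lb.one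
      | with_reducible apply Lb.mul hr | with_reducible apply Lb.pow hr
  · push_cast
    rcases R with ⟨h1, h2, rfl, rfl, rfl, rfl, rfl⟩ | ⟨h1, h2, rfl, rfl, rfl, rfl, rfl⟩ |
      ⟨h1, h2, rfl, rfl, rfl, rfl, rfl⟩ | ⟨h1, h2, rfl, rfl, rfl, rfl, rfl⟩ |
      ⟨h1, h2, rfl, rfl, rfl, rfl, rfl⟩ <;> (repeat' apply And.intro) <;> linarith

theorem F3c : α < 0 → p.r ^ 5 * p.Eb ^ 2 ≤ p.r ^ 7500 * p.N := by
  obtain ⟨hr, uN, lN, usN, lsN, ua, uS, lS, uL, uV, lV, uE, uW, uC, lC, uT, lT, uP, uPa, lPa,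
    ly, le⟩ := id E
  have w1 := min_le_left (2 + ν) (4 * ν - 2 * z + 2 / 100)
  have w2 := min_le_right (2 + ν) (4 * ν - 2 * z + 2 / 100)
  generalize min (2 + ν) (4 * ν - 2 * z + 2 / 100) = w at w1 w2 uW
  intro hα
  apply fin_le hr
  · repeat' first
      | with_reducible assumption | with_reducible exact Ub.self hr | with_reducible exact Ub.one
      | (apply Ub.num hr 1 <;> (norm_num; done)) | (apply Ub.num hr 7 <;> (norm_num; done))
      | with_reducible apply Ub.mul hr | with_reducible apply Ub.add hr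
      | with_reducible apply Ub.pow hr | with_reducible apply Ub.sqrt hr
  · repeat' first
      | with_reducible assumption | with_reducible exact Lb.self | with_reducible exact Lb.one
      | with_reducible apply Lb.mul hr | with_reducible apply Lb.pow hr
  · push_cast
    rcases R with ⟨h1, h2, rfl, rfl, rfl, rfl, rfl⟩ | ⟨h1, h2, rfl, rfl, rfl, rfl, rfl⟩ |
      ⟨h1, h2, rfl, rfl, rfl, rfl, rfl⟩ | ⟨h1, h2, rfl, rfl, rfl, rfl, rfl⟩ |
      ⟨h1, h2, rfl, rfl, rfl, rfl, rfl⟩ <;> (repeat' apply And.intro) <;> linarith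

theorem H1 : p.r * (2 * p.a * p.Tb + 2 * p.r * p.sN * √p.Qb + p.r1) ≤ p.N * p.Pa := by
  obtain ⟨hr, uN, lN, usN, lsN, ua, uS, lS, uL, uV, lV, uE, uW, uC, lC, uT, lT, uP, uPa, lPa,
    ly, le⟩ := id E
  have w1 := min_le_left (2 + ν) (4 * ν - 2 * z + 2 / 100)
  have w2 := min_le_right (2 + ν) (4 * ν - 2 * z + 2 / 100)
  generalize min (2 + ν) (4 * ν - 2 * z + 2 / 100) = w at w1 w2 uW
  obtain ⟨x, uQ, q1, q2⟩ := E.uQ
  unfold Par.r1
  apply fin_le hr
  · repeat' first
      | with_reducible assumption | with_reducible exact Ub.self hr | with_reducible exact Ub.one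
      | (apply Ub.num hr 1 <;> (norm_num; done)) | (apply Ub.num hr 7 <;> (norm_num; done))
      | with_reducible apply Ub.mul hr | with_reducible apply Ub.add hr
      | with_reducible apply Ub.pow hr | with_reducible apply Ub.sqrt hr
  · repeat' first
      | with_reducible assumption | with_reducible exact Lb.self | with_reducible exact Lb.one
      | with_reducible apply Lb.mul hr | with_reducible apply Lb.pow hr
  · simp (disch := positivity) only [max_add, add_max, mul_max_of_nonneg, max_le_iff]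
    push_cast
    rcases R with ⟨h1, h2, rfl, rfl, rfl, rfl, rfl⟩ | ⟨h1, h2, rfl, rfl, rfl, rfl, rfl⟩ |
      ⟨h1, h2, rfl, rfl, rfl, rfl, rfl⟩ | ⟨h1, h2, rfl, rfl, rfl, rfl, rfl⟩ |
      ⟨h1, h2, rfl, rfl, rfl, rfl, rfl⟩ <;> (repeat' apply And.intro) <;> linarith

theorem H2 : p.r * (p.r ^ 3 * p.N * p.Vb + 20 * p.Qb) ≤ p.N * p.Pa ^ 2 := by
  obtain ⟨hr, uN, lN, usN, lsN, ua, uS, lS, uL, uV, lV, uE, uW, uC, lC, uT, lT, uP, uPa, lPa,
    ly, le⟩ := id E
  have w1 := min_le_left (2 + ν) (4 * ν - 2 * z + 2 / 100)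
  have w2 := min_le_right (2 + ν) (4 * ν - 2 * z + 2 / 100)
  generalize min (2 + ν) (4 * ν - 2 * z + 2 / 100) = w at w1 w2 uW
  obtain ⟨x, uQ, q1, q2⟩ := E.uQ
  apply fin_le hr
  · repeat' first
      | with_reducible assumption | with_reducible exact Ub.self hr | with_reducible exact Ub.one
      | (apply Ub.num hr 1 <;> (norm_num; done)) | (apply Ub.num hr 7 <;> (norm_num; done))
      | with_reducible apply Ub.mul hr | with_reducible apply Ub.add hr
      | with_reducible apply Ub.pow hr | with_reducible apply Ub.sqrt hr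
  · repeat' first
      | with_reducible assumption | with_reducible exact Lb.self | with_reducible exact Lb.one
      | with_reducible apply Lb.mul hr | with_reducible apply Lb.pow hr
  · simp (disch := positivity) only [max_add, add_max, mul_max_of_nonneg, max_le_iff]
    push_cast
    rcases R with ⟨h1, h2, rfl, rfl, rfl, rfl, rfl⟩ | ⟨h1, h2, rfl, rfl, rfl, rfl, rfl⟩ |
      ⟨h1, h2, rfl, rfl, rfl, rfl, rfl⟩ | ⟨h1, h2, rfl, rfl, rfl, rfl, rfl⟩ |
      ⟨h1, h2, rfl, rfl, rfl, rfl, rfl⟩ <;> (repeat' apply And.intro) <;> linarith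

theorem G1 : 8 * (p.r ^ 11 * p.sN + p.r ^ 6 * p.L * √p.sN) ≤ p.yb := by
  obtain ⟨hr, uN, lN, usN, lsN, ua, uS, lS, uL, uV, lV, uE, uW, uC, lC, uT, lT, uP, uPa, lPa,
    ly, le⟩ := id E
  have w1 := min_le_left (2 + ν) (4 * ν - 2 * z + 2 / 100)
  have w2 := min_le_right (2 + ν) (4 * ν - 2 * z + 2 / 100)
  generalize min (2 + ν) (4 * ν - 2 * z + 2 / 100) = w at w1 w2 uW
  apply fin_le hr
  · repeat' first
      | with_reducible assumption | with_reducible exact Ub.self hr | with_reducible exact Ub.one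
      | (apply Ub.num hr 1 <;> (norm_num; done)) | (apply Ub.num hr 7 <;> (norm_num; done))
      | with_reducible apply Ub.mul hr | with_reducible apply Ub.add hr
      | with_reducible apply Ub.pow hr | with_reducible apply Ub.sqrt hr
  · repeat' first
      | with_reducible assumption | with_reducible exact Lb.self | with_reducible exact Lb.one
      | with_reducible apply Lb.mul hr | with_reducible apply Lb.pow hr
  · simp (disch := positivity) only [max_add, add_max, mul_max_of_nonneg, max_le_iff]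
    push_cast
    rcases R with ⟨h1, h2, rfl, rfl, rfl, rfl, rfl⟩ | ⟨h1, h2, rfl, rfl, rfl, rfl, rfl⟩ |
      ⟨h1, h2, rfl, rfl, rfl, rfl, rfl⟩ | ⟨h1, h2, rfl, rfl, rfl, rfl, rfl⟩ |
      ⟨h1, h2, rfl, rfl, rfl, rfl, rfl⟩ <;> (repeat' apply And.intro) <;> linarith

theorem G2 : 100 * (p.r2 + p.P * min p.Tb (2 * p.L * p.Eb)) ≤ p.ee := by
  obtain ⟨hr, uN, lN, usN, lsN, ua, uS, lS, uL, uV, lV, uE, uW, uC, lC, uT, lT, uP, uPa, lPa,
    ly, le⟩ := id E
  have w1 := min_le_left (2 + ν) (4 * ν - 2 * z + 2 / 100)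
  have w2 := min_le_right (2 + ν) (4 * ν - 2 * z + 2 / 100)
  generalize min (2 + ν) (4 * ν - 2 * z + 2 / 100) = w at w1 w2 uW
  obtain ⟨k, uK, hk⟩ := E.uK
  obtain ⟨x, ue, e1, e2⟩ := E.ue uK
  obtain ⟨y, uM, y1, y2⟩ := E.uM
  unfold Par.r2
  apply fin_le hr
  · repeat' first
      | with_reducible assumption | with_reducible exact Ub.self hr | with_reducible exact Ub.one
      | (apply Ub.num hr 1 <;> (norm_num; done)) | (apply Ub.num hr 7 <;> (norm_num; done))
      | with_reducible apply Ub.mul hr | with_reducible apply Ub.add hr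
      | with_reducible apply Ub.pow hr | with_reducible apply Ub.sqrt hr
  · repeat' first
      | with_reducible assumption | with_reducible exact Lb.self | with_reducible exact Lb.one
      | with_reducible apply Lb.mul hr | with_reducible apply Lb.pow hr
  · simp (disch := positivity) only [max_add, add_max, mul_max_of_nonneg, max_le_iff]
    push_cast
    rcases R with ⟨h1, h2, rfl, rfl, rfl, rfl, rfl⟩ | ⟨h1, h2, rfl, rfl, rfl, rfl, rfl⟩ |
      ⟨h1, h2, rfl, rfl, rfl, rfl, rfl⟩ | ⟨h1, h2, rfl, rfl, rfl, rfl, rfl⟩ |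
      ⟨h1, h2, rfl, rfl, rfl, rfl, rfl⟩ <;> rcases hk with hk | hk <;> (repeat' apply And.intro) <;> linarith

theorem G3 : 10 ^ 7 * p.r3 ≤ p.ee * p.yb := by
  obtain ⟨hr, uN, lN, usN, lsN, ua, uS, lS, uL, uV, lV, uE, uW, uC, lC, uT, lT, uP, uPa, lPa,
    ly, le⟩ := id E
  have w1 := min_le_left (2 + ν) (4 * ν - 2 * z + 2 / 100)
  have w2 := min_le_right (2 + ν) (4 * ν - 2 * z + 2 / 100)
  generalize min (2 + ν) (4 * ν - 2 * z + 2 / 100) = w at w1 w2 uW
  unfold Par.r3 Par.m2
  apply fin_le hr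
  · repeat' first
      | with_reducible assumption | with_reducible exact Ub.self hr | with_reducible exact Ub.one
      | (apply Ub.num hr 1 <;> (norm_num; done)) | (apply Ub.num hr 7 <;> (norm_num; done))
      | with_reducible apply Ub.mul hr | with_reducible apply Ub.add hr
      | with_reducible apply Ub.pow hr | with_reducible apply Ub.sqrt hr
  · repeat' first
      | with_reducible assumption | with_reducible exact Lb.self | with_reducible exact Lb.one
      | with_reducible apply Lb.mul hr | with_reducible apply Lb.pow hr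
  · simp (disch := positivity) only [max_add, add_max, mul_max_of_nonneg, max_le_iff]
    push_cast
    rcases R with ⟨h1, h2, rfl, rfl, rfl, rfl, rfl⟩ | ⟨h1, h2, rfl, rfl, rfl, rfl, rfl⟩ |
      ⟨h1, h2, rfl, rfl, rfl, rfl, rfl⟩ | ⟨h1, h2, rfl, rfl, rfl, rfl, rfl⟩ |
      ⟨h1, h2, rfl, rfl, rfl, rfl, rfl⟩ <;> (repeat' apply And.intro) <;> linarith

theorem G4a : Lb p.r p.a α → 0 < α → p.r ^ 3 * p.N * p.L ^ 2 ≤ p.a * p.ee := by
  obtain ⟨hr, uN, lN, usN, lsN, ua, uS, lS, uL, uV, lV, uE, uW, uC, lC, uT, lT, uP, uPa, lPa,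
    ly, le⟩ := id E
  have w1 := min_le_left (2 + ν) (4 * ν - 2 * z + 2 / 100)
  have w2 := min_le_right (2 + ν) (4 * ν - 2 * z + 2 / 100)
  generalize min (2 + ν) (4 * ν - 2 * z + 2 / 100) = w at w1 w2 uW
  intro la hα
  apply fin_le hr
  · repeat' first
      | with_reducible assumption | with_reducible exact Ub.self hr | with_reducible exact Ub.one
      | (apply Ub.num hr 1 <;> (norm_num; done)) | (apply Ub.num hr 7 <;> (norm_num; done))
      | with_reducible apply Ub.mul hr | with_reducible apply Ub.add hr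
      | with_reducible apply Ub.pow hr | with_reducible apply Ub.sqrt hr
  · repeat' first
      | with_reducible assumption | with_reducible exact Lb.self | with_reducible exact Lb.one
      | with_reducible apply Lb.mul hr | with_reducible apply Lb.pow hr
  · push_cast
    rcases R with ⟨h1, h2, rfl, rfl, rfl, rfl, rfl⟩ | ⟨h1, h2, rfl, rfl, rfl, rfl, rfl⟩ |
      ⟨h1, h2, rfl, rfl, rfl, rfl, rfl⟩ | ⟨h1, h2, rfl, rfl, rfl, rfl, rfl⟩ |
      ⟨h1, h2, rfl, rfl, rfl, rfl, rfl⟩ <;> (repeat' apply And.intro) <;> linarith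

theorem G4b : Lb p.r p.a α → 0 < α → p.r * p.L ^ 2 ≤ p.a * p.yb := by
  obtain ⟨hr, uN, lN, usN, lsN, ua, uS, lS, uL, uV, lV, uE, uW, uC, lC, uT, lT, uP, uPa, lPa,
    ly, le⟩ := id E
  have w1 := min_le_left (2 + ν) (4 * ν - 2 * z + 2 / 100)
  have w2 := min_le_right (2 + ν) (4 * ν - 2 * z + 2 / 100)
  generalize min (2 + ν) (4 * ν - 2 * z + 2 / 100) = w at w1 w2 uW
  intro la hα
  apply fin_le hr
  · repeat' first
      | with_reducible assumption | with_reducible exact Ub.self hr | with_reducible exact Ub.one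
      | (apply Ub.num hr 1 <;> (norm_num; done)) | (apply Ub.num hr 7 <;> (norm_num; done))
      | with_reducible apply Ub.mul hr | with_reducible apply Ub.add hr
      | with_reducible apply Ub.pow hr | with_reducible apply Ub.sqrt hr
  · repeat' first
      | with_reducible assumption | with_reducible exact Lb.self | with_reducible exact Lb.one
      | with_reducible apply Lb.mul hr | with_reducible apply Lb.pow hr
  · push_cast
    rcases R with ⟨h1, h2, rfl, rfl, rfl, rfl, rfl⟩ | ⟨h1, h2, rfl, rfl, rfl, rfl, rfl⟩ |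
      ⟨h1, h2, rfl, rfl, rfl, rfl, rfl⟩ | ⟨h1, h2, rfl, rfl, rfl, rfl, rfl⟩ |
      ⟨h1, h2, rfl, rfl, rfl, rfl, rfl⟩ <;> (repeat' apply And.intro) <;> linarith

theorem G4c : α < 0 → 1000 * (p.r * p.sN * p.L * p.Eb + p.Eb ^ 2) ≤ p.ee := by
  obtain ⟨hr, uN, lN, usN, lsN, ua, uS, lS, uL, uV, lV, uE, uW, uC, lC, uT, lT, uP, uPa, lPa,
    ly, le⟩ := id E
  have w1 := min_le_left (2 + ν) (4 * ν - 2 * z + 2 / 100)
  have w2 := min_le_right (2 + ν) (4 * ν - 2 * z + 2 / 100)
  generalize min (2 + ν) (4 * ν - 2 * z + 2 / 100) = w at w1 w2 uW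
  intro hα
  apply fin_le hr
  · repeat' first
      | with_reducible assumption | with_reducible exact Ub.self hr | with_reducible exact Ub.one
      | (apply Ub.num hr 1 <;> (norm_num; done)) | (apply Ub.num hr 7 <;> (norm_num; done))
      | with_reducible apply Ub.mul hr | with_reducible apply Ub.add hr
      | with_reducible apply Ub.pow hr | with_reducible apply Ub.sqrt hr
  · repeat' first
      | with_reducible assumption | with_reducible exact Lb.self | with_reducible exact Lb.one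
      | with_reducible apply Lb.mul hr | with_reducible apply Lb.pow hr
  · simp (disch := positivity) only [max_add, add_max, mul_max_of_nonneg, max_le_iff]
    push_cast
    rcases R with ⟨h1, h2, rfl, rfl, rfl, rfl, rfl⟩ | ⟨h1, h2, rfl, rfl, rfl, rfl, rfl⟩ |
      ⟨h1, h2, rfl, rfl, rfl, rfl, rfl⟩ | ⟨h1, h2, rfl, rfl, rfl, rfl, rfl⟩ |
      ⟨h1, h2, rfl, rfl, rfl, rfl, rfl⟩ <;> (repeat' apply And.intro) <;> linarith

theorem G4d : α < 0 → 10 ^ 7 * p.L ^ 2 * p.Eb ^ 2 ≤ p.ee * p.yb := by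
  obtain ⟨hr, uN, lN, usN, lsN, ua, uS, lS, uL, uV, lV, uE, uW, uC, lC, uT, lT, uP, uPa, lPa,
    ly, le⟩ := id E
  have w1 := min_le_left (2 + ν) (4 * ν - 2 * z + 2 / 100)
  have w2 := min_le_right (2 + ν) (4 * ν - 2 * z + 2 / 100)
  generalize min (2 + ν) (4 * ν - 2 * z + 2 / 100) = w at w1 w2 uW
  intro hα
  apply fin_le hr
  · repeat' first
      | with_reducible assumption | with_reducible exact Ub.self hr | with_reducible exact Ub.one
      | (apply Ub.num hr 1 <;> (norm_num; done)) | (apply Ub.num hr 7 <;> (norm_num; done))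
      | with_reducible apply Ub.mul hr | with_reducible apply Ub.add hr
      | with_reducible apply Ub.pow hr | with_reducible apply Ub.sqrt hr
  · repeat' first
      | with_reducible assumption | with_reducible exact Lb.self | with_reducible exact Lb.one
      | with_reducible apply Lb.mul hr | with_reducible apply Lb.pow hr
  · push_cast
    rcases R with ⟨h1, h2, rfl, rfl, rfl, rfl, rfl⟩ | ⟨h1, h2, rfl, rfl, rfl, rfl, rfl⟩ |
      ⟨h1, h2, rfl, rfl, rfl, rfl, rfl⟩ | ⟨h1, h2, rfl, rfl, rfl, rfl, rfl⟩ |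
      ⟨h1, h2, rfl, rfl, rfl, rfl, rfl⟩ <;> (repeat' apply And.intro) <;> linarith

theorem T0 : p.r ^ 2 * p.a ≤ p.Tb := by
  obtain ⟨hr, uN, lN, usN, lsN, ua, uS, lS, uL, uV, lV, uE, uW, uC, lC, uT, lT, uP, uPa, lPa,
    ly, le⟩ := id E
  have w1 := min_le_left (2 + ν) (4 * ν - 2 * z + 2 / 100)
  have w2 := min_le_right (2 + ν) (4 * ν - 2 * z + 2 / 100)
  generalize min (2 + ν) (4 * ν - 2 * z + 2 / 100) = w at w1 w2 uW
  apply fin_le hr
  · repeat' first
      | with_reducible assumption | with_reducible exact Ub.self hr | with_reducible exact Ub.one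
      | (apply Ub.num hr 1 <;> (norm_num; done)) | (apply Ub.num hr 7 <;> (norm_num; done))
      | with_reducible apply Ub.mul hr | with_reducible apply Ub.add hr
      | with_reducible apply Ub.pow hr | with_reducible apply Ub.sqrt hr
  · repeat' first
      | with_reducible assumption | with_reducible exact Lb.self | with_reducible exact Lb.one
      | with_reducible apply Lb.mul hr | with_reducible apply Lb.pow hr
  · push_cast
    rcases R with ⟨h1, h2, rfl, rfl, rfl, rfl, rfl⟩ | ⟨h1, h2, rfl, rfl, rfl, rfl, rfl⟩ |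
      ⟨h1, h2, rfl, rfl, rfl, rfl, rfl⟩ | ⟨h1, h2, rfl, rfl, rfl, rfl, rfl⟩ |
      ⟨h1, h2, rfl, rfl, rfl, rfl, rfl⟩ <;> (repeat' apply And.intro) <;> linarith

theorem T1a : 8271 ≤ ν → p.r ^ 8270 + 2 ≤ p.N := by
  obtain ⟨hr, uN, lN, usN, lsN, ua, uS, lS, uL, uV, lV, uE, uW, uC, lC, uT, lT, uP, uPa, lPa,
    ly, le⟩ := id E
  have w1 := min_le_left (2 + ν) (4 * ν - 2 * z + 2 / 100)
  have w2 := min_le_right (2 + ν) (4 * ν - 2 * z + 2 / 100)
  generalize min (2 + ν) (4 * ν - 2 * z + 2 / 100) = w at w1 w2 uW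
  intro hα
  apply fin_le hr
  · repeat' first
      | with_reducible assumption | with_reducible exact Ub.self hr | with_reducible exact Ub.one
      | (apply Ub.num hr 1 <;> (norm_num; done)) | (apply Ub.num hr 7 <;> (norm_num; done))
      | with_reducible apply Ub.mul hr | with_reducible apply Ub.add hr
      | with_reducible apply Ub.pow hr | with_reducible apply Ub.sqrt hr
  · repeat' first
      | with_reducible assumption | with_reducible exact Lb.self | with_reducible exact Lb.one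
      | with_reducible apply Lb.mul hr | with_reducible apply Lb.pow hr
  · simp (disch := positivity) only [max_add, add_max, mul_max_of_nonneg, max_le_iff]
    push_cast
    rcases R with ⟨h1, h2, rfl, rfl, rfl, rfl, rfl⟩ | ⟨h1, h2, rfl, rfl, rfl, rfl, rfl⟩ |
      ⟨h1, h2, rfl, rfl, rfl, rfl, rfl⟩ | ⟨h1, h2, rfl, rfl, rfl, rfl, rfl⟩ |
      ⟨h1, h2, rfl, rfl, rfl, rfl, rfl⟩ <;> (repeat' apply And.intro) <;> linarith

theorem T1b : α < 0 → 2 * p.Eb ≤ p.N := by
  obtain ⟨hr, uN, lN, usN, lsN, ua, uS, lS, uL, uV, lV, uE, uW, uC, lC, uT, lT, uP, uPa, lPa,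
    ly, le⟩ := id E
  have w1 := min_le_left (2 + ν) (4 * ν - 2 * z + 2 / 100)
  have w2 := min_le_right (2 + ν) (4 * ν - 2 * z + 2 / 100)
  generalize min (2 + ν) (4 * ν - 2 * z + 2 / 100) = w at w1 w2 uW
  intro hα
  apply fin_le hr
  · repeat' first
      | with_reducible assumption | with_reducible exact Ub.self hr | with_reducible exact Ub.one
      | (apply Ub.num hr 1 <;> (norm_num; done)) | (apply Ub.num hr 7 <;> (norm_num; done))
      | with_reducible apply Ub.mul hr | with_reducible apply Ub.add hr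
      | with_reducible apply Ub.pow hr | with_reducible apply Ub.sqrt hr
  · repeat' first
      | with_reducible assumption | with_reducible exact Lb.self | with_reducible exact Lb.one
      | with_reducible apply Lb.mul hr | with_reducible apply Lb.pow hr
  · push_cast
    rcases R with ⟨h1, h2, rfl, rfl, rfl, rfl, rfl⟩ | ⟨h1, h2, rfl, rfl, rfl, rfl, rfl⟩ |
      ⟨h1, h2, rfl, rfl, rfl, rfl, rfl⟩ | ⟨h1, h2, rfl, rfl, rfl, rfl, rfl⟩ |
      ⟨h1, h2, rfl, rfl, rfl, rfl, rfl⟩ <;> (repeat' apply And.intro) <;> linarith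

theorem T1c : ∀ θ, Ub p.r θ (1 / 2 * (ν - α)) → 0 < α → ν ≤ 8271 →
    p.r ^ 2 * p.a * (θ ^ 3 + θ ^ 2 + 1) ≤ p.Tb := by
  obtain ⟨hr, uN, lN, usN, lsN, ua, uS, lS, uL, uV, lV, uE, uW, uC, lC, uT, lT, uP, uPa, lPa,
    ly, le⟩ := id E
  have w1 := min_le_left (2 + ν) (4 * ν - 2 * z + 2 / 100)
  have w2 := min_le_right (2 + ν) (4 * ν - 2 * z + 2 / 100)
  generalize min (2 + ν) (4 * ν - 2 * z + 2 / 100) = w at w1 w2 uW
  intro θ uθ hα hν
  apply fin_le hr
  · repeat' first
      | with_reducible assumption | with_reducible exact Ub.self hr | with_reducible exact Ub.one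
      | (apply Ub.num hr 1 <;> (norm_num; done)) | (apply Ub.num hr 7 <;> (norm_num; done))
      | with_reducible apply Ub.mul hr | with_reducible apply Ub.add hr
      | with_reducible apply Ub.pow hr | with_reducible apply Ub.sqrt hr
  · repeat' first
      | with_reducible assumption | with_reducible exact Lb.self | with_reducible exact Lb.one
      | with_reducible apply Lb.mul hr | with_reducible apply Lb.pow hr
  · simp (disch := positivity) only [max_add, add_max, mul_max_of_nonneg, max_le_iff]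
    push_cast
    rcases R with ⟨h1, h2, rfl, rfl, rfl, rfl, rfl⟩ | ⟨h1, h2, rfl, rfl, rfl, rfl, rfl⟩ |
      ⟨h1, h2, rfl, rfl, rfl, rfl, rfl⟩ | ⟨h1, h2, rfl, rfl, rfl, rfl, rfl⟩ |
      ⟨h1, h2, rfl, rfl, rfl, rfl, rfl⟩ <;> (repeat' apply And.intro) <;> linarith

end Ex
end Vale.Agent.P049
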