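import Vale.Agent.P049.NumW

/-! P049: exponent data of the two parameter choices. -/

namespace Vale.Agent.P049
variable {r N : ℝ}

theorem Eb_bd (hr : 10 ^ 50 ≤ r) (hN : 1 ≤ N) :
    1 ≤ 1 + N ^ 2 / (N + r ^ 7799) ∧ 1 + N ^ 2 / (N + r ^ 7799) ≤ 2 * N := by
  have hZ : 0 < r ^ 7799 := pow_pos (r_pos' hr) _
  have h1 : 0 ≤ N ^ 2 / (N + r ^ 7799) := by positivity
  have h2 : N ^ 2 / (N + r ^ 7799) ≤ N := by
    rw [div_le_iff₀ (by positivity)]; nlinarith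
  constructor <;> linarith

theorem tT_cube (hr : 10 ^ 50 ≤ r) (hN : 0 < N) : (tT r N ^ (1 / 3 : ℝ)) ^ 3 = tT r N := by
  have h0 : 0 ≤ tT r N := le_min (by have := r_pos' hr; positivity) (by have := r_pos' hr; positivity)
  rw [← Real.rpow_natCast, ← Real.rpow_mul h0]; norm_num

theorem exA (hr : 10 ^ 50 ≤ r) (h1 : r ^ 7650 ≤ N) (h2 : N ≤ r ^ 12001) :
    ∃ ν z m τ l, N = r ^ ν ∧ 7650 ≤ ν ∧ Ex (parA r N) ν z m τ 870 l ∧ Reg ν z m τ 870 l := by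
  have hN : 0 < N := lt_of_lt_of_le (pow_pos (r_pos' hr) _) h1
  obtain ⟨ν, rfl⟩ := exists_exp hr hN
  have a1 : (7650 : ℝ) ≤ ν := by exact_mod_cast le_exp hr h1
  have a2 : ν ≤ (12001 : ℝ) := by exact_mod_cast exp_le hr h2
  have ua : Ub r (r ^ 870) 870 := by simpa using (Ub.self hr).pow hr 870
  have E0 := ex_mk hr (ν := ν) (by linarith) ua (Ub.one (r := r))
  have uL : Ub r (tT r (r ^ ν) ^ (1 / 3 : ℝ)) (min (3751 + ν) 12021 / 3) := by
    have := E0.uT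
    refine ⟨Real.rpow_nonneg this.1 _, ?_⟩
    rw [div_eq_mul_one_div (min (3751 + ν) 12021) (3 : ℝ), Real.rpow_mul (r_pos' hr).le]
    exact Real.rpow_le_rpow this.1 this.2 (by norm_num)
  refine ⟨ν, _, _, _, _, rfl, a1, ex_mk hr (by linarith) ua uL, ?_⟩
  have hm : max ν 6500 = ν := max_eq_left (by linarith)
  rcases le_total ν 7799 with h | h
  · have ht : min (3751 + ν) 12021 = 3751 + ν := min_eq_left (by linarith)
    exact .inr (.inr (.inl ⟨a1, h, max_eq_right h, hm, ht, rfl, by rw [ht]⟩))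
  rcases le_total ν 8270 with h' | h'
  · have ht : min (3751 + ν) 12021 = 3751 + ν := min_eq_left (by linarith)
    exact .inr (.inr (.inr (.inl ⟨h, h', max_eq_left h, hm, ht, rfl, by rw [ht]⟩)))
  · have ht : min (3751 + ν) 12021 = 12021 := min_eq_right (by linarith)
    exact .inr (.inr (.inr (.inr ⟨h', a2, max_eq_left h, hm, ht, rfl, by rw [ht]; norm_num⟩)))

theorem exB (hr : 10 ^ 50 ≤ r) (h0 : 0 < N) (h1 : r ^ 7799 < N ^ 2) (h2 : N < r ^ 7650) :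
    ∃ ν z m τ l, N = r ^ ν ∧ 7799 ≤ 2 * ν ∧ Ex (parB r N) ν z m τ (-20000) l ∧
      Reg ν z m τ (-20000) l := by
  obtain ⟨ν, rfl⟩ := exists_exp hr h0
  have a1 : (7799 : ℝ) ≤ 2 * ν := by
    rw [← Real.rpow_natCast (r ^ ν), ← Real.rpow_mul (r_pos' hr).le] at h1
    have := le_exp hr h1.le
    push_cast at this; linarith
  have a2 : ν ≤ (7650 : ℝ) := by exact_mod_cast exp_le hr h2.le
  have ua : Ub r 0 (-20000) := Ub.zero hr
  have E0 := ex_mk hr (ν := ν) a1 ua (Ub.one (r := r))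
  have uL := E0.uE.sqrt hr
  have hz : max ν 7799 = 7799 := max_eq_right (by linarith)
  have ht : min (3751 + ν) 12021 = 3751 + ν := min_eq_left (by linarith)
  refine ⟨ν, _, _, _, _, rfl, a1, ex_mk hr a1 ua uL, ?_⟩
  rcases le_total ν 6500 with h | h
  · exact .inl ⟨a1, h, hz, max_eq_right h, ht, rfl, by rw [hz]⟩
  · exact .inr (.inl ⟨h, a2, hz, max_eq_left h, ht, rfl, by rw [hz]⟩)

theorem good_mk {a L ν z m τ α l : ℝ} (hN : 1 ≤ N) (E : Ex (mkPar r N a L) ν z m τ α l)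
    (R : Reg ν z m τ α l) (ha : a = 0 ∨ r ≤ a) (hL : 1 ≤ L) (hT : L ^ 3 ≤ tT r N) :
    (mkPar r N a L).Good := by
  have hr : 10 ^ 50 ≤ r := E.hr
  exact ⟨hr, E.big R, Real.sq_sqrt (by linarith), ha, one_le_pow₀ (r_one_lt hr).le, E.aS R, hL,
    E.lV.pos hr, (Eb_bd hr hN).1, (Eb_bd hr hN).2, E.uW.1, E.W2 R, E.uP.1, E.lPa.pos hr, E.M1 R,
    E.M2 R, E.M2' R, E.M3 R, E.M5 R, E.M5' R, E.MC1 R, E.MC2 R, hT, E.MT2 R, E.MV1 R, E.MV2 R,
    E.MV3 R, E.MV4 R⟩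

end Vale.Agent.P049
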