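import Vale.Agent.P049.Alg
import Vale.Agent.Lib.PTime.Rat

/-! P049: the functionals are computable in polynomial time. -/

namespace Vale.Agent.P049
open Matrix Finset Vale.Agent.PT
variable {α : Type} [TEnc α]

@[fun_prop] theorem pt_ent {K : α → Mat} {i j : α → ℕ} (hK : PTime K) (hi : PTime i)
    (hj : PTime j) : PTime fun a => ent (K a) (i a) (j a) := by
  unfold ent; fun_prop

@[fun_prop] theorem pt_tab {n : α → ℕ} {f : α → ℕ → ℕ → ℚ} (hn : PTime n) (hB : PB n)
    (hf : PTime fun p : α × ℕ × ℕ => f p.1 p.2.1 p.2.2) : PTime fun a => tab (n a) (f a) := by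
  unfold tab
  refine (hn.range hB).map ?_
  refine PTime.map (l := fun p : α × ℕ => List.range (n p.1)) (f := fun p j => f p.1 p.2 j)
    ((hn.range hB).comp PTime.fst_id) ?_
  exact hf.comp (f := fun q : (α × ℕ) × ℕ => (q.1.1, q.1.2, q.2)) (by fun_prop)

@[fun_prop] theorem pt_lamN {K : α → Mat} {i j : α → ℕ} (hK : PTime K) (hi : PTime i)
    (hj : PTime j) : PTime fun a => lamN (K a) (i a) (j a) := by
  unfold lamN; fun_prop

@[fun_prop] theorem pt_stepN {n : α → ℕ} {K : α → Mat} {i j : α → ℕ} (hn : PTime n) (hB : PB n)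
    (hK : PTime K) (hi : PTime i) (hj : PTime j) :
    PTime fun a => stepN (n a) (K a) (i a) (j a) := by
  unfold stepN
  refine pt_tab hn hB ?_
  fun_prop

namespace PTX

theorem pbf {β : Type} [TEnc β] {n : α → ℕ} (hB : PB n) : PB fun p : α × β => n p.1 :=
  PB.comp (g := n) (f := fun p : α × β => p.1) hB PTime.fst_id

theorem ptf {β γ : Type} [TEnc β] [TEnc γ] {n : α → γ} (hB : PTime n) :
    PTime fun p : α × β => n p.1 :=
  PTime.comp (g := n) (f := fun p : α × β => p.1) hB PTime.fst_id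

@[fun_prop] theorem pt_fl {G : α → ℕ} (s : ℚ) {x : α → ℚ} (hG : PTime G) (hx : PTime x) :
    PTime fun a => fl (G a) s (x a) := by
  unfold fl; fun_prop

theorem ent_tab' {n : ℕ} (f : ℕ → ℕ → ℚ) {i j : ℕ} (hi : i < n) (hj : j < n) :
    ent (tab n f) i j = f i j := by
  simp [ent, tab, List.getD, hi, hj]

def mulN (n : ℕ) (K L : Mat) : Mat := tab n fun i j => ∑ l ∈ range n, ent K i l * ent L l j

theorem mat_mul (n : ℕ) (K L : Mat) : mat n K * mat n L = mat n (mulN n K L) := by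
  ext i j
  rw [Matrix.mul_apply, mat, mulN, ent_tab' _ i.2 j.2, ← Fin.sum_univ_eq_sum_range
    (fun l => ent K i l * ent L l j)]
  rfl

@[fun_prop] theorem pt_mulN {n : α → ℕ} {K L : α → Mat} (hn : PTime n) (hB : PB n)
    (hK : PTime K) (hL : PTime L) : PTime fun a => mulN (n a) (K a) (L a) := by
  unfold mulN
  refine pt_tab hn hB ?_
  refine PTime.rat_sum_range (n := fun p : α × ℕ × ℕ => n p.1)
    (f := fun p l => ent (K p.1) p.2.1 l * ent (L p.1) l p.2.2) (ptf hn) (pbf hB) ?_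
  fun_prop

variable {n : α → ℕ} {K : α → Mat}

theorem pt_diag (hn : PTime n) (hB : PB n) (hK : PTime K) (e : ℕ) :
    PTime fun a => ∑ k : Fin (n a), mat (n a) (K a) k k ^ e := by
  refine PTime.of_eq (f := fun a => ∑ k ∈ range (n a), ent (K a) k k ^ e) (by fun_prop) fun a => ?_
  rw [← Fin.sum_univ_eq_sum_range (fun k => ent (K a) k k ^ e)]
  rfl

theorem pt_rows (hn : PTime n) (hB : PB n) (hK : PTime K) (e e' : ℕ) :
    PTime fun a => ∑ k : Fin (n a), (∑ j : Fin (n a), mat (n a) (K a) k j ^ e) ^ e' := by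
  have h1 : PTime fun p : α × ℕ => ∑ j ∈ range (n p.1), ent (K p.1) p.2 j ^ e :=
    PTime.rat_sum_range (n := fun p : α × ℕ => n p.1)
      (f := fun p j => ent (K p.1) p.2 j ^ e) (ptf hn) (pbf hB) (by fun_prop)
  refine PTime.of_eq (f := fun a => ∑ k ∈ range (n a), (∑ j ∈ range (n a), ent (K a) k j ^ e) ^ e')
    (PTime.rat_sum_range (f := fun a k => (∑ j ∈ range (n a), ent (K a) k j ^ e) ^ e') hn hB
      (h1.rat_pow (PTime.const e') (PB.const e'))) fun a => ?_
  rw [← Fin.sum_univ_eq_sum_range (fun k => (∑ j ∈ range (n a), ent (K a) k j ^ e) ^ e')]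
  refine sum_congr rfl fun k _ => ?_
  rw [← Fin.sum_univ_eq_sum_range (fun j => ent (K a) k j ^ e)]
  rfl

@[fun_prop] theorem pt_fP (hn : PTime n) (hB : PB n) (hK : PTime K) :
    PTime fun a => fP (mat (n a) (K a)) :=
  (pt_diag hn hB hK 1).of_eq fun a => by simp [fP]

@[fun_prop] theorem pt_fV (hn : PTime n) (hB : PB n) (hK : PTime K) :
    PTime fun a => fV (mat (n a) (K a)) := pt_diag hn hB hK 2

@[fun_prop] theorem pt_fE (hn : PTime n) (hB : PB n) (hK : PTime K) :
    PTime fun a => fE (mat (n a) (K a)) :=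
  (pt_rows hn hB hK 2 1).of_eq fun a => by simp [fE, rS]

@[fun_prop] theorem pt_fW (hn : PTime n) (hB : PB n) (hK : PTime K) :
    PTime fun a => fW (mat (n a) (K a)) := pt_rows hn hB hK 2 2

@[fun_prop] theorem pt_fR (hn : PTime n) (hB : PB n) (hK : PTime K) :
    PTime fun a => fR (mat (n a) (K a)) :=
  (pt_rows hn hB hK 4 1).of_eq fun a => by simp [fR, rR]

@[fun_prop] theorem pt_fT (hn : PTime n) (hB : PB n) (hK : PTime K) :
    PTime fun a => fT (mat (n a) (K a)) :=
  (pt_fP hn hB (pt_mulN hn hB (pt_mulN hn hB hK hK) hK)).of_eq fun a => by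
    rw [fT, mat_mul, mat_mul]; rfl

@[fun_prop] theorem pt_fC {L : α → Mat} (hn : PTime n) (hB : PB n) (hK : PTime K) (hL : PTime L) :
    PTime fun a => fC (mat (n a) (K a)) (mat (n a) (L a)) :=
  (pt_fE hn hB (pt_mulN hn hB hK hL)).of_eq fun a => by rw [fC, mat_mul]

theorem pt_pot1 {r N π : α → ℚ} (s : ℚ) (hr : PTime r) (hN : PTime N) (hπ : PTime π)
    (hn : PTime n) (hB : PB n) (hK : PTime K) :
    PTime fun a => pot1 (r a) (N a) (π a) s (mat (n a) (K a)) := by
  have h1 : PTime fun a => pF (r a) s (mat (n a) (K a)) := by unfold pF; fun_prop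
  have h2 : PTime fun a => pH (r a) (N a) (mat (n a) (K a)) := by unfold pH tH; fun_prop
  have h3 : PTime fun a => pG (r a) (N a) (mat (n a) (K a)) := by unfold pG; fun_prop
  have h4 : PTime fun a => pT (r a) (N a) s (mat (n a) (K a)) := by unfold pT tT; fun_prop
  have h5 : PTime fun a => pV (r a) (N a) (mat (n a) (K a)) := by unfold pV tV; fun_prop
  have h6 : PTime fun a => pW (r a) (N a) (π a) (mat (n a) (K a)) := by unfold pW tW; fun_prop
  have h7 : PTime fun a => pR (r a) (N a) (π a) (mat (n a) (K a)) := by unfold pR tR; fun_prop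
  exact (((((h1.rat_add h2).rat_add h3).rat_add h4).rat_add h5).rat_add h6).rat_add h7

theorem pt_piF {N : α → ℕ} (hn : PTime n) (hB : PB n) (hN : PTime N) :
    PTime fun a => piF (n a) (N a) := by
  unfold piF; fun_prop

end PTX
open PTX

@[fun_prop] theorem pt_rndN {n G : α → ℕ} (s : ℚ) {U : α → List ℕ} {K : α → Mat} (hn : PTime n)
    (hB : PB n) (hG : PTime G) (hU : PTime U) (hK : PTime K) :
    PTime fun a => rndN (n a) (G a) s (U a) (K a) := by
  unfold rndN
  refine pt_tab hn hB ?_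
  have h1 : PTime fun p : α × ℕ × ℕ => ∑ l ∈ range (n p.1),
      if l ∈ U p.1 ∧ l ≠ p.2.1 then fl (G p.1) s (ent (K p.1) p.2.1 l) else 0 :=
    PTime.rat_sum_range (n := fun p : α × ℕ × ℕ => n p.1)
      (f := fun p l => if l ∈ U p.1 ∧ l ≠ p.2.1 then fl (G p.1) s (ent (K p.1) p.2.1 l) else 0)
      (ptf hn) (pbf hB) (by fun_prop)
  have h2 : PTime fun p : α × ℕ × ℕ => (1 : ℚ) - ∑ l ∈ range (n p.1),
      if l ∈ U p.1 ∧ l ≠ p.2.1 then fl (G p.1) s (ent (K p.1) p.2.1 l) else 0 :=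
    PTime.rat_sub (PTime.const 1) h1
  have h3 : PTime fun p : α × ℕ × ℕ => fl (G p.1) s (ent (K p.1) p.2.1 p.2.2) := by fun_prop
  have h4 : PTime fun p : α × ℕ × ℕ => decide (p.2.1 = p.2.2) := by fun_prop
  have h5 : PTime fun p : α × ℕ × ℕ => decide (p.2.1 ∈ U p.1 ∧ p.2.2 ∈ U p.1) :=
    PTime.decide_and (PTime.decide_mem PTime.snd_id.fst (ptf hU))
      (PTime.decide_mem PTime.snd_id.snd (ptf hU))
  exact PTime.ite h5 (PTime.ite h4 h2 h3) (PTime.const 0)

@[fun_prop] theorem pt_okE (d : ℕ) {es : α → Edges} (h : PTime es) :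
    PTime fun a => okE d (es a) := by
  unfold okE
  have h1 : PTime fun a => (es a).map (ekey d) := by unfold ekey; fun_prop
  refine PTime.and (by fun_prop) ?_
  refine (PTime.decide_eq h1.dedup h1 (inst := inferInstance)).of_eq fun a => ?_
  rw [decide_eq_decide, List.dedup_eq_self]

@[fun_prop] theorem pt_rm {U : α → List ℕ} {p : α → ℕ × ℕ} (hU : PTime U) (hp : PTime p) :
    PTime fun a => rm (U a) (p a) := by
  unfold rm; fun_prop

@[fun_prop] theorem pt_barB {r n N : α → ℕ} (s : ℚ) {K : α → Mat} (hr : PTime r) (hn : PTime n)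
    (hB : PB n) (hN : PTime N) (hK : PTime K) :
    PTime fun a => barB (r a) (n a) (N a) s (K a) := by
  have h1 : PTime fun a => s * fP (mat (n a) (K a)) := (PTime.const s).rat_mul (pt_fP hn hB hK)
  have h2 : PTime fun a => 2 * (r a : ℚ) ^ 3750 :=
    (PTime.const 2).rat_mul (hr.natCast_rat.rat_pow (PTime.const 3750) (PB.const _))
  have h3 : PTime fun a => (N a : ℚ) + 1 := hN.natCast_rat.rat_add (PTime.const 1)
  exact (h1.rat_decide_lt h2).and ((pt_fE hn hB hK).rat_decide_lt h3)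

@[fun_prop] theorem pt_Phi {r n : α → ℕ} {S : α → St} (hr : PTime r) (hn : PTime n) (hB : PB n)
    (hS : PTime S) : PTime fun a => Phi (r a) (n a) (S a) := by
  have hN : PTime fun a => (S a).1.length := by fun_prop
  have hA : PTime fun a => (S a).2.2.1 := by fun_prop
  have hC : PTime fun a => (S a).2.2.2 := by fun_prop
  have hπ := pt_piF hn hB hN
  have h3 : PTime fun a => pC (r a : ℚ) ((S a).1.length : ℚ) (mat (n a) (S a).2.2.1)
      (mat (n a) (S a).2.2.2) :=
    (pt_fC hn hB hA hC).rat_div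
      ((hr.natCast_rat.rat_pow (PTime.const 1950) (PB.const _)).rat_mul hN.natCast_rat)
  exact ((pt_pot1 1 hr.natCast_rat hN.natCast_rat hπ hn hB hA).rat_add
    (pt_pot1 (-1) hr.natCast_rat hN.natCast_rat hπ hn hB hC)).rat_add h3

@[fun_prop] theorem PTX.pt_nxt {r n : α → ℕ} {S : α → St} {p : α → ℕ × ℕ} (hr : PTime r)
    (hn : PTime n) (hB : PB n) (hS : PTime S) (hp : PTime p) :
    PTime fun a => nxt (r a) (n a) (S a) (p a) := by
  have hU : PTime fun a => rm (S a).1 (p a) := pt_rm hS.fst hp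
  have hG : PTime fun a => r a ^ 200000 := hr.pow (PTime.const _) (PB.const _)
  exact hU.prodMk ((hp.cons hS.snd.fst).prodMk
    ((pt_rndN 1 hn hB hG hU (pt_stepN hn hB hS.snd.snd.fst hp.fst hp.snd)).prodMk
    (pt_rndN (-1) hn hB hG hU (pt_stepN hn hB hS.snd.snd.snd hp.fst hp.snd))))

@[fun_prop] theorem PTX.pt_good (d : ℕ) {r n : α → ℕ} {S : α → St} {p : α → ℕ × ℕ} (hr : PTime r)
    (hn : PTime n) (hB : PB n) (hS : PTime S) (hp : PTime p) :
    PTime fun a => good d (r a) (n a) (S a) (p a) := by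
  have hx := PTX.pt_nxt hr hn hB hS hp
  have hU : PTime fun a => (rm (S a).1 (p a)).length := (pt_rm hS.fst hp).length
  have h1 : PTime fun a => decide ((p a).1 ≠ (p a).2) := hp.fst.decide_ne hp.snd
  have h2 := pt_okE d (hp.cons hS.snd.fst)
  have h3 : PTime fun a => decide (0 < lamN (S a).2.2.1 (p a).1 (p a).2) :=
    (PTime.const 0).rat_decide_lt (pt_lamN hS.snd.snd.fst hp.fst hp.snd)
  have h4 : PTime fun a => decide (0 < lamN (S a).2.2.2 (p a).1 (p a).2) :=
    (PTime.const 0).rat_decide_lt (pt_lamN hS.snd.snd.snd hp.fst hp.snd)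
  have h5 := pt_barB 1 hr hn hB hU hx.snd.snd.fst
  have h6 := pt_barB (-1) hr hn hB hU hx.snd.snd.snd
  have h8 : PTime fun a => (2 : ℚ) ^ 61 / (r a * (S a).1.length) :=
    (PTime.const _).rat_div (hr.natCast_rat.rat_mul hS.fst.length.natCast_rat)
  have h7 : PTime fun a => decide (Phi (r a) (n a) (nxt (r a) (n a) (S a) (p a)) ≤
      Phi (r a) (n a) (S a) + 2 ^ 61 / (r a * (S a).1.length)) :=
    (pt_Phi hr hn hB hx).rat_decide_le ((pt_Phi hr hn hB hS).rat_add h8)
  exact (((((h1.and h2).and h3).and h4).and h5).and h6).and h7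

@[fun_prop] theorem pt_mstep (d : ℕ) {r n : α → ℕ} {S : α → St} (hr : PTime r) (hn : PTime n)
    (hB : PB n) (hS : PTime S) : PTime fun a => mstep d (r a) (n a) (S a) := by
  unfold mstep
  refine PTime.ite ?_ hS (PTime.option_elim (PTime.find? (hS.fst.product hS.fst) ?_) hS ?_)
  · exact (hS.fst.length.pow (PTime.const _) (PB.const _)).decide_le
      (hr.pow (PTime.const _) (PB.const _))
  · exact PTX.pt_good d (ptf hr) (ptf hn) (pbf hB) (ptf hS) PTime.snd_id
  · exact PTX.pt_nxt (ptf hr) (ptf hn) (pbf hB) (ptf hS) PTime.snd_id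

end Vale.Agent.P049
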