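import Vale.Agent.P049.PT1
import Vale.Agent.P049.Cast

/-! P049: the first phase runs in polynomial time. -/

namespace Vale.Agent.P049
open Matrix Finset Vale.Agent.PT

namespace PTX

variable {α : Type} [TEnc α]

theorem rOf_le (n : ℕ) : rOf n ≤ n := by
  simpa [rOf] using List.countP_le_length (l := List.range n)
    (p := fun j => decide ((j + 1) ^ 12000 ≤ n))

theorem pt_rOf {n : α → ℕ} (hn : PTime n) (hB : PB n) : PTime fun a => rOf (n a) := by
  unfold rOf
  refine PTime.countP (hn.range hB) ?_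
  exact ((PTime.snd_id.add (PTime.const 1)).pow (PTime.const 12000) (PB.const _)).decide_le
    (ptf hn)

theorem pt_qOf (d : ℕ) {r : α → ℕ} (hr : PTime r) (hB : PB r) : PTime fun a => qOf d (r a) := by
  unfold qOf
  have h1 : PTime fun a => r a ^ 4200 := hr.pow (PTime.const 4200) (PB.const _)
  have h2 : PTime fun a => (List.range (r a ^ 4200)).countP fun j =>
      decide ((d - 1) * (j + 1) ^ 2 ≤ (r a ^ 4200) ^ 2) := by
    refine PTime.countP (h1.range (hB.pow 4200)) ?_
    exact ((PTime.const (d - 1)).mul ((PTime.snd_id.add (PTime.const 1)).pow (PTime.const 2)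
      (PB.const _))).decide_le ((ptf h1).pow (PTime.const 2) (PB.const _))
  exact (h2.natCast_rat.rat_sub (PTime.const 1)).rat_div
    (hr.natCast_rat.rat_pow (PTime.const 4200) (PB.const _))

theorem pt_bOf (d : ℕ) {r : α → ℕ} (hr : PTime r) (hB : PB r) : PTime fun a => bOf d (r a) := by
  unfold bOf
  exact (pt_qOf d hr hB).rat_mul ((PTime.const 1).rat_add ((PTime.const _).rat_div
    ((hr.natCast_rat.rat_pow (PTime.const 4200) (PB.const _)).rat_pow (PTime.const 2)
      (PB.const _))))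

theorem pt_k0e (d : ℕ) (s : ℚ) {n k j : α → ℕ} {q b : α → ℚ} (hn : PTime n) (hq : PTime q)
    (hb : PTime b) (hk : PTime k) (hj : PTime j) :
    PTime fun a => k0e (n a) d (q a) (b a) s (k a) (j a) := by
  unfold k0e
  have h0 : PTime fun a => ((n a * d : ℕ) : ℚ) := (hn.mul (PTime.const d)).natCast_rat
  have h1 : PTime fun a => if k a / d = j a / d then (1 : ℚ) else 0 :=
    PTime.ite ((hk.div (PTime.const d)).decide_eq (hj.div (PTime.const d))) (PTime.const 1)
      (PTime.const 0)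
  have h2 : PTime fun a => if k a = j a then (1 : ℚ) else 0 :=
    PTime.ite (hk.decide_eq hj) (PTime.const 1) (PTime.const 0)
  exact ((PTime.const s).rat_mul ((hb.rat_mul (h1.rat_sub ((PTime.const _).rat_div h0))).rat_sub
    (hq.rat_mul (h2.rat_sub ((PTime.const 1).rat_div h0))))).rat_add ((PTime.const 1).rat_div h0)

theorem pt_init (d : ℕ) {n r : α → ℕ} (hn : PTime n) (hB : PB n) (hr : PTime r) (hrB : PB r) :
    PTime fun a => init d (n a) (r a) := by
  unfold init
  have h0 : PTime fun a => n a * d := hn.mul (PTime.const d)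
  have b0 : PB fun a => n a * d := hB.mul (PB.const d)
  have h1 : ∀ s : ℚ, PTime fun a => tab (n a * d) (k0e (n a) d (qOf d (r a)) (bOf d (r a)) s) :=
    fun s => pt_tab h0 b0 (pt_k0e d s (ptf hn) (ptf (pt_qOf d hr hrB)) (ptf (pt_bOf d hr hrB))
      PTime.snd_id.fst PTime.snd_id.snd)
  exact (h0.range b0).prodMk ((PTime.const []).prodMk ((h1 1).prodMk (h1 (-1))))

/-- rationals on a grid -/
def OnG (G : ℕ) (x : ℚ) : Prop := ∃ m : ℤ, x = m / ((max G 1 : ℕ) : ℚ)

theorem OnG.zero (G : ℕ) : OnG G 0 := ⟨0, by simp⟩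

theorem OnG.one (G : ℕ) : OnG G 1 := ⟨(max G 1 : ℕ), by
  have : ((max G 1 : ℕ) : ℚ) ≠ 0 := Nat.cast_ne_zero.2 (by omega)
  rw [Int.cast_natCast, div_self this]⟩

theorem OnG.add {G : ℕ} {x y : ℚ} (hx : OnG G x) (hy : OnG G y) : OnG G (x + y) := by
  obtain ⟨a, rfl⟩ := hx
  obtain ⟨b, rfl⟩ := hy
  exact ⟨a + b, by rw [Int.cast_add, add_div]⟩

theorem OnG.sub {G : ℕ} {x y : ℚ} (hx : OnG G x) (hy : OnG G y) : OnG G (x - y) := by
  obtain ⟨a, rfl⟩ := hx
  obtain ⟨b, rfl⟩ := hy
  exact ⟨a - b, by rw [Int.cast_sub, sub_div]⟩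

theorem OnG.fl (G : ℕ) {s : ℚ} (hs : s = 1 ∨ s = -1) (x : ℚ) : OnG G (fl G s x) := by
  rcases Nat.eq_zero_or_pos G with rfl | hG
  · simpa [P049.fl] using OnG.zero 0
  · have : max G 1 = G := max_eq_left hG
    rcases hs with rfl | rfl
    · exact ⟨⌊1 * (G : ℚ) * x⌋, by rw [this, P049.fl, one_mul]⟩
    · exact ⟨-⌊-1 * (G : ℚ) * x⌋, by rw [this, P049.fl]; push_cast; ring⟩

theorem OnG.sz_le {G M : ℕ} {x : ℚ} (hx : OnG G x) (h : x ^ 2 < M + 1) :
    sz x ≤ 8 * ((G + 1) * (M + 1)) + 7 := by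
  obtain ⟨m, hm⟩ := hx
  have hd : (x.den : ℤ) ∣ ((max G 1 : ℕ) : ℤ) := by
    have := Rat.den_dvd m ((max G 1 : ℕ) : ℤ)
    rwa [Rat.divInt_eq_div, Int.cast_natCast, ← hm] at this
  have h1 : x.den ≤ G + 1 :=
    (Nat.le_of_dvd (by omega) (Int.natCast_dvd_natCast.1 hd)).trans (by omega)
  have h2 : |x| ≤ M + 1 := by
    have : (0 : ℚ) ≤ M := Nat.cast_nonneg M
    rw [abs_le]
    constructor <;> nlinarith
  have h3 : (x.num.natAbs : ℚ) ≤ ((G + 1) * (M + 1) : ℕ) := by
    have e : (x.num : ℚ) = x * x.den := (Rat.mul_den_eq_num x).symm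
    rw [Nat.cast_natAbs, Int.cast_abs, e, abs_mul, Nat.abs_cast, mul_comm]
    push_cast
    have : (x.den : ℚ) ≤ G + 1 := by exact_mod_cast h1
    exact mul_le_mul this h2 (abs_nonneg _) (by positivity)
  refine sz_rat_le_of_lt ((Nat.cast_le.1 h3).trans_lt Nat.lt_two_pow_self) ?_
  exact (h1.trans (Nat.le_mul_of_pos_right _ (by omega))).trans_lt Nat.lt_two_pow_self

theorem sz_tab {n B : ℕ} {f : ℕ → ℕ → ℚ} (h : ∀ i < n, ∀ j < n, sz (f i j) ≤ B) :
    sz (tab n f) ≤ n * (n * (B + 1) + 1 + 1) + 1 := by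
  have := sz_list_le (tab n f) (B := n * (B + 1) + 1) fun a ha => by
    obtain ⟨i, hi, rfl⟩ := List.mem_map.1 ha
    have := sz_list_le ((List.range n).map fun j => f i j) (B := B) fun b hb => by
      obtain ⟨j, hj, rfl⟩ := List.mem_map.1 hb
      exact h i (List.mem_range.1 hi) j (List.mem_range.1 hj)
    simpa using this
  simpa [tab] using this

/-- size bound for the rounded matrices -/
def mB (N0 G : ℕ) : ℕ := N0 * (N0 * (8 * ((G + 1) * (N0 + 1)) + 7 + 1) + 1 + 1) + 1

theorem sz_rnd {r N0 N G : ℕ} {s : ℚ} (hs : s = 1 ∨ s = -1) {U : List ℕ} {K : Mat} (hN : N ≤ N0)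
    (h : barB r N0 N s (rndN N0 G s U K) = true) : sz (rndN N0 G s U K) ≤ mB N0 G := by
  simp only [barB, Bool.and_eq_true, decide_eq_true_eq] at h
  have h2 := h.2
  refine sz_tab fun i hi j hj => OnG.sz_le ?_ ?_
  · split_ifs
    · exact (OnG.one G).sub (sum_induction _ (OnG G) (fun _ _ => OnG.add) (OnG.zero G)
        fun l _ => by split_ifs; exacts [OnG.fl G hs _, OnG.zero G])
    · exact OnG.fl G hs _
    · exact OnG.zero G
  · rw [← ent_tab' (n := N0) (fun k j => if k ∈ U ∧ j ∈ U then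
      if k = j then 1 - ∑ l ∈ range N0, if l ∈ U ∧ l ≠ k then fl G s (ent K k l) else 0
      else fl G s (ent K k j) else 0) hi hj]
    change mat N0 (rndN N0 G s U K) ⟨i, hi⟩ ⟨j, hj⟩ ^ 2 < _
    generalize mat N0 (rndN N0 G s U K) = A at h2
    have a1 : A ⟨i, hi⟩ ⟨j, hj⟩ ^ 2 ≤ rS A ⟨i, hi⟩ :=
      single_le_sum (f := fun j => A ⟨i, hi⟩ j ^ 2) (fun _ _ => sq_nonneg _) (mem_univ _)
    have a2 : rS A ⟨i, hi⟩ ≤ fE A :=
      single_le_sum (f := rS A) (fun _ _ => sum_nonneg fun _ _ => sq_nonneg _) (mem_univ _)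
    have : (N : ℚ) ≤ N0 := by exact_mod_cast hN
    linarith

structure SI (N0 G k a b : ℕ) (S : St) : Prop where
  sub : S.1.Sublist (List.range N0)
  es : sz S.2.1 ≤ k * (8 * N0 + 4) + 1
  A : sz S.2.2.1 ≤ a + mB N0 G
  B : sz S.2.2.2 ≤ b + mB N0 G

theorem SI.step {d r N0 k a b : ℕ} {S : St} (h : SI N0 (r ^ 200000) k a b S) :
    SI N0 (r ^ 200000) (k + 1) a b (mstep d r N0 S) := by
  have h0 : SI N0 (r ^ 200000) (k + 1) a b S :=
    ⟨h.sub, h.es.trans (by rw [add_mul]; omega), h.A, h.B⟩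
  unfold mstep
  split_ifs
  · exact h0
  · cases hf : (S.1.product S.1).find? (good d r N0 S) with
    | none => exact h0
    | some p =>
      have hg := List.find?_some hf
      have hm := List.mem_of_find?_eq_some hf
      have hm' : p.1 ∈ S.1 ∧ p.2 ∈ S.1 := List.mem_product.1 hm
      have s1 : (rm S.1 p).Sublist (List.range N0) := List.filter_sublist.trans h.sub
      have hl : (rm S.1 p).length ≤ N0 := by simpa using s1.length_le
      simp only [good, Bool.and_eq_true] at hg
      have p1 : p.1 < N0 := List.mem_range.1 (h.sub.subset hm'.1)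
      have p2 : p.2 < N0 := List.mem_range.1 (h.sub.subset hm'.2)
      refine ⟨s1, ?_, (sz_rnd (Or.inl rfl) hl hg.1.1.2).trans (Nat.le_add_left _ _),
        (sz_rnd (Or.inr rfl) hl hg.1.2).trans (Nat.le_add_left _ _)⟩
      change sz (p :: S.2.1) ≤ _
      have q1 := sz_nat_le_self p.1
      have q2 := sz_nat_le_self p.2
      have q3 : sz p = sz p.1 + sz p.2 + 1 := sz_prod p.1 p.2
      have := h.es
      rw [sz_cons, add_mul]
      omega

end PTX
open PTX

theorem pt_phase1 (d : ℕ) : PTime fun u : List Unit => phase1 d u.length := by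
  have hn : PTime fun u : List Unit => u.length := PTime.id.length
  have hB : PB fun u : List Unit => u.length := PB.length PTime.id
  have hr := pt_rOf hn hB
  have hrB : PB fun u : List Unit => rOf u.length := hB.of_le fun u => rOf_le _
  have h0 : PTime fun u : List Unit => u.length * d := hn.mul (PTime.const d)
  have b0 : PB fun u : List Unit => u.length * d := hB.mul (PB.const d)
  have hi := pt_init d hn hB hr hrB
  have bm : PB fun u : List Unit => mB (u.length * d) (rOf u.length ^ 200000) := by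
    have b1 := hrB.pow 200000
    exact (b0.mul (((b0.mul ((((PB.const 8).mul ((b1.add (PB.const 1)).mul
      (b0.add (PB.const 1)))).add (PB.const 7)).add (PB.const 1))).add (PB.const 1)).add
      (PB.const 1))).add (PB.const 1)
  unfold phase1
  refine PTime.iterate (f := fun u : List Unit => mstep d (rOf u.length) (u.length * d)) h0 b0 hi
    (pt_mstep d (ptf hr) (ptf h0) (pbf b0) PTime.snd_id)
    (fun u => sz (init d u.length (rOf u.length)) + u.length * d * (8 * (u.length * d) + 4)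
      + 2 * mB (u.length * d) (rOf u.length ^ 200000))
    ((hi.sz_PB.add (b0.mul (((PB.const 8).mul b0).add (PB.const 4)))).add ((PB.const 2).mul bm))
    fun u k hk => ?_
  generalize u.length = n at hk ⊢
  have key : ∀ k, SI (n * d) (rOf n ^ 200000) k (sz (init d n (rOf n)).2.2.1)
      (sz (init d n (rOf n)).2.2.2) ((mstep d (rOf n) (n * d))^[k] (init d n (rOf n))) := by
    intro k
    induction k with
    | zero => exact ⟨List.Sublist.refl _, by simp [init], Nat.le_add_right _ _, Nat.le_add_right _ _⟩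
    | succ k ih => rw [Function.iterate_succ_apply']; exact ih.step
  have h := key k
  generalize (mstep d (rOf n) (n * d))^[k] (init d n (rOf n)) = S at h
  have e1 : sz S = sz S.1 + (sz S.2.1 + (sz S.2.2.1 + sz S.2.2.2 + 1) + 1) + 1 := by
    obtain ⟨a, b, c, e⟩ := S
    simp only [sz_prod]
  have e2 : sz (init d n (rOf n)) = sz (List.range (n * d)) + (1 + (sz (init d n (rOf n)).2.2.1 +
      sz (init d n (rOf n)).2.2.2 + 1) + 1) + 1 := by
    simp only [init, sz_prod, sz_nil]
  have a1 := sz_sublist h.sub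
  have a2 := h.es.trans (Nat.add_le_add_right (Nat.mul_le_mul_right _ hk) 1)
  have a3 := h.A
  have a4 := h.B
  omega

end Vale.Agent.P049
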