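import Vale.Agent.P049.DP

/-! P049: drift of the one-sided trace barrier. -/

namespace Vale.Agent.P049
open Matrix Finset
variable {ι : Type} [Fintype ι] [DecidableEq ι]

namespace PotFX

lemma num {r B N sN a L c3 Q Eb r1 Vb : ℝ} (hr : 100 ≤ r) (hB : r ^ 4 ≤ B) (hN : sN ^ 2 = N)
    (s0 : 0 < sN) (a0 : 0 ≤ a) (L1 : 1 ≤ L) (c0 : 0 ≤ c3) (Q1 : Q ≤ L * c3 + 2 * N)
    (Q2 : Q ≤ Eb ^ 2) (E0 : 0 ≤ Eb) (r0 : 0 ≤ r1) (F1 : r ^ 3 * r1 ≤ B * N) (V0 : 0 ≤ Vb)
    (V1 : r ^ 7 * Vb ≤ B ^ 2) (F3 : r ^ 6 * L ≤ a * B ∨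
      (r ^ 4 * Eb ≤ B * sN ∧ r ^ 5 * Eb ^ 2 ≤ B ^ 2 * N)) :
    r ^ 2 * (B * (-(2 * a * c3) + (2 * r * sN * √Q + r1)) + 2 * r * (r ^ 3 * N * Vb + 20 * Q)) ≤
      2 * N * B ^ 2 := by
  have rp : 0 < r := by linarith
  have B0 : 0 < B := lt_of_lt_of_le (by positivity) hB
  have N0 : 0 < N := hN ▸ by positivity
  have up : ∀ {x : ℝ}, 0 ≤ x → 100 * x ≤ r * x := fun hx => mul_le_mul_of_nonneg_right hr hx
  have p1 := (up (x := r ^ 2 * B * r1) (by positivity)).trans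
    ((le_of_eq (by ring)).trans (mul_le_mul_of_nonneg_left F1 B0.le))
  have p2 := (up (x := r ^ 6 * N * Vb) (by positivity)).trans
    ((le_of_eq (by ring)).trans (mul_le_mul_of_nonneg_left V1 N0.le))
  have NB : 0 < N * B ^ 2 := by positivity
  rcases F3 with h | ⟨h1, h2⟩
  · have ap : 0 < a := by
      by_contra h'
      have : a = 0 := by linarith
      rw [this, zero_mul] at h
      exact absurd h (not_le.2 (by positivity))
    obtain ⟨z, z0, hz⟩ : ∃ z, 0 ≤ z ∧ z ^ 2 = L * c3 :=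
      ⟨√(L * c3), Real.sqrt_nonneg _, Real.sq_sqrt (by positivity)⟩
    have q1 : √Q ≤ z + 2 * sN := Real.sqrt_le_iff.2 ⟨by positivity, by nlinarith [mul_nonneg z0 s0.le]⟩
    have q2 : r ^ 4 * (2 * r * sN * z) ≤ r ^ 4 * (a * c3) + N * B := by
      refine le_of_mul_le_mul_left ?_ (show 0 < a * L by positivity)
      have e1 := mul_nonneg (pow_pos rp 4).le (sq_nonneg (a * z - r * sN * L))
      have e2 := mul_le_mul_of_nonneg_left h (show 0 ≤ N * L by positivity)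
      have e3 : r ^ 4 * (a * z - r * sN * L) ^ 2 = r ^ 4 * a ^ 2 * (L * c3) -
          a * L * (r ^ 4 * (2 * r * sN * z)) + N * L * (r ^ 6 * L) := by rw [← hz, ← hN]; ring
      linarith
    have q3 : r ^ 2 * (2 * r * sN * z) ≤ r ^ 2 * (a * c3) + N * B / 100 := by
      refine le_of_mul_le_mul_left ?_ (pow_pos rp 2)
      have : 100 * (N * B) ≤ r ^ 2 * (N * B) :=
        mul_le_mul_of_nonneg_right (by nlinarith) (by positivity)
      linarith [mul_pos N0 B0]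
    have q4 := mul_le_mul_of_nonneg_left q3 B0.le
    have q5 := mul_le_mul_of_nonneg_left q1 (show 0 ≤ r ^ 2 * B * (2 * r * sN) by positivity)
    have q6 := mul_le_mul_of_nonneg_left Q1 (show 0 ≤ 40 * r ^ 3 by positivity)
    have r3 : 1000000 ≤ r ^ 3 := le_trans (by norm_num) (pow_le_pow_left₀ (by norm_num) hr 3)
    have q7 : 40 * r * L ≤ a * B := by
      refine le_trans ?_ h
      have : 40 ≤ r ^ 5 := le_trans (by norm_num) (pow_le_pow_left₀ (by norm_num) hr 5)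
      have := mul_le_mul_of_nonneg_right this (show 0 ≤ r * L by positivity)
      linarith
    have q8 := mul_le_mul_of_nonneg_left q7 (show 0 ≤ r ^ 2 * c3 by positivity)
    have q9 := (up (x := r ^ 3 * N * B) (by positivity)).trans
      ((le_of_eq (by ring)).trans (mul_le_mul_of_nonneg_left hB (mul_pos N0 B0).le))
    have B1 : 100 ≤ B := by nlinarith
    have q10 := mul_le_mul_of_nonneg_left B1 (show 0 ≤ r ^ 3 * N by positivity)
    have e : r ^ 2 * B * (2 * r * sN) * (z + 2 * sN) =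
        B * (r ^ 2 * (2 * r * sN * z)) + 4 * (r ^ 3 * N * B) := by rw [← hN]; ring
    linarith
  · have q1 : √Q ≤ Eb := Real.sqrt_le_iff.2 ⟨E0, Q2⟩
    have q2 := mul_le_mul_of_nonneg_left q1 (show 0 ≤ r ^ 2 * B * (2 * r * sN) by positivity)
    have q3 := (up (x := r ^ 3 * B * sN * Eb) (by positivity)).trans
      ((le_of_eq (by ring)).trans (mul_le_mul_of_nonneg_left h1 (mul_pos B0 s0).le))
    have e : B * sN * (B * sN) = N * B ^ 2 := by rw [← hN]; ring
    have q4 := mul_le_mul_of_nonneg_left Q2 (show 0 ≤ 40 * r ^ 3 by positivity)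
    have q5 := up (x := r ^ 3 * Eb ^ 2) (by positivity)
    have q6 := up (x := r ^ 4 * Eb ^ 2) (by positivity)
    have q7 : 0 ≤ r ^ 2 * B * (a * c3) := by positivity
    linarith

lemma pt {r B p d : ℝ} (hr : 100 ≤ r) (B0 : 0 < B) (hb : p < 2 * B)
    (h1 : 1 / r / (2 - p / B) ≤ 1) (hd : r ^ 4 * d ^ 2 ≤ B ^ 2) :
    p + d < 2 * B ∧ 1 / r / (2 - (p + d) / B) - 1 / r / (2 - p / B) ≤
      1 / (r * (2 * B - p) ^ 2) * (B * d + 2 * r * d ^ 2) := by
  have rp : 0 < r := by linarith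
  have e : ∀ x, 1 / r / (2 - x / B) = B / (r * (2 * B - x)) := fun x => by
    rw [show 2 - x / B = (2 * B - x) / B by field_simp, div_div_eq_mul_div, div_mul_eq_mul_div,
      one_mul, div_div]
  rw [e, div_le_one (mul_pos rp (by linarith))] at h1
  have h2 : r ^ 2 * d ≤ B := le_sq_bb (by rw [mul_pow, ← pow_mul]; exact hd) B0.le
  obtain ⟨w, rfl⟩ : ∃ w, p = 2 * B - w := ⟨2 * B - p, by ring⟩
  have w0 : 0 < w := by linarith
  rw [sub_sub_cancel] at h1
  have h3 : B ≤ 2 * r * (w - d) := by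
    refine le_of_mul_le_mul_left ?_ rp
    nlinarith
  have h4 : 0 < w - d := by
    by_contra h
    nlinarith
  refine ⟨by linarith, ?_⟩
  rw [e, e, show 2 * B - (2 * B - w + d) = w - d by ring, sub_sub_cancel]
  have : B / (r * (w - d)) - B / (r * w) = 1 / (r * w ^ 2) * (B * d + B / (w - d) * d ^ 2) := by
    field_simp
    ring
  rw [this]
  gcongr
  rwa [div_le_iff₀ h4]

lemma fin {r B N E p G : ℝ} (hr : 100 ≤ r) (B0 : 0 < B) (hb : p < 2 * B)
    (h1 : 1 / r / (2 - p / B) ≤ 1) (hN : r ^ 3 ≤ N) (E0 : 0 ≤ E) (E1 : E ≤ N + 1)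
    (hG : r ^ 2 * G ≤ 2 * N * B ^ 2) :
    1 / (r * (2 * B - p) ^ 2) * (B * -(2 * (N - E) * p) + G) ≤ 3 * N / r := by
  have rp : 0 < r := by linarith
  have w0 : 0 < 2 * B - p := by linarith
  have N0 : 0 < N := lt_of_lt_of_le (by positivity) hN
  rw [show 2 - p / B = (2 * B - p) / B by field_simp, div_div_eq_mul_div, div_mul_eq_mul_div,
      one_mul, div_div, div_le_one (mul_pos rp w0)] at h1
  have h2 : B ^ 2 ≤ r ^ 2 * (2 * B - p) ^ 2 := by
    rw [← mul_pow]; exact pow_le_pow_left₀ B0.le h1 2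
  have h3 : G ≤ 2 * N * (2 * B - p) ^ 2 := by
    refine le_of_mul_le_mul_left ?_ (pow_pos rp 2)
    nlinarith
  have h4 : B * -(2 * (N - E) * p) ≤ N * (2 * B - p) ^ 2 := by
    rcases le_total 0 p with h | h
    · have q1 : 4 * r ^ 2 ≤ N := by nlinarith [pow_pos rp 2]
      have q2 := mul_le_mul_of_nonneg_right q1 (sq_nonneg (2 * B - p))
      have q3 := mul_le_mul_of_nonneg_right E1 (mul_nonneg B0.le h)
      nlinarith
    · have q1 := mul_nonneg E0 (mul_nonneg B0.le (neg_nonneg.2 h))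
      have q2 := mul_nonneg N0.le (mul_nonneg B0.le (neg_nonneg.2 h))
      nlinarith [mul_nonneg N0.le (sq_nonneg p), mul_nonneg N0.le (sq_nonneg B)]
  rw [one_div_mul_eq_div, div_le_div_iff₀ (by positivity) rp]
  nlinarith

lemma kH {N Z E : ℝ} (N1 : 100 ≤ N) (hZ : 2 ≤ Z) (hE : E ≤ 1 + N ^ 2 / (N + Z)) :
    N * (N * (2 * Z / (N * (N - 2 + Z)))) ≤ 2 * (N - E) + 4 ∧
      N * (2 * Z / (N * (N - 2 + Z))) ≤ 2 ∧ 0 ≤ 2 * Z / (N * (N - 2 + Z)) := by
  have N0 : 0 < N := by linarith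
  have D0 : 0 < N - 2 + Z := by linarith
  refine ⟨?_, ?_, by positivity⟩
  · have q1 : N * (N * (2 * Z / (N * (N - 2 + Z)))) = 2 * (N * Z / (N - 2 + Z)) := by field_simp
    have q2 : N ^ 2 / (N + Z) = N - N * Z / (N + Z) := by field_simp; ring
    have q3 : N * Z / (N - 2 + Z) ≤ N * Z / (N + Z) + 1 := by
      rw [div_add_one (by linarith), div_le_div_iff₀ D0 (by linarith)]
      nlinarith
    linarith
  · rw [show N * (2 * Z / (N * (N - 2 + Z))) = 2 * Z / (N - 2 + Z) by field_simp, div_le_iff₀ D0]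
    linarith

lemma mH {N E k m u : ℝ} (k1 : N * (N * k) ≤ 2 * (N - E) + 4) (k2 : N * k ≤ 2) (k0 : 0 ≤ k)
    (hm : m ≤ N ^ 2 + N * u) (m0 : 0 ≤ m) (u0 : 0 ≤ u) :
    (1 - (1 - k) ^ 2) * m ≤ 4 * (N - E) + 8 + 4 * u := by
  have a1 : (1 - (1 - k) ^ 2) * m ≤ 2 * k * m :=
    mul_le_mul_of_nonneg_right (by nlinarith [sq_nonneg k]) m0
  have a2 := mul_le_mul_of_nonneg_left hm k0
  have a3 := mul_le_mul_of_nonneg_right k2 u0
  linarith

lemma finH {r N Z E t p m sd d2 e : ℝ} (hr : 100 ≤ r) (hN : r ^ 2 ≤ N) (hZ : 2 ≤ Z) (t0 : 0 < t)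
    (hE : E ≤ 1 + N ^ 2 / (N + Z)) (hp : |p| ≤ t) (hm : m ≤ N ^ 2 + N ^ 2 / r ^ 3) (m0 : 0 ≤ m)
    (h1 : |sd + 2 * (N - E) * p| ≤ e) (he : r * e ≤ N * t) (h2 : r * d2 ≤ N * t ^ 2) :
    1 / ((1 - 2 * Z / (N * (N - 2 + Z))) * t) ^ 2 * (2 * p * sd + d2 +
      (1 - (1 - 2 * Z / (N * (N - 2 + Z))) ^ 2) * p ^ 2 * m) ≤ 20 * N / r := by
  have rp : 0 < r := by linarith
  have r2 : 100 * r ≤ r ^ 2 := by nlinarith
  have N0 : 0 < N := by linarith
  obtain ⟨k1, k2, k0⟩ := kH (by linarith) hZ hE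
  generalize 2 * Z / (N * (N - 2 + Z)) = k at *
  have k3 : k ≤ 1 / 2 := by
    have := mul_le_mul_of_nonneg_right (show 100 ≤ N by linarith) k0
    linarith
  have p2 : p ^ 2 ≤ t ^ 2 := sq_le_sq' (abs_le.1 hp).1 (abs_le.1 hp).2
  have q1 : p * (sd + 2 * (N - E) * p) ≤ t * e :=
    (le_abs_self _).trans ((abs_mul _ _).le.trans (mul_le_mul hp h1 (abs_nonneg _) t0.le))
  have q4 : r * (N / r ^ 3) ≤ N / 100 := by
    rw [show r * (N / r ^ 3) = N / r ^ 2 by field_simp]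
    exact div_le_div_of_nonneg_left N0.le (by norm_num) (by linarith)
  have u0 : 0 ≤ N / r ^ 3 := by positivity
  rw [sq N, mul_div_assoc, ← sq N] at hm
  generalize N / r ^ 3 = u at *
  have q3 := mul_le_mul_of_nonneg_right (mH k1 k2 k0 hm m0 u0) (sq_nonneg p)
  have q5 := mul_le_mul_of_nonneg_left p2 (show 0 ≤ 8 + 4 * u by positivity)
  have q6 := mul_le_mul_of_nonneg_right (show r * (8 + 4 * u) ≤ 2 * N by linarith) (sq_nonneg t)
  have q7 := mul_le_mul_of_nonneg_left he t0.le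
  have q8 : 2 * p * sd + d2 + (1 - (1 - k) ^ 2) * p ^ 2 * m ≤
        2 * (t * e) + d2 + (8 + 4 * u) * t ^ 2 := by linarith
  have q9 := mul_le_mul_of_nonneg_left q8 rp.le
  have q10 := mul_le_mul_of_nonneg_right (show 1 ≤ 4 * (1 - k) ^ 2 by nlinarith)
    (show 0 ≤ N * t ^ 2 by positivity)
  rw [one_div_mul_eq_div, div_le_div_iff₀ (pow_pos (mul_pos (by linarith) t0) 2) rp]
  generalize 2 * p * sd + d2 + (1 - (1 - k) ^ 2) * p ^ 2 * m = G at q9 ⊢
  linarith

end PotFX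

namespace Ctx
variable (c : Ctx ι)

open PotFX

lemma r1_nonneg_f : 0 ≤ c.r1 := by
  have := c.good.r_pos
  have := c.good.N_pos
  have := c.good.a_nonneg
  have := zero_le_one.trans c.good.S1
  unfold Par.r1
  positivity

lemma s_sq_f : c.s ^ 2 = 1 := by rcases c.hs with h | h <;> simp [h]

theorem potF (X : c.toPar.Extra) (hb : c.s * fP c.A < 2 * c.r ^ 3750)
    (h1 : pF c.r c.s c.A ≤ 1) :
    (∀ h g, c.Allowed h g → c.s * fP (step c.A h g) < 2 * c.r ^ 3750) ∧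
      c.S (fun h g => pF c.r c.s (step c.A h g) - pF c.r c.s c.A) ≤ 3 * c.N / c.r := by
  have hr : 100 ≤ c.r := le_trans (by norm_num) c.good.hr
  have r1 : 1 ≤ c.r := by linarith
  have rp := c.good.r_pos
  have N0 := c.good.N_pos
  have B0 : 0 < c.r ^ 3750 := by positivity
  have eB : (c.r ^ 3750) ^ 2 = c.r ^ 7500 := by rw [← pow_mul]
  have key : ∀ h g, c.Allowed h g → _ := fun h g H =>
    pt (d := c.s * (fP (step c.A h g) - fP c.A)) hr B0 hb h1 (by
      rw [mul_pow, c.s_sq_f, one_mul, eB]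
      refine (mul_le_mul_of_nonneg_left (c.dP3 H) (by positivity)).trans (le_trans ?_ X.F2)
      rw [← mul_assoc, ← pow_add])
  simp only [← mul_add, add_sub_cancel] at key
  refine ⟨fun h g H => (key h g H).1, (c.S_mono fun h g H => (key h g H).2).trans ?_⟩
  simp only [mul_pow, c.s_sq_f, one_mul]
  rw [S_mul, S_add, S_mul, c.S_mul (2 * c.r)]
  have V1 : c.r ^ 7 * c.Vb ≤ (c.r ^ 3750) ^ 2 := by
    have : c.Vb ≤ c.r ^ 1900 := by
      rw [X.eV, tV, div_le_iff₀ (by positivity)]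
      gcongr
      exact le_add_of_nonneg_right (by positivity)
    rw [eB]
    refine (mul_le_mul_of_nonneg_left this (by positivity)).trans ?_
    rw [← pow_add]
    exact pow_le_pow_right₀ r1 (by norm_num)
  have hn := num hr (pow_le_pow_right₀ r1 (by norm_num)) c.good.sq c.good.sN_pos c.good.a_nonneg
    c.good.L1 c.c3_bd.1 ((fQ_le c.sA.ok.symm c.loA c.hs c.sA.op
      (zero_le_one.trans c.good.L1)).trans (add_le_add le_rfl (c.sA.E2 c.good)))
    (c.fQ_bd.2.trans (min_le_right _ _)) (zero_le_one.trans c.good.E1) c.r1_nonneg_f X.F1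
    c.good.V0.le V1 (by rw [eB]; exact X.F3)
  refine le_trans (mul_le_mul_of_nonneg_left ?_ (by positivity)) (fin hr B0 hb h1
    ((pow_le_pow_right₀ r1 (by norm_num)).trans c.good.N_ge) (fE_nonneg _) c.sA.E1 hn)
  have d1 := mul_le_mul_of_nonneg_left (abs_le.1 c.dP1).2 B0.le
  have d2 := mul_le_mul_of_nonneg_left c.dP2 (show 0 ≤ 2 * c.r by positivity)
  generalize c.r ^ 3750 = B at d1 ⊢
  clear * - d1 d2
  linarith

theorem potH (X : c.toPar.Extra) :
    c.S (fun h g => pH c.r (c.N - 2) (step c.A h g) - pH c.r c.N c.A) ≤ 20 * c.N / c.r := by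
  have hr : 100 ≤ c.r := le_trans (by norm_num) c.good.hr
  have r1 : 1 ≤ c.r := by linarith
  have rp := c.good.r_pos
  have N0 := c.good.N_pos
  have hN : c.r ^ 2 ≤ c.N := (pow_le_pow_right₀ r1 (by norm_num)).trans c.good.N_ge
  have N2 : 0 < c.N - 2 := by nlinarith
  have hZ : 2 ≤ c.r ^ 7799 := le_trans (by linarith) (le_self_pow₀ r1 (by norm_num))
  have t0 := c.good.Pa0
  have hf := finH (p := c.s * fP c.A) (m := c.S fun _ _ => 1)
    (sd := c.S fun h g => c.s * (fP (step c.A h g) - fP c.A))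
    (d2 := c.S fun h g => (fP (step c.A h g) - fP c.A) ^ 2)
    (e := 2 * c.a * c.Tb + 2 * c.r * c.sN * √c.Qb + c.r1) hr hN hZ t0 (X.eE ▸ c.sA.Eb)
    (by rcases c.hs with h | h <;> simpa [h] using c.sA.Pa) (by linarith [(abs_le.1 c.mass.1).2])
    (by simpa using c.S_mono (f := fun _ _ => 0) (f' := fun _ _ => 1) (fun _ _ _ => zero_le_one)
          |>.trans' (by simp [S]))
    (by
      have h1 := abs_le.1 c.dP1
      have h2 := mul_le_mul_of_nonneg_left (Real.sqrt_le_sqrt c.fQ_bd.2)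
        (show 0 ≤ 2 * c.r * c.sN by have := c.good.sN_pos; positivity)
      have h3 := mul_le_mul_of_nonneg_left c.c3_bd.2 c.good.a_nonneg
      have h4 := mul_nonneg c.good.a_nonneg c.c3_bd.1
      rw [abs_le]
      constructor <;> linarith)
    X.H1 (le_trans (mul_le_mul_of_nonneg_left (c.dP2.trans (by linarith [c.fQ_bd.2])) rp.le) X.H2)
  have e : tH c.r (c.N - 2) =
      (1 - 2 * c.r ^ 7799 / (c.N * (c.N - 2 + c.r ^ 7799))) * c.Pa := by
    rw [X.ePa, tH, tH]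
    generalize c.r ^ 7799 = Z at *
    generalize c.r ^ 4790 = Y
    have : 0 < c.N - 2 + Z := by linarith
    have : 0 < c.N + Z := by linarith
    field_simp
    ring
  have e0 : 0 < tH c.r (c.N - 2) := by unfold tH; positivity
  refine le_trans (le_of_eq ?_) hf
  rw [← S_mul, ← S_mul, ← S_add, ← S_add, ← S_mul]
  refine c.S_congr fun h g _ => ?_
  rw [pH, pH, ← X.ePa]
  rw [e] at e0 ⊢
  generalize 1 - 2 * c.r ^ 7799 / (c.N * (c.N - 2 + c.r ^ 7799)) = ρ at *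
  have : ρ ≠ 0 := by rintro rfl; simp at e0
  rcases c.hs with h | h <;> rw [h] <;> field_simp <;> ring

end Ctx
end Vale.Agent.P049
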