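import Vale.Agent.P049.TrB

/-! P049: exact identities for the mixed functional. -/

namespace Vale.Agent.P049
open Matrix Finset
variable {ι : Type} [Fintype ι] [DecidableEq ι] {F : Type} [Field F]

theorem mM_eq {A B : Matrix ι ι F} (hA : ∀ i j, A i j = A j i) (hB : ∀ i j, B i j = B j i)
    {h g : ι} (hne : h ≠ g) (hlA : lam A h g ≠ 0) (hlB : lam B h g ≠ 0) :
    mM A B h g = A * B + n14 A B h g + n56 A B h g + nS A B h g := by
  ext k j
  have e : mM A B h g k j = ∑ l, full A h g k l * full B h g j l
      - vb A h g k * vb B h g j - va A h g k * va B h g j := by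
    rw [mM, sum_del_ta hne, full_symm A h g k h hA, full_symm A h g k g hA, full_h hA hlA,
      full_g hA hlA, full_h hB hlB, full_g hB hlB]
    simp only [full_symm B h g _ j hB]
  have e2 : ∑ l, full A h g k l * full B h g j l = (A * B) k j
      + B j h * (A *ᵥ va B h g) k + B j g * (A *ᵥ vb B h g) k
      + A k h * (B *ᵥ va A h g) j + A k g * (B *ᵥ vb A h g) j
      + A k h * B j h * (va A h g ⬝ᵥ va B h g) + A k h * B j g * (va A h g ⬝ᵥ vb B h g)
      + A k g * B j h * (vb A h g ⬝ᵥ va B h g) + A k g * B j g * (vb A h g ⬝ᵥ vb B h g) := by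
    simp only [mul_apply, mulVec, dotProduct, mul_sum, ← sum_add_distrib]
    exact sum_congr rfl fun l _ => by unfold full; rw [hB l j]; ring
  have ea : ∀ X K : Matrix ι ι F, ∀ i, (X *ᵥ va K h g) i =
      ap K h g * (X *ᵥ col K h) i + be K h g * (X *ᵥ col K g) i := fun X K i => by
    simp only [mulVec, dotProduct, mul_sum, ← sum_add_distrib]
    exact sum_congr rfl fun l _ => by unfold va col; ring
  have eb : ∀ X K : Matrix ι ι F, ∀ i, (X *ᵥ vb K h g) i =
      al K h g * (X *ᵥ col K g) i + be K h g * (X *ᵥ col K h) i := fun X K i => by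
    simp only [mulVec, dotProduct, mul_sum, ← sum_add_distrib]
    exact sum_congr rfl fun l _ => by unfold vb col; ring
  have ec : ∀ (K : Matrix ι ι F) i l, col K i l = K l i := fun _ _ _ => rfl
  rw [e, e2, ea, ea, eb, eb]
  simp only [n14, n56, nS, Matrix.add_apply, Matrix.sub_apply, Matrix.smul_apply, vecMulVec_apply,
    smul_eq_mul, ec]
  ring

theorem mM_comm {A B : Matrix ι ι F} (hA : ∀ i j, A i j = A j i) (hB : ∀ i j, B i j = B j i)
    (h g : ι) : mM A B g h = mM A B h g := by
  funext k j
  unfold mM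
  rw [full_comm hA h g, full_comm hB h g]
  exact sum_congr rfl fun l _ => if_congr or_comm rfl rfl

theorem mM_swap {A B : Matrix ι ι F} (hA : ∀ i j, A i j = A j i) (hB : ∀ i j, B i j = B j i)
    (h g k j : ι) : mM B A h g k j = mM A B h g j k := by
  refine sum_congr rfl fun l _ => ?_
  rw [full_symm B h g k l hB, full_symm A h g l j hA, mul_comm]

theorem fC_step (A B : Matrix ι ι F) {h g : ι} (hne : h ≠ g) :
    fC (step A h g) (step B h g) = fE (mM A B h g) - rS (mM A B h g) h - rS (mM A B h g) g
      - (∑ k, mM A B h g k h ^ 2) - (∑ k, mM A B h g k g ^ 2)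
      + (mM A B h g h h ^ 2 + mM A B h g h g ^ 2 + mM A B h g g h ^ 2 + mM A B h g g g ^ 2) := by
  have e : ∀ k j, (step A h g * step B h g) k j ^ 2 = if k = h ∨ k = g then 0 else
      if j = h ∨ j = g then 0 else mM A B h g k j ^ 2 := fun k j => by
    rw [mul_apply]
    split_ifs with h1 h2
    · rw [sum_eq_zero fun l _ => by rw [step, if_pos (by tauto), zero_mul]]; simp
    · rw [sum_eq_zero fun l _ => by rw [step, step, if_pos (c := l = h ∨ _) (by tauto), mul_zero]]
      simp
    · congr 1
      refine sum_congr rfl fun l _ => ?_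
      unfold step
      by_cases h3 : l = h ∨ l = g
      · rw [if_pos (by tauto), if_pos h3, zero_mul]
      · rw [if_neg (by tauto), if_neg (by tauto), if_neg h3]
  have e2 : ∀ k, rS (step A h g * step B h g) k = if k = h ∨ k = g then 0 else
      rS (mM A B h g) k - mM A B h g k h ^ 2 - mM A B h g k g ^ 2 := fun k => by
    simp only [rS, e]
    split_ifs
    · simp
    · exact sum_del_ta hne _
  simp only [fC, fE, e2]
  rw [sum_del_ta hne, sum_sub_distrib, sum_sub_distrib]
  ring

theorem fC_comm {A B : Matrix ι ι F} (hA : ∀ i j, A i j = A j i) (hB : ∀ i j, B i j = B j i) :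
    fC B A = fC A B := by
  unfold fC fE rS
  rw [sum_comm]
  refine sum_congr rfl fun k _ => sum_congr rfl fun j _ => ?_
  simp only [mul_apply, hA k, hB j, mul_comm]

end Vale.Agent.P049
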