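import Vale.Agent.P049.Defs

/-! P049: exact algebraic identities for one step, basic part. -/

namespace Vale.Agent.P049
open Matrix Finset
variable {ι : Type} [Fintype ι] [DecidableEq ι] {F : Type} [Field F]

theorem lam_comm {K : Matrix ι ι F} (hs : ∀ i j, K i j = K j i) (h g : ι) :
    lam K g h = lam K h g := by
  unfold lam
  rw [hs g h]
  ring

theorem va_comm_ta {K : Matrix ι ι F} (hs : ∀ i j, K i j = K j i) (h g : ι) :
    va K g h = vb K h g := by
  funext k
  unfold va vb ap al be
  rw [lam_comm hs h g, hs g h]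

theorem vb_comm_ta {K : Matrix ι ι F} (hs : ∀ i j, K i j = K j i) (h g : ι) :
    vb K g h = va K h g := (va_comm_ta hs g h).symm

theorem sum_del_ta {h g : ι} (hne : h ≠ g) (f : ι → F) :
    ∑ j, (if j = h ∨ j = g then 0 else f j) = ∑ j, f j - f h - f g := by
  have : ∀ j, (if j = h ∨ j = g then 0 else f j) =
      f j - (if j = h then f j else 0) - if j = g then f j else 0 := fun j => by
    by_cases h1 : j = h
    · subst h1; simp [hne]
    · by_cases h2 : j = g
      · subst h2; simp [h1]
      · simp [h1, h2]
  simp only [this, sum_sub_distrib, sum_ite_eq', mem_univ, if_true]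

theorem full_comm {K : Matrix ι ι F} (hs : ∀ i j, K i j = K j i) (h g : ι) :
    full K g h = full K h g := by
  funext k j
  unfold full
  rw [va_comm_ta hs h g, vb_comm_ta hs h g]
  ring

theorem step_comm {K : Matrix ι ι F} (hs : ∀ i j, K i j = K j i) (h g : ι) :
    step K g h = step K h g := by
  funext k j
  unfold step
  rw [full_comm hs h g]
  exact if_congr (by tauto) rfl rfl

theorem full_symm (K : Matrix ι ι F) (h g k j : ι) (hs : ∀ i j, K i j = K j i) :
    full K h g k j = full K h g j k := by
  unfold full va vb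
  rw [hs k j]
  ring

theorem full_h {K : Matrix ι ι F} (hs : ∀ i j, K i j = K j i) {h g : ι} (hl : lam K h g ≠ 0)
    (j : ι) : full K h g h j = vb K h g j := by
  unfold full va vb ap al be
  rw [hs h j]
  field_simp
  unfold lam
  ring

theorem full_g {K : Matrix ι ι F} (hs : ∀ i j, K i j = K j i) {h g : ι} (hl : lam K h g ≠ 0)
    (j : ι) : full K h g g j = va K h g j := by
  rw [← full_comm hs h g, full_h hs (by rwa [lam_comm hs h g]), vb_comm_ta hs h g]

theorem Ok.step {U : Finset ι} {K : Matrix ι ι F} (hK : Ok U K) {h g : ι} (hh : h ∈ U)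
    (hg : g ∈ U) (hne : h ≠ g) (hl : lam K h g ≠ 0) :
    Ok ((U.erase h).erase g) (step K h g) := by
  refine ⟨fun i j => ?_, fun i j hi => ?_, fun i hi => ?_⟩
  · unfold P049.step
    rw [full_symm K h g i j hK.symm]
    exact if_congr (by tauto) rfl rfl
  · unfold P049.step
    split_ifs with h1
    · rfl
    · have : i ∉ U := fun h2 => hi (by simp only [mem_erase]; tauto)
      simp [full, hK.supp i _ this]
  · simp only [mem_erase] at hi
    have e : ∀ j, P049.step K h g i j = if j = h ∨ j = g then 0 else full K h g i j := fun j =>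
      if_congr (by tauto) rfl rfl
    have c1 : ∑ j, K j h = 1 := by rw [← hK.row h hh]; exact sum_congr rfl fun j _ => hK.symm _ _
    have c2 : ∑ j, K j g = 1 := by rw [← hK.row g hg]; exact sum_congr rfl fun j _ => hK.symm _ _
    simp only [e]
    rw [sum_del_ta hne, full_symm K h g i h hK.symm, full_symm K h g i g hK.symm,
      full_h hK.symm hl, full_g hK.symm hl]
    simp only [full, va, vb, sum_add_distrib, ← mul_sum, c1, c2, hK.row i hi.2.2]
    ring

theorem dP_eq {K : Matrix ι ι F} (hs : ∀ i j, K i j = K j i) {h g : ι} (hne : h ≠ g)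
    (hl : lam K h g ≠ 0) :
    fP (step K h g) - fP K = io K h g * (K g g * (rS K h - 1) + K h h * (rS K g - 1))
      + 2 * be K h g * (K * K) h g := by
  have e : ∀ k, step K h g k k = if k = h ∨ k = g then 0 else full K h g k k := fun k =>
    if_congr (by tauto) rfl rfl
  have c1 : ∀ h, rS K h = ∑ k, K k h * K k h := fun h =>
    sum_congr rfl fun k _ => by rw [hs h k, sq]
  have c2 : (K * K) h g = ∑ k, K k h * K k g := by simp only [mul_apply, hs h]
  have c3 : ∑ k, full K h g k k = ∑ k, K k k + ap K h g * ∑ k, K k h * K k h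
      + al K h g * ∑ k, K k g * K k g + 2 * be K h g * ∑ k, K k h * K k g := by
    simp only [mul_sum, ← sum_add_distrib]
    exact sum_congr rfl fun k _ => by unfold full va vb; ring
  simp only [fP, e]
  rw [sum_del_ta hne, full_h hs hl, full_g hs hl, c3, c1, c1, c2]
  unfold va vb ap al be io
  rw [hs g h]
  field_simp
  ring

theorem dS_eq {K : Matrix ι ι F} (hs : ∀ i j, K i j = K j i) (h g k : ι) :
    rS K k + dS K h g k = rS (full K h g) k - va K h g k ^ 2 - vb K h g k ^ 2 := by
  have : rS (full K h g) k = rS K k +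
      (2 * (K k h * (K *ᵥ va K h g) k + K k g * (K *ᵥ vb K h g) k)
      + K k h ^ 2 * (va K h g ⬝ᵥ va K h g) + K k g ^ 2 * (vb K h g ⬝ᵥ vb K h g)
      + 2 * K k h * K k g * (va K h g ⬝ᵥ vb K h g)) := by
    simp only [rS, mulVec, dotProduct, mul_add, mul_sum, ← sum_add_distrib]
    exact sum_congr rfl fun j _ => by unfold full; ring
  rw [this, dS]
  ring

theorem rS_step {K : Matrix ι ι F} (hs : ∀ i j, K i j = K j i) {h g : ι} (hne : h ≠ g)
    (hl : lam K h g ≠ 0) (k : ι) :
    rS (step K h g) k = if k = h ∨ k = g then 0 else rS K k + dS K h g k := by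
  split_ifs with hk
  · exact sum_eq_zero fun j _ => by rw [step, if_pos (by tauto)]; simp
  · have e : ∀ j, step K h g k j ^ 2 = if j = h ∨ j = g then 0 else full K h g k j ^ 2 :=
      fun j => by
        unfold step
        by_cases hj : j = h ∨ j = g
        · rw [if_pos hj, if_pos (by tauto)]; simp
        · rw [if_neg hj, if_neg (by tauto)]
    rw [dS_eq hs, rS]
    simp only [e]
    rw [sum_del_ta hne, full_symm K h g k h hs, full_symm K h g k g hs, full_h hs hl, full_g hs hl,
      rS]
    ring

end Vale.Agent.P049
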