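import Vale.Agent.P049.TrA

/-! P049: exact identities for the traces of the square and the cube. -/

namespace Vale.Agent.P049
open Matrix Finset
variable {ι : Type} [Fintype ι] [DecidableEq ι] {F : Type} [Field F]

def n11 (K : Matrix ι ι F) (h g : ι) : F :=
  ap K h g * (rS K h - K h g) + be K h g * ((K * K) h g - K g g)
def n12 (K : Matrix ι ι F) (h g : ι) : F :=
  be K h g * (rS K h - K h g) + al K h g * ((K * K) h g - K g g)
def n21 (K : Matrix ι ι F) (h g : ι) : F :=
  ap K h g * ((K * K) h g - K h h) + be K h g * (rS K g - K h g)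
def n22 (K : Matrix ι ι F) (h g : ι) : F :=
  be K h g * ((K * K) h g - K h h) + al K h g * (rS K g - K h g)
def p11 (K : Matrix ι ι F) (h g : ι) : F :=
  ap K h g * ((K * K * K) h h - (K * K) h g) + be K h g * ((K * K * K) h g - rS K g)
def p12 (K : Matrix ι ι F) (h g : ι) : F :=
  be K h g * ((K * K * K) h h - (K * K) h g) + al K h g * ((K * K * K) h g - rS K g)
def p21 (K : Matrix ι ι F) (h g : ι) : F :=
  ap K h g * ((K * K * K) h g - rS K h) + be K h g * ((K * K * K) g g - (K * K) h g)
def p22 (K : Matrix ι ι F) (h g : ι) : F :=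
  be K h g * ((K * K * K) h g - rS K h) + al K h g * ((K * K * K) g g - (K * K) h g)
def t2 (K : Matrix ι ι F) (h g : ι) : F :=
  ap K h g * (rS (K * K) h - (K * K * K) h g) + al K h g * (rS (K * K) g - (K * K * K) h g)
    + be K h g * (2 * (K * K * K * K) h g - (K * K * K) h h - (K * K * K) g g)

namespace TrBX

def uU (K : Matrix ι ι F) (h g : ι) : Matrix ι (Fin 2) F :=
  K.submatrix id ![h, g] - (1 : Matrix ι ι F).submatrix id ![g, h]

def vV (K : Matrix ι ι F) (h g : ι) : Matrix (Fin 2) ι F :=
  !![ap K h g, be K h g; be K h g, al K h g] * K.submatrix ![h, g] id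

def dD (h g : ι) : Matrix ι ι F := diagonal fun k => if k = h ∨ k = g then 0 else 1

theorem fE_tr {K : Matrix ι ι F} (hs : ∀ i j, K i j = K j i) : fE K = trace (K * K) :=
  sum_congr rfl fun k _ => sum_congr rfl fun j _ => by rw [sq]; nth_rewrite 2 [hs k j]; rfl

theorem tr_sq (K : Matrix ι ι F) (U : Matrix ι (Fin 2) F) (V : Matrix (Fin 2) ι F) :
    trace ((K + U * V) * (K + U * V)) =
      trace (K * K) + 2 * trace (V * K * U) + trace (V * U * (V * U)) := by
  have e1 : trace (K * (U * V)) = trace (V * K * U) := by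
    rw [← Matrix.mul_assoc, trace_mul_comm, Matrix.mul_assoc]
  have e2 : trace (U * V * (U * V)) = trace (V * U * (V * U)) := by
    simp only [Matrix.mul_assoc]
    rw [trace_mul_comm]
    simp only [Matrix.mul_assoc]
  rw [add_mul, mul_add, mul_add, trace_add, trace_add, trace_add, trace_mul_comm (U * V) K, e1, e2]
  ring

theorem tr_cube (K : Matrix ι ι F) (U : Matrix ι (Fin 2) F) (V : Matrix (Fin 2) ι F) :
    trace ((K + U * V) * (K + U * V) * (K + U * V)) =
      trace (K * K * K) + 3 * trace (V * (K * K) * U) + 3 * trace (V * K * U * (V * U))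
        + trace (V * U * (V * U) * (V * U)) := by
  have e1 : trace (K * K * (U * V)) = trace (V * (K * K) * U) := by
    rw [← Matrix.mul_assoc, trace_mul_comm]
    simp only [Matrix.mul_assoc]
  have e2 : trace (K * (U * V) * (U * V)) = trace (V * K * U * (V * U)) := by
    rw [← Matrix.mul_assoc, trace_mul_comm]
    simp only [Matrix.mul_assoc]
  have e3 : trace (U * V * (U * V) * (U * V)) =
      trace (V * U * (V * U) * (V * U)) := by
    rw [← Matrix.mul_assoc, trace_mul_comm]
    simp only [Matrix.mul_assoc]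
  rw [← e1, ← e2, ← e3]
  generalize U * V = W
  simp only [add_mul, mul_add, trace_add]
  rw [trace_mul_cycle W K K, trace_mul_cycle K W K, trace_mul_cycle W K W, trace_mul_cycle W W K]
  ring

theorem key (K X : Matrix ι ι F) (h g : ι) : vV K h g * X * uU K h g =
    !![ap K h g * ((K * X * K) h h - (K * X) h g) + be K h g * ((K * X * K) g h - (K * X) g g),
      ap K h g * ((K * X * K) h g - (K * X) h h) + be K h g * ((K * X * K) g g - (K * X) g h);
      be K h g * ((K * X * K) h h - (K * X) h g) + al K h g * ((K * X * K) g h - (K * X) g g),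
      be K h g * ((K * X * K) h g - (K * X) h h) + al K h g * ((K * X * K) g g - (K * X) g h)] := by
  have e : ∀ Y : Matrix ι ι F, ∀ b : Fin 2 → ι, K.submatrix ![h, g] id * X * Y.submatrix id b =
      (K * X * Y).submatrix ![h, g] b := fun Y b => rfl
  rw [vV, uU, Matrix.mul_assoc, Matrix.mul_assoc, ← Matrix.mul_assoc (K.submatrix _ _),
    Matrix.mul_sub, e, e, Matrix.mul_one]
  generalize K * X * K = Y
  generalize K * X = Z
  ext i j
  rw [mul_apply, Fin.sum_univ_two, Matrix.sub_apply, Matrix.sub_apply]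
  fin_cases i <;> fin_cases j <;> rfl

variable {K : Matrix ι ι F} (hs : ∀ i j, K i j = K j i) {h g : ι}
include hs

theorem sym2 (i j : ι) : (K * K) i j = (K * K) j i := by
  simp only [mul_apply, hs i, hs j, mul_comm]

theorem tr_eq : Kᵀ = K := by ext i j; exact hs j i

theorem sym3 (i j : ι) : (K * K * K) i j = (K * K * K) j i := by
  rw [← transpose_apply (K * K * K), transpose_mul, transpose_mul, tr_eq hs, mul_assoc]

theorem sym4 (i j : ι) : (K * K * K * K) i j = (K * K * K * K) j i := by
  rw [← transpose_apply (K * K * K * K), transpose_mul, transpose_mul, transpose_mul, tr_eq hs]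
  simp only [mul_assoc]

theorem dg2 (i : ι) : (K * K) i i = rS K i := by
  simp only [mul_apply, rS, sq, hs i]

theorem nn_eq : vV K h g * uU K h g = !![n11 K h g, n21 K h g; n12 K h g, n22 K h g] := by
  rw [← Matrix.mul_one (vV K h g), key, mul_one, sym2 hs g h, hs g h, dg2 hs, dg2 hs]
  rfl

theorem pp_eq : vV K h g * K * uU K h g = !![p11 K h g, p21 K h g; p12 K h g, p22 K h g] := by
  rw [key, sym3 hs g h, sym2 hs g h, dg2 hs, dg2 hs]
  rfl

theorem tt_eq : trace (vV K h g * (K * K) * uU K h g) = t2 K h g := by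
  rw [key, t2, ← dg2 (sym2 hs), ← dg2 (sym2 hs), ← mul_assoc, ← mul_assoc, trace_fin_two_of,
    sym4 hs g h, sym3 hs g h]
  ring

theorem X_apply (hne : h ≠ g) (hl : lam K h g ≠ 0) (k j : ι) :
    (K + uU K h g * vV K h g) k j = if k = h ∨ k = g then 0 else full K h g k j := by
  have e : (K + uU K h g * vV K h g) k j = full K h g k j
      - (if k = g then va K h g j else 0) - if k = h then vb K h g j else 0 := by
    have u0 : uU K h g k 0 = K k h - if k = g then 1 else 0 := rfl
    have u1 : uU K h g k 1 = K k g - if k = h then 1 else 0 := rfl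
    have v0 : vV K h g 0 j = va K h g j := by
      rw [vV, mul_apply, Fin.sum_univ_two, va, hs j, hs j]; rfl
    have v1 : vV K h g 1 j = vb K h g j := by
      rw [vV, mul_apply, Fin.sum_univ_two, vb, hs j, hs j, add_comm]; rfl
    rw [Matrix.add_apply, mul_apply, Fin.sum_univ_two, u0, u1, v0, v1, full]
    by_cases h1 : k = g <;> by_cases h2 : k = h
    · exact absurd (h2.symm.trans h1) hne
    · simp only [if_pos h1, if_neg h2]; ring
    · simp only [if_neg h1, if_pos h2]; ring
    · simp only [if_neg h1, if_neg h2]; ring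
  rw [e]
  by_cases h1 : k = h
  · subst h1; simp [hne, full_h hs hl]
  · by_cases h2 : k = g
    · subst h2; simp [h1, full_g hs hl]
    · simp [h1, h2]

theorem step_eq (hne : h ≠ g) (hl : lam K h g ≠ 0) :
    step K h g = (K + uU K h g * vV K h g) * dD h g := by
  ext k j
  rw [dD, mul_diagonal, X_apply hs hne hl, step]
  by_cases h1 : k = h ∨ k = g <;> by_cases h2 : j = h ∨ j = g
  · rw [if_pos (by tauto), if_pos h1, zero_mul]
  · rw [if_pos (by tauto), if_pos h1, zero_mul]
  · rw [if_pos (by tauto), if_pos h2, mul_zero]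
  · rw [if_neg (by tauto), if_neg h1, if_neg h2, mul_one]

theorem dD_mul (hne : h ≠ g) (hl : lam K h g ≠ 0) :
    dD h g * (K + uU K h g * vV K h g) = K + uU K h g * vV K h g := by
  ext k j
  rw [dD, diagonal_mul, X_apply hs hne hl]
  split_ifs <;> simp

end TrBX

open TrBX

theorem dE_eq {K : Matrix ι ι F} (hs : ∀ i j, K i j = K j i) {h g : ι} (hne : h ≠ g)
    (hl : lam K h g ≠ 0) :
    fE (step K h g) - fE K = 2 * (p11 K h g + p22 K h g) + n11 K h g ^ 2 + n22 K h g ^ 2
      + 2 * n12 K h g * n21 K h g := by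
  have s1 : ∀ i j, step K h g i j = step K h g j i := fun i j => by
    unfold step
    rw [full_symm K h g i j hs]
    exact if_congr (by tauto) rfl rfl
  rw [fE_tr s1, fE_tr hs, step_eq hs hne hl, mul_assoc, ← mul_assoc (dD h g), dD_mul hs hne hl,
    ← mul_assoc, trace_mul_comm, ← mul_assoc, dD_mul hs hne hl, tr_sq, nn_eq hs, pp_eq hs,
    trace_fin_two, trace_fin_two]
  simp [mul_apply, Fin.sum_univ_two]
  ring

theorem dT_eq {K : Matrix ι ι F} (hs : ∀ i j, K i j = K j i) {h g : ι} (hne : h ≠ g)
    (hl : lam K h g ≠ 0) :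
    fT (step K h g) - fT K = 3 * t2 K h g
      + 3 * (n11 K h g * p11 K h g + n12 K h g * p21 K h g + n21 K h g * p12 K h g
        + n22 K h g * p22 K h g)
      + n11 K h g ^ 3 + n22 K h g ^ 3 + 3 * n12 K h g * n21 K h g * (n11 K h g + n22 K h g) := by
  have e : trace (step K h g * step K h g * step K h g) =
      trace ((K + uU K h g * vV K h g) * (K + uU K h g * vV K h g) * (K + uU K h g * vV K h g)) := by
    have d := dD_mul hs hne hl
    rw [step_eq hs hne hl]
    generalize K + uU K h g * vV K h g = X at d ⊢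
    rw [← mul_assoc, trace_mul_comm]
    simp only [← mul_assoc, d]
    rw [mul_assoc X (dD h g) X, d, mul_assoc (X * X) (dD h g) X, d]
  rw [fT, fT, e, tr_cube, nn_eq hs, pp_eq hs, tt_eq hs, trace_fin_two, trace_fin_two]
  simp [mul_apply, Fin.sum_univ_two]
  ring

end Vale.Agent.P049
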